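import Crest.Agent.R197.Defs

/-! Row 197: basic lemmas on right-angled Artin groups and heaps. -/

set_option autoImplicit false

open scoped Classical

namespace Crest.Agent.R197

section
variable {V : Type} {Γ : SimpleGraph V}

theorem blk.symm {a b : V} (h : blk Γ a b) : blk Γ b a := ⟨h.1.symm, fun h' => h.2 h'.symm⟩

theorem blk_comm {a b : V} : blk Γ a b ↔ blk Γ b a := ⟨blk.symm, blk.symm⟩

theorem not_blk_self (a : V) : ¬ blk Γ a a := fun h => h.1 rfl

theorem not_blk_of_adj {a b : V} (h : Γ.Adj a b) : ¬ blk Γ a b := fun h' => h'.2 h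

theorem not_blk_iff {a b : V} : ¬ blk Γ a b ↔ a = b ∨ Γ.Adj a b := by
  unfold blk; tauto

theorem gen_comm {a b : V} (h : Γ.Adj a b) : Commute (gen Γ a) (gen Γ b) := by
  have : (PresentedGroup.mk _ (FreeGroup.of a * FreeGroup.of b * (FreeGroup.of a)⁻¹ *
      (FreeGroup.of b)⁻¹) : RA Γ) = 1 := PresentedGroup.one_of_mem ⟨a, b, h, rfl⟩
  rw [map_mul, map_mul, map_mul, map_inv, map_inv] at this
  change gen Γ a * gen Γ b * (gen Γ a)⁻¹ * (gen Γ b)⁻¹ = 1 at this
  rw [mul_inv_eq_one, mul_inv_eq_iff_eq_mul] at this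
  exact this

theorem gen_comm' {a b : V} (h : ¬ blk Γ a b) : Commute (gen Γ a) (gen Γ b) := by
  rcases not_blk_iff.1 h with rfl | h
  · exact Commute.refl _
  · exact gen_comm h

@[simp] theorem ht_gen (a : V) : ht Γ (gen Γ a) = Multiplicative.ofAdd 1 := by
  simp [ht, gen]

/-- homomorphisms out of the right-angled Artin group -/
def RA.lift {H : Type*} [Group H] (f : V → H) (hf : ∀ a b, Γ.Adj a b → Commute (f a) (f b)) :
    RA Γ →* H :=
  PresentedGroup.toGroup (f := f) (by
    rintro _ ⟨a, b, hab, rfl⟩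
    simp only [map_mul, map_inv, FreeGroup.lift_apply_of]
    rw [(hf a b hab).eq]
    group)

@[simp] theorem RA.lift_gen {H : Type*} [Group H] (f : V → H)
    (hf : ∀ a b, Γ.Adj a b → Commute (f a) (f b)) (a : V) : RA.lift f hf (gen Γ a) = f a := by
  simp [RA.lift, gen]

theorem closure_gen : Subgroup.closure (Set.range (gen Γ)) = ⊤ :=
  PresentedGroup.closure_range_of _

/-- induction by right multiplication with generators -/
theorem RA.induction_right {P : RA Γ → Prop} (h1 : P 1) (hm : ∀ g a, P g → P (g * gen Γ a))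
    (hi : ∀ g a, P g → P (g * (gen Γ a)⁻¹)) (g : RA Γ) : P g := by
  have hg : g ∈ Subgroup.closure (Set.range (gen Γ)) := by rw [closure_gen]; trivial
  induction hg using Subgroup.closure_induction_right with
  | one => exact h1
  | mul_right x _ y hy ih => obtain ⟨a, rfl⟩ := hy; exact hm x a ih
  | mul_inv_cancel x _ y hy ih => obtain ⟨a, rfl⟩ := hy; exact hi x a ih

theorem lift_gen_surjective : Function.Surjective (FreeGroup.lift (gen Γ)) := by
  rw [← MonoidHom.range_eq_top, FreeGroup.range_lift_eq_closure, closure_gen]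

section top
variable {C : Type} [Zero C] {h h' : V → ℕ → C} {a : V}

/-- finiteness of the height of a heap -/
def Bdd (h : V → ℕ → C) : Prop := ∃ N, ∀ a i, N ≤ i → h a i = 0

theorem top_le {n : ℕ} (hn : ∀ b j, blk Γ a b → n ≤ j → h b j = 0) : top Γ a h ≤ n :=
  Nat.sInf_le hn

theorem top_spec (hb : Bdd h) {b : V} {j : ℕ} (hab : blk Γ a b) (hj : top Γ a h ≤ j) :
    h b j = 0 := by
  obtain ⟨N, hN⟩ := hb
  have : top Γ a h ∈ {n | ∀ b j, blk Γ a b → n ≤ j → h b j = 0} :=
    Nat.sInf_mem ⟨N, fun b j _ hj => hN b j hj⟩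
  exact this b j hab hj

theorem lt_top (hb : Bdd h) {b : V} {j : ℕ} (hab : blk Γ a b) (hj : h b j ≠ 0) :
    j < top Γ a h := by
  by_contra hc
  exact hj (top_spec hb hab (not_lt.1 hc))

theorem top_le_iff (hb : Bdd h) {n : ℕ} :
    top Γ a h ≤ n ↔ ∀ b j, blk Γ a b → n ≤ j → h b j = 0 :=
  ⟨fun hn _ _ hab hj => top_spec hb hab (hn.trans hj), top_le⟩

theorem exists_of_top_eq_succ (hb : Bdd h) {i : ℕ} (hi : top Γ a h = i + 1) :
    ∃ b, blk Γ a b ∧ h b i ≠ 0 := by
  by_contra hc
  push Not at hc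
  have : top Γ a h ≤ i := top_le fun b j hab hj => by
    rcases hj.eq_or_lt with rfl | hj
    · exact hc b hab
    · exact top_spec hb hab (by omega)
  omega

theorem top_eq_zero (hz : ∀ b j, blk Γ a b → h b j = 0) : top Γ a h = 0 :=
  Nat.le_zero.1 (top_le fun b j hab _ => hz b j hab)

theorem top_eq_succ {i : ℕ} (hb : Bdd h) (h1 : ∀ b j, blk Γ a b → i + 1 ≤ j → h b j = 0)
    {b : V} (hab : blk Γ a b) (h2 : h b i ≠ 0) : top Γ a h = i + 1 :=
  le_antisymm (top_le h1) (lt_top hb hab h2)

/-- the top only depends on the zero pattern of the blockers -/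
theorem top_congr {C' : Type} [Zero C'] {k : V → ℕ → C'}
    (hk : ∀ b j, blk Γ a b → (h b j = 0 ↔ k b j = 0)) : top Γ a h = top Γ a k := by
  unfold top
  congr 1
  ext n
  exact ⟨fun H b j hab hj => (hk b j hab).1 (H b j hab hj),
    fun H b j hab hj => (hk b j hab).2 (H b j hab hj)⟩

theorem Valid.bdd (hv : Valid Γ h) : Bdd h := hv.fin

/-- nothing of the letter `a` lies above its top -/
theorem Valid.above_top (hv : Valid Γ h) {i : ℕ} (hi : top Γ a h < i) : h a i = 0 := by
  by_contra hc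
  obtain ⟨i, rfl⟩ : ∃ k, i = k + 1 := ⟨i - 1, by omega⟩
  obtain ⟨b, hab, hb⟩ := hv.sup a i hc
  exact hb (top_spec hv.bdd hab (by omega))

/-- an entry without blockers above it is the top entry -/
theorem Valid.top_eq (hv : Valid Γ h) {i : ℕ} (hi : h a i ≠ 0)
    (h1 : ∀ b j, blk Γ a b → i < j → h b j = 0) : top Γ a h = i := by
  refine le_antisymm (top_le fun b j hab hj => ?_) ?_
  · rcases hj.eq_or_lt with rfl | hj
    · exact hv.clq a b i hab hi
    · exact h1 b j hab hj
  · by_contra hc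
    exact hi (hv.above_top (not_le.1 hc))

/-- the letters with a non-zero top entry form a clique -/
theorem Valid.not_blk_of_top (hv : Valid Γ h) {b : V} (ha : h a (top Γ a h) ≠ 0)
    (hb : h b (top Γ b h) ≠ 0) : ¬ blk Γ a b := fun hab => by
  have h1 := lt_top hv.bdd hab hb
  have h2 := lt_top hv.bdd hab.symm ha
  omega

theorem valid_zero : Valid Γ (0 : V → ℕ → C) :=
  ⟨⟨0, fun _ _ _ => rfl⟩, fun _ _ _ _ _ => rfl, fun _ _ h => (h rfl).elim⟩

end top

section bump
variable {C : Type} [AddMonoid C] {h : V → ℕ → C} {a b : V} {i j : ℕ} {c d : C}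

omit Γ in
theorem bump_self : bump h a i c a i = h a i + c := by simp [bump]

omit Γ in
theorem bump_of_ne (hne : ¬ (b = a ∧ j = i)) : bump h a i c b j = h b j := by simp [bump, hne]

omit Γ in
theorem bump_of_ne_left (hne : b ≠ a) : bump h a i c b j = h b j :=
  bump_of_ne fun h => hne h.1

omit Γ in
theorem bump_of_ne_right (hne : j ≠ i) : bump h a i c b j = h b j :=
  bump_of_ne fun h => hne h.2

omit Γ in
@[simp] theorem bump_zero : bump h a i 0 = h := by
  funext b j; simp [bump]

omit Γ in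
theorem bump_bump : bump (bump h a i c) a i d = bump h a i (c + d) := by
  funext b j
  by_cases hb : b = a ∧ j = i <;> simp [bump, hb, add_assoc]

omit Γ in
theorem bump_comm (hne : ¬ (a = b ∧ i = j)) :
    bump (bump h a i c) b j d = bump (bump h b j d) a i c := by
  funext e k
  by_cases h1 : e = a ∧ k = i <;> by_cases h2 : e = b ∧ k = j
  · exact (hne ⟨h1.1.symm.trans h2.1, h1.2.symm.trans h2.2⟩).elim
  · rw [bump_of_ne h2]; simp only [bump, h1, and_self, if_true, if_neg hne, add_zero]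
  · rw [bump_of_ne (h := bump h b j d) h1]
    simp only [bump, if_neg h1, add_zero]
  · rw [bump_of_ne h2, bump_of_ne h1, bump_of_ne h1, bump_of_ne h2]

theorem top_bump (hab : ¬ blk Γ a b) : top Γ a (bump h b j d) = top Γ a h :=
  top_congr fun e k he => by
    rw [bump_of_ne_left]
    rintro rfl
    exact hab he

theorem top_bump_self : top Γ a (bump h a j d) = top Γ a h := top_bump (not_blk_self a)

omit Γ in
theorem Bdd.bump (hb : Bdd h) : Bdd (bump h a i c) := by
  obtain ⟨N, hN⟩ := hb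
  refine ⟨max N (i + 1), fun b j hj => ?_⟩
  rw [bump_of_ne_right (by omega), hN b j (by omega)]

theorem Valid.bump_top (hv : Valid Γ h) : Valid Γ (bump h a (top Γ a h) c) := by
  refine ⟨hv.bdd.bump, fun e f k hef hk => ?_, fun e k hk => ?_⟩
  · by_cases h1 : e = a ∧ k = top Γ a h
    · obtain ⟨rfl, rfl⟩ := h1
      rw [bump_of_ne_left hef.1.symm]
      exact top_spec hv.bdd hef le_rfl
    · rw [bump_of_ne h1] at hk
      by_cases h2 : f = a ∧ k = top Γ a h
      · obtain ⟨rfl, rfl⟩ := h2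
        exact (hk (top_spec hv.bdd hef.symm le_rfl)).elim
      · rw [bump_of_ne h2]
        exact hv.clq e f k hef hk
  · by_cases h1 : e = a ∧ k + 1 = top Γ a h
    · obtain ⟨rfl, h1⟩ := h1
      obtain ⟨b, hb, hb'⟩ := exists_of_top_eq_succ hv.bdd h1.symm
      exact ⟨b, hb, by rwa [bump_of_ne_left hb.1.symm]⟩
    · rw [bump_of_ne h1] at hk
      obtain ⟨b, hb, hb'⟩ := hv.sup e k hk
      refine ⟨b, hb, ?_⟩
      rw [bump_of_ne]
      · exact hb'
      · rintro ⟨rfl, rfl⟩
        exact hk (top_spec hv.bdd hb.symm (by omega))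

end bump

section
variable {heap : RA Γ → V → ℕ → ℤ}

theorem IsHeap.mul_gen (H : IsHeap Γ heap) (g : RA Γ) (a : V) :
    heap (g * gen Γ a) = bump (heap g) a (top Γ a (heap g)) 1 := by
  simpa using H.mul g a 1

theorem IsHeap.mul_gen_inv (H : IsHeap Γ heap) (g : RA Γ) (a : V) :
    heap (g * (gen Γ a)⁻¹) = bump (heap g) a (top Γ a (heap g)) (-1) := by
  simpa using H.mul g a (-1)

theorem IsHeap.top_mul (H : IsHeap Γ heap) (g : RA Γ) {a b : V} (hab : ¬ blk Γ a b) (c : ℤ) :
    top Γ a (heap (g * gen Γ b ^ c)) = top Γ a (heap g) := by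
  rw [H.mul, top_bump hab]

omit Γ in
theorem Bdd.finite_support [Finite V] {C : Type} [Zero C] {h : V → ℕ → C} (hb : Bdd h) :
    {p : V × ℕ | h p.1 p.2 ≠ 0}.Finite := by
  obtain ⟨N, hN⟩ := hb
  refine ((Set.finite_univ (α := V)).prod (Set.finite_lt_nat N)).subset fun p hp => ⟨trivial, ?_⟩
  by_contra hc
  exact hp (hN _ _ (not_lt.1 hc))

omit Γ in
/-- how a sum over all entries changes under a bump -/
theorem finsum_bump [Finite V] {M : Type} [AddCommMonoid M] {h : V → ℕ → ℤ} (hb : Bdd h)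
    (f : V → ℕ → ℤ → M) (hf : ∀ a i, f a i 0 = 0) (a : V) (i : ℕ) (c : ℤ) :
    (∑ᶠ p : V × ℕ, f p.1 p.2 (bump h a i c p.1 p.2)) + f a i (h a i) =
      (∑ᶠ p : V × ℕ, f p.1 p.2 (h p.1 p.2)) + f a i (h a i + c) := by
  set s : Finset (V × ℕ) := insert (a, i) hb.finite_support.toFinset
  have hs : ∀ p, p ∉ s → p ≠ (a, i) ∧ h p.1 p.2 = 0 := fun p hp => by
    simpa [s, not_or] using hp
  have hne : ∀ p : V × ℕ, p ≠ (a, i) → bump h a i c p.1 p.2 = h p.1 p.2 := fun p hp =>
    bump_of_ne fun h => hp (Prod.ext h.1 h.2)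
  rw [finsum_eq_sum_of_support_subset (s := s), finsum_eq_sum_of_support_subset (s := s),
    ← Finset.add_sum_erase s _ (Finset.mem_insert_self (a, i) _),
    ← Finset.add_sum_erase s _ (Finset.mem_insert_self (a, i) _)]
  · rw [Finset.sum_congr rfl fun p hp => by rw [hne p (Finset.ne_of_mem_erase hp)]]
    simp only [bump_self]
    abel
  · intro p hp
    by_contra hc
    exact hp (by simp only [(hs p hc).2, hf])
  · intro p hp
    by_contra hc
    exact hp (by simp only [hne p (hs p hc).1, (hs p hc).2, hf])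

/-- the number of letters of a heap -/
noncomputable def mass (h : V → ℕ → ℤ) : ℕ := ∑ᶠ p : V × ℕ, (h p.1 p.2).natAbs

omit Γ in
theorem mass_bump [Finite V] {h : V → ℕ → ℤ} (hb : Bdd h) (a : V) (i : ℕ) (c : ℤ) :
    mass (bump h a i c) + (h a i).natAbs = mass h + (h a i + c).natAbs :=
  finsum_bump hb (fun _ _ z => z.natAbs) (fun _ _ => rfl) a i c

omit Γ in
@[simp] theorem mass_zero : mass (0 : V → ℕ → ℤ) = 0 := by simp [mass]

omit Γ in
theorem natAbs_le_mass [Finite V] {h : V → ℕ → ℤ} (hb : Bdd h) (a : V) (i : ℕ) :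
    (h a i).natAbs ≤ mass h := by
  have := mass_bump hb a i (-h a i)
  simp only [add_neg_cancel, Int.natAbs_zero, add_zero] at this
  omega

omit Γ in
theorem eq_zero_of_mass [Finite V] {h : V → ℕ → ℤ} (hb : Bdd h) (h0 : mass h = 0) : h = 0 := by
  funext a i
  have := natAbs_le_mass hb a i
  simpa [h0] using this

theorem IsHeap.mass_mul_le [Finite V] (H : IsHeap Γ heap) (g : RA Γ) (a : V) (c : ℤ) :
    mass (heap (g * gen Γ a ^ c)) ≤ mass (heap g) + c.natAbs := by
  have := mass_bump (H.valid g).bdd a (top Γ a (heap g)) c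
  rw [H.mul]
  omega

theorem IsHeap.mass_mul_gen_le [Finite V] (H : IsHeap Γ heap) (g : RA Γ) (a : V) :
    mass (heap (g * gen Γ a)) ≤ mass (heap g) + 1 := by
  simpa using H.mass_mul_le g a 1

theorem IsHeap.mass_mul_gen_inv_le [Finite V] (H : IsHeap Γ heap) (g : RA Γ) (a : V) :
    mass (heap (g * (gen Γ a)⁻¹)) ≤ mass (heap g) + 1 := by
  simpa using H.mass_mul_le g a (-1)

/-- the height is the sum of the entries -/
theorem IsHeap.ht_eq [Finite V] (H : IsHeap Γ heap) (g : RA Γ) :
    Multiplicative.toAdd (ht Γ g) = ∑ᶠ p : V × ℕ, heap g p.1 p.2 := by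
  have key : ∀ g a (c : ℤ), Multiplicative.toAdd (ht Γ g) = ∑ᶠ p : V × ℕ, heap g p.1 p.2 →
      Multiplicative.toAdd (ht Γ (g * gen Γ a ^ c)) =
        ∑ᶠ p : V × ℕ, heap (g * gen Γ a ^ c) p.1 p.2 := by
    intro g a c ih
    have := finsum_bump (H.valid g).bdd (fun _ _ z => z) (fun _ _ => rfl) a (top Γ a (heap g)) c
    rw [H.mul, map_mul, map_zpow, ht_gen, toAdd_mul, toAdd_zpow, toAdd_ofAdd, ih]
    simp only [smul_eq_mul, mul_one]
    linarith
  induction g using RA.induction_right with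
  | h1 => simp [H.one]
  | hm g a ih => simpa using key g a 1 ih
  | hi g a ih => simpa using key g a (-1) ih

theorem IsHeap.natAbs_ht_le [Finite V] (H : IsHeap Γ heap) (g : RA Γ) :
    (Multiplicative.toAdd (ht Γ g)).natAbs ≤ mass (heap g) := by
  have hb := (H.valid g).bdd
  rw [H.ht_eq, mass, finsum_eq_sum_of_support_subset (s := hb.finite_support.toFinset),
    finsum_eq_sum_of_support_subset (s := hb.finite_support.toFinset)]
  · exact Int.natAbs_sum_le _ _
  · intro p hp; simpa using hp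
  · intro p hp; simpa using hp

/-- a non-zero valid heap has a non-zero top entry -/
theorem Valid.exists_top_ne_zero {C : Type} [Zero C] {h : V → ℕ → C} (hv : Valid Γ h)
    (h0 : h ≠ 0) : ∃ a, h a (top Γ a h) ≠ 0 := by
  obtain ⟨N, hN⟩ := hv.fin
  induction N with
  | zero => exact (h0 (funext fun a => funext fun i => hN a i (Nat.zero_le i))).elim
  | succ N ih =>
    by_cases hc : ∃ a, h a N ≠ 0
    · obtain ⟨a, ha⟩ := hc
      exact ⟨a, by rwa [hv.top_eq ha fun b j _ hj => hN b j hj]⟩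
    · push Not at hc
      refine ih fun a i hi => ?_
      rcases hi.eq_or_lt with rfl | hi
      · exact hc a
      · exact hN a i hi

/-- a valid heap has height at most its mass -/
theorem Valid.lt_mass [Finite V] {h : V → ℕ → ℤ} (hv : Valid Γ h) {a : V} {i : ℕ}
    (hi : h a i ≠ 0) : i < mass h := by
  have key : ∀ (i : ℕ) (a : V), h a i ≠ 0 → ∀ j ≤ i, ∃ b, h b j ≠ 0 := by
    intro i
    induction i with
    | zero => intro a ha j hj; exact ⟨a, by rwa [Nat.le_zero.1 hj]⟩
    | succ i ih =>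
      intro a ha j hj
      rcases hj.eq_or_lt with rfl | hj
      · exact ⟨a, ha⟩
      · obtain ⟨b, -, hb⟩ := hv.sup a i ha
        exact ih b hb j (by omega)
  choose b hb using key i a hi
  have hfin := hv.bdd.finite_support
  rw [mass, finsum_eq_sum_of_support_subset (s := hfin.toFinset) _
    (by intro p hp; simpa using hp)]
  let f : Fin (i + 1) → V × ℕ := fun j => (b j (Nat.lt_succ_iff.1 j.2), j)
  have hf : Function.Injective f := fun j j' e => Fin.ext (congrArg Prod.snd e)
  calc i < ∑ j : Fin (i + 1), 1 := by simp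
    _ ≤ ∑ j : Fin (i + 1), (h (f j).1 (f j).2).natAbs :=
        Finset.sum_le_sum fun j _ => Int.natAbs_pos.2 (hb j _)
    _ = ∑ p ∈ Finset.univ.image f, (h p.1 p.2).natAbs := by
        rw [Finset.sum_image fun j _ j' _ e => hf e]
    _ ≤ _ := Finset.sum_le_sum_of_subset fun p hp => by
        obtain ⟨j, -, rfl⟩ := Finset.mem_image.1 hp
        simpa using hb j _

/-- balls are finite -/
theorem IsHeap.finite_ball [Finite V] (H : IsHeap Γ heap) (R : ℕ) :
    {g | mass (heap g) ≤ R}.Finite := by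
  let F : RA Γ → V × Fin R → ℤ := fun g p => heap g p.1 p.2
  refine Set.Finite.of_finite_image (f := F) ?_ ?_
  · refine (Set.Finite.pi' (t := fun _ => Set.Icc (-(R : ℤ)) R)
      fun _ => Set.finite_Icc _ _).subset ?_
    rintro _ ⟨g, hg, rfl⟩ p
    have := natAbs_le_mass (H.valid g).bdd p.1 p.2
    have hg : mass (heap g) ≤ R := hg
    simp only [F, Set.mem_Icc]
    omega
  · intro g hg g' hg' e
    have hg : mass (heap g) ≤ R := hg
    have hg' : mass (heap g') ≤ R := hg'
    refine H.inj (funext fun a => funext fun i => ?_)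
    by_cases hi : i < R
    · exact congrFun e (a, ⟨i, hi⟩)
    · have h1 : heap g a i = 0 := by
        by_contra hc; have := (H.valid g).lt_mass hc; omega
      have h2 : heap g' a i = 0 := by
        by_contra hc; have := (H.valid g').lt_mass hc; omega
      rw [h1, h2]

theorem IsHeap.eq_one (H : IsHeap Γ heap) {g : RA Γ} (hg : heap g = 0) : g = 1 :=
  H.inj (hg.trans H.one.symm)

end

end

end Crest.Agent.R197
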