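import Crest.Agent.R197.Basic
import Crest.Agent.R197.Heap0

/-!
# Row 197: the Bestvina–Brady Morse argument on chains
-/

set_option autoImplicit false
set_option linter.unusedSectionVars false

open unitInterval Topology Filter Finsupp
open scoped Quaternion Classical

namespace Crest.Agent.R197

namespace AcycA

/-! ### filtered complexes -/

section filt
variable {G S S' S'' : Type} [Group G] (h : G → ℤ)

/-- chains indexed by the vertex `g * p s` of the cell `(g, s)` -/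
noncomputable def cc (p : S → G) : (G × S →₀ ℤ) ≃ₗ[ℤ] (G →₀ S →₀ ℤ) :=
  (Finsupp.domLCongr (Equiv.prodCongrLeft fun s => Equiv.mulRight (p s))).trans
    (Finsupp.curryLinearEquiv ℤ)

lemma cc_single (p : S → G) (g : G) (s : S) (n : ℤ) :
    cc p (single (g, s) n) = single (g * p s) (single s n) := by
  rw [cc, LinearEquiv.trans_apply, Finsupp.domLCongr_single]
  exact Finsupp.curry_single _ _

lemma cc_apply (p : S → G) (y : G × S →₀ ℤ) (v : G) (s : S) :
    cc p y v s = y (v * (p s)⁻¹, s) := rfl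

/-- chains of height at least `n` -/
def Ge (p : S → G) (n : ℤ) (y : G × S →₀ ℤ) : Prop := ∀ v, h v < n → cc p y v = 0

lemma ge_iff {p : S → G} {n : ℤ} {y : G × S →₀ ℤ} :
    Ge h p n y ↔ ∀ g s, h (g * p s) < n → y (g, s) = 0 :=
  ⟨fun H g s hg => by
    have := DFunLike.congr_fun (H _ hg) s
    rwa [cc_apply, mul_inv_cancel_right] at this,
  fun H v hv => Finsupp.ext fun s => H (v * (p s)⁻¹) s (by rwa [inv_mul_cancel_right])⟩

lemma exists_ge (p : S → G) (y : G × S →₀ ℤ) (n : ℤ) : ∃ m ≤ n, Ge h p m y := by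
  obtain ⟨m, hm⟩ := ((cc p y).support.image h).bddBelow
  refine ⟨min m n, min_le_right _ _, fun v hv => by_contra fun hne => ?_⟩
  exact absurd (hm (Finset.mem_image_of_mem h (mem_support_iff.2 hne)))
    (not_le.2 (hv.trans_le (min_le_left _ _)))

/-- `δ` is the leading term of `D` -/
def Lead (p : S → G) (p' : S' → G) (D : (G × S →₀ ℤ) →ₗ[ℤ] (G × S' →₀ ℤ))
    (δ : (S →₀ ℤ) →ₗ[ℤ] (S' →₀ ℤ)) : Prop :=
  ∀ g s v, h v ≤ h (g * p s) →
    cc p' (D (single (g, s) 1)) v = single (g * p s) (δ (single s 1)) v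

variable {h} {p : S → G} {p' : S' → G} {p'' : S'' → G}
  {D : (G × S →₀ ℤ) →ₗ[ℤ] (G × S' →₀ ℤ)} {δ : (S →₀ ℤ) →ₗ[ℤ] (S' →₀ ℤ)}
  {D' : (G × S' →₀ ℤ) →ₗ[ℤ] (G × S'' →₀ ℤ)} {δ' : (S' →₀ ℤ) →ₗ[ℤ] (S'' →₀ ℤ)}

lemma Lead.apply (hD : Lead h p p' D δ) {n : ℤ} {y : G × S →₀ ℤ} (hy : Ge h p n y) {v : G}
    (hv : h v ≤ n) : cc p' (D y) v = δ (cc p y v) := by
  rw [← y.sum_single, Finsupp.sum]
  simp only [map_sum, Finsupp.finsetSum_apply]
  refine Finset.sum_congr rfl fun x hx => ?_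
  obtain ⟨g, s⟩ := x
  have h1 : n ≤ h (g * p s) := not_lt.1 fun h1 =>
    mem_support_iff.1 hx ((ge_iff h).1 hy g s h1)
  rw [← smul_single_one, map_smul, map_smul, map_smul, Finsupp.smul_apply, Finsupp.smul_apply,
    map_smul, hD g s v (hv.trans h1), cc_single]
  congr 1
  exact (Finsupp.apply_single δ _ _ _).symm

lemma Lead.ge (hD : Lead h p p' D δ) {n : ℤ} {y : G × S →₀ ℤ} (hy : Ge h p n y) :
    Ge h p' n (D y) := fun v hv => by rw [hD.apply hy hv.le, hy v hv, map_zero]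

lemma Lead.ge_of (hD : Lead h p p' D δ) (hδ : Function.Injective δ) {n : ℤ} {y : G × S →₀ ℤ}
    (hy : Ge h p' n (D y)) : Ge h p n y := by
  obtain ⟨m, hm, h1⟩ := exists_ge h p y n
  have : ∀ k, m ≤ k → k ≤ n → Ge h p k y := fun k hk => by
    induction k, hk using Int.leInduction with
    | base => exact fun _ => h1
    | succ k _ ih =>
      intro hk v hv
      refine hδ ?_
      rw [← hD.apply (ih (by omega)) (by omega), hy v (by omega), map_zero]
  exact this n hm le_rfl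

lemma Lead.injective (hD : Lead h p p' D δ) (hδ : Function.Injective δ) :
    Function.Injective D := by
  refine (injective_iff_map_eq_zero D).2 fun y hy => (cc p).injective (Finsupp.ext fun v => ?_)
  rw [map_zero]
  exact hD.ge_of hδ (n := h v + 1) (fun v _ => by rw [hy, map_zero, Finsupp.zero_apply]) v
    (lt_add_one _)

lemma Lead.exists_ge (hD : Lead h p p' D δ) (hD' : Lead h p' p'' D' δ')
    (hDD : ∀ w, D' (D w) = 0) (hδ : ∀ u, δ' u = 0 → ∃ w, δ w = u) {n : ℤ}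
    (y : G × S' →₀ ℤ) (hy : Ge h p'' n (D' y)) : ∃ y', Ge h p' n y' ∧ D' y' = D' y := by
  obtain ⟨m, hm, h1⟩ := AcycA.exists_ge h p' y n
  have h2 : ∀ u, ∃ w, (δ' u = 0 → δ w = u) ∧ (u = 0 → w = 0) := fun u => by
    by_cases h0 : u = 0
    · exact ⟨0, fun _ => by rw [map_zero, h0], fun _ => rfl⟩
    · by_cases h3 : δ' u = 0
      · exact ⟨_, fun _ => (hδ u h3).choose_spec, fun h => absurd h h0⟩
      · exact ⟨0, fun h => absurd h h3, fun _ => rfl⟩
  choose f hf hf0 using h2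
  have : ∀ k, m ≤ k → k ≤ n → ∃ y', Ge h p' k y' ∧ D' y' = D' y := fun k hk => by
    induction k, hk using Int.leInduction with
    | base => exact fun _ => ⟨y, h1, rfl⟩
    | succ k _ ih =>
      intro hk
      obtain ⟨z, hz, hzy⟩ := ih (by omega)
      have hw : ∀ v, cc p ((cc p).symm (mapRange f (hf0 0 rfl) (cc p' z))) v = f (cc p' z v) :=
        fun v => by rw [LinearEquiv.apply_symm_apply, mapRange_apply]
      refine ⟨z - D ((cc p).symm (mapRange f (hf0 0 rfl) (cc p' z))), fun v hv => ?_,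
        by rw [map_sub, hDD, sub_zero, hzy]⟩
      rw [map_sub, Finsupp.sub_apply, hD.apply (n := k) (fun v hv => by
        rw [hw, hf0 _ (hz v hv)]) (by omega), hw, hf, sub_self]
      rw [← hD'.apply hz (by omega), hzy, hy v (by omega)]
  exact this n hm le_rfl

end filt

/-! ### the cubical chain complex -/

variable {V : Type} [LinearOrder V] {Γ : SimpleGraph V}

/-- the height -/
def H (g : RA Γ) : ℤ := Multiplicative.toAdd (ht Γ g)

@[simp] lemma H_mul (g g' : RA Γ) : H (g * g') = H g + H g' := by simp [H]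
@[simp] lemma H_inv (g : RA Γ) : H g⁻¹ = -H g := by simp [H]
@[simp] lemma H_one : H (1 : RA Γ) = 0 := by simp [H]
@[simp] lemma H_gen (a : V) : H (gen Γ a) = 1 := by simp [H]
@[simp] lemma H_coe (x : BB Γ) : H (x : RA Γ) = 0 := by
  rw [H, MonoidHom.mem_ker.1 x.2, toAdd_one]

lemma mem_BB {g : RA Γ} (hg : H g = 0) : g ∈ (ht Γ).ker := hg

lemma sd2_single (g : RA Γ) (e : Ed Γ) : sd2 Γ (single (g, e) 1) =
    single (g * gen Γ e.1.1, e.1.2) 1 - single (g, e.1.2) 1 -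
      single (g * gen Γ e.1.2, e.1.1) 1 + single (g, e.1.1) 1 := by
  rw [sd2, linearCombination_single, one_smul]

lemma sd3_single (g : RA Γ) (t : Tr Γ) : sd3 Γ (single (g, t) 1) =
    single (g * gen Γ t.1.1, t.e12) 1 - single (g, t.e12) 1 -
      single (g * gen Γ t.1.2.1, t.e02) 1 + single (g, t.e02) 1 +
      single (g * gen Γ t.1.2.2, t.e01) 1 - single (g, t.e01) 1 := by
  rw [sd3, linearCombination_single, one_smul]

lemma dL1_single (e : Ed Γ) : dL1 Γ (single e 1) = single e.1.2 1 - single e.1.1 1 := by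
  rw [dL1, linearCombination_single, one_smul]

lemma dL2_single (t : Tr Γ) :
    dL2 Γ (single t 1) = single t.e12 1 - single t.e02 1 + single t.e01 1 := by
  rw [dL2, linearCombination_single, one_smul]

lemma ext1 {X M : Type} [AddCommGroup M] {f g : (X →₀ ℤ) →ₗ[ℤ] M}
    (h : ∀ x, f (single x 1) = g (single x 1)) (y : X →₀ ℤ) : f y = g y := by
  rw [Finsupp.lhom_ext' fun x => LinearMap.ext_ring (h x)]

lemma cm (g : RA Γ) {a b : V} (h : Γ.Adj a b) :
    g * gen Γ b * gen Γ a = g * gen Γ a * gen Γ b := by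
  rw [mul_assoc, mul_assoc, (gen_comm h).eq]

lemma d1_sd2 (y : RA Γ × Ed Γ →₀ ℤ) : d1 (gen Γ) (sd2 Γ y) = 0 :=
  ext1 (f := d1 (gen Γ) ∘ₗ sd2 Γ) (g := 0) (fun ⟨g, e⟩ => by
    simp only [LinearMap.comp_apply, sd2_single, map_add, map_sub, d1_single, cm g e.2.2,
      LinearMap.zero_apply]
    abel) y

lemma sd2_sd3 (y : RA Γ × Tr Γ →₀ ℤ) : sd2 Γ (sd3 Γ y) = 0 :=
  ext1 (f := sd2 Γ ∘ₗ sd3 Γ) (g := 0) (fun ⟨g, t⟩ => by
    simp only [LinearMap.comp_apply, sd3_single, sd2_single, map_add, map_sub, Tr.e01, Tr.e12,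
      Tr.e02, cm g t.2.1.2, cm g t.2.2.1.2, cm g t.2.2.2, LinearMap.zero_apply]
    abel) y

/-- top vertices -/
def q2 (e : Ed Γ) : RA Γ := gen Γ e.1.1 * gen Γ e.1.2
def q3 (t : Tr Γ) : RA Γ := gen Γ t.1.1 * (gen Γ t.1.2.1 * gen Γ t.1.2.2)

lemma far {M : Type} [Zero M] {g v : RA Γ} (u : M) (h : H g ≠ H v) : single g u v = 0 :=
  single_eq_of_ne fun e => h (congrArg H e.symm)

lemma lo2 : Lead H (fun _ => 1) (fun _ => 1) (sd2 Γ) (-dL1 Γ) := fun g e v hv => by
  have h1 : ∀ (a : V) (u : V →₀ ℤ), single (g * gen Γ a) u v = 0 := fun a u =>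
    far u (by simp at hv ⊢; omega)
  simp only [sd2_single, map_add, map_sub, cc_single, mul_one, Finsupp.add_apply,
    Finsupp.sub_apply, h1, LinearMap.neg_apply, dL1_single, single_neg, single_sub,
    Finsupp.neg_apply]
  abel

lemma lo3 : Lead H (fun _ => 1) (fun _ => 1) (sd3 Γ) (-dL2 Γ) := fun g t v hv => by
  have h1 : ∀ (a : V) (u : Ed Γ →₀ ℤ), single (g * gen Γ a) u v = 0 := fun a u =>
    far u (by simp at hv ⊢; omega)
  simp only [sd3_single, map_add, map_sub, cc_single, mul_one, Finsupp.add_apply,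
    Finsupp.sub_apply, h1, LinearMap.neg_apply, dL2_single, single_neg, single_sub, single_add,
    Finsupp.neg_apply]
  abel

lemma hi2 : Lead (fun g => -H g) q2 (gen Γ) (sd2 Γ) (dL1 Γ) := fun g e v hv => by
  have h1 : ∀ (a : V) (u : V →₀ ℤ), single (g * gen Γ a) u v = 0 := fun a u =>
    far u (by simp [q2] at hv ⊢; omega)
  simp only [sd2_single, map_add, map_sub, cc_single, Finsupp.add_apply, Finsupp.sub_apply, h1,
    dL1_single, single_sub, cm g e.2.2, q2, ← mul_assoc]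
  abel

lemma hi3 : Lead (fun g => -H g) q3 q2 (sd3 Γ) (dL2 Γ) := fun g t v hv => by
  have h1 : ∀ (e : Ed Γ) (u : Ed Γ →₀ ℤ), single (g * q2 e) u v = 0 := fun a u =>
    far u (by simp [q2, q3] at hv ⊢; omega)
  have e1 : g * gen Γ t.1.1 * q2 t.e12 = g * q3 t := mul_assoc _ _ _
  have e2 : g * gen Γ t.1.2.1 * q2 t.e02 = g * q3 t := by
    simp only [q2, q3, Tr.e02, ← mul_assoc, cm g t.2.1.2]
  have e3 : g * gen Γ t.1.2.2 * q2 t.e01 = g * q3 t := by
    simp only [q2, q3, Tr.e01, ← mul_assoc, cm g t.2.2.2, cm _ t.2.2.1.2]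
  simp only [sd3_single, map_add, map_sub, cc_single, Finsupp.add_apply, Finsupp.sub_apply, h1,
    dL2_single, single_sub, single_add, e1, e2, e3]
  abel

section
variable {S : Type}

/-- chains above height zero -/
def Lo (y : RA Γ × S →₀ ℤ) : Prop := ∀ g s, H g < 0 → y (g, s) = 0
/-- chains of `k`-cells below height zero -/
def Hi (k : ℤ) (y : RA Γ × S →₀ ℤ) : Prop := ∀ g s, 0 < H g + k → y (g, s) = 0

lemma lo_iff {y : RA Γ × S →₀ ℤ} : Ge H (fun _ => 1) 0 y ↔ Lo y := by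
  simp only [ge_iff, Lo, mul_one]

lemma hi_iff {y : RA Γ × S →₀ ℤ} {p : S → RA Γ} {k : ℤ} (hp : ∀ s, H (p s) = k) :
    Ge (fun g => -H g) p 0 y ↔ Hi k y := by
  simp only [ge_iff, Hi, H_mul, hp, Left.neg_neg_iff]

/-- the part of a chain whose height satisfies `P` -/
noncomputable def fl (P : ℤ → Prop) : (RA Γ × S →₀ ℤ) →ₗ[ℤ] (RA Γ × S →₀ ℤ) :=
  (Finsupp.filterAddHom fun x => P (H x.1)).toIntLinearMap

lemma fl_apply (P : ℤ → Prop) (y : RA Γ × S →₀ ℤ) (g : RA Γ) (s : S) :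
    fl P y (g, s) = if P (H g) then y (g, s) else 0 := rfl

lemma fl_pos {P : ℤ → Prop} {g : RA Γ} (hg : P (H g)) (s : S) (n : ℤ) :
    fl P (single (g, s) n) = single (g, s) n :=
  filter_single_of_pos (fun x : RA Γ × S => P (H x.1)) hg

lemma fl_neg {P : ℤ → Prop} {g : RA Γ} (hg : ¬ P (H g)) (s : S) (n : ℤ) :
    fl P (single (g, s) n) = 0 :=
  filter_single_of_neg (fun x : RA Γ × S => P (H x.1)) hg

end

lemma H_q2 (e : Ed Γ) : H (q2 e) = 2 := by simp [q2]
lemma H_q3 (t : Tr Γ) : H (q3 t) = 3 := by simp [q3]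

/-- edges of the level set as squares -/
noncomputable def i2 : (BB Γ × Ed Γ →₀ ℤ) →ₗ[ℤ] (RA Γ × Ed Γ →₀ ℤ) :=
  lmapDomain ℤ ℤ fun x => (x.1 * (gen Γ x.2.1.1)⁻¹, x.2)

lemma i2_single (x : BB Γ) (e : Ed Γ) :
    i2 (single (x, e) 1) = single (x * (gen Γ e.1.1)⁻¹, e) 1 := mapDomain_single

lemma i2_inj : Function.Injective (i2 (Γ := Γ)) :=
  mapDomain_injective fun ⟨x, e⟩ ⟨x', e'⟩ h => by
    obtain ⟨h1, rfl⟩ := Prod.mk.inj h
    exact Prod.ext (Subtype.ext (mul_right_cancel h1)) rfl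

/-- triangles of the level set as cubes -/
def j3 : BB Γ × (Tr Γ × Bool) → RA Γ × Tr Γ
  | (x, t, true) => (x * (gen Γ t.1.1)⁻¹, t)
  | (x, t, false) => (x * (gen Γ t.1.1)⁻¹ * (gen Γ t.1.2.1)⁻¹, t)

/-- orientation -/
def sg : BB Γ × (Tr Γ × Bool) → ℤ
  | (_, _, true) => -1
  | (_, _, false) => 1

lemma j3_inj : Function.Injective (j3 (Γ := Γ)) := by
  rintro ⟨x, t, _ | _⟩ ⟨x', t', _ | _⟩ h <;> obtain ⟨h1, rfl⟩ := Prod.mk.inj h
  · rw [Subtype.ext (mul_right_cancel (mul_right_cancel h1))]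
  · have := congrArg H h1
    simp at this
  · have := congrArg H h1
    simp at this
  · rw [Subtype.ext (mul_right_cancel h1)]

noncomputable def i3 : (BB Γ × (Tr Γ × Bool) →₀ ℤ) →ₗ[ℤ] (RA Γ × Tr Γ →₀ ℤ) :=
  linearCombination ℤ fun x => sg x • single (j3 x) 1

lemma i3_apply (c : BB Γ × (Tr Γ × Bool) →₀ ℤ) (x : BB Γ × (Tr Γ × Bool)) :
    i3 c (j3 x) = sg x * c x := by
  have := ext1 (f := lapply (j3 x) ∘ₗ i3) (g := sg x • lapply x) (fun y => by
    by_cases h : y = x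
    · simp [i3, h]
    · simp [i3, h, j3_inj.ne h]) c
  rwa [LinearMap.smul_apply, lapply_apply x, smul_eq_mul] at this

lemma fl_i2 (z : BB Γ × Ed Γ →₀ ℤ) : fl (· = -1) (i2 z) = i2 z :=
  ext1 (f := fl (· = -1) ∘ₗ i2) (fun ⟨x, e⟩ => by
    rw [LinearMap.comp_apply, i2_single, fl_pos (by simp)]) z

lemma d1_fl (z : BB Γ × Ed Γ →₀ ℤ) : d1 (gen Γ) (fl (· < 0) (sd2 Γ (i2 z))) =
    -lmapDomain ℤ ℤ Subtype.val (d1 (labS Γ) z) :=
  ext1 (f := d1 (gen Γ) ∘ₗ fl (· < 0) ∘ₗ sd2 Γ ∘ₗ i2)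
    (g := -(lmapDomain ℤ ℤ Subtype.val ∘ₗ d1 (labS Γ))) (fun ⟨x, e⟩ => by
    simp only [LinearMap.comp_apply, LinearMap.neg_apply, i2_single, sd2_single, map_add, map_sub]
    rw [fl_neg (by simp), fl_pos (by simp), fl_neg (by simp), fl_pos (by simp)]
    simp only [d1_single, map_sub, lmapDomain_apply, mapDomain_single, map_zero, labS,
      Subgroup.coe_mul, mul_assoc, inv_mul_cancel, mul_one]
    abel) z

lemma rel (i : Tr Γ × Bool) : FreeGroup.lift (labS Γ) (relS Γ i) = 1 := by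
  obtain ⟨t, _ | _⟩ := i <;> apply Subtype.ext <;>
    simp only [relS, map_mul, map_inv, FreeGroup.lift_apply_of, labS, Tr.e01, Tr.e12, Tr.e02,
      Subgroup.coe_mul, Subgroup.coe_inv, Subgroup.coe_one]
  · have h1 := ((gen_comm t.2.1.2).inv_left.mul_left (gen_comm t.2.2.1.2).symm).symm.eq
    have h2 := (gen_comm t.2.2.2).inv_left.eq
    rw [mul_assoc (gen Γ t.1.2.1)⁻¹, ← mul_assoc (gen Γ t.1.2.2), ← h2, ← h1]
    group
  · group

lemma cr_i3 (c : BB Γ × (Tr Γ × Bool) →₀ ℤ) :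
    fl (· = -1) (sd3 Γ (i3 c)) = i2 (bd (labS Γ) (relS Γ) c) :=
  ext1 (f := fl (· = -1) ∘ₗ sd3 Γ ∘ₗ i3) (g := i2 ∘ₗ bd (labS Γ) (relS Γ)) (by
    rintro ⟨x, t, b⟩
    have hr := rel (t, b)
    simp only [LinearMap.comp_apply, i3, linearCombination_single, one_smul, bd_single]
    cases b
    · simp only [relS, map_mul, map_inv, mul_inv_eq_one] at hr
      simp only [sg, j3, relS, one_smul, sd3_single, map_add, map_sub, chain_mul, chain_inv,
        chain_of, map_mul, hr, mul_inv_cancel_right, map_neg, i2_single]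
      rw [fl_pos (by simp), fl_neg (by simp), fl_pos (by simp), fl_neg (by simp),
        fl_pos (by simp), fl_neg (by simp)]
      have e1 : x * (gen Γ t.1.1)⁻¹ * (gen Γ t.1.2.1)⁻¹ * gen Γ t.1.1 = x * (gen Γ t.e12.1.1)⁻¹ := by
        rw [mul_assoc, (gen_comm t.2.1.2).symm.inv_left.eq, ← mul_assoc, inv_mul_cancel_right]
        rfl
      have e3 : x * (gen Γ t.1.1)⁻¹ * (gen Γ t.1.2.1)⁻¹ * gen Γ t.1.2.2 =
          (x * FreeGroup.lift (labS Γ) (FreeGroup.of t.e12) : BB Γ) * (gen Γ t.e01.1.1)⁻¹ := by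
        have := ((gen_comm t.2.1.2).inv_right.mul_right (gen_comm t.2.2.2)).inv_left.eq
        rw [FreeGroup.lift_apply_of, mul_assoc, mul_assoc, this, ← mul_assoc]
        rfl
      rw [e1, e3, inv_mul_cancel_right, show t.e02.1.1 = t.1.1 from rfl]
      abel
    · simp only [relS, map_mul, map_inv, mul_inv_eq_one] at hr
      simp only [sg, j3, relS, neg_smul, one_smul, sd3_single, map_add, map_sub, chain_mul,
        chain_inv, chain_of, map_mul, hr, mul_inv_cancel_right, map_neg, i2_single]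
      rw [fl_neg (by simp), fl_pos (by simp), fl_neg (by simp), fl_pos (by simp),
        fl_neg (by simp), fl_pos (by simp)]
      have e1 : (x * FreeGroup.lift (labS Γ) (FreeGroup.of t.e01) : BB Γ) * (gen Γ t.e12.1.1)⁻¹ =
          x * (gen Γ t.1.1)⁻¹ := by
        rw [FreeGroup.lift_apply_of, Subgroup.coe_mul, labS, ← mul_assoc]
        exact mul_inv_cancel_right _ _
      rw [e1, show t.e02.1.1 = t.1.1 from rfl, show t.e01.1.1 = t.1.1 from rfl]
      abel) c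

lemma cr_range (w : RA Γ × Tr Γ →₀ ℤ) :
    ∃ c, fl (· = -1) (sd3 Γ w) = i2 (bd (labS Γ) (relS Γ) c) := by
  induction w using Finsupp.induction_linear with
  | zero => exact ⟨0, by simp only [map_zero]⟩
  | add f g hf hg =>
    obtain ⟨c, hc⟩ := hf
    obtain ⟨d, hd⟩ := hg
    exact ⟨c + d, by simp only [map_add, hc, hd]⟩
  | single x n =>
    obtain ⟨g, t⟩ := x
    suffices h : ∃ c, fl (· = -1) (sd3 Γ (single (g, t) 1)) = i2 (bd (labS Γ) (relS Γ) c) by
      obtain ⟨c, hc⟩ := h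
      exact ⟨n • c, by rw [← smul_single_one]; simp only [map_smul, hc]⟩
    by_cases h1 : H g = -1
    · refine ⟨-single (⟨g * gen Γ t.1.1, mem_BB (by simp [h1])⟩, t, true) 1, ?_⟩
      rw [← cr_i3]
      simp [i3, sg, j3]
    · by_cases h2 : H g = -2
      · refine ⟨single (⟨g * gen Γ t.1.2.1 * gen Γ t.1.1, mem_BB (by simp [h2])⟩, t, false) 1, ?_⟩
        rw [← cr_i3]
        simp [i3, sg, j3]
      · have h3 : ∀ a, ¬ H (g * gen Γ a) = -1 := fun a => by simp; omega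
        refine ⟨0, ?_⟩
        simp only [sd3_single, map_add, map_sub, fl_neg (P := (· = -1)) h1,
          fl_neg (P := (· = -1)) (h3 _), map_zero, sub_zero, add_zero]

lemma exact (hS : Salv Γ) (hL : LAcyc Γ) (z : BB Γ × Ed Γ →₀ ℤ) (hz : d1 (labS Γ) z = 0) :
    ∃ c, bd (labS Γ) (relS Γ) c = z := by
  have h1 := d1_fl z
  rw [hz, map_zero, neg_zero] at h1
  have h2 : fl (· < 0) (sd2 Γ (i2 z)) + fl (fun k => ¬ k < 0) (sd2 Γ (i2 z)) = sd2 Γ (i2 z) := by
    ext ⟨g, a⟩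
    rw [Finsupp.add_apply, fl_apply, fl_apply]
    split_ifs <;> simp
  have h3 := congrArg (d1 (gen Γ)) h2
  rw [map_add, h1, zero_add, d1_sd2] at h3
  obtain ⟨y, hy⟩ := hS.h1 _ h1
  obtain ⟨y', hy'⟩ := hS.h1 _ h3
  obtain ⟨v, hv, hvy⟩ := hi3.exists_ge hi2 sd2_sd3 hL.h1 y ((hi_iff H_gen).2 fun g a hg => by
    rw [hy, fl_apply, if_neg (by omega)])
  obtain ⟨v', hv', hvy'⟩ := lo3.exists_ge lo2 sd2_sd3 (fun u hu => by
    obtain ⟨w, hw⟩ := hL.h1 u (neg_eq_zero.1 hu)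
    exact ⟨-w, by rw [LinearMap.neg_apply, map_neg, neg_neg, hw]⟩) y' (lo_iff.2 fun g a hg => by
    rw [hy', fl_apply, if_neg (not_not.2 hg)])
  obtain ⟨w, hw⟩ := hS.h2 (i2 z - v - v') (by
    rw [map_sub, map_sub, hvy, hvy', hy, hy', sub_sub, h2, sub_self])
  obtain ⟨c, hc⟩ := cr_range w
  refine ⟨c, i2_inj ?_⟩
  rw [← hc, hw, map_sub, map_sub, fl_i2]
  ext ⟨g, e⟩
  rw [Finsupp.sub_apply, Finsupp.sub_apply, fl_apply, fl_apply]
  split_ifs with hg
  · rw [(hi_iff H_q2).1 hv g e (by omega), lo_iff.1 hv' g e (by omega), sub_zero, sub_zero]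
  · rw [sub_zero, sub_zero]

lemma inj (hS : Salv Γ) (hL : LAcyc Γ) : Function.Injective (bd (labS Γ) (relS Γ)) := by
  refine (injective_iff_map_eq_zero _).2 fun c hc => ?_
  have h1 := cr_i3 c
  rw [hc, map_zero] at h1
  have hδ : Function.Injective (-dL2 Γ) := fun _ _ h => hL.h2 (neg_injective h)
  set u := fl (· < -1) (sd3 Γ (i3 c))
  set u' := fl (0 ≤ ·) (sd3 Γ (i3 c))
  have h2 : u + u' = sd3 Γ (i3 c) := by
    ext ⟨g, e⟩
    have := DFunLike.congr_fun h1 (g, e)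
    rw [fl_apply, Finsupp.zero_apply] at this
    rw [Finsupp.add_apply, fl_apply, fl_apply]
    split_ifs with k1 k2 k2
    · omega
    · rw [add_zero]
    · rw [zero_add]
    · rw [if_pos (by omega)] at this
      rw [this, add_zero]
  have hu : Ge (fun g => -H g) q2 0 u := (hi_iff H_q2).2 fun g e hg => by
    rw [fl_apply, if_neg (by omega)]
  have hu' : Ge H (fun _ => 1) 0 u' := lo_iff.2 fun g e hg => by
    rw [fl_apply, if_neg (by omega)]
  have h3 := congrArg (sd2 Γ) h2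
  rw [map_add, sd2_sd3] at h3
  have h4 : sd2 Γ u = 0 := by
    ext ⟨g, a⟩
    by_cases hg : H g < 0
    · have := DFunLike.congr_fun h3 (g, a)
      rwa [Finsupp.add_apply, lo_iff.1 (lo2.ge hu') g a hg, add_zero] at this
    · exact (hi_iff H_gen).1 (hi2.ge hu) g a (by omega)
  rw [h4, zero_add] at h3
  obtain ⟨v, hv⟩ := hS.h2 u h4
  obtain ⟨v', hv'⟩ := hS.h2 u' h3
  have k1 := (hi_iff H_q3).1 (hi3.ge_of hL.h2 (hv ▸ hu))
  have k2 := lo_iff.1 (lo3.ge_of hδ (hv' ▸ hu'))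
  have h5 : i3 c = v + v' := lo3.injective hδ (by rw [map_add, hv, hv', h2])
  ext x
  have h6 := i3_apply c x
  rw [h5, Finsupp.add_apply] at h6
  obtain ⟨x, t, _ | _⟩ := x
  · rw [j3, k1 _ _ (by simp), k2 _ _ (by simp), sg, one_mul, add_zero] at h6
    exact h6.symm
  · rw [j3, k1 _ _ (by simp), k2 _ _ (by simp), sg, neg_one_mul, add_zero] at h6
    exact neg_eq_zero.1 h6.symm

lemma surj (hc : Γ.Connected) : Function.Surjective (FreeGroup.lift (labS Γ)) := by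
  let K := (FreeGroup.lift (labS Γ)).range.map (ht Γ).ker.subtype
  have h1 : ∀ e : Ed Γ, (gen Γ e.1.1)⁻¹ * gen Γ e.1.2 ∈ K := fun e =>
    ⟨labS Γ e, ⟨FreeGroup.of e, FreeGroup.lift_apply_of⟩, rfl⟩
  have h2 : ∀ a b, Γ.Adj a b → gen Γ a * (gen Γ b)⁻¹ ∈ K := fun a b h => by
    rw [(gen_comm h).inv_right.eq]
    rcases lt_or_gt_of_ne h.ne with h' | h'
    · simpa using K.inv_mem (h1 ⟨(a, b), h', h⟩)
    · exact h1 ⟨(b, a), h', h.symm⟩
  have h3 : ∀ (a b : V) (n : ℤ), gen Γ a ^ n * (gen Γ b ^ n)⁻¹ ∈ K := fun a b n => by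
    obtain ⟨w⟩ := hc.preconnected a b
    induction w with
    | nil => rw [mul_inv_cancel]; exact K.one_mem
    | cons h _ ih =>
      have := K.mul_mem (K.zpow_mem (h2 _ _ h) n) ih
      rwa [(gen_comm h).inv_right.mul_zpow, inv_zpow, mul_assoc, inv_mul_cancel_left] at this
  obtain ⟨c⟩ := hc.nonempty
  have h4 : ∀ g : RA Γ, g * (gen Γ c ^ H g)⁻¹ ∈ K := fun g => by
    induction g using RA.induction_right with
    | h1 => simp
    | hm g a ih =>
      have := K.mul_mem (K.mul_mem ih (h3 c a (H g))) (h3 a c (H g + 1))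
      rw [H_mul, H_gen]
      convert this using 1
      group
    | hi g a ih =>
      have := K.mul_mem (K.mul_mem ih (h3 c a (H g))) (h3 a c (H g + -1))
      rw [H_mul, H_inv, H_gen]
      convert this using 1
      group
  intro x
  have h5 := h4 x
  rw [H_coe, zpow_zero, inv_one, mul_one] at h5
  obtain ⟨y, ⟨ω, rfl⟩, h6⟩ := h5
  exact ⟨ω, Subtype.ext h6⟩

end AcycA

theorem acycStmt : AcycStmt := fun _ _ _ _ hS hL =>
  ⟨AcycA.surj hL.conn, AcycA.rel, AcycA.inj hS hL, AcycA.exact hS hL⟩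

end Crest.Agent.R197
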