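import Crest.Agent.R197.Basic

/-! Row 197: change of presentation (ALG). -/

set_option autoImplicit false
set_option maxHeartbeats 400000

open scoped Classical

namespace Crest.Agent.R197

namespace Alg

/-- left translation of chains -/
noncomputable def tr {G : Type} [Group G] (L : Type) (g : G) : (G × L →₀ ℤ) →ₗ[ℤ] (G × L →₀ ℤ) :=
  Finsupp.lmapDomain ℤ ℤ fun p : G × L => (g * p.1, p.2)

@[simp] theorem tr_single {G L : Type} [Group G] (g : G) (p : G × L) (n : ℤ) :
    tr L g (Finsupp.single p n) = Finsupp.single (g * p.1, p.2) n := by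
  simp [tr, Finsupp.mapDomain_single]

theorem tr_chain {G L : Type} [Group G] (lab : L → G) (g : G) (ω : FreeGroup L) (x : G) :
    tr L g (chain lab ω x) = chain lab ω (g * x) := (chain_translate lab g ω x).symm

theorem tr_bd {G L R : Type} [Group G] (lab : L → G) (w : R → FreeGroup L) (g : G)
    (c : G × R →₀ ℤ) : tr L g (bd lab w c) = bd lab w (tr R g c) := by
  induction c using Finsupp.induction_linear with
  | zero => simp
  | add f h hf hh => simp only [map_add, hf, hh]
  | single p n => simp [tr_chain]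

theorem lin_chain_map {G L L' M : Type} [Group G] [AddCommGroup M] (lab : L → G) (f : L' → L)
    (φ : G × L → M) (ω : FreeGroup L') (x : G) :
    Finsupp.linearCombination ℤ φ (chain lab (FreeGroup.map f ω) x) =
      Finsupp.linearCombination ℤ (fun p : G × L' => φ (p.1, f p.2))
        (chain (fun l => lab (f l)) ω x) := by
  apply Multiplicative.ofAdd.injective
  rw [← hol_pair, hol_freeMap, ← hol_pair]

theorem lin_single {A : Type} (c : A →₀ ℤ) :
    Finsupp.linearCombination ℤ (fun p : A => (Finsupp.single p 1 : A →₀ ℤ)) c = c := by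
  induction c using Finsupp.induction_linear with
  | zero => simp
  | add f h hf hh => simp only [map_add, hf, hh]
  | single p n => simp

theorem lin_zero {A M : Type} [AddCommGroup M] (c : A →₀ ℤ) :
    Finsupp.linearCombination ℤ (fun _ : A => (0 : M)) c = 0 := by
  simp [Finsupp.linearCombination_apply]

theorem exists_word {G L R : Type} [Group G] (lab : L → G) (w : R → FreeGroup L)
    (hs : Function.Surjective (FreeGroup.lift lab)) (hw : ∀ i, FreeGroup.lift lab (w i) = 1)
    (c : G × R →₀ ℤ) :
    ∃ k ∈ Subgroup.normalClosure (Set.range w), chain lab k 1 = bd lab w c := by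
  have hk : Subgroup.normalClosure (Set.range w) ≤ (FreeGroup.lift lab).ker :=
    Subgroup.normalClosure_le_normal (by rintro _ ⟨i, rfl⟩; exact hw i)
  let M : AddSubgroup (G × L →₀ ℤ) :=
    { carrier := {z | ∃ k ∈ Subgroup.normalClosure (Set.range w), chain lab k 1 = z}
      zero_mem' := ⟨1, one_mem _, chain_one _ _⟩
      add_mem' := by
        rintro _ _ ⟨k, h1, rfl⟩ ⟨k', h2, rfl⟩
        exact ⟨k * k', mul_mem h1 h2, by rw [chain_mul, hk h1, mul_one]⟩
      neg_mem' := by
        rintro _ ⟨k, h1, rfl⟩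
        exact ⟨k⁻¹, inv_mem h1, by rw [chain_inv, hk h1, inv_one, mul_one]⟩ }
  change bd lab w c ∈ M
  induction c using Finsupp.induction_linear with
  | zero => simp
  | add f h hf hh => rw [map_add]; exact add_mem hf hh
  | single p n =>
    rw [bd_single]
    refine zsmul_mem ?_ n
    obtain ⟨t, ht⟩ := hs p.1
    refine ⟨t * w p.2 * t⁻¹, Subgroup.normalClosure_normal.conj_mem _
      (Subgroup.subset_normalClosure (Set.mem_range_self _)) _, ?_⟩
    rw [chain_conj lab _ _ (hw _), one_mul, ht]

theorem chain_mem_sup {G L R R' : Type} [Group G] (lab : L → G) (w : R → FreeGroup L)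
    (w' : R' → FreeGroup L) (hw : ∀ i, FreeGroup.lift lab (w i) = 1)
    (hw' : ∀ i, FreeGroup.lift lab (w' i) = 1) {ω : FreeGroup L}
    (hω : ω ∈ Subgroup.normalClosure (Set.range w ∪ Set.range w')) (x : G) :
    ∃ c c', chain lab ω x = bd lab w c + bd lab w' c' := by
  rw [← Set.Sum.elim_range] at hω
  obtain ⟨c, hc⟩ := chain_mem_range lab (Sum.elim w w') (by rintro (i | i) <;> simp [hw, hw']) hω x
  rw [← hc]
  clear hc
  induction c using Finsupp.induction_linear with
  | zero => exact ⟨0, 0, by simp⟩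
  | add f h hf hh =>
    obtain ⟨a, a', ha⟩ := hf
    obtain ⟨b, b', hb⟩ := hh
    exact ⟨a + b, a' + b', by simp only [map_add, ha, hb]; abel⟩
  | single p n =>
    obtain ⟨g, i | i⟩ := p
    · exact ⟨Finsupp.single (g, i) n, 0, by simp⟩
    · exact ⟨0, Finsupp.single (g, i) n, by simp⟩

section main

variable {G S R : Type} [Group G] (lab : S → G) (P : Pres G)

/-- the labelling of all letters -/
abbrev lab' (R : Type) : S ⊕ (P.T ⊕ R) → G := Sum.elim lab (Sum.elim P.lab fun _ => 1)

/-- the letters of the presentation -/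
abbrev iT : P.T → S ⊕ (P.T ⊕ R) := fun e => Sum.inr (Sum.inl e)

/-- the first system of relators -/
def w0 (p : S → FreeGroup P.T) : P.R ⊕ S → FreeGroup (S ⊕ (P.T ⊕ R))
  | Sum.inl f => FreeGroup.map (iT P) (P.w f)
  | Sum.inr s => FreeGroup.map (iT P) (p s) * (FreeGroup.of (Sum.inl s))⁻¹

variable {lab P} {p : S → FreeGroup P.T} (hp : ∀ s, FreeGroup.lift P.lab (p s) = lab s)

theorem lift_iT (ω : FreeGroup P.T) :
    FreeGroup.lift (lab' lab P R) (FreeGroup.map (iT P) ω) = FreeGroup.lift P.lab ω :=
  lift_map _ _ _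

theorem lift_inl (ω : FreeGroup S) :
    FreeGroup.lift (lab' lab P R) (FreeGroup.map Sum.inl ω) = FreeGroup.lift lab ω :=
  lift_map _ _ _

theorem P_rel (f : P.R) : FreeGroup.lift P.lab (P.w f) = 1 := by
  have : P.w f ∈ (FreeGroup.lift P.lab).ker := P.ker ▸ Subgroup.subset_normalClosure ⟨f, rfl⟩
  exact this

theorem lift_yl (i : R) : FreeGroup.lift (lab' lab P R) (yl i) = 1 := by simp [yl]

include hp in
theorem lift_w0 (f : P.R ⊕ S) : FreeGroup.lift (lab' lab P R) (w0 P p f) = 1 := by
  rcases f with f | s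
  · rw [w0, lift_iT, P_rel]
  · rw [w0, map_mul, lift_iT, hp]; simp

include hp in
theorem ker_le {ω : FreeGroup (S ⊕ (P.T ⊕ R))} (hω : FreeGroup.lift (lab' lab P R) ω = 1) :
    ω ∈ Subgroup.normalClosure (Set.range (w0 P p) ∪ Set.range yl) := by
  set N := Subgroup.normalClosure (Set.range (w0 (R := R) P p) ∪ Set.range yl)
  let τ : S ⊕ (P.T ⊕ R) → FreeGroup P.T := Sum.elim p (Sum.elim FreeGroup.of fun _ => 1)
  have h1 : (QuotientGroup.mk' N).comp ((FreeGroup.map (iT P)).comp (FreeGroup.lift τ)) =
      QuotientGroup.mk' N := by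
    refine FreeGroup.ext_hom _ _ ?_
    rintro (s | e | i)
    · simp only [MonoidHom.comp_apply, FreeGroup.lift_apply_of, QuotientGroup.mk'_apply, τ,
        Sum.elim_inl]
      rw [QuotientGroup.eq_iff_div_mem, div_eq_mul_inv]
      exact Subgroup.subset_normalClosure (Or.inl ⟨Sum.inr s, rfl⟩)
    · simp [τ]
    · simp only [MonoidHom.comp_apply, FreeGroup.lift_apply_of, QuotientGroup.mk'_apply, τ,
        Sum.elim_inr, map_one]
      symm
      rw [QuotientGroup.eq_one_iff]
      exact Subgroup.subset_normalClosure (Or.inr ⟨i, rfl⟩)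
  have h2 : FreeGroup.lift P.lab (FreeGroup.lift τ ω) = 1 := by
    rw [← lift_comp, ← hω]
    congr 2
    funext l
    rcases l with s | e | i <;> simp [τ, hp]
  have h3 : FreeGroup.lift τ ω ∈ Subgroup.normalClosure (Set.range P.w) := P.ker ▸ h2
  have h4 : Subgroup.normalClosure (Set.range P.w) ≤ N.comap (FreeGroup.map (iT P)) :=
    Subgroup.normalClosure_le_normal (by
      rintro _ ⟨f, rfl⟩
      exact Subgroup.subset_normalClosure (Or.inl ⟨Sum.inl f, rfl⟩))
  rw [← QuotientGroup.eq_one_iff, ← QuotientGroup.mk'_apply, ← h1]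
  exact (QuotientGroup.eq_one_iff _).2 (h4 h3)

include hp in
theorem w0_inj (c : G × (P.R ⊕ S) →₀ ℤ) (c' : G × R →₀ ℤ)
    (h : bd (lab' lab P R) (w0 P p) c = bd (lab' lab P R) yl c') : c = 0 := by
  let πS : (G × (S ⊕ (P.T ⊕ R)) →₀ ℤ) →ₗ[ℤ] (G × (P.R ⊕ S) →₀ ℤ) :=
    Finsupp.linearCombination ℤ fun q =>
      Sum.elim (fun s => Finsupp.single (q.1, Sum.inr s) 1) (fun _ => 0) q.2
  let πT : (G × (S ⊕ (P.T ⊕ R)) →₀ ℤ) →ₗ[ℤ] (G × P.T →₀ ℤ) :=
    Finsupp.linearCombination ℤ fun q =>
      Sum.elim (fun _ => 0) (Sum.elim (fun e => Finsupp.single (q.1, e) 1) fun _ => 0) q.2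
  let ρ : (G × (P.R ⊕ S) →₀ ℤ) →ₗ[ℤ] (G × P.R →₀ ℤ) :=
    Finsupp.linearCombination ℤ fun q =>
      Sum.elim (fun f => Finsupp.single (q.1, f) 1) (fun _ => 0) q.2
  let ι : (G × P.R →₀ ℤ) →ₗ[ℤ] (G × (P.R ⊕ S) →₀ ℤ) :=
    Finsupp.linearCombination ℤ fun q => Finsupp.single (q.1, Sum.inl q.2) 1
  have hS : ∀ ω x, πS (chain (lab' lab P R) (FreeGroup.map (iT P) ω) x) = 0 := fun ω x => by
    rw [lin_chain_map]; exact lin_zero _
  have hT : ∀ ω x, πT (chain (lab' lab P R) (FreeGroup.map (iT P) ω) x) = chain P.lab ω x :=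
    fun ω x => by rw [lin_chain_map]; exact lin_single _
  have h1 : ∀ c, c = ι (ρ c) - πS (bd (lab' lab P R) (w0 P p) c) := fun c => by
    induction c using Finsupp.induction_linear with
    | zero => simp
    | add f g hf hg => simp only [map_add]; conv_lhs => rw [hf, hg]
                       abel
    | single q n =>
      obtain ⟨g, f | s⟩ := q
      · simp [w0, hS, ι, ρ]
      · simp [w0, hS, chain_mul, chain_inv, lift_iT, hp, ι, ρ]
        simp [πS]
  have h2 : ∀ c, πS (bd (lab' lab P R) yl c) = 0 := fun c => by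
    induction c using Finsupp.induction_linear with
    | zero => simp
    | add f g hf hg => simp only [map_add, hf, hg, add_zero]
    | single q n => simp [yl, πS]
  have h3 : ∀ c, πT (bd (lab' lab P R) yl c) = 0 := fun c => by
    induction c using Finsupp.induction_linear with
    | zero => simp
    | add f g hf hg => simp only [map_add, hf, hg, add_zero]
    | single q n => simp [yl, πT]
  have h4 : ∀ c, πT (bd (lab' lab P R) (w0 P p) (ι c)) = bd P.lab P.w c := fun c => by
    induction c using Finsupp.induction_linear with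
    | zero => simp
    | add f g hf hg => simp only [map_add, hf, hg]
    | single q n => simp [ι, w0, hT]
  have h5 := h1 c
  rw [h, h2, sub_zero] at h5
  have h6 := h4 (ρ c)
  rw [← h5, h, h3] at h6
  rw [h5, P.inj (h6.symm.trans (map_zero _).symm), map_zero]

end main

end Alg

open Alg in
theorem algStmt : AlgStmt := by
  intro G S R _ lab r hA P
  choose p hp using fun s => P.surj (lab s)
  choose pe hpe using fun e => hA.surj (P.lab e)
  set L := S ⊕ (P.T ⊕ R)
  set lb := lab' lab P R with hlb
  let sub : L → FreeGroup S := Sum.elim FreeGroup.of (Sum.elim pe r)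
  have hsub : (fun l => FreeGroup.lift lab (sub l)) = lb := by
    funext l
    rcases l with s | e | i <;> simp [sub, lb, hpe, hA.rel]
  have hsurj : Function.Surjective (FreeGroup.lift lb) := fun g => by
    obtain ⟨ω, hω⟩ := P.surj g
    exact ⟨FreeGroup.map (iT P) ω, by rw [lift_iT, hω]⟩
  have hSub : ∀ ω x, bd lab sub (chain lb ω x) = chain lab (FreeGroup.lift sub ω) x :=
    fun ω x => by rw [chain_subst, hsub]
  have hlift : ∀ ω, FreeGroup.lift lab (FreeGroup.lift sub ω) = FreeGroup.lift lb ω :=
    fun ω => by rw [← lift_comp, hsub]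
  have hSY : ∀ c, bd lab sub (bd lb yl c) = bd lab r c := fun c => by
    induction c using Finsupp.induction_linear with
    | zero => simp
    | add f g hf hg => simp only [map_add, hf, hg]
    | single q n => simp [yl, sub]
  have hSS : ∀ c, bd lab sub (bd lb (fun s => FreeGroup.of (Sum.inl s)) c) = c := fun c => by
    induction c using Finsupp.induction_linear with
    | zero => simp
    | add f g hf hg => simp only [map_add, hf, hg]
    | single q n => simp [sub]
  have hinl : ∀ ω x, chain lb (FreeGroup.map Sum.inl ω) x =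
      bd lb (fun s => FreeGroup.of (Sum.inl s)) (chain lab ω x) := fun ω x => by
    have := chain_subst lb (fun s => FreeGroup.of (Sum.inl s)) ω x
    simp only [FreeGroup.lift_apply_of] at this
    rw [FreeGroup.map_eq_lift]
    exact this
  choose c hc using fun f => hA.exact (bd lab sub (chain lb (w0 P p f) 1)) (by
    rw [hSub, d1_chain, hlift, lift_w0 hp]; simp)
  choose k hk hkc using fun f => exists_word lb yl hsurj lift_yl (c f)
  have hNY : Subgroup.normalClosure (Set.range (yl (S := S) (E := P.T) (R := R))) ≤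
      (FreeGroup.lift lb).ker :=
    Subgroup.normalClosure_le_normal (by rintro _ ⟨i, rfl⟩; exact lift_yl i)
  let w : P.R ⊕ S → FreeGroup L := fun f => w0 P p f * (k f)⁻¹
  have hw : ∀ f, FreeGroup.lift lb (w f) = 1 := fun f => by
    rw [map_mul, map_inv, lift_w0 hp, hNY (hk f)]; simp
  have hcw : ∀ f x, chain lb (w f) x = chain lb (w0 P p f) x - bd lb yl (tr R x (c f)) :=
    fun f x => by
    rw [chain_mul, chain_inv, lift_w0 hp, hNY (hk f), ← tr_bd, ← hkc, tr_chain, sub_eq_add_neg]
    simp
  have hSW : ∀ z, bd lab sub (bd lb w z) = 0 := fun z => by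
    induction z using Finsupp.induction_linear with
    | zero => simp
    | add f g hf hg => simp only [map_add, hf, hg, add_zero]
    | single q n =>
      rw [bd_single, map_zsmul, hcw, map_sub, hSY, ← tr_bd, hc, tr_bd, tr_chain, mul_one, sub_self,
        smul_zero]
  have hWinj : ∀ z, bd lb w z = 0 → z = 0 := fun z hz => by
    have : ∀ z, bd lb w z = bd lb (w0 P p) z - bd lb yl
        (Finsupp.linearCombination ℤ (fun q : G × (P.R ⊕ S) => tr R q.1 (c q.2)) z) := fun z => by
      induction z using Finsupp.induction_linear with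
      | zero => simp
      | add f g hf hg => simp only [map_add, hf, hg]; abel
      | single q n => simp [hcw, smul_sub]
    rw [this, sub_eq_zero] at hz
    exact w0_inj hp _ _ hz
  have hker : ∀ ω, FreeGroup.lift lb ω = 1 →
      ω ∈ Subgroup.normalClosure (Set.range w ∪ Set.range yl) := fun ω hω => by
    refine Subgroup.normalClosure_le_normal ?_ (ker_le hp hω)
    rintro _ (⟨f, rfl⟩ | h)
    · have : w0 P p f = w f * k f := by simp [w]
      rw [this]
      exact mul_mem (Subgroup.subset_normalClosure (Or.inl ⟨f, rfl⟩))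
        (Subgroup.normalClosure_mono Set.subset_union_right (hk f))
    · exact Subgroup.subset_normalClosure (Or.inr h)
  have hkey : ∀ l, ∃ z, chain lb (FreeGroup.map Sum.inl (sub l) * (FreeGroup.of l)⁻¹) 1 =
      bd lb w z := fun l => by
    have h1 : FreeGroup.lift lb (FreeGroup.map Sum.inl (sub l)) = lb l := by
      rw [lift_inl]; exact congrFun hsub l
    obtain ⟨z, z', hz⟩ := chain_mem_sup lb w yl hw lift_yl
      (hker (FreeGroup.map Sum.inl (sub l) * (FreeGroup.of l)⁻¹) (by simp [h1])) 1
    have h2 := congrArg (bd lab sub) hz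
    rw [map_add, hSW, hSY, chain_mul, chain_inv, h1, hinl, map_add, hSS] at h2
    simp only [FreeGroup.lift_apply_of, one_mul, mul_inv_cancel, chain_of, map_neg, bd_single,
      one_smul, add_neg_cancel, zero_add] at h2
    rw [hA.inj (h2.symm.trans (map_zero _).symm), map_zero, add_zero] at hz
    exact ⟨z, hz⟩
  refine ⟨⟨P.T, P.R ⊕ S, P.lab, w, hw, fun i => ?_, fun γ hγ => hker _ (by rw [lift_inl, hγ]),
    fun Q _ φ b => ?_⟩⟩
  · set NY := Subgroup.normalClosure (Set.range (yl (S := S) (E := P.T) (R := R)))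
    set J := Subgroup.normalClosure (Set.range w ∪
      {c | ∃ m ∈ NY, ∃ m' ∈ NY, c = m * m' * m⁻¹ * m'⁻¹})
    let M := NY.map (QuotientGroup.mk' J)
    have hMn : M.Normal := Subgroup.Normal.map inferInstance _ (QuotientGroup.mk'_surjective J)
    let _ : CommGroup M :=
      { (inferInstance : Group M) with
        mul_comm := by
          rintro ⟨_, m, hm, rfl⟩ ⟨_, m', hm', rfl⟩
          apply Subtype.ext
          change QuotientGroup.mk' J m * QuotientGroup.mk' J m' =
            QuotientGroup.mk' J m' * QuotientGroup.mk' J m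
          rw [← map_mul, ← map_mul, QuotientGroup.mk'_apply, QuotientGroup.mk'_apply,
            QuotientGroup.eq_iff_div_mem, div_eq_mul_inv, mul_inv_rev, ← mul_assoc]
          exact Subgroup.subset_normalClosure (Or.inr ⟨m, hm, m', hm', rfl⟩) }
    have hM : ∀ ω, FreeGroup.lift lb ω = 1 → QuotientGroup.mk' J ω ∈ M := fun ω hω => by
      have : Subgroup.normalClosure (Set.range w ∪ Set.range yl) ≤ M.comap (QuotientGroup.mk' J) :=
        Subgroup.normalClosure_le_normal (by
          rintro _ (⟨f, rfl⟩ | h)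
          · have : QuotientGroup.mk' J (w f) = 1 := (QuotientGroup.eq_one_iff _).2
              (Subgroup.subset_normalClosure (Or.inl ⟨f, rfl⟩))
            change QuotientGroup.mk' J (w f) ∈ M
            rw [this]; exact one_mem _
          · exact ⟨_, Subgroup.subset_normalClosure h, rfl⟩)
      exact this (hker ω hω)
    obtain ⟨t, ht, ht1⟩ : ∃ t : G → FreeGroup L, (∀ g, FreeGroup.lift lb (t g) = g) ∧ t 1 = 1 := by
      choose t ht using hsurj
      refine ⟨Function.update t 1 1, fun g => ?_, by simp⟩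
      by_cases hg : g = 1
      · subst hg; simp
      · rw [Function.update_of_ne hg, ht]
    let a : L → G → M := fun l y =>
      ⟨QuotientGroup.mk' J (t y * FreeGroup.of l * (t (y * lb l))⁻¹), hM _ (by simp [ht])⟩
    have ha : ∀ ω x, ((hol lb a ω x : M) : FreeGroup L ⧸ J) =
        QuotientGroup.mk' J (t x * ω * (t (x * FreeGroup.lift lb ω))⁻¹) := fun ω x => by
      rw [← hol_section, map_hol]
      exact map_hol lb a M.subtype ω x
    have hΛ : ∀ z, Finsupp.linearCombination ℤ (fun q : G × L => Additive.ofMul (a q.2 q.1))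
        (bd lb w z) = 0 := fun z => by
      induction z using Finsupp.induction_linear with
      | zero => simp
      | add f g hf hg => simp only [map_add, hf, hg, add_zero]
      | single q n =>
        rw [bd_single, map_zsmul, ← ofMul_hol]
        have : hol lb a (w q.2) q.1 = 1 := by
          apply Subtype.ext
          rw [ha, hw, mul_one]
          have hJ : w q.2 ∈ J := Subgroup.subset_normalClosure (Or.inl ⟨_, rfl⟩)
          exact (QuotientGroup.eq_one_iff _).2 (Subgroup.normalClosure_normal.conj_mem _ hJ _)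
        rw [this, ofMul_one, smul_zero]
    obtain ⟨z, hz⟩ := hkey (Sum.inr (Sum.inr i))
    have h1 := hΛ z
    rw [← hz, ← ofMul_hol, ofMul_eq_zero] at h1
    have h2 := ha (FreeGroup.map Sum.inl (r i) * (yl i)⁻¹) 1
    have h3 : FreeGroup.lift lb (FreeGroup.map Sum.inl (r i) * (yl i)⁻¹) = 1 := by
      rw [map_mul, map_inv, lift_inl, hA.rel, lift_yl]; simp
    rw [show hol lb a (FreeGroup.map Sum.inl (r i) * (yl i)⁻¹) 1 = 1 from h1, h3] at h2
    simp only [inv_one, mul_one, ht1, one_mul] at h2
    exact (QuotientGroup.eq_one_iff _).1 h2.symm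
  · choose z hz using hkey
    let ψ : L → (G × (P.R ⊕ S) →₀ ℤ) := Sum.elim (fun _ => 0) fun l => -z (Sum.inr l)
    have hψ : ∀ l, ∃ s, Finsupp.single (1, l) 1 - bd lb w (ψ l) =
        bd lb (fun s => FreeGroup.of (Sum.inl s)) s := by
      rintro (s | l)
      · exact ⟨Finsupp.single (1, s) 1, by simp [ψ]⟩
      · refine ⟨chain lab (sub (Sum.inr l)) 1, ?_⟩
        have h1 : FreeGroup.lift lb (FreeGroup.map Sum.inl (sub (Sum.inr l))) = lb (Sum.inr l) := by
          rw [lift_inl]; exact congrFun hsub _
        simp only [ψ, Sum.elim_inr, map_neg, ← hz]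
        rw [chain_mul, chain_inv, h1, hinl]
        simp
    let Ψ : (G × L →₀ ℤ) →ₗ[ℤ] (G × (P.R ⊕ S) →₀ ℤ) :=
      Finsupp.linearCombination ℤ fun q => tr _ q.1 (ψ q.2)
    have hΨ : ∀ u, ∃ s, u - bd lb w (Ψ u) = bd lb (fun s => FreeGroup.of (Sum.inl s)) s :=
      fun u => by
      induction u using Finsupp.induction_linear with
      | zero => exact ⟨0, by simp⟩
      | add f g hf hg =>
        obtain ⟨s, hs⟩ := hf
        obtain ⟨s', hs'⟩ := hg
        exact ⟨s + s', by simp only [map_add, ← hs, ← hs']; abel⟩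
      | single q n =>
        obtain ⟨s, hs⟩ := hψ q.2
        refine ⟨n • tr _ q.1 s, ?_⟩
        rw [map_zsmul, ← tr_bd, ← hs, map_sub, tr_bd]
        simp [Ψ, smul_sub]
    have hΨW : ∀ u, Ψ (bd lb w u) = u := fun u => by
      obtain ⟨s, hs⟩ := hΨ (bd lb w u)
      have h1 := congrArg (bd lab sub) hs
      rw [map_sub, hSW, hSW, hSS, sub_zero] at h1
      rw [← h1, map_zero, ← map_sub] at hs
      exact (sub_eq_zero.1 (hWinj _ hs)).symm
    let B : Q → (G × (P.R ⊕ S) →₀ ℤ) →ₗ[ℤ] ZMod 2 := fun x =>
      Finsupp.linearCombination ℤ fun q => Multiplicative.toAdd (b q.2 (x * φ q.1))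
    have hB : ∀ x y u, B (x * φ y) u = B x (tr _ y u) := fun x y u => by
      induction u using Finsupp.induction_linear with
      | zero => simp
      | add f g hf hg => simp only [map_add, hf, hg]
      | single q n => simp [B, mul_assoc]
    refine ⟨fun l x => Multiplicative.ofAdd (B x (ψ (Sum.inr l))), fun f x => ?_⟩
    have e : (Sum.elim (fun _ _ => 1) fun l x => Multiplicative.ofAdd (B x (ψ (Sum.inr l))) :
        L → Q → Multiplicative (ZMod 2)) = fun l x => Multiplicative.ofAdd (B x (ψ l)) := by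
      funext l x
      rcases l with s | l <;> simp [ψ]
    rw [e]
    have h1 := hol_comp (fun l x => Multiplicative.ofAdd (B x (ψ l))) φ lb x (w f) 1
    rw [map_one, mul_one] at h1
    rw [h1]
    simp only [hB]
    rw [hol_pair lb (fun q : G × L => B x (tr _ q.1 (ψ q.2)))]
    have h2 : ∀ u, Finsupp.linearCombination ℤ (fun q : G × L => B x (tr _ q.1 (ψ q.2))) u =
        B x (Ψ u) := fun u => by
      rw [Finsupp.apply_linearCombination]; rfl
    have h3 := hΨW (Finsupp.single (1, f) 1)
    rw [bd_single, one_smul] at h3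
    rw [h2, h3]
    simp [B]

end Crest.Agent.R197
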