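import Crest.Agent.R197.Defs

/-! Row 197: basic lemmas on holonomy, chains and the norm `nu`. -/

set_option autoImplicit false

open scoped Quaternion Classical

namespace Crest.Agent.R197

namespace Wr
variable {Q K : Type} [Group Q] [Group K]

@[simp] theorem mul_left (a b : Wr Q K) (x : Q) :
    (a * b).left x = a.left x * b.left (x * a.right) := rfl
@[simp] theorem mul_right (a b : Wr Q K) : (a * b).right = a.right * b.right := rfl
@[simp] theorem one_left (x : Q) : (1 : Wr Q K).left x = 1 := rfl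
@[simp] theorem one_right : (1 : Wr Q K).right = 1 := rfl
@[simp] theorem inv_left (a : Wr Q K) (x : Q) : a⁻¹.left x = (a.left (x * a.right⁻¹))⁻¹ := rfl
@[simp] theorem inv_right (a : Wr Q K) : a⁻¹.right = a.right⁻¹ := rfl

/-- the projection to `Q` -/
def rightHom : Wr Q K →* Q where
  toFun := Wr.right
  map_one' := rfl
  map_mul' _ _ := rfl

@[simp] theorem rightHom_apply (a : Wr Q K) : rightHom a = a.right := rfl

end Wr

section hol
variable {L Q K : Type} [Group Q] [Group K] (lab : L → Q) (a : L → Q → K)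

theorem lift_right (ω : FreeGroup L) :
    (FreeGroup.lift (fun l => (⟨a l, lab l⟩ : Wr Q K)) ω).right = FreeGroup.lift lab ω := by
  have : Wr.rightHom.comp (FreeGroup.lift (fun l => (⟨a l, lab l⟩ : Wr Q K))) =
      FreeGroup.lift lab := FreeGroup.ext_hom _ _ fun l => by simp
  exact DFunLike.congr_fun this ω

@[simp] theorem hol_one (x : Q) : hol lab a 1 x = 1 := by simp [hol]

@[simp] theorem hol_of (l : L) (x : Q) : hol lab a (FreeGroup.of l) x = a l x := by simp [hol]

theorem hol_mul (u v : FreeGroup L) (x : Q) :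
    hol lab a (u * v) x = hol lab a u x * hol lab a v (x * FreeGroup.lift lab u) := by
  simp [hol, lift_right]

theorem hol_inv (u : FreeGroup L) (x : Q) :
    hol lab a u⁻¹ x = (hol lab a u (x * (FreeGroup.lift lab u)⁻¹))⁻¹ := by
  simp [hol, lift_right]

/-- a cocycle is determined by its values on the letters -/
theorem hol_unique (F : FreeGroup L → Q → K)
    (hm : ∀ u v x, F (u * v) x = F u x * F v (x * FreeGroup.lift lab u))
    (hof : ∀ l x, F (FreeGroup.of l) x = a l x) (ω : FreeGroup L) (x : Q) :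
    F ω x = hol lab a ω x := by
  have h1 : ∀ x, F 1 x = 1 := fun x => by
    have := hm 1 1 x
    simpa using this
  let μ : FreeGroup L →* Wr Q K :=
    { toFun := fun u => ⟨F u, FreeGroup.lift lab u⟩
      map_one' := Wr.ext (funext h1) (map_one _)
      map_mul' := fun u v => Wr.ext (funext (hm u v)) (map_mul _ _ _) }
  have : μ = FreeGroup.lift (fun l => (⟨a l, lab l⟩ : Wr Q K)) :=
    FreeGroup.ext_hom _ _ fun l => by
      rw [FreeGroup.lift_apply_of]
      exact Wr.ext (funext (hof l)) (FreeGroup.lift_apply_of)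
  exact congrArg (fun ν : FreeGroup L →* Wr Q K => (ν ω).left x) this

theorem lift_eq_mk (u : L → Wr Q K) (ω : FreeGroup L) :
    FreeGroup.lift u ω = ⟨hol (fun l => (u l).right) (fun l => (u l).left) ω,
      FreeGroup.lift (fun l => (u l).right) ω⟩ :=
  Wr.ext rfl (lift_right (fun l => (u l).right) (fun l => (u l).left) ω)

/-- naturality in the coefficients -/
theorem map_hol {K' : Type} [Group K'] (f : K →* K') (ω : FreeGroup L) (x : Q) :
    f (hol lab a ω x) = hol lab (fun l y => f (a l y)) ω x :=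
  hol_unique lab _ (fun u x => f (hol lab a u x)) (fun u v x => by rw [hol_mul, map_mul])
    (fun l x => by rw [hol_of]) ω x

theorem lift_comp {G H : Type*} [Group G] [Group H] (φ : G →* H) (lab : L → G) (ω : FreeGroup L) :
    FreeGroup.lift (fun l => φ (lab l)) ω = φ (FreeGroup.lift lab ω) := by
  have : FreeGroup.lift (fun l => φ (lab l)) = φ.comp (FreeGroup.lift lab) :=
    FreeGroup.ext_hom _ _ fun l => by simp
  exact DFunLike.congr_fun this ω

/-- naturality in the base (pull-back along `y ↦ x₀ * φ y`) -/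
theorem hol_comp {G : Type} [Group G] (φ : G →* Q) (lab : L → G) (x₀ : Q) (ω : FreeGroup L)
    (g : G) :
    hol (fun l => φ (lab l)) a ω (x₀ * φ g) = hol lab (fun l y => a l (x₀ * φ y)) ω g :=
  hol_unique lab _ (fun u g => hol (fun l => φ (lab l)) a u (x₀ * φ g))
    (fun u v g => by rw [hol_mul, lift_comp, map_mul, mul_assoc]) (fun l g => by rw [hol_of]) ω g

/-- left translation -/
theorem hol_translate (x₀ : Q) (ω : FreeGroup L) (x : Q) :
    hol lab a ω (x₀ * x) = hol lab (fun l y => a l (x₀ * y)) ω x :=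
  hol_comp a (MonoidHom.id Q) lab x₀ ω x

/-- substitution -/
theorem hol_subst {L' : Type} (s : L' → FreeGroup L) (ω : FreeGroup L') (x : Q) :
    hol lab a (FreeGroup.lift s ω) x =
      hol (fun l => FreeGroup.lift lab (s l)) (fun l => hol lab a (s l)) ω x :=
  hol_unique _ _ (fun u x => hol lab a (FreeGroup.lift s u) x)
    (fun u v x => by rw [map_mul, hol_mul, lift_comp (FreeGroup.lift lab) s u])
    (fun l x => by rw [FreeGroup.lift_apply_of]) ω x

theorem lift_map {L' G : Type*} [Group G] (lab : L → G) (f : L' → L) (ω : FreeGroup L') :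
    FreeGroup.lift lab (FreeGroup.map f ω) = FreeGroup.lift (fun l => lab (f l)) ω := by
  have : (FreeGroup.lift lab).comp (FreeGroup.map f) = FreeGroup.lift (fun l => lab (f l)) :=
    FreeGroup.ext_hom _ _ fun l => by simp
  exact DFunLike.congr_fun this ω

theorem hol_freeMap {L' : Type} (f : L' → L) (ω : FreeGroup L') (x : Q) :
    hol lab a (FreeGroup.map f ω) x = hol (fun l => lab (f l)) (fun l => a (f l)) ω x :=
  hol_unique _ _ (fun u x => hol lab a (FreeGroup.map f u) x)
    (fun u v x => by rw [map_mul, hol_mul, lift_map])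
    (fun l x => by rw [FreeGroup.map.of, hol_of]) ω x

theorem hol_const (k : L → K) (ω : FreeGroup L) (x : Q) :
    hol lab (fun l _ => k l) ω x = FreeGroup.lift k ω :=
  (hol_unique lab _ (fun u _ => FreeGroup.lift k u) (fun _ _ _ => map_mul _ _ _)
    (fun _ _ => FreeGroup.lift_apply_of) ω x).symm

@[simp] theorem hol_triv (ω : FreeGroup L) (x : Q) : hol lab (fun _ _ => (1 : K)) ω x = 1 :=
  (hol_unique lab _ (fun _ _ => 1) (fun _ _ _ => (mul_one _).symm) (fun _ _ => rfl) ω x).symm

/-- gauge transformations -/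
theorem hol_gauge (c : Q → K) (ω : FreeGroup L) (x : Q) :
    hol lab (fun l y => c y * a l y * (c (y * lab l))⁻¹) ω x =
      c x * hol lab a ω x * (c (x * FreeGroup.lift lab ω))⁻¹ :=
  (hol_unique lab _ (fun u x => c x * hol lab a u x * (c (x * FreeGroup.lift lab u))⁻¹)
    (fun u v x => by rw [hol_mul, map_mul, ← mul_assoc x]; group)
    (fun l x => by rw [hol_of, FreeGroup.lift_apply_of]) ω x).symm

/-- coboundaries -/
theorem hol_pot (c : Q → K) (ω : FreeGroup L) (x : Q) :
    hol lab (fun l y => (c y)⁻¹ * c (y * lab l)) ω x =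
      (c x)⁻¹ * c (x * FreeGroup.lift lab ω) := by
  simpa using hol_gauge lab (fun _ _ => (1 : K)) (fun y => (c y)⁻¹) ω x

/-- the Schreier connection of a "transversal" `t` -/
theorem hol_section (t : Q → FreeGroup L) (ω : FreeGroup L) (x : Q) :
    hol lab (fun l y => t y * FreeGroup.of l * (t (y * lab l))⁻¹) ω x =
      t x * ω * (t (x * FreeGroup.lift lab ω))⁻¹ := by
  rw [hol_gauge lab (fun l _ => FreeGroup.of l) t, hol_const, FreeGroup.lift_of_eq_id]
  rfl

theorem hol_conj (u v : FreeGroup L) (hv : FreeGroup.lift lab v = 1) (x : Q) :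
    hol lab a (u * v * u⁻¹) x =
      hol lab a u x * hol lab a v (x * FreeGroup.lift lab u) * (hol lab a u x)⁻¹ := by
  rw [hol_mul, hol_mul, hol_inv, map_mul, hv, mul_one, mul_inv_cancel_right]

theorem hol_mul_of_eq_one (u v : FreeGroup L) (hu : FreeGroup.lift lab u = 1) (x : Q) :
    hol lab a (u * v) x = hol lab a u x * hol lab a v x := by
  rw [hol_mul, hu, mul_one]

theorem hol_inv_of_eq_one (u : FreeGroup L) (hu : FreeGroup.lift lab u = 1) (x : Q) :
    hol lab a u⁻¹ x = (hol lab a u x)⁻¹ := by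
  rw [hol_inv, hu, inv_one, mul_one]

/-- induction over a normal closure -/
theorem normalClosure_induction {F : Type*} [Group F] {s : Set F} {P : F → Prop}
    (hs : ∀ w ∈ s, P w) (h1 : P 1) (hm : ∀ u v, P u → P v → P (u * v)) (hi : ∀ u, P u → P u⁻¹)
    (hc : ∀ u v, P v → P (u * v * u⁻¹)) {ω : F} (hω : ω ∈ Subgroup.normalClosure s) : P ω := by
  let N : Subgroup F :=
    { carrier := {w | P w}, one_mem' := h1, mul_mem' := fun {u v} => hm u v
      inv_mem' := fun {u} => hi u }
  have : N.Normal := ⟨fun v hv u => hc u v hv⟩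
  exact Subgroup.normalClosure_le_normal (N := N) hs hω

theorem hol_eq_one_of_mem {s : Set (FreeGroup L)}
    (hs : ∀ w ∈ s, FreeGroup.lift lab w = 1 ∧ ∀ x, hol lab a w x = 1) {ω : FreeGroup L}
    (hω : ω ∈ Subgroup.normalClosure s) : FreeGroup.lift lab ω = 1 ∧ ∀ x, hol lab a ω x = 1 := by
  refine normalClosure_induction (P := fun w => FreeGroup.lift lab w = 1 ∧ ∀ x, hol lab a w x = 1)
    hs ⟨map_one _, hol_one lab a⟩ ?_ ?_ ?_ hω
  · rintro u v ⟨h1, h2⟩ ⟨h3, h4⟩
    exact ⟨by rw [map_mul, h1, h3, mul_one], fun x => by rw [hol_mul, h2, h4, mul_one]⟩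
  · rintro u ⟨h1, h2⟩
    exact ⟨by rw [map_inv, h1, inv_one], fun x => by rw [hol_inv, h2, inv_one]⟩
  · rintro u v ⟨h1, h2⟩
    exact ⟨by simp [h1], fun x => by rw [hol_conj lab a u v h1, h2]; simp⟩

end hol

section chain
variable {L G : Type} [Group G] (lab : L → G)

@[simp] theorem chain_one (x : G) : chain lab 1 x = 0 := by simp [chain]

@[simp] theorem chain_of (l : L) (x : G) :
    chain lab (FreeGroup.of l) x = Finsupp.single (x, l) 1 := by simp [chain]

theorem chain_mul (u v : FreeGroup L) (x : G) :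
    chain lab (u * v) x = chain lab u x + chain lab v (x * FreeGroup.lift lab u) := by
  simp [chain, hol_mul]

theorem chain_inv (u : FreeGroup L) (x : G) :
    chain lab u⁻¹ x = -chain lab u (x * (FreeGroup.lift lab u)⁻¹) := by
  simp [chain, hol_inv]

theorem chain_conj (u v : FreeGroup L) (hv : FreeGroup.lift lab v = 1) (x : G) :
    chain lab (u * v * u⁻¹) x = chain lab v (x * FreeGroup.lift lab u) := by
  simp [chain, hol_conj lab _ u v hv]

/-- pairing of cochains with chains -/
theorem hol_pair {M : Type} [AddCommGroup M] (φ : G × L → M) (ω : FreeGroup L) (x : G) :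
    hol lab (fun l y => Multiplicative.ofAdd (φ (y, l))) ω x =
      Multiplicative.ofAdd (Finsupp.linearCombination ℤ φ (chain lab ω x)) :=
  (hol_unique lab _ (fun u x => Multiplicative.ofAdd (Finsupp.linearCombination ℤ φ (chain lab u x)))
    (fun u v x => by rw [chain_mul, map_add, ofAdd_add])
    (fun l x => by simp) ω x).symm

theorem toAdd_hol {M : Type} [AddCommGroup M] (a : L → G → Multiplicative M) (ω : FreeGroup L)
    (x : G) : Multiplicative.toAdd (hol lab a ω x) =
      Finsupp.linearCombination ℤ (fun p : G × L => Multiplicative.toAdd (a p.2 p.1))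
        (chain lab ω x) :=
  congrArg Multiplicative.toAdd
    (hol_pair lab (fun p : G × L => Multiplicative.toAdd (a p.2 p.1)) ω x)

/-- the same for a commutative group written multiplicatively -/
theorem ofMul_hol {K : Type} [CommGroup K] (a : L → G → K) (ω : FreeGroup L) (x : G) :
    Additive.ofMul (hol lab a ω x) =
      Finsupp.linearCombination ℤ (fun p : G × L => Additive.ofMul (a p.2 p.1)) (chain lab ω x) :=
  toAdd_hol (M := Additive K) lab a ω x

@[simp] theorem d1_single (p : G × L) (n : ℤ) :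
    d1 lab (Finsupp.single p n) = Finsupp.single (p.1 * lab p.2) n - Finsupp.single p.1 n := by
  simp [d1, smul_sub]

@[simp] theorem bd_single {R : Type} (w : R → FreeGroup L) (p : G × R) (n : ℤ) :
    bd lab w (Finsupp.single p n) = n • chain lab (w p.2) p.1 := by
  simp [bd]

theorem d1_chain (ω : FreeGroup L) (x : G) :
    d1 lab (chain lab ω x) =
      Finsupp.single (x * FreeGroup.lift lab ω) 1 - Finsupp.single x 1 := by
  have h1 := hol_pair lab (fun p : G × L =>
    (Finsupp.single (p.1 * lab p.2) 1 - Finsupp.single p.1 1 : G →₀ ℤ)) ω x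
  have h2 := hol_pot lab (fun y => Multiplicative.ofAdd (Finsupp.single y (1 : ℤ))) ω x
  simp only [← ofAdd_neg, ← ofAdd_add, neg_add_eq_sub] at h2
  exact Multiplicative.ofAdd.injective (h1.symm.trans h2)

theorem d1_bd {R : Type} (w : R → FreeGroup L) (hw : ∀ r, FreeGroup.lift lab (w r) = 1)
    (c : G × R →₀ ℤ) : d1 lab (bd lab w c) = 0 := by
  induction c using Finsupp.induction_linear with
  | zero => simp
  | add f g hf hg => rw [map_add, map_add, hf, hg, add_zero]
  | single p n => rw [bd_single, map_zsmul, d1_chain, hw, mul_one, sub_self, smul_zero]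

/-- left translation of chains -/
theorem chain_translate (g : G) (ω : FreeGroup L) (x : G) :
    chain lab ω (g * x) = Finsupp.mapDomain (fun p : G × L => (g * p.1, p.2)) (chain lab ω x) := by
  have := hol_pair lab (fun p : G × L => (Finsupp.single (g * p.1, p.2) 1 : G × L →₀ ℤ)) ω x
  rw [chain, hol_translate, this, toAdd_ofAdd, Finsupp.linearCombination_apply, Finsupp.mapDomain]
  simp

/-- substitution of words for letters -/
theorem chain_subst {L' : Type} (s : L' → FreeGroup L) (ω : FreeGroup L') (x : G) :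
    chain lab (FreeGroup.lift s ω) x =
      bd lab s (chain (fun l => FreeGroup.lift lab (s l)) ω x) := by
  rw [chain, hol_subst, toAdd_hol]
  rfl

theorem chain_mem_range {R : Type} (w : R → FreeGroup L) (hw : ∀ r, FreeGroup.lift lab (w r) = 1)
    {ω : FreeGroup L} (hω : ω ∈ Subgroup.normalClosure (Set.range w)) (x : G) :
    chain lab ω x ∈ LinearMap.range (bd lab w) := by
  refine (normalClosure_induction (P := fun u => FreeGroup.lift lab u = 1 ∧
    ∀ x, chain lab u x ∈ LinearMap.range (bd lab w)) ?_ ⟨map_one _, fun x => by simp⟩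
    ?_ ?_ ?_ hω).2 x
  · rintro _ ⟨r, rfl⟩
    exact ⟨hw r, fun x => ⟨Finsupp.single (x, r) 1, by simp⟩⟩
  · rintro u v ⟨h1, h2⟩ ⟨h3, h4⟩
    exact ⟨by rw [map_mul, h1, h3, mul_one], fun x => by
      rw [chain_mul]; exact add_mem (h2 _) (h4 _)⟩
  · rintro u ⟨h1, h2⟩
    exact ⟨by rw [map_inv, h1, inv_one], fun x => by rw [chain_inv]; exact neg_mem (h2 _)⟩
  · rintro u v ⟨h1, h2⟩
    exact ⟨by simp [h1], fun x => by rw [chain_conj lab u v h1]; exact h2 _⟩

/-- every cycle is a combination of closed paths -/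
theorem cycle_eq (t : G → FreeGroup L) (ht : ∀ g, FreeGroup.lift lab (t g) = g)
    (z : G × L →₀ ℤ) :
    Finsupp.linearCombination ℤ (fun p : G × L =>
      chain lab (t p.1 * FreeGroup.of p.2 * (t (p.1 * lab p.2))⁻¹) 1) z =
      z - Finsupp.linearCombination ℤ (fun g => chain lab (t g) 1) (d1 lab z) := by
  induction z using Finsupp.induction_linear with
  | zero => simp
  | add f g hf hg => rw [map_add, hf, hg, map_add, map_add]; abel
  | single p n =>
    simp only [Finsupp.linearCombination_single, d1_single, map_sub, chain_mul, chain_inv,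
      map_mul, ht, FreeGroup.lift_apply_of, one_mul, mul_inv_cancel, chain_of, smul_add, smul_neg,
      Finsupp.smul_single, smul_eq_mul, mul_one]
    abel

/-- the Cayley complex of a presentation has no first homology -/
theorem exact_of_ker {R : Type} (w : R → FreeGroup L)
    (hs : Function.Surjective (FreeGroup.lift lab))
    (hk : (FreeGroup.lift lab).ker = Subgroup.normalClosure (Set.range w)) (z : G × L →₀ ℤ)
    (hz : d1 lab z = 0) : ∃ c, bd lab w c = z := by
  choose t ht using hs
  have hw : ∀ r, FreeGroup.lift lab (w r) = 1 := fun r => by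
    have : w r ∈ (FreeGroup.lift lab).ker := hk ▸ Subgroup.subset_normalClosure ⟨r, rfl⟩
    exact this
  have := cycle_eq lab t ht z
  rw [hz, map_zero, sub_zero] at this
  change z ∈ LinearMap.range (bd lab w)
  rw [← this, Finsupp.linearCombination_apply]
  refine Submodule.finsuppSum_mem _ _ _ _ fun p _ => Submodule.smul_mem _ _ ?_
  refine chain_mem_range lab w hw (hk ▸ ?_) 1
  simp [MonoidHom.mem_ker, ht]

end chain

section nu

theorem S3.norm_coe (q : S3) : ‖(q : ℍ[ℝ])‖ = 1 := CStarRing.norm_coe_unitary q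

theorem nu_nonneg (q : S3) : 0 ≤ nu q := norm_nonneg _

@[simp] theorem nu_one : nu 1 = 0 := by simp [nu]

theorem nu_eq_zero {q : S3} : nu q = 0 ↔ q = 1 := by
  rw [nu, norm_eq_zero, sub_eq_zero]
  exact ⟨fun h => Subtype.ext h, fun h => by rw [h]; rfl⟩

theorem nu_pos {q : S3} (h : q ≠ 1) : 0 < nu q :=
  (nu_nonneg q).lt_of_ne fun e => h (nu_eq_zero.1 e.symm)

theorem nu_mul_inv (p q : S3) : nu (p * q⁻¹) = ‖(p : ℍ[ℝ]) - q‖ := by
  have h : ((p * q⁻¹ : S3) : ℍ[ℝ]) - 1 = ((p : ℍ[ℝ]) - q) * (q⁻¹ : S3) := by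
    rw [sub_mul, ← Submonoid.coe_mul, ← Submonoid.coe_mul, mul_inv_cancel]; rfl
  rw [nu, h, norm_mul, S3.norm_coe, mul_one]

theorem nu_inv_mul (p q : S3) : nu (p⁻¹ * q) = ‖(p : ℍ[ℝ]) - q‖ := by
  have h : ((p⁻¹ * q : S3) : ℍ[ℝ]) - 1 = (p⁻¹ : S3) * ((q : ℍ[ℝ]) - p) := by
    rw [mul_sub, ← Submonoid.coe_mul, ← Submonoid.coe_mul, inv_mul_cancel]; rfl
  rw [nu, h, norm_mul, S3.norm_coe, one_mul, norm_sub_rev]

@[simp] theorem nu_inv (q : S3) : nu q⁻¹ = nu q := by
  have := nu_inv_mul q 1
  rwa [mul_one] at this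

theorem nu_mul_le (p q : S3) : nu (p * q) ≤ nu p + nu q := by
  have h : ((p * q : S3) : ℍ[ℝ]) - 1 = ((p : ℍ[ℝ]) - 1) * q + (q - 1) := by
    rw [Submonoid.coe_mul]; noncomm_ring
  rw [nu, h]
  refine (norm_add_le _ _).trans ?_
  rw [norm_mul, S3.norm_coe, mul_one]
  rfl

theorem nu_mul_comm (p q : S3) : nu (p * q) = nu (q * p) := by
  have h1 := nu_mul_inv p q⁻¹
  have h2 := nu_inv_mul q⁻¹ p
  rw [inv_inv] at h1 h2
  rw [h1, h2, norm_sub_rev]

@[simp] theorem nu_conj (p q : S3) : nu (p * q * p⁻¹) = nu q := by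
  rw [nu_mul_comm, inv_mul_cancel_left]

theorem nu_comm_le (p q : S3) : nu (p * q * p⁻¹ * q⁻¹) ≤ 2 * nu p * nu q := by
  have h0 : p * q * p⁻¹ * q⁻¹ = p * q * (q * p)⁻¹ := by group
  have h : ((p * q : S3) : ℍ[ℝ]) - (q * p : S3) =
      ((p : ℍ[ℝ]) - 1) * (q - 1) - (q - 1) * (p - 1) := by
    rw [Submonoid.coe_mul, Submonoid.coe_mul]; noncomm_ring
  rw [h0, nu_mul_inv, h]
  refine (norm_sub_le _ _).trans (le_of_eq ?_)
  rw [norm_mul, norm_mul, nu, nu]
  ring

theorem nu_le_two (q : S3) : nu q ≤ 2 := by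
  refine (norm_sub_le _ _).trans (le_of_eq ?_)
  rw [S3.norm_coe, norm_one]; norm_num

end nu

end Crest.Agent.R197
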