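import Crest.Agent.R197.Defs

/-!
# Row 197: CW complexes of dimension two as two attachments; the boundary loop of the square
-/

set_option autoImplicit false

open unitInterval Topology Filter
open scoped Quaternion Classical

namespace Crest.Agent.R197

namespace CW

open Set CWComplex

variable {X : Type} [TopologicalSpace X] [CWComplex (univ : Set X)] [T2Space X]

theorem att (n : ℕ) {Z : Type} [TopologicalSpace Z] (e : Z → X) (he : IsClosedEmbedding e)
    (hr : range e = skeletonLT (univ : Set X) (n + 1)) :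
    Nonempty (Att Z (e ⁻¹' skeletonLT (univ : Set X) n) n) := by
  have h1 : ∀ (j : cell (univ : Set X) n) (y : Dk n), ∃ z, e z = map n j y.1 := fun j y => by
    rw [← mem_range, hr]
    exact closedCell_subset_skeletonLT n j ⟨y.1, y.2, rfl⟩
  choose φ hφ using h1
  have hc : ∀ j, Continuous (φ j) := fun j => he.isInducing.continuous_iff.2 (by
    rw [show e ∘ φ j = _ from funext (hφ j)]
    exact (continuousOn n j).domRestrict)
  have hb : ∀ j (y : Dk n), ‖y.1‖ = 1 → e (φ j y) ∈ skeletonLT (univ : Set X) n := fun j y hy => by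
    rw [hφ]
    exact cellFrontier_subset_skeletonLT n j ⟨y.1, by simpa using hy, rfl⟩
  have ho : ∀ j (y : Dk n), ‖y.1‖ < 1 → e (φ j y) ∈ openCell n j := fun j y hy =>
    ⟨y.1, by simpa using hy, (hφ j y).symm⟩
  have hi : ∀ j (y : Dk n), ‖y.1‖ < 1 → e (φ j y) ∉ skeletonLT (univ : Set X) n := fun j y hy h =>
    disjoint_left.1 (disjoint_skeletonLT_openCell le_rfl) h (ho j y hy)
  refine ⟨⟨cell (univ : Set X) n, fun j => ⟨φ j, hc j⟩,
    (skeletonLT (univ : Set X) n).closed.preimage he.continuous, hb, hi, ?_, ?_, ?_⟩⟩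
  · intro j j' y y' hy h
    change φ j y = φ j' y' at h
    have hy' : ‖y'.1‖ < 1 := lt_of_le_of_ne (mem_closedBall_zero_iff.1 y'.2) fun h' =>
      hi j y hy (h ▸ hb j' y' h')
    obtain rfl : j = j' := by
      by_contra hj
      exact disjoint_left.1 (RelCWComplex.disjoint_openCell_of_ne (by simpa using hj))
        (ho j y hy) (h ▸ ho j' y' hy')
    refine ⟨rfl, Subtype.ext ((map n j).injOn ?_ ?_ (by rw [← hφ, ← hφ, h]))⟩
    · rw [source_eq]; simpa using hy
    · rw [source_eq]; simpa using hy'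
  · intro z hz
    have h : e z ∈ (skeletonLT (univ : Set X) (n + 1) : Set X) := hr ▸ mem_range_self z
    rw [← RelCWComplex.skeletonLT_union_iUnion_closedCell_eq_skeletonLT_succ] at h
    obtain ⟨j, y, hy, h'⟩ := mem_iUnion.1 (h.resolve_left hz)
    exact ⟨j, ⟨y, hy⟩, he.injective ((hφ j _).trans h')⟩
  · intro C h1 h2
    rw [he.isClosed_iff_image_isClosed] at h1 ⊢
    refine isClosed_of_disjoint_openCell_or_isClosed_inter_closedCell (subset_univ _)
      fun m _ j => ?_
    rcases lt_trichotomy m n with h | rfl | h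
    · right
      convert h1.inter (isClosed_closedCell (i := j)) using 1
      refine subset_antisymm ?_ (inter_subset_inter_left _ (image_mono inter_subset_left))
      rintro _ ⟨⟨z, hz, rfl⟩, h'⟩
      exact ⟨⟨z, ⟨hz, skeletonLT_mono (by exact_mod_cast h)
        (closedCell_subset_skeletonLT m j h')⟩, rfl⟩, h'⟩
    · right
      convert ((h2 j).isCompact.image (he.continuous.comp (hc j))).isClosed using 1
      ext x
      constructor
      · rintro ⟨⟨z, hz, rfl⟩, y, hy, h'⟩
        have : φ j ⟨y, hy⟩ = z := he.injective ((hφ j _).trans h')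
        exact ⟨⟨y, hy⟩, show φ j _ ∈ C from this ▸ hz, congrArg e this⟩
      · rintro ⟨y, hy, rfl⟩
        exact ⟨⟨_, hy, rfl⟩, y.1, y.2, (hφ j y).symm⟩
    · left
      refine Disjoint.mono_left (image_subset_range _ _) ?_
      rw [hr]
      exact disjoint_skeletonLT_openCell (by exact_mod_cast h)

theorem closed_zero {B : Set X} (hB : B ⊆ skeletonLT (univ : Set X) (1 : ℕ)) : IsClosed B :=
  isClosed_of_disjoint_openCell_or_isClosed_inter_closedCell (subset_univ _) fun _ hm _ =>
    Or.inl ((disjoint_skeletonLT_openCell (by exact_mod_cast hm)).mono_left hB)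

/-- the point of the circle -/
noncomputable def z (t : ℝ) : ℂ := Complex.exp (2 * Real.pi * t * Complex.I)

/-- as a vector -/
noncomputable def v (t : ℝ) : Fin 2 → ℝ := ![(z t).re, (z t).im]

theorem norm_z (t : ℝ) : ‖z t‖ = 1 := by
  have : (2 * Real.pi * t * Complex.I : ℂ) = ((2 * Real.pi * t : ℝ) : ℂ) * Complex.I := by
    push_cast; ring
  rw [z, this, Complex.norm_exp_ofReal_mul_I]

theorem cont_v : Continuous v := by
  unfold v z
  fun_prop

theorem v_pos (t : ℝ) : 0 < ‖v t‖ := norm_pos_iff.2 fun h => by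
  have h1 : z t = 0 := Complex.ext (congrFun h 0) (congrFun h 1)
  simpa [h1] using norm_z t

theorem norm_lp (t : ℝ) : ‖‖v t‖⁻¹ • v t‖ = 1 := by
  rw [norm_smul, norm_inv, norm_norm, inv_mul_cancel₀ (v_pos t).ne']

/-- the loop -/
noncomputable def lp : C(I, Sp 2) :=
  ⟨fun t => ⟨⟨‖v t‖⁻¹ • v t, mem_closedBall_zero_iff.2 (norm_lp t).le⟩, norm_lp t⟩, by
    have := cont_v
    refine Continuous.subtype_mk (Continuous.subtype_mk (Continuous.smul
      (Continuous.inv₀ (by fun_prop) fun t => (v_pos _).ne') (by fun_prop)) _) _⟩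

theorem lp_eq (t : I) : ((lp t).1.1 0 : ℂ) + (lp t).1.1 1 * Complex.I = z t / (‖v t‖ : ℝ) := by
  change ((‖v t‖⁻¹ * (z t).re : ℝ) : ℂ) + ((‖v t‖⁻¹ * (z t).im : ℝ) : ℂ) * Complex.I = _
  conv_rhs => rw [← Complex.re_add_im (z t)]
  push_cast
  ring

theorem z_add_int (t : ℝ) (k : ℤ) : z (t + k) = z t :=
  Complex.exp_eq_exp_iff_exists_int.2 ⟨k, by push_cast; ring⟩

theorem v_one : v 1 = v 0 := by
  have := z_add_int 0 1
  simp only [Int.cast_one, zero_add] at this
  rw [v, v, this]

end CW

open CW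

theorem cwStmt : CWStmt := by
  intro X _ _ _ h
  obtain ⟨A2⟩ := att 2 (id : X → X) IsClosedEmbedding.id (by
    rw [Set.range_id]
    refine (Set.eq_univ_of_forall fun x => ?_).symm
    have hx : x ∈ (Set.univ : Set X) := trivial
    rw [← CWComplex.iUnion_openCell_eq_complex (C := (Set.univ : Set X))] at hx
    obtain ⟨m, j, hj⟩ := Set.mem_iUnion₂.1 hx
    have hm : m < 2 + 1 := by
      by_contra hm
      exact (h m (by omega)).false j
    exact CWComplex.mem_skeletonLT_iff.2 ⟨m, by exact_mod_cast hm, j, hj⟩)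
  obtain ⟨A1⟩ := att 1 (Subtype.val : (id ⁻¹' (CWComplex.skeletonLT (Set.univ : Set X) (2 : ℕ)) :
    Set X) → X) A2.closedY.isClosedEmbedding_subtypeVal Subtype.range_val
  refine ⟨_, A2, _, A1, fun γ hγ s => ?_⟩
  have hc : Continuous fun s => (γ s).1 := by fun_prop
  have h1 : IsClopen {s | (γ s).1 = (γ 0).1} := by
    refine ⟨isClosed_eq hc continuous_const, isClosed_compl_iff.1 ?_⟩
    convert (closed_zero (X := X) (Set.sdiff_subset (t := {(γ 0).1}))).preimage hc using 1
    ext s
    exact ⟨fun h => ⟨hγ s, h⟩, fun h => h.2⟩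
  have h2 := h1.eq_univ ⟨0, rfl⟩
  exact Subtype.ext (Set.eq_univ_iff_forall.1 h2 s)

theorem loopStmt : LoopStmt := by
  refine ⟨lp, ?_, fun y => ?_, fun s t h => ?_, ?_⟩
  · refine Subtype.ext (Subtype.ext ?_)
    change ‖v 0‖⁻¹ • v 0 = ‖v 1‖⁻¹ • v 1
    rw [v_one]
  · let w : ℂ := ⟨y.1.1 0, y.1.1 1⟩
    have hw : 0 < ‖w‖ := norm_pos_iff.2 fun h => by
      have : y.1.1 = 0 := by
        ext i
        fin_cases i
        · exact congrArg Complex.re h
        · exact congrArg Complex.im h
      simpa [this] using y.2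
    have h1 : z (Int.fract (w.arg / (2 * Real.pi))) = (‖w‖⁻¹ : ℝ) * w := by
      rw [← z_add_int _ ⌊w.arg / (2 * Real.pi)⌋, Int.fract_add_floor, z]
      conv_rhs => enter [2]; rw [← Complex.norm_mul_exp_arg_mul_I w]
      have := Real.pi_ne_zero
      rw [← mul_assoc, ← Complex.ofReal_mul, inv_mul_cancel₀ hw.ne', Complex.ofReal_one, one_mul]
      congr 2
      norm_cast
      field_simp
    have h2 : v (Int.fract (w.arg / (2 * Real.pi))) = ‖w‖⁻¹ • y.1.1 := by
      rw [v, h1]
      ext i
      fin_cases i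
      · exact Complex.re_ofReal_mul _ _
      · exact Complex.im_ofReal_mul _ _
    refine ⟨⟨Int.fract (w.arg / (2 * Real.pi)), Int.fract_nonneg _, (Int.fract_lt_one _).le⟩,
      Subtype.ext (Subtype.ext ?_)⟩
    change ‖v (Int.fract _)‖⁻¹ • v (Int.fract _) = _
    rw [h2, norm_smul, y.2, norm_inv, norm_norm, mul_one, inv_inv, smul_smul,
      mul_inv_cancel₀ hw.ne', one_smul]
  · have h1 : z s / (‖v s‖ : ℝ) = z t / (‖v t‖ : ℝ) := by rw [← lp_eq, ← lp_eq, h]
    have h2 := congrArg norm h1
    rw [norm_div, norm_div, norm_z, norm_z, Complex.norm_real, Complex.norm_real, norm_norm,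
      norm_norm, one_div, one_div, inv_inj] at h2
    rw [h2, div_left_inj' (by exact_mod_cast (v_pos t).ne')] at h1
    obtain ⟨k, hk⟩ := Complex.exp_eq_exp_iff_exists_int.1 h1
    have h3 : (s : ℝ) = t + k := by
      have := congrArg Complex.im hk
      simp at this
      nlinarith [Real.pi_pos]
    have h4 : (-1 : ℤ) ≤ k := by
      have : (-1 : ℝ) ≤ k := by linarith [s.2.1, t.2.2]
      exact_mod_cast this
    have h5 : k ≤ 1 := by
      have : (k : ℝ) ≤ 1 := by linarith [s.2.2, t.2.1]
      exact_mod_cast this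
    interval_cases k
    · push_cast at h3
      exact Or.inr (Or.inl ⟨Subtype.ext (show (s : ℝ) = 0 by linarith [s.2.1, t.2.2]),
        Subtype.ext (show (t : ℝ) = 1 by linarith [s.2.1, t.2.2])⟩)
    · exact Or.inl (Subtype.ext (by simpa using h3))
    · push_cast at h3
      exact Or.inr (Or.inr ⟨Subtype.ext (show (s : ℝ) = 1 by linarith [s.2.2, t.2.1]),
        Subtype.ext (show (t : ℝ) = 0 by linarith [s.2.2, t.2.1])⟩)
  · have := cont_v
    refine ⟨⟨fun t => 2 * Real.pi * (t : ℝ) * Complex.I - (Real.log ‖v t‖ : ℝ), ?_⟩,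
      fun t => ?_, ?_⟩
    · exact Continuous.sub (by fun_prop) (Complex.continuous_ofReal.comp
        (Continuous.log (by fun_prop) fun t => (v_pos _).ne'))
    · rw [lp_eq, ContinuousMap.coe_mk, Complex.exp_sub, ← Complex.ofReal_exp,
        Real.exp_log (v_pos _)]
      rfl
    · simp [v_one]

end Crest.Agent.R197
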