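import Crest.Agent.R197.Basic

/-! Row 197: cohomological dimension from a free resolution of length two. -/

set_option autoImplicit false
set_option linter.unusedSectionVars false

open CategoryTheory CategoryTheory.Limits
open scoped Classical

namespace Crest.Agent.R197

namespace Coh
variable {G : Type} [Group G]

section gen
variable {k : Type} [CommRing k]

variable (k G) in
/-- left translation -/
noncomputable def tr (L : Type) : Representation k G (G × L →₀ k) where
  toFun g := Finsupp.lmapDomain k k fun p => (g * p.1, p.2)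
  map_one' := by ext; simp
  map_mul' g h := by ext; simp [mul_assoc]

@[simp] lemma tr_single {L : Type} (g : G) (p : G × L) (n : k) :
    tr G k L g (Finsupp.single p n) = Finsupp.single (g * p.1, p.2) n := Finsupp.mapDomain_single

variable (k G) in
/-- the free module -/
noncomputable abbrev P (L : Type) : Rep k G := Rep.of (tr G k L)

/-- the universal property -/
noncomputable def lift {L : Type} {E : Rep.{0} k G} (y : L → E) : P G k L ⟶ E :=
  Rep.ofHom (σ := E.ρ) ⟨Finsupp.linearCombination k fun p => E.ρ p.1 (y p.2),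
    fun g => by ext; simp⟩

lemma lift_apply {L : Type} {E : Rep.{0} k G} (y : L → E) (z : G × L →₀ k) :
    (lift y).hom z = Finsupp.linearCombination k (fun p => E.ρ p.1 (y p.2)) z := rfl

@[simp] lemma lift_single {L : Type} {E : Rep.{0} k G} (y : L → E) (p : G × L) (n : k) :
    (lift y).hom (Finsupp.single p n) = n • E.ρ p.1 (y p.2) := Finsupp.linearCombination_single ..

lemma lift_eq {L : Type} {E : Rep.{0} k G} (f : P G k L ⟶ E) :
    lift (fun l => f.hom (Finsupp.single (1, l) 1)) = f := by
  refine Rep.hom_ext (Representation.IntertwiningMap.ext (Finsupp.lhom_ext' fun p =>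
    LinearMap.ext_ring ?_))
  refine (lift_single (fun l => f.hom (Finsupp.single (1, l) 1)) p 1).trans ?_
  rw [one_smul, ← Rep.hom_comm_apply, tr_single, mul_one]
  rfl

lemma P_ext {L : Type} {E : Rep.{0} k G} {f g : P G k L ⟶ E}
    (h : ∀ l, f.hom (Finsupp.single (1, l) 1) = g.hom (Finsupp.single (1, l) 1)) : f = g := by
  rw [← lift_eq f, ← lift_eq g, funext h]

instance (L : Type) : Projective (P G k L) where
  factors f e he := by
    choose y hy using fun l => (Rep.epi_iff_surjective e).1 he (f.hom (Finsupp.single (1, l) 1))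
    refine ⟨lift y, P_ext fun l => ?_⟩
    change e.hom ((lift y).hom _) = _
    rw [lift_single, one_smul, map_one, Module.End.one_apply, hy]

lemma exact_of {T : ShortComplex (Rep.{0} k G)} (h : ∀ x, T.g.hom x = 0 → ∃ y, T.f.hom y = x) :
    T.Exact :=
  (forget₂ _ (ModuleCat k)).reflects_exact_of_faithful _
    ((ShortComplex.moduleCat_exact_iff _).2 h)

lemma isZero_hom (A : Rep.{0} k G) : IsZero (ModuleCat.of k (P G k Empty ⟶ A)) :=
  have : Subsingleton (P G k Empty ⟶ A) := ⟨fun _ _ => P_ext fun l => l.elim⟩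
  ModuleCat.isZero_of_subsingleton _

/-- the cells -/
def J (S R : Type) : ℕ → Type
  | 0 => Unit
  | 1 => S
  | 2 => R
  | _ + 3 => Empty

variable {S R : Type} (D0 : P G k Unit ⟶ Rep.trivial k G k) (D1 : P G k S ⟶ P G k Unit)
  (D2 : P G k R ⟶ P G k S)

/-- the differentials -/
noncomputable def D : ∀ n, P G k (J S R (n + 1)) ⟶ P G k (J S R n)
  | 0 => D1
  | 1 => D2
  | _ + 2 => 0

/-- a free resolution of length two -/
structure Ex : Prop where
  s0 : D1 ≫ D0 = 0
  s1 : D2 ≫ D1 = 0
  e : Function.Surjective D0.hom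
  e0 : ∀ x, D0.hom x = 0 → ∃ y, D1.hom y = x
  e1 : ∀ x, D1.hom x = 0 → ∃ y, D2.hom y = x
  e2 : ∀ x, D2.hom x = 0 → 0 = x

variable {D0 D1 D2}

noncomputable def cx (h : Ex D0 D1 D2) : ChainComplex (Rep.{0} k G) ℕ :=
  ChainComplex.of (fun n => P G k (J S R n)) (D D1 D2) fun n => by
    rcases n with _ | n
    · exact h.s1
    · exact zero_comp

lemma cx_d (h : Ex D0 D1 D2) (n : ℕ) : (cx h).d (n + 1) n = D D1 D2 n :=
  ChainComplex.of_d (fun n => P G k (J S R n)) (D D1 D2) n

noncomputable def res (h : Ex D0 D1 D2) : ProjectiveResolution (Rep.trivial k G k) where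
  complex := cx h
  projective n := inferInstanceAs (Projective (P G k (J S R n)))
  π := ((cx h).toSingle₀Equiv _).symm ⟨D0, by rw [cx_d]; exact h.s0⟩
  quasiIso := ⟨fun m => by
    rcases m with _ | m
    · rw [ChainComplex.quasiIsoAt₀_iff, ShortComplex.quasiIso_iff_of_zeros' _ rfl rfl rfl]
      have e : ∀ p, (((cx h).toSingle₀Equiv (Rep.trivial k G k)).symm ⟨D0, p⟩).f 0 = D0 :=
        fun p => ChainComplex.toSingle₀Equiv_symm_apply_f_zero _ _
      refine ⟨exact_of fun x hx => ?_, ?_⟩
      · change ∃ y, ((cx h).d (0 + 1) 0).hom y = x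
        rw [cx_d]
        exact h.e0 x (by rw [← e]; exact hx)
      · have := (Rep.epi_iff_surjective D0).2 h.e
        rw [← e] at this
        exact this
    · rw [quasiIsoAt_iff_exactAt' (hL := ChainComplex.exactAt_succ_single_obj ..),
        HomologicalComplex.exactAt_iff' _ (m + 2) (m + 1) m (by simp) (by simp)]
      refine exact_of fun x hx => ?_
      change ((cx h).d (m + 1) m).hom x = 0 at hx
      change ∃ y, ((cx h).d (m + 1 + 1) (m + 1)).hom y = x
      rw [cx_d] at hx ⊢
      rcases m with _ | _ | m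
      · exact h.e1 x hx
      · exact ⟨0, h.e2 x hx⟩
      · exact ⟨0, Finsupp.ext fun p => p.2.elim⟩⟩

lemma vanish (h : Ex D0 D1 D2) (A : Rep.{0} k G) (m : ℕ) : IsZero (groupCohomology A (m + 3)) := by
  refine IsZero.of_iso ?_ (groupCohomologyIso A _ (res h))
  rw [← HomologicalComplex.exactAt_iff_isZero_homology, HomologicalComplex.exactAt_iff]
  exact ShortComplex.exact_of_isZero_X₂ _ (isZero_hom A)

lemma factor (h : Ex D0 D1 D2) {A : Rep.{0} k G} (h0 : IsZero (groupCohomology A 2))
    (φ : P G k R ⟶ A) : ∃ ψ : P G k S ⟶ A, D2 ≫ ψ = φ := by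
  have h1 := h0.of_iso (groupCohomologyIso _ _ (res h)).symm
  rw [← HomologicalComplex.exactAt_iff_isZero_homology,
    HomologicalComplex.exactAt_iff' _ 1 2 3 (by simp) (by simp),
    ShortComplex.moduleCat_exact_iff] at h1
  obtain ⟨ψ, hψ⟩ := h1 φ (P_ext fun l => l.elim)
  change (cx h).d (1 + 1) 1 ≫ ψ = _ at hψ
  rw [cx_d] at hψ
  exact ⟨ψ, hψ⟩

end gen

variable {S R : Type} (lab : S → G) (r : R → FreeGroup S)

/-- `G → G × Unit` on chains -/
noncomputable def io : (G →₀ ℤ) →ₗ[ℤ] (G × Unit →₀ ℤ) := Finsupp.lmapDomain ℤ ℤ fun g => (g, ())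

@[simp] lemma io_single (g : G) (n : ℤ) : io (Finsupp.single g n) = Finsupp.single (g, ()) n :=
  Finsupp.mapDomain_single

lemma io_inj : Function.Injective (io (G := G)) :=
  Finsupp.mapDomain_injective fun _ _ h => congrArg Prod.fst h

/-- the differentials -/
noncomputable def D1 : P G ℤ S ⟶ P G ℤ Unit :=
  lift fun s => (Finsupp.single (lab s, ()) 1 - Finsupp.single (1, ()) 1 : G × Unit →₀ ℤ)
noncomputable def D2 : P G ℤ R ⟶ P G ℤ S := lift fun i => chain lab (r i) 1
noncomputable def D0 : P G ℤ Unit ⟶ Rep.trivial ℤ G ℤ := lift fun _ => (1 : ℤ)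

lemma D1_apply (z : G × S →₀ ℤ) : (D1 lab).hom z = io (d1 lab z) := by
  induction z using Finsupp.induction_linear with
  | zero => simp
  | add f g hf hg => rw [map_add, map_add, map_add, hf, hg]
  | single p n => rw [D1, lift_single]; simp [smul_sub]

lemma D2_apply (z : G × R →₀ ℤ) : (D2 lab r).hom z = bd lab r z := by
  induction z using Finsupp.induction_linear with
  | zero => simp
  | add f g hf hg => rw [map_add, map_add, hf, hg]
  | single p n =>
    rw [D2, lift_single, bd_single]
    exact congrArg _ ((chain_translate lab p.1 _ 1).symm.trans (by rw [mul_one]))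

lemma D0_single (p : G × Unit) (n : ℤ) : D0.hom (Finsupp.single p n) = n := by
  rw [D0, lift_single]; simp

variable {lab r}

lemma ex (h : Acyc lab r) : Ex D0 (D1 lab) (D2 lab r) where
  s0 := P_ext fun l => by
    change D0.hom ((D1 lab).hom _) = 0
    rw [D1_apply, d1_single, map_sub, io_single, io_single, map_sub, D0_single, D0_single, sub_self]
  s1 := P_ext fun l => by
    change (D1 lab).hom ((D2 lab r).hom _) = 0
    rw [D1_apply, D2_apply, d1_bd lab r h.rel, map_zero]
  e n := ⟨Finsupp.single (1, ()) n, D0_single _ _⟩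
  e0 x hx := by
    have key : ∀ x : G × Unit →₀ ℤ,
        ∃ y, (D1 lab).hom y = x - Finsupp.single (1, ()) (D0.hom x) := fun x => by
      induction x using Finsupp.induction_linear with
      | zero => exact ⟨0, by simp⟩
      | add f g hf hg =>
        obtain ⟨y, hy⟩ := hf
        obtain ⟨z, hz⟩ := hg
        exact ⟨y + z, by rw [map_add, hy, hz, map_add, Finsupp.single_add]; abel⟩
      | single p n =>
        obtain ⟨ω, hω⟩ := h.surj p.1
        exact ⟨n • chain lab ω 1, by rw [D1_apply, D0_single]; simp [d1_chain, hω, smul_sub]⟩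
    simpa [hx] using key x
  e1 x hx := by
    obtain ⟨c, hc⟩ := h.exact x (io_inj (by rw [← D1_apply, map_zero, hx]))
    exact ⟨c, (D2_apply lab r c).trans hc⟩
  e2 x hx := h.inj (by rw [map_zero, ← D2_apply, hx])

end Coh

open Coh in
theorem cohStmt : CohStmt := by
  intro G S R _ lab r h
  refine ⟨fun A n hn => ?_, fun ⟨b, hb⟩ => ⟨Rep.trivial ℤ G ℤ, fun h0 => ?_⟩⟩
  · obtain ⟨m, rfl⟩ := Nat.exists_eq_add_of_le' hn
    exact vanish (ex h) A m
  · obtain ⟨ψ, hψ⟩ := factor (ex h) h0 (lift (E := Rep.trivial ℤ G ℤ) fun i : R => (b i).toAdd)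
    obtain ⟨i, hi⟩ := hb fun s => Multiplicative.ofAdd (ψ.hom (Finsupp.single (1, s) 1))
    have e : ψ.hom ((D2 lab r).hom (Finsupp.single (1, i) 1)) = _ :=
      congrArg (fun f => f.hom (Finsupp.single (1, i) 1)) hψ
    rw [D2_apply, bd_single, one_smul, lift_single, one_smul, ← lift_eq ψ, lift_apply] at e
    refine hi ?_
    rw [← hol_const lab _ _ 1]
    exact (hol_pair lab (fun p => ψ.hom (Finsupp.single (1, p.2) 1)) _ _).trans
      (congrArg Multiplicative.ofAdd e)

end Crest.Agent.R197
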