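import Crest.Agent.R197.Basic

/-!
# Row 197: extension of small connections and the final contradiction
-/

set_option autoImplicit false

open scoped Quaternion Classical

namespace Crest.Agent.R197

namespace Core

/-- a conjugation invariant norm with a commutator estimate -/
structure NG {K : Type} [Group K] (ν : K → ℝ) (B : ℝ) : Prop where
  one : ν 1 = 0
  nonneg : ∀ p, 0 ≤ ν p
  mul : ∀ p q, ν (p * q) ≤ ν p + ν q
  inv : ∀ p, ν p⁻¹ = ν p
  conj : ∀ p q, ν (p * q * p⁻¹) = ν q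
  comm : ∀ p q, ν (p * q * p⁻¹ * q⁻¹) ≤ B * ν p * ν q
  hB : 0 ≤ B

lemma ng_S3 : NG nu 2 :=
  ⟨nu_one, nu_nonneg, nu_mul_le, nu_inv, nu_conj, nu_comm_le, zero_le_two⟩

lemma ng_comm (K : Type) [CommGroup K] : NG (fun z : K => if z = 1 then (0 : ℝ) else 1) 0 := by
  refine ⟨by simp, fun p => by positivity, fun p q => ?_, fun p => by simp, fun p q => by simp,
    fun p q => by simp, le_rfl⟩
  by_cases hp : p = 1
  · simp [hp]
  · by_cases hq : q = 1
    · simp [hq]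
    · simp only [hp, hq, if_false]; split_ifs <;> norm_num

section bnd
variable {G L F R : Type} [Group G] (lab : L → G) (w : F → FreeGroup L) (y : R → L)

/-- the holonomy of `ω` is controlled by finitely many relations and the letters `y` -/
def Bnd (β : ℝ → ℝ → ℝ) (ω : FreeGroup L) (Fs : Finset F) (c : ℝ) : Prop :=
  ∀ (Q : Type) [Group Q] (φ : G →* Q) (K : Type) [Group K] (ν : K → ℝ) (B : ℝ), NG ν B →
    ∀ (a : L → Q → K) (ρ : ℝ), 0 ≤ ρ →
      (∀ f ∈ Fs, ∀ x, hol (fun l => φ (lab l)) a (w f) x = 1) → (∀ i x, ν (a (y i) x) ≤ ρ) →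
      ∀ x, ν (hol (fun l => φ (lab l)) a ω x) ≤ c * β B ρ

/-- trivial label and controlled holonomy -/
def Ctl (β : ℝ → ℝ → ℝ) (ω : FreeGroup L) : Prop :=
  FreeGroup.lift lab ω = 1 ∧ ∃ (Fs : Finset F) (c : ℝ), 0 ≤ c ∧ Bnd lab w y β ω Fs c

variable {lab w y}

lemma lift_q {Q : Type} [Group Q] (φ : G →* Q) {ω : FreeGroup L} (h : FreeGroup.lift lab ω = 1) :
    FreeGroup.lift (fun l => φ (lab l)) ω = 1 := by rw [lift_comp, h, map_one]

lemma Ctl.closure {β : ℝ → ℝ → ℝ} {s : Set (FreeGroup L)} (hs : ∀ ω ∈ s, Ctl lab w y β ω)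
    {ω : FreeGroup L} (hω : ω ∈ Subgroup.normalClosure s) : Ctl lab w y β ω := by
  refine normalClosure_induction hs ⟨map_one _, ∅, 0, le_rfl, ?_⟩ ?_ ?_ ?_ hω
  · intro Q _ φ K _ ν B h a ρ _ _ _ x
    rw [hol_one, h.one, zero_mul]
  · rintro u v ⟨h1, F1, c1, p1, b1⟩ ⟨h2, F2, c2, p2, b2⟩
    refine ⟨by rw [map_mul, h1, h2, mul_one], F1 ∪ F2, c1 + c2, add_nonneg p1 p2, ?_⟩
    intro Q _ φ K _ ν B h a ρ hρ hf hy x
    rw [hol_mul, add_mul]
    exact (h.mul _ _).trans (add_le_add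
      (b1 Q φ K ν B h a ρ hρ (fun f hf' => hf f (Finset.mem_union_left _ hf')) hy _)
      (b2 Q φ K ν B h a ρ hρ (fun f hf' => hf f (Finset.mem_union_right _ hf')) hy _))
  · rintro u ⟨h1, F1, c1, p1, b1⟩
    refine ⟨by rw [map_inv, h1, inv_one], F1, c1, p1, ?_⟩
    intro Q _ φ K _ ν B h a ρ hρ hf hy x
    rw [hol_inv, h.inv]
    exact b1 Q φ K ν B h a ρ hρ hf hy _
  · rintro u v ⟨h1, F1, c1, p1, b1⟩
    refine ⟨by simp [h1], F1, c1, p1, ?_⟩
    intro Q _ φ K _ ν B h a ρ hρ hf hy x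
    rw [hol_conj _ _ _ _ (lift_q φ h1), h.conj]
    exact b1 Q φ K ν B h a ρ hρ hf hy _

lemma ctl_w {β : ℝ → ℝ → ℝ} {f : F} (h : FreeGroup.lift lab (w f) = 1) : Ctl lab w y β (w f) :=
  ⟨h, {f}, 0, le_rfl, fun Q _ φ K _ ν B h a ρ _ hf _ x => by
    rw [hf f (Finset.mem_singleton_self f), h.one, zero_mul]⟩

lemma ctl_y {i : R} (h : lab (y i) = 1) : Ctl lab w y (fun _ ρ => ρ) (FreeGroup.of (y i)) :=
  ⟨by simpa using h, ∅, 1, zero_le_one, fun Q _ φ K _ ν B _ a ρ _ _ hy x => by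
    rw [hol_of, one_mul]; exact hy i x⟩

lemma ctl_comm {m m' : FreeGroup L} (h : Ctl lab w y (fun _ ρ => ρ) m)
    (h' : Ctl lab w y (fun _ ρ => ρ) m') :
    Ctl lab w y (fun B ρ => B * ρ ^ 2) (m * m' * m⁻¹ * m'⁻¹) := by
  obtain ⟨h1, F1, c1, p1, b1⟩ := h
  obtain ⟨h2, F2, c2, p2, b2⟩ := h'
  refine ⟨by simp [h1, h2], F1 ∪ F2, c1 * c2, mul_nonneg p1 p2, ?_⟩
  intro Q _ φ K _ ν B h a ρ hρ hf hy x
  have e1 := b1 Q φ K ν B h a ρ hρ (fun f hf' => hf f (Finset.mem_union_left _ hf')) hy x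
  have e2 := b2 Q φ K ν B h a ρ hρ (fun f hf' => hf f (Finset.mem_union_right _ hf')) hy x
  rw [hol_mul_of_eq_one _ _ _ _ (lift_q φ (by simp [h2])), hol_conj _ _ _ _ (lift_q φ h2),
    lift_q φ h1, mul_one, hol_inv_of_eq_one _ _ _ (lift_q φ h2)]
  refine (h.comm _ _).trans ?_
  have := h.hB
  have := h.nonneg (hol (fun l => φ (lab l)) a m' x)
  calc _ ≤ B * (c1 * ρ) * (c2 * ρ) := by gcongr
    _ = _ := by ring

end bnd

lemma exists_len {S : Type} (ω : FreeGroup S) : ∃ n : ℝ, 0 ≤ n ∧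
    ∀ (Q : Type) [Group Q] (lab : S → Q) (K : Type) [Group K] (ν : K → ℝ) (B : ℝ), NG ν B →
      ∀ (a : S → Q → K) (ε : ℝ), (∀ s x, ν (a s x) ≤ ε) → ∀ x, ν (hol lab a ω x) ≤ n * ε := by
  induction ω using FreeGroup.induction_on with
  | C1 => exact ⟨0, le_rfl, fun Q _ lab K _ ν B h a ε _ x => by rw [hol_one, h.one, zero_mul]⟩
  | of s => exact ⟨1, zero_le_one, fun Q _ lab K _ ν B h a ε ha x => by
      rw [one_mul]; exact (congrArg ν (hol_of lab a s x)).trans_le (ha s x)⟩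
  | inv_of s ih =>
    obtain ⟨n, hn, h'⟩ := ih
    exact ⟨n, hn, fun Q _ lab K _ ν B h a ε ha x => by
      rw [hol_inv, h.inv]; exact h' Q lab K ν B h a ε ha _⟩
  | mul u v ih ih' =>
    obtain ⟨n, hn, h1⟩ := ih
    obtain ⟨m, hm, h2⟩ := ih'
    exact ⟨n + m, add_nonneg hn hm, fun Q _ lab K _ ν B h a ε ha x => by
      rw [hol_mul, add_mul]
      exact (h.mul _ _).trans (add_le_add (h1 Q lab K ν B h a ε ha _) (h2 Q lab K ν B h a ε ha _))⟩

variable {G S R : Type} [Group G] {lab : S → G} {r : R → FreeGroup S} (Sy : Sys lab r)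

/-- the labels of all letters -/
abbrev labA : S ⊕ (Sy.E ⊕ R) → G := Sum.elim lab (Sum.elim Sy.labE fun _ => 1)

/-- the letters `y` -/
abbrev yy (i : R) : S ⊕ (Sy.E ⊕ R) := Sum.inr (Sum.inr i)

lemma ctl_yl {m : FreeGroup (S ⊕ (Sy.E ⊕ R))}
    (hm : m ∈ Subgroup.normalClosure (Set.range (yl (S := S) (E := Sy.E) (R := R)))) :
    Ctl (labA Sy) Sy.w (yy Sy) (fun _ ρ => ρ) m :=
  Ctl.closure (by rintro _ ⟨i, rfl⟩; exact ctl_y rfl) hm

lemma lin_bnd {γ : FreeGroup S} (h : FreeGroup.lift lab γ = 1) :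
    Ctl (labA Sy) Sy.w (yy Sy) (fun _ ρ => ρ) (FreeGroup.map Sum.inl γ) :=
  Ctl.closure (by
    rintro _ (⟨f, rfl⟩ | ⟨i, rfl⟩)
    · exact ctl_w (Sy.rel f)
    · exact ctl_y rfl) (Sy.lin γ h)

/-- the letters `y` are controlled by the curvature, up to a quadratic error -/
lemma quad_bnd [Finite R] : ∃ (Fs : Finset Sy.F) (c : ℝ), 0 ≤ c ∧
    ∀ (Q : Type) [Group Q] (φ : G →* Q) (K : Type) [Group K] (ν : K → ℝ) (B : ℝ), NG ν B →
    ∀ (a : S ⊕ (Sy.E ⊕ R) → Q → K) (ρ η : ℝ), 0 ≤ ρ →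
      (∀ f ∈ Fs, ∀ x, hol (fun l => φ (labA Sy l)) a (Sy.w f) x = 1) →
      (∀ i x, ν (a (yy Sy i) x) ≤ ρ) →
      (∀ i x, ν (hol (fun s => φ (lab s)) (fun s => a (Sum.inl s)) (r i) x) ≤ η) →
      ∀ i x, ν (a (yy Sy i) x) ≤ η + c * (B * ρ ^ 2) := by
  have := Fintype.ofFinite R
  have h : ∀ i, Ctl (labA Sy) Sy.w (yy Sy) (fun B ρ => B * ρ ^ 2)
      (FreeGroup.map Sum.inl (r i) * (yl i)⁻¹) := fun i =>
    Ctl.closure (by
      rintro _ (⟨f, rfl⟩ | ⟨m, hm, m', hm', rfl⟩)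
      · exact ctl_w (Sy.rel f)
      · exact ctl_comm (ctl_yl Sy hm) (ctl_yl Sy hm')) (Sy.quad i)
  choose h1 Fs c hc hb using h
  refine ⟨Finset.univ.biUnion Fs, ∑ i, c i, Finset.sum_nonneg fun i _ => hc i, ?_⟩
  intro Q _ φ K _ ν B hν a ρ η hρ hf hy hr i x
  have e1 := hb i Q φ K ν B hν a ρ hρ
    (fun f hf' => hf f (Finset.mem_biUnion.2 ⟨i, Finset.mem_univ _, hf'⟩)) hy x
  have e0 : FreeGroup.lift (labA Sy) (yl i) = 1 := by simp [yl]
  have e2 : FreeGroup.lift (labA Sy) (FreeGroup.map Sum.inl (r i)) = 1 := by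
    have := h1 i
    rwa [map_mul, map_inv, e0, inv_one, mul_one] at this
  rw [hol_mul_of_eq_one _ _ _ _ (lift_q φ e2), hol_inv_of_eq_one _ _ _ (lift_q φ e0), yl, hol_of,
    hol_freeMap] at e1
  have e3 := hν.mul (hol (fun s => φ (lab s)) (fun s => a (Sum.inl s)) (r i) x *
    (a (yy Sy i) x)⁻¹)⁻¹ (hol (fun s => φ (lab s)) (fun s => a (Sum.inl s)) (r i) x)
  rw [hν.inv, mul_inv_rev, inv_inv, inv_mul_cancel_right] at e3
  have e4 : c i * (B * ρ ^ 2) ≤ (∑ i, c i) * (B * ρ ^ 2) := by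
    have := hν.hB
    gcongr
    exact Finset.single_le_sum (fun i _ => hc i) (Finset.mem_univ i)
  have := hr i x
  change ν (hol (fun s => φ (lab s)) (fun s => a (Sum.inl s)) (r i) x * (a (yy Sy i) x)⁻¹) ≤ _ at e1
  linarith

lemma len_bnd [Finite R] (r : R → FreeGroup S) : ∃ n : ℝ, 0 ≤ n ∧
    ∀ (Q : Type) [Group Q] (lab : S → Q) (K : Type) [Group K] (ν : K → ℝ) (B : ℝ), NG ν B →
      ∀ (a : S → Q → K) (ε : ℝ), 0 ≤ ε → (∀ s x, ν (a s x) ≤ ε) →
      ∀ i x, ν (hol lab a (r i) x) ≤ n * ε := by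
  have := Fintype.ofFinite R
  choose n hn h using fun i => exists_len (r i)
  refine ⟨∑ i, n i, Finset.sum_nonneg fun i _ => hn i, fun Q _ lab K _ ν B hν a ε hε ha i x => ?_⟩
  refine (h i Q lab K ν B hν a ε ha x).trans ?_
  gcongr
  exact Finset.single_le_sum (fun i _ => hn i) (Finset.mem_univ i)

/-- a square subsystem that is invertible modulo two -/
lemma exists_cols {Q : Type} [Group Q] [Finite Q] (φ : G →* Q) (Fs : Finset Sy.F) :
    ∃ j : Fs × Q → (Sy.E ⊕ R) × Q, Function.Injective j ∧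
      LinearIndependent (ZMod 2) fun (k' : Fs × Q) (k : Fs × Q) =>
        ((chain (fun l => φ (labA Sy l)) (Sy.w k.1) k.2 ((j k').2, Sum.inr (j k').1) : ℤ) :
          ZMod 2) := by
  have := Fintype.ofFinite Q
  set c : Fs × Q → (Q × (S ⊕ (Sy.E ⊕ R)) →₀ ℤ) :=
    fun k => chain (fun l => φ (labA Sy l)) (Sy.w k.1) k.2 with hc
  set col : (Sy.E ⊕ R) × Q → Fs × Q → ZMod 2 :=
    fun u k => ((c k (u.2, Sum.inr u.1) : ℤ) : ZMod 2) with hcol
  have hspan : Submodule.span (ZMod 2) (Set.range col) = ⊤ := by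
    refine eq_top_iff.2 fun b _ => ?_
    obtain ⟨a, ha⟩ := Sy.onto Q φ fun f x =>
      if h : f ∈ Fs then Multiplicative.ofAdd (b (⟨f, h⟩, x)) else 1
    set α : Q × (S ⊕ (Sy.E ⊕ R)) → ZMod 2 :=
      fun p => Multiplicative.toAdd (Sum.elim (fun _ _ => 1) a p.2 p.1) with hα
    have e : b = ∑ p ∈ Finset.univ.biUnion fun k => (c k).support,
        α p • fun k => ((c k p : ℤ) : ZMod 2) := by
      funext k
      have h1 := congrArg Multiplicative.toAdd (ha k.1 k.2)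
      rw [toAdd_hol, dif_pos k.1.2, toAdd_ofAdd, Finsupp.linearCombination_apply,
        Finsupp.sum_of_support_subset (s := Finset.univ.biUnion fun k => (c k).support) _
          (Finset.subset_biUnion_of_mem (fun k => (c k).support) (Finset.mem_univ k)) _
          (by simp)] at h1
      rw [Finset.sum_apply]
      refine h1.symm.trans (Finset.sum_congr rfl fun p _ => ?_)
      simp [hα, hc, mul_comm]
    rw [e]
    refine Submodule.sum_mem _ fun p _ => ?_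
    obtain ⟨x, s | u⟩ := p
    · simp [hα]
    · exact Submodule.smul_mem _ _ (Submodule.subset_span ⟨(u, x), rfl⟩)
  obtain ⟨κ, j, hj, h1, h2⟩ := exists_linearIndependent' (ZMod 2) col
  rw [hspan] at h1
  let b : Module.Basis κ (ZMod 2) (Fs × Q → ZMod 2) := Module.Basis.mk h2 h1.ge
  let e : Fs × Q ≃ κ := (Pi.basisFun (ZMod 2) (Fs × Q)).indexEquiv b
  exact ⟨j ∘ e, hj.comp e.injective, h2.comp e e.injective⟩

section univ
variable {Φ U Q K : Type} [Group K] (j : Φ → U × Q)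

/-- the universal connection -/
noncomputable def uc : S ⊕ U → Q → FreeGroup (Φ ⊕ S × Q)
  | .inl s, x => FreeGroup.of (.inr (s, x))
  | .inr u, x => if h : ∃ k, j k = (u, x) then FreeGroup.of (.inl h.choose) else 1

/-- its specialisations -/
noncomputable def conn (q : Φ → K) (a : S × Q → K) : S ⊕ U → Q → K :=
  fun l x => FreeGroup.lift (Sum.elim q a) (uc j l x)

lemma conn_inl (q : Φ → K) (a : S × Q → K) (s : S) (x : Q) : conn j q a (.inl s) x = a (s, x) := by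
  simp [conn, uc]

lemma conn_inr (q : Φ → K) (a : S × Q → K) (u : U) (x : Q) :
    (∃ k, j k = (u, x) ∧ conn j q a (.inr u) x = q k) ∨
      ((∀ k, j k ≠ (u, x)) ∧ conn j q a (.inr u) x = 1) := by
  by_cases h : ∃ k, j k = (u, x)
  · exact Or.inl ⟨h.choose, h.choose_spec, by simp [conn, uc, h]⟩
  · exact Or.inr ⟨fun k hk => h ⟨k, hk⟩, by simp [conn, uc, h]⟩

variable {j}

lemma conn_j (hj : Function.Injective j) (q : Φ → K) (a : S × Q → K) {k : Φ} {u : U} {x : Q}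
    (h : j k = (u, x)) : conn j q a (.inr u) x = q k := by
  rcases conn_inr j q a u x with ⟨k', h1, h2⟩ | ⟨h1, -⟩
  · rw [h2, hj (h1.trans h.symm)]
  · exact absurd h (h1 k)

lemma pair_conn [Fintype Φ] (hj : Function.Injective j) (v : Φ → Multiplicative (ZMod 2))
    (c : Q × (S ⊕ U) →₀ ℤ) :
    Finsupp.linearCombination ℤ (fun p : Q × (S ⊕ U) =>
      Multiplicative.toAdd (conn j v (fun _ => 1) p.2 p.1)) c =
      ∑ k, Multiplicative.toAdd (v k) * ((c ((j k).2, Sum.inr (j k).1) : ℤ) : ZMod 2) := by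
  induction c using Finsupp.induction_linear with
  | zero => simp
  | add f g hf hg => simp [hf, hg, mul_add, Finset.sum_add_distrib]
  | single p n =>
    obtain ⟨x, s | u⟩ := p
    · simp [conn_inl]
    · rw [Finsupp.linearCombination_single]
      rcases conn_inr j v (fun _ : S × Q => 1) u x with ⟨k, h1, h2⟩ | ⟨h1, h2⟩
      · rw [h2, Finset.sum_eq_single k]
        · simp [h1, mul_comm]
        · intro k' _ hk'
          rw [Finsupp.single_eq_of_ne]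
          · simp
          · intro h
            simp only [Prod.mk.injEq, Sum.inr.injEq] at h
            exact hk' (hj (h1 ▸ Prod.ext h.2 h.1))
        · simp
      · rw [h2, Finset.sum_eq_zero]
        · simp
        · intro k _
          rw [Finsupp.single_eq_of_ne]
          · simp
          · intro h
            simp only [Prod.mk.injEq, Sum.inr.injEq] at h
            exact h1 k (Prod.ext h.2 h.1)

end univ

end Core

open Crest.Agent.R197.Core in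
theorem coreStmt_of (h : GRStmt) : CoreStmt := by
  intro G S R _ _ _ lab r hsm
  refine ⟨fun Sy => ?_⟩
  obtain ⟨F0, Cq, hCq, hquad⟩ := quad_bnd Sy
  obtain ⟨n, hn, hlen⟩ := len_bnd r
  set r₀ : ℝ := 1 / (4 * (Cq + 1)) with hr₀
  have hr₀' : 0 < r₀ := by positivity
  have hr₁ : Cq * (2 * r₀) ≤ 1 / 2 := by
    rw [hr₀, ← sub_nonneg]
    field_simp
    ring_nf
    positivity
  set ε : ℝ := min 1 (r₀ / (8 * (n + 1))) with hε
  have hε0 : 0 < ε := lt_min one_pos (by positivity)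
  have hε1 : n * (2 * ε) < r₀ / 2 := by
    have h1 : ε * (8 * (n + 1)) ≤ r₀ := (le_div_iff₀ (by positivity)).1 (min_le_right _ _)
    nlinarith
  obtain ⟨γ, hγ, θ, hθ, hsm⟩ := hsm ε hε0
  obtain ⟨-, F1, D, hD, hlin⟩ := lin_bnd Sy hγ
  obtain ⟨Q, _, _, φ, a₀, ha1, ha2, x₀, ha3⟩ := hsm (θ / (2 * (D + 1))) (by positivity)
  set η := θ / (2 * (D + 1)) with hη
  have hη0 : 0 < η := by positivity
  obtain ⟨j, hj, hli⟩ := exists_cols Sy φ (F0 ∪ F1)
  have := Fintype.ofFinite Q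
  let W : (F0 ∪ F1 : Finset Sy.F) × Q → FreeGroup (((F0 ∪ F1 : Finset Sy.F) × Q) ⊕ S × Q) :=
    fun k => hol (fun l => φ (labA Sy l)) (uc j) (Sy.w k.1) k.2
  have hW : ∀ {K : Type} [Group K] (q : (F0 ∪ F1 : Finset Sy.F) × Q → K) (a : S × Q → K) k,
      FreeGroup.lift (Sum.elim q a) (W k) =
        hol (fun l => φ (labA Sy l)) (conn j q a) (Sy.w k.1) k.2 :=
    fun q a k => map_hol _ _ _ _ _
  let Y : Set ((F0 ∪ F1 : Finset Sy.F) × Q) := {k | ∃ i, (j k).1 = Sum.inr i}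
  have hY : ∀ {K : Type} [Group K] {ν : K → ℝ} {B : ℝ}, NG ν B →
      ∀ (q : (F0 ∪ F1 : Finset Sy.F) × Q → K) (a : S × Q → K) {ρ : ℝ}, 0 ≤ ρ →
      (∀ k ∈ Y, ν (q k) ≤ ρ) → ∀ i x, ν (conn j q a (yy Sy i) x) ≤ ρ := by
    intro K _ ν B hν q a ρ hρ hq i x
    rcases conn_inr j q a (Sum.inr i) x with ⟨k, h1, h2⟩ | ⟨-, h2⟩
    · rw [h2]; exact hq k ⟨i, by rw [h1]⟩
    · rw [h2, hν.one]; exact hρ
  have hS : ∀ {K : Type} [Group K] (q : (F0 ∪ F1 : Finset Sy.F) × Q → K) (a : S × Q → K),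
      (∀ k, FreeGroup.lift (Sum.elim q a) (W k) = 1) → ∀ f ∈ F0 ∪ F1, ∀ x,
        hol (fun l => φ (labA Sy l)) (conn j q a) (Sy.w f) x = 1 :=
    fun q a hq f hf x => (hW q a (⟨f, hf⟩, x)).symm.trans (hq _)
  have hQ : ∀ {K : Type} [Group K] {ν : K → ℝ} {B : ℝ}, NG ν B →
      ∀ (q : (F0 ∪ F1 : Finset Sy.F) × Q → K) (a : S × Q → K) {ρ e : ℝ}, 0 ≤ ρ → 0 ≤ e →
      (∀ k, FreeGroup.lift (Sum.elim q a) (W k) = 1) → (∀ k ∈ Y, ν (q k) ≤ ρ) →
      (∀ c, ν (a c) ≤ e) → ∀ k ∈ Y, ν (q k) ≤ n * e + Cq * (B * ρ ^ 2) := by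
    intro K _ ν B hν q a ρ e hρ he hq hy ha k ⟨i, hi⟩
    rw [← conn_j hj q a (k := k) (u := Sum.inr i) (x := (j k).2) (by rw [← hi])]
    refine hquad Q φ K ν B hν _ ρ _ hρ
      (fun f hf => hS q a hq f (Finset.mem_union_left _ hf)) (hY hν q a hρ hy) (fun i x => ?_) i _
    exact hlen Q _ K ν B hν _ e he (fun s x => by rw [conn_inl]; exact ha _) i x
  obtain ⟨q, hq1, hq2⟩ := h _ (S × Q) W Y r₀ ε (fun c => a₀ c.1 c.2) hr₀' (min_le_left _ _)
    (fun c => ha1 _ _)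
    (fun v hv k => by
      have := Fintype.linearIndependent_iff.1 hli (fun k => Multiplicative.toAdd (v k)) (by
        funext k
        have h1 := congrArg Multiplicative.toAdd ((hW v _ k).symm.trans (hv k))
        rw [toAdd_hol, pair_conn hj] at h1
        rw [Finset.sum_apply]
        exact h1) k
      exact Multiplicative.toAdd.injective this)
    (fun a ha q hq hy k hk => by
      have := hQ ng_S3 q a hr₀'.le (by positivity) hq hy ha k hk
      nlinarith)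
    (fun z hz k hk => by
      have := hQ (ng_comm Circle) z (fun _ => 1) zero_le_one le_rfl hz
        (fun k _ => by split_ifs <;> norm_num) (fun c => by simp) k hk
      by_contra hc
      simp only [hc, if_false] at this
      linarith)
  set A := conn j q (fun c : S × Q => a₀ c.1 c.2) with hA
  have hA0 : (fun s => A (Sum.inl s)) = a₀ := by
    funext s x; exact conn_inl _ _ _ _ _
  set ρ : ℝ := ⨆ p : R × Q, nu (A (yy Sy p.1) p.2) with hρ
  have ρ0 : 0 ≤ ρ := Real.iSup_nonneg fun p => nu_nonneg _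
  have ρ1 : ∀ i x, nu (A (yy Sy i) x) ≤ ρ := fun i x =>
    le_ciSup (f := fun p : R × Q => nu (A (yy Sy p.1) p.2)) (Finite.bddAbove_range _) (i, x)
  have ρ2 : ρ ≤ r₀ := Real.iSup_le
    (fun p => hY ng_S3 q _ hr₀'.le (fun k hk => (hq2 k hk).le) _ _) hr₀'.le
  have ρ3 : ρ ≤ η + Cq * (2 * ρ ^ 2) := Real.iSup_le
    (fun p => hquad Q φ S3 nu 2 ng_S3 A ρ η ρ0
      (fun f hf => hS q _ hq1 f (Finset.mem_union_left _ hf)) ρ1 (by rw [hA0]; exact ha2) _ _)
    (by positivity)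
  have ρ4 : ρ ≤ 2 * η := by
    have : Cq * (2 * ρ ^ 2) ≤ Cq * (2 * r₀) * ρ := by
      rw [mul_assoc, sq, mul_assoc]; gcongr
    nlinarith
  have h5 := hlin Q φ S3 nu 2 ng_S3 A ρ ρ0
    (fun f hf => hS q _ hq1 f (Finset.mem_union_right _ hf)) ρ1 x₀
  rw [hol_freeMap, hA0] at h5
  have h6 : θ ≤ D * ρ := ha3.trans h5
  have h7 : θ = 2 * (D + 1) * η := by rw [hη]; field_simp
  nlinarith

end Crest.Agent.R197
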