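import Crest.Agent.R197.Defs

/-!
# Row 197: radial deformation of the complement of the cell centres (DEF)
-/

set_option autoImplicit false

open unitInterval Topology Filter
open scoped Quaternion Classical

namespace Crest.Agent.R197

namespace DefA

variable {Z : Type} [TopologicalSpace Z] {Y : Set Z} {n : ℕ}

lemma norm_le (y : Dk n) : ‖y.1‖ ≤ 1 := mem_closedBall_zero_iff.1 y.2

lemma norm_rad (y : Fin n → ℝ) (hy : y ≠ 0) (t : I) :
    ‖((1 - (t : ℝ)) + t / ‖y‖) • y‖ = (1 - (t : ℝ)) * ‖y‖ + t := by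
  have h0 : 0 < ‖y‖ := norm_pos_iff.2 hy
  have h1 : 0 ≤ (1 - (t : ℝ)) + t / ‖y‖ :=
    add_nonneg (by linarith [t.2.2]) (div_nonneg t.2.1 h0.le)
  rw [norm_smul, Real.norm_of_nonneg h1]
  field_simp

/-- the radial push -/
noncomputable def radD (y : Dk n) (t : I) : Dk n :=
  ⟨((1 - (t : ℝ)) + t / ‖y.1‖) • y.1, by
    rw [mem_closedBall_zero_iff]
    by_cases hy : y.1 = 0
    · rw [hy]; simp
    · rw [norm_rad _ hy]
      have := norm_le y
      nlinarith [t.2.1, t.2.2]⟩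

lemma radD_of_norm (y : Dk n) (hy : ‖y.1‖ = 1) (t : I) : radD y t = y := by
  apply Subtype.ext
  simp [radD, hy]

lemma norm_radD_one (y : Dk n) (hy : y.1 ≠ 0) : ‖(radD y 1).1‖ = 1 := by
  change ‖((1 - ((1 : I) : ℝ)) + ((1 : I) : ℝ) / ‖y.1‖) • y.1‖ = 1
  rw [norm_rad _ hy]
  simp

lemma continuousAt_radD (y : Dk n) (hy : y.1 ≠ 0) (t : I) :
    ContinuousAt (fun p : Dk n × I => radD p.1 p.2) (y, t) := by
  rw [IsInducing.subtypeVal.continuousAt_iff]
  change ContinuousAt (fun p : Dk n × I => ((1 - (p.2 : ℝ)) + p.2 / ‖p.1.1‖) • p.1.1) (y, t)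
  have h0 : ‖y.1‖ ≠ 0 := norm_ne_zero_iff.2 hy
  have h1 : ContinuousAt (fun p : Dk n × I => (p.2 : ℝ) / ‖p.1.1‖) (y, t) :=
    ContinuousAt.div (f := fun p : Dk n × I => (p.2 : ℝ)) (g := fun p : Dk n × I => ‖p.1.1‖)
      (by fun_prop) (by fun_prop) h0
  have h2 : ContinuousAt (fun p : Dk n × I => 1 - (p.2 : ℝ)) (y, t) := by fun_prop
  have h3 : ContinuousAt (fun p : Dk n × I => p.1.1) (y, t) := by fun_prop
  exact (h2.add h1).smul h3

lemma continuousAt_radD_one (y : Dk n) (hy : y.1 ≠ 0) :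
    ContinuousAt (fun y' : Dk n => radD y' 1) y :=
  ContinuousAt.comp (f := fun y' : Dk n => (y', (1 : I))) (continuousAt_radD y hy 1)
    (by fun_prop)

variable (A : Att Z Y n)

lemma lt_of_not_mem {j : A.J} {y : Dk n} (h : A.Φ j y ∉ Y) : ‖y.1‖ < 1 :=
  lt_of_le_of_ne (norm_le y) fun h' => h (A.bd j y h')

/-- closed sets -/
lemma isClosed_iff (C : Set Z) :
    IsClosed C ↔ IsClosed ((↑) ⁻¹' C : Set Y) ∧ ∀ j, IsClosed (A.Φ j ⁻¹' C) := by
  refine ⟨fun h => ⟨h.preimage continuous_subtype_val, fun j => h.preimage (A.Φ j).continuous⟩,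
    fun h => A.weak C ?_ h.2⟩
  have := A.closedY.isClosedEmbedding_subtypeVal.isClosedMap _ h.1
  rwa [Subtype.image_preimage_coe, Set.inter_comm] at this

/-- open sets -/
lemma isOpen_iff (U : Set Z) :
    IsOpen U ↔ IsOpen ((↑) ⁻¹' U : Set Y) ∧ ∀ j, IsOpen (A.Φ j ⁻¹' U) := by
  rw [← isClosed_compl_iff, isClosed_iff A]
  simp only [Set.preimage_compl, isClosed_compl_iff]

/-- open subsets of open cells are open -/
lemma isOpen_image (j : A.J) (W : Set (Dk n)) (hW : IsOpen W) (hW' : ∀ y ∈ W, ‖y.1‖ < 1) :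
    IsOpen (A.Φ j '' W) := by
  rw [isOpen_iff A]
  constructor
  · convert isOpen_empty
    ext z
    simp only [Set.mem_preimage, Set.mem_image, Set.mem_empty_iff_false, iff_false]
    rintro ⟨y, hy, h⟩
    exact A.int j y (hW' y hy) (h ▸ z.2)
  · intro j'
    by_cases hj : j = j'
    · subst hj
      convert hW
      ext y
      simp only [Set.mem_preimage, Set.mem_image]
      refine ⟨?_, fun h => ⟨y, h, rfl⟩⟩
      rintro ⟨y', hy', h⟩
      exact (A.inj j j y' y (hW' y' hy') h).2 ▸ hy'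
    · convert isOpen_empty
      ext y
      simp only [Set.mem_preimage, Set.mem_image, Set.mem_empty_iff_false, iff_false]
      rintro ⟨y', hy', h⟩
      exact hj (A.inj j j' y' y (hW' y' hy') h).1

/-- neighbourhoods of a point of an open cell -/
lemma eventually_nhds (j : A.J) (y : Dk n) (hy : ‖y.1‖ < 1) {p : Z → Prop}
    (h : ∀ᶠ y' in 𝓝 y, p (A.Φ j y')) : ∀ᶠ z in 𝓝 (A.Φ j y), p z := by
  have h1 : ∀ᶠ y' : Dk n in 𝓝 y, ‖y'.1‖ < 1 :=
    (isOpen_lt (by fun_prop) continuous_const).mem_nhds hy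
  obtain ⟨W, hW, hWo, hyW⟩ := mem_nhds_iff.1 (h.and h1)
  refine mem_nhds_iff.2 ⟨A.Φ j '' W, ?_, isOpen_image A j W hWo fun y' hy' => (hW hy').2,
    ⟨y, hyW, rfl⟩⟩
  rintro _ ⟨y', hy', rfl⟩
  exact (hW hy').1

lemma map_nhds (j : A.J) (y : Dk n) (hy : ‖y.1‖ < 1) : map (A.Φ j) (𝓝 y) = 𝓝 (A.Φ j y) :=
  le_antisymm (A.Φ j).continuous.continuousAt fun _ hs => eventually_nhds A j y hy hs

lemma mem_O_of_mem {z : Z} (hz : z ∈ Y) : z ∈ A.O := fun j h =>
  A.int j ⟨0, by simp⟩ (by simp) (h ▸ hz)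

lemma mem_O_iff (j : A.J) (y : Dk n) : A.Φ j y ∈ A.O ↔ y.1 ≠ 0 := by
  constructor
  · intro h h0
    exact h j (congrArg (A.Φ j) (Subtype.ext h0.symm))
  · intro h j' h'
    exact h (congrArg Subtype.val (A.inj j' j _ y (by simp) h').2).symm

lemma isOpen_O : IsOpen A.O := by
  rw [isOpen_iff A]
  constructor
  · convert isOpen_univ
    ext z
    simpa using mem_O_of_mem A z.2
  · intro j
    have : A.Φ j ⁻¹' A.O = {y | y.1 ≠ 0} := Set.ext fun y => mem_O_iff A j y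
    rw [this]
    exact isOpen_ne_fun continuous_subtype_val continuous_const

/-- the total map -/
def pr : Y ⊕ (Σ _ : A.J, Dk n) → Z := Sum.elim Subtype.val fun p => A.Φ p.1 p.2

lemma quot : IsQuotientMap (pr A) := by
  refine isQuotientMap_iff_isClosed.2 ⟨fun z => ?_, fun C => ?_⟩
  · by_cases hz : z ∈ Y
    · exact ⟨Sum.inl ⟨z, hz⟩, rfl⟩
    · obtain ⟨j, y, h⟩ := A.cover z hz
      exact ⟨Sum.inr ⟨j, y⟩, h⟩
  · rw [isClosed_iff A, isClosed_sum_iff, isClosed_sigma_iff]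
    rfl

/-- the deformation (junk at the centres) -/
noncomputable def rho (z : Z) (t : I) : Z :=
  if h : z ∈ Y then z else
    A.Φ (A.cover z h).choose (radD (A.cover z h).choose_spec.choose t)

lemma rho_of_mem {z : Z} (hz : z ∈ Y) (t : I) : rho A z t = z := dif_pos hz

lemma rho_Φ (j : A.J) (y : Dk n) (t : I) : rho A (A.Φ j y) t = A.Φ j (radD y t) := by
  by_cases h : A.Φ j y ∈ Y
  · rw [rho_of_mem A h]
    by_cases hy : ‖y.1‖ < 1
    · exact absurd h (A.int j y hy)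
    · rw [radD_of_norm y (le_antisymm (norm_le y) (not_lt.1 hy))]
  · have h1 := (A.cover _ h).choose_spec.choose_spec
    obtain ⟨h2, h3⟩ := A.inj j _ y _ (lt_of_not_mem A h) h1.symm
    rw [rho, dif_neg h, ← h3, ← h2]

lemma continuous_rho : Continuous fun p : A.O × I => rho A p.1.1 p.2 := by
  refine ((quot A).restrictPreimage_isOpen (isOpen_O A)).continuous_lift_prod_left ?_
  have key : ∀ x ∈ pr A ⁻¹' A.O, ∀ t : I,
      ContinuousAt (fun p : (Y ⊕ (Σ _ : A.J, Dk n)) × I => rho A (pr A p.1) p.2) (x, t) := by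
    rintro (y | ⟨j, y⟩) hx t
    · have he : IsOpenEmbedding (Prod.map (Sum.inl : Y → Y ⊕ (Σ _ : A.J, Dk n)) (id : I → I)) :=
        IsOpenEmbedding.inl.prodMap IsOpenEmbedding.id
      refine (he.continuousAt_iff (x := (y, t))).1 ?_
      have : ((fun p : (Y ⊕ (Σ _ : A.J, Dk n)) × I => rho A (pr A p.1) p.2) ∘
          Prod.map (Sum.inl : Y → Y ⊕ (Σ _ : A.J, Dk n)) (id : I → I)) = fun p => p.1.1 :=
        funext fun p => rho_of_mem A p.1.2 _
      rw [this]
      fun_prop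
    · have he : IsOpenEmbedding (Prod.map ((Sum.inr : _ → Y ⊕ (Σ _ : A.J, Dk n)) ∘ Sigma.mk j)
          (id : I → I)) :=
        (IsOpenEmbedding.inr.comp IsOpenEmbedding.sigmaMk).prodMap IsOpenEmbedding.id
      refine (he.continuousAt_iff (x := (y, t))).1 ?_
      have : ((fun p : (Y ⊕ (Σ _ : A.J, Dk n)) × I => rho A (pr A p.1) p.2) ∘
          Prod.map ((Sum.inr : _ → Y ⊕ (Σ _ : A.J, Dk n)) ∘ Sigma.mk j) (id : I → I)) =
          fun p => A.Φ j (radD p.1 p.2) :=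
        funext fun p => rho_Φ A j p.1 p.2
      rw [this]
      exact (A.Φ j).continuous.continuousAt.comp
        (continuousAt_radD y ((mem_O_iff A j y).1 hx) t)
  refine continuous_iff_continuousAt.2 fun p => ?_
  exact ContinuousAt.comp (f := fun p : (pr A ⁻¹' A.O) × I => (p.1.1, p.2)) (key _ p.1.2 p.2)
    (by fun_prop)

end DefA

theorem defStmt : DefStmt := by
  intro Z _ Y n A
  refine ⟨DefA.isOpen_O A, ⟨_, DefA.continuous_rho A⟩, fun z t hz => DefA.rho_of_mem A hz t, ?_⟩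
  intro z t j y y' h h'
  change DefA.rho A z.1 t = _
  rw [← h, DefA.rho_Φ]
  exact congrArg (A.Φ j) (Subtype.ext h'.symm)

end Crest.Agent.R197
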