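import Mathlib
import Crest.Prelude.Def_ClassifyingComplex

/-!
# Row 197 (S0300, Eilenberg–Ganea): definitions and interface statements

`G` is the Bestvina–Brady group of an acyclic flag complex with a non-trivial flat quaternionic
line bundle.  An aspherical presentation of `G` would allow to extend almost trivial, almost flat
`S³`-connections on finite quotients (mod 2 equivariant degree), which is absurd.
-/

set_option autoImplicit false

open unitInterval Topology Filter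
open scoped Quaternion Classical

namespace Crest.Agent.R197

/-! ## 1. Holonomy of words -/

/-- `(Q → K) ⋊ Q` for the right regular action -/
@[ext] structure Wr (Q K : Type) where
  left : Q → K
  right : Q

instance {Q K : Type} [Group Q] [Group K] : Group (Wr Q K) where
  mul a b := ⟨fun x => a.left x * b.left (x * a.right), a.right * b.right⟩
  one := ⟨fun _ => 1, 1⟩
  inv a := ⟨fun x => (a.left (x * a.right⁻¹))⁻¹, a.right⁻¹⟩
  mul_assoc a b c := by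
    apply Wr.ext
    · funext x
      change a.left x * b.left (x * a.right) * c.left (x * (a.right * b.right)) =
        a.left x * (b.left (x * a.right) * c.left (x * a.right * b.right))
      rw [mul_assoc, mul_assoc]
    · exact mul_assoc _ _ _
  one_mul a := by
    apply Wr.ext
    · funext x
      change 1 * a.left (x * 1) = a.left x
      rw [one_mul, mul_one]
    · exact one_mul _
  mul_one a := by
    apply Wr.ext
    · funext x
      exact mul_one _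
    · exact mul_one _
  inv_mul_cancel a := by
    apply Wr.ext
    · funext x
      exact inv_mul_cancel _
    · exact inv_mul_cancel _

/-- holonomy of the connection `a` along the path with label `ω` starting at `x` -/
def hol {L Q K : Type} [Group Q] [Group K] (lab : L → Q) (a : L → Q → K) (ω : FreeGroup L) :
    Q → K :=
  (FreeGroup.lift (fun l => (⟨a l, lab l⟩ : Wr Q K)) ω).left

/-- the 1-chain of the path with label `ω` starting at `x` (Fox derivative) -/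
noncomputable def chain {L G : Type} [Group G] (lab : L → G) (ω : FreeGroup L) (x : G) :
    G × L →₀ ℤ :=
  Multiplicative.toAdd (hol lab (fun l y => Multiplicative.ofAdd (Finsupp.single (y, l) 1)) ω x)

/-- boundary of 2-chains -/
noncomputable def bd {L R G : Type} [Group G] (lab : L → G) (w : R → FreeGroup L) :
    (G × R →₀ ℤ) →ₗ[ℤ] (G × L →₀ ℤ) :=
  Finsupp.linearCombination ℤ fun p => chain lab (w p.2) p.1

/-- boundary of 1-chains -/
noncomputable def d1 {L G : Type} [Group G] (lab : L → G) : (G × L →₀ ℤ) →ₗ[ℤ] (G →₀ ℤ) :=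
  Finsupp.linearCombination ℤ fun p => Finsupp.single (p.1 * lab p.2) 1 - Finsupp.single p.1 1

/-- an aspherical presentation -/
structure Pres (G : Type) [Group G] where
  T : Type
  R : Type
  lab : T → G
  w : R → FreeGroup T
  surj : Function.Surjective (FreeGroup.lift lab)
  ker : (FreeGroup.lift lab).ker = Subgroup.normalClosure (Set.range w)
  inj : Function.Injective (bd lab w)

/-- attaching the relators `r` to the Cayley graph gives an acyclic complex -/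
structure Acyc {G S R : Type} [Group G] (lab : S → G) (r : R → FreeGroup S) : Prop where
  surj : Function.Surjective (FreeGroup.lift lab)
  rel : ∀ i, FreeGroup.lift lab (r i) = 1
  inj : Function.Injective (bd lab r)
  exact : ∀ z, d1 lab z = 0 → ∃ c, bd lab r c = z

/-- unit quaternions -/
abbrev S3 : Type := unitary ℍ[ℝ]

/-- distance to `1` -/
noncomputable def nu (q : S3) : ℝ := ‖(q : ℍ[ℝ]) - 1‖

/-- small, almost flat connections with a fixed amount of holonomy on a trivial loop -/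
def Small {G S R : Type} [Group G] (lab : S → G) (r : R → FreeGroup S) : Prop :=
  ∀ ε : ℝ, 0 < ε → ∃ γ : FreeGroup S, FreeGroup.lift lab γ = 1 ∧ ∃ θ : ℝ, 0 < θ ∧
    ∀ η : ℝ, 0 < η → ∃ (Q : Type) (_ : Group Q) (_ : Finite Q) (φ : G →* Q) (a : S → Q → S3),
      (∀ s x, nu (a s x) ≤ ε) ∧ (∀ i x, nu (hol (fun s => φ (lab s)) a (r i) x) ≤ η) ∧
      ∃ x, θ ≤ nu (hol (fun s => φ (lab s)) a γ x)

/-! ## 2. Degree theory -/

/-- (DEG) the parity of the number of regular zeros is a homotopy invariant -/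
def DegStmt : Prop :=
  ∀ (V : Type) [NormedAddCommGroup V] [NormedSpace ℝ V] [FiniteDimensional ℝ V] (Ω K : Set V)
    (F : ℝ × V → V) (δ : ℝ), IsOpen Ω → IsCompact K → K ⊆ Ω → 0 < δ →
    ContDiffOn ℝ 2 F (Set.univ ×ˢ Ω) →
    (∀ t ∈ Set.Icc (0 : ℝ) 1, ∀ x ∈ Ω, x ∉ K → δ ≤ ‖F (t, x)‖) →
    (∀ x ∈ Ω, F (0, x) ≠ 0) →
    (∀ x ∈ Ω, F (1, x) = 0 → Function.Injective (fderiv ℝ (fun y => F (1, y)) x)) →
    {x | x ∈ Ω ∧ F (1, x) = 0}.Finite ∧ Even {x | x ∈ Ω ∧ F (1, x) = 0}.ncard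

/-- (EQ) existence of zeros from a `ℤ/2` symmetry -/
def EqStmt : Prop :=
  ∀ (A B : Type) [NormedAddCommGroup A] [NormedSpace ℝ A] [FiniteDimensional ℝ A]
    [NormedAddCommGroup B] [NormedSpace ℝ B] [FiniteDimensional ℝ B] (Ω K : Set (A × B))
    (F : ℝ × (A × B) → A × B) (δ : ℝ), IsOpen Ω → Bornology.IsBounded Ω → IsCompact K → K ⊆ Ω →
    0 < δ → ContDiffOn ℝ 2 F (Set.univ ×ˢ Ω) →
    (∀ t ∈ Set.Icc (0 : ℝ) 1, ∀ x ∈ Ω, x ∉ K → δ ≤ ‖F (t, x)‖) →
    (∀ a b, (a, b) ∈ Ω → (a, -b) ∈ Ω ∧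
      F (1, (a, -b)) = ((F (1, (a, b))).1, -(F (1, (a, b))).2)) →
    Odd {a | (a, (0 : B)) ∈ Ω ∧ F (1, (a, 0)) = 0}.ncard →
    (∀ a, (a, (0 : B)) ∈ Ω → F (1, (a, 0)) = 0 →
      Function.Injective (fderiv ℝ (fun a' => (F (1, (a', 0))).1) a)) →
    ∃ x ∈ Ω, F (0, x) = 0

/-- (GR) a local Gerstenhaber–Rothaus theorem for unit quaternions: unknowns and equations are
indexed by `Φ`, constants by `C`. -/
def GRStmt : Prop :=
  ∀ (Φ C : Type) [Finite Φ] [Finite C] (W : Φ → FreeGroup (Φ ⊕ C)) (Y : Set Φ) (r ε : ℝ)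
    (a₀ : C → S3), 0 < r → ε ≤ 1 → (∀ c, nu (a₀ c) ≤ ε) →
    (∀ v : Φ → Multiplicative (ZMod 2),
      (∀ k, FreeGroup.lift (Sum.elim v fun _ => 1) (W k) = 1) → ∀ k, v k = 1) →
    (∀ a : C → S3, (∀ c, nu (a c) ≤ 2 * ε) → ∀ q : Φ → S3,
      (∀ k, FreeGroup.lift (Sum.elim q a) (W k) = 1) → (∀ k ∈ Y, nu (q k) ≤ r) →
      ∀ k ∈ Y, nu (q k) < r) →
    (∀ z : Φ → Circle, (∀ k, FreeGroup.lift (Sum.elim z fun _ => 1) (W k) = 1) →
      ∀ k ∈ Y, z k = 1) →
    ∃ q : Φ → S3, (∀ k, FreeGroup.lift (Sum.elim q a₀) (W k) = 1) ∧ ∀ k ∈ Y, nu (q k) < r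

/-! ## 3. The algebraic core -/

/-- the letter `y i` -/
def yl {S E R : Type} (i : R) : FreeGroup (S ⊕ (E ⊕ R)) := FreeGroup.of (Sum.inr (Sum.inr i))

/-- A system of equations `w f = 1` with constants `S` and unknowns `E ⊕ R`. -/
structure Sys {G S R : Type} [Group G] (lab : S → G) (r : R → FreeGroup S) where
  E : Type
  F : Type
  labE : E → G
  w : F → FreeGroup (S ⊕ (E ⊕ R))
  rel : ∀ f, FreeGroup.lift (Sum.elim lab (Sum.elim labE fun _ => 1)) (w f) = 1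
  quad : ∀ i, FreeGroup.map Sum.inl (r i) * (yl i)⁻¹ ∈ Subgroup.normalClosure (Set.range w ∪
    {c | ∃ m ∈ Subgroup.normalClosure (Set.range (yl (S := S) (E := E) (R := R))),
      ∃ m' ∈ Subgroup.normalClosure (Set.range (yl (S := S) (E := E) (R := R))), 
        c = m * m' * m⁻¹ * m'⁻¹})
  lin : ∀ γ : FreeGroup S, FreeGroup.lift lab γ = 1 →
    FreeGroup.map Sum.inl γ ∈ Subgroup.normalClosure (Set.range w ∪ Set.range yl)
  onto : ∀ (Q : Type) [Group Q] (φ : G →* Q) (b : F → Q → Multiplicative (ZMod 2)),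
    ∃ a : E ⊕ R → Q → Multiplicative (ZMod 2), ∀ f x,
      hol (fun l => φ (Sum.elim lab (Sum.elim labE fun _ => 1) l)) (Sum.elim (fun _ _ => 1) a)
        (w f) x = b f x

/-- (ALG) -/
def AlgStmt : Prop :=
  ∀ (G S R : Type) [Group G] (lab : S → G) (r : R → FreeGroup S), Acyc lab r → Pres G →
    Nonempty (Sys lab r)

/-- (CORE) -/
def CoreStmt : Prop :=
  ∀ (G S R : Type) [Group G] [Finite S] [Finite R] (lab : S → G) (r : R → FreeGroup S),
    Small lab r → IsEmpty (Sys lab r)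

/-- (COH) cohomological dimension -/
def CohStmt : Prop :=
  ∀ (G S R : Type) [Group G] (lab : S → G) (r : R → FreeGroup S), Acyc lab r →
    (∀ (A : Rep ℤ G) (n : ℕ), 3 ≤ n → CategoryTheory.Limits.IsZero (groupCohomology A n)) ∧
    ((∃ b : R → Multiplicative ℤ, ∀ k : S → Multiplicative ℤ, ∃ i, FreeGroup.lift k (r i) ≠ b i) →
      ∃ A : Rep ℤ G, ¬ CategoryTheory.Limits.IsZero (groupCohomology A 2))

/-! ## 4. Path functors -/

section
variable {Z : Type} [TopologicalSpace Z]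

/-- sides of a square -/
def sB (H : C(I × I, Z)) : C(I, Z) := H.comp ⟨fun s => (s, 0), by fun_prop⟩
def sT (H : C(I × I, Z)) : C(I, Z) := H.comp ⟨fun s => (s, 1), by fun_prop⟩
def sL (H : C(I × I, Z)) : C(I, Z) := H.comp ⟨fun t => (0, t), by fun_prop⟩
def sR (H : C(I × I, Z)) : C(I, Z) := H.comp ⟨fun t => (1, t), by fun_prop⟩

/-- inclusion of a subset -/
def incl (Y : Set Z) : C(Y, Z) := ⟨Subtype.val, continuous_subtype_val⟩

end

/-- a functor from the fundamental groupoid to a group -/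
structure PF (Z : Type) [TopologicalSpace Z] (U : Type) [Group U] where
  m : C(I, Z) → U
  const : ∀ z, m (ContinuousMap.const I z) = 1
  sq : ∀ H : C(I × I, Z), m (sB H) * m (sR H) = m (sL H) * m (sT H)

/-- local potentials with locally constant ratios (a covering space) -/
structure Pot (Z : Type) [TopologicalSpace Z] (U : Type) [Group U] where
  ι : Type
  O : ι → Set Z
  c : ι → Z → U
  isOpen : ∀ i, IsOpen (O i)
  cover : ∀ z, ∃ i, z ∈ O i
  lc : ∀ i j z, z ∈ O i → z ∈ O j → ∀ᶠ z' in 𝓝 z, c i z' * (c j z')⁻¹ = c i z * (c j z)⁻¹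

/-- a continuous lift of `f` -/
def Pot.Sec {Z U : Type} [TopologicalSpace Z] [Group U] (P : Pot Z U) {W : Type}
    [TopologicalSpace W] (f : W → Z) (ℓ : W → U) : Prop :=
  ∀ i w, f w ∈ P.O i → ∀ᶠ w' in 𝓝 w, ℓ w' * (P.c i (f w'))⁻¹ = ℓ w * (P.c i (f w))⁻¹

/-- (POT) monodromy -/
def PotStmt : Prop :=
  ∀ (Z U : Type) [TopologicalSpace Z] [Group U] (P : Pot Z U), ∃ m : PF Z U, ∀ γ : C(I, Z),
    (∃ ℓ, P.Sec γ ℓ) ∧ ∀ ℓ, P.Sec γ ℓ → m.m γ = (ℓ 0)⁻¹ * ℓ 1

/-- (LOG) variation of the logarithm -/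
def LogStmt : Prop :=
  ∃ Δ : PF {z : ℂ // z ≠ 0} (Multiplicative ℂ), ∀ γ : C(I, {z : ℂ // z ≠ 0}),
    (∃ ℓ : C(I, ℂ), ∀ s, Complex.exp (ℓ s) = γ s) ∧
    ∀ ℓ : C(I, ℂ), (∀ s, Complex.exp (ℓ s) = γ s) → Δ.m γ = Multiplicative.ofAdd (ℓ 1 - ℓ 0)

/-- the closed cube -/
abbrev Dk (n : ℕ) : Type := Metric.closedBall (0 : Fin n → ℝ) 1
/-- its boundary -/
abbrev Sp (n : ℕ) : Type := {y : Dk n // ‖y.1‖ = 1}

/-- `Z` is obtained from `Y` by attaching `n`-cells -/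
structure Att (Z : Type) [TopologicalSpace Z] (Y : Set Z) (n : ℕ) where
  J : Type
  Φ : J → C(Dk n, Z)
  closedY : IsClosed Y
  bd : ∀ j y, ‖y.1‖ = 1 → Φ j y ∈ Y
  int : ∀ j y, ‖y.1‖ < 1 → Φ j y ∉ Y
  inj : ∀ j j' y y', ‖y.1‖ < 1 → Φ j y = Φ j' y' → j = j' ∧ y = y'
  cover : ∀ z, z ∉ Y → ∃ j y, Φ j y = z
  weak : ∀ C : Set Z, IsClosed (C ∩ Y) → (∀ j, IsClosed (Φ j ⁻¹' C)) → IsClosed C

namespace Att
variable {Z : Type} [TopologicalSpace Z] {Y : Set Z} {n : ℕ} (A : Att Z Y n)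

/-- the complement of the centres of the cells -/
def O : Set Z := {z | ∀ j, A.Φ j ⟨0, by simp⟩ ≠ z}

/-- the attaching map -/
def att (j : A.J) : C(Sp n, Y) :=
  ⟨fun y => ⟨A.Φ j y.1, A.bd j y.1 y.2⟩, by fun_prop⟩

end Att

/-- (DEF) radial deformation onto `Y` -/
def DefStmt : Prop :=
  ∀ (Z : Type) [TopologicalSpace Z] (Y : Set Z) (n : ℕ) (A : Att Z Y n),
    IsOpen A.O ∧ ∃ ρ : C(A.O × I, Z), (∀ z t, z.1 ∈ Y → ρ (z, t) = z.1) ∧
      ∀ (z : A.O) (t : I) j (y y' : Dk n), A.Φ j y = z.1 →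
        y'.1 = ((1 - (t : ℝ)) + t / ‖y.1‖) • y.1 → ρ (z, t) = A.Φ j y'

/-- (GEN) paths are generated by paths in `Y` and paths in the cells -/
def GenStmt : Prop :=
  ∀ (Z : Type) [TopologicalSpace Z] (Y : Set Z) (n : ℕ) (A : Att Z Y (n + 1)) (U : Type) [Group U]
    (m : PF Z U) (Q : Z → Z → U → Prop),
    (∀ x y z u v, Q x y u → Q y z v → Q x z (u * v)) →
    (∀ γ : C(I, Z), (∀ s, γ s ∈ Y) → Q (γ 0) (γ 1) (m.m γ)) →
    (∀ j (β : C(I, Dk (n + 1))), ‖(β 0).1‖ = 1 → ‖(β 1).1‖ = 1 →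
      Q (A.Φ j (β 0)) (A.Φ j (β 1)) (m.m ((A.Φ j).comp β))) →
    ∀ γ : C(I, Z), γ 0 ∈ Y → γ 1 ∈ Y → Q (γ 0) (γ 1) (m.m γ)

/-- (EXT) extension of coverings over cells -/
def ExtStmt : Prop :=
  ∀ (Z : Type) [TopologicalSpace Z] (Y : Set Z) (n : ℕ) (A : Att Z Y n) (U : Type) [Group U]
    (P : Pot Y U) (s : A.J → Sp n → U), (∀ j, P.Sec (A.att j) (s j)) →
    ∃ P' : Pot Z U,
      (∀ (W : Type) [TopologicalSpace W] (f : C(W, Y)) (ℓ : W → U), P.Sec f ℓ →
        P'.Sec ((incl Y).comp f) ℓ) ∧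
      ∀ j, ∃ ℓ : Dk n → U, P'.Sec (A.Φ j) ℓ ∧ ∀ y : Sp n, ℓ y.1 = s j y

/-- the segment from `-1` to `1` -/
noncomputable def seg : C(I, Dk 1) :=
  ⟨fun t => ⟨fun _ => 2 * (t : ℝ) - 1, by
    rw [mem_closedBall_zero_iff, pi_norm_const, Real.norm_eq_abs, abs_le]
    constructor <;> linarith [t.2.1, t.2.2]⟩, by fun_prop⟩

/-- a parametrisation of the boundary of the square -/
structure IsLoop (lp : C(I, Sp 2)) : Prop where
  closed : lp 0 = lp 1
  surj : Function.Surjective lp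
  inj : ∀ s t, lp s = lp t → s = t ∨ (s = 0 ∧ t = 1) ∨ (s = 1 ∧ t = 0)
  wind : ∃ ℓ : C(I, ℂ), (∀ t, Complex.exp (ℓ t) = (lp t).1.1 0 + (lp t).1.1 1 * Complex.I) ∧
    ℓ 1 - ℓ 0 = 2 * Real.pi * Complex.I

/-- (LOOP) -/
def LoopStmt : Prop := ∃ lp, IsLoop lp

/-- (CW) a two-dimensional CW complex in convenient form -/
def CWStmt : Prop :=
  ∀ (X : Type) [TopologicalSpace X] [CWComplex (Set.univ : Set X)] [T2Space X],
    (∀ n : ℕ, 2 < n → IsEmpty (RelCWComplex.cell (Set.univ : Set X) n)) →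
    ∃ (X1 : Set X) (_ : Att X X1 2) (X0 : Set X1) (_ : Att X1 X0 1),
      ∀ γ : C(I, X1), (∀ s, γ s ∈ X0) → ∀ s, γ s = γ 0

/-- (FREE) path functors with prescribed values on the edges -/
def FreeStmt : Prop :=
  ∀ (X : Type) [TopologicalSpace X] (X1 : Set X) (A2 : Att X X1 2) (X0 : Set X1)
    (A1 : Att X1 X0 1) (lp : C(I, Sp 2)), IsLoop lp → ∀ (U : Type) [Group U] (u : A1.J → U),
    ∃ m1 : PF X1 U, (∀ e, m1.m ((A1.Φ e).comp seg) = u e) ∧
      ((∀ f, m1.m ((A2.att f).comp lp) = 1) →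
        ∃ m : PF X U, ∀ γ : C(I, X1), m.m ((incl X1).comp γ) = m1.m γ)

/-- `lam` identifies the universal cover with `X × G` -/
structure IsLab {X E G : Type} [TopologicalSpace X] [TopologicalSpace E] [Group G] (p : C(E, X))
    (lab : PF X G) (lam : E → G) : Prop where
  bij : Function.Bijective fun e => (p e, lam e)
  path : ∀ δ : C(I, E), lam (δ 1) = lam (δ 0) * lab.m (p.comp δ)

/-- (LAB) -/
def LabStmt : Prop :=
  ∀ (X E G : Type) [TopologicalSpace X] [TopologicalSpace E] [Group G] [ContractibleSpace E]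
    (p : C(E, X)), IsCoveringMap p → Function.Surjective p →
    ∀ x : X, Nonempty (FundamentalGroup X x ≃* G) → ∃ lab lam, IsLab (G := G) p lab lam

/-- the quaternion `i` -/
def qI : ℍ[ℝ] := ⟨0, 1, 0, 0⟩

/-- (HOPF) lifting along the Hopf map -/
def HopfStmt : Prop :=
  ∀ (E : Type) [TopologicalSpace E] [ContractibleSpace E] (q : C(E, ℍ[ℝ])),
    (∀ e, q e * q e = -1) → ∃ u : C(E, ℍ[ℝ]), ∀ e, u e ≠ 0 ∧ u e * qI = q e * u e

/-- (INJ) the linking cocycle of a 2-cell of the universal cover -/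
def InjStmt : Prop :=
  ∀ (X E G : Type) [TopologicalSpace X] [TopologicalSpace E] [Group G] [ContractibleSpace E]
    (p : C(E, X)), IsCoveringMap p → ∀ (lab : PF X G) (lam : E → G), IsLab p lab lam →
    ∀ (X1 : Set X) (A : Att X X1 2) (lp : C(I, Sp 2)), IsLoop lp → ∀ (g₀ : G) (f₀ : A.J),
    ∃ μ : PF X1 (Wr G (Multiplicative ℤ)),
      (∀ γ, (μ.m γ).right = lab.m ((incl X1).comp γ)) ∧
      ∀ f g, (μ.m ((A.att f).comp lp)).left g =
        Multiplicative.ofAdd (if g = g₀ ∧ f = f₀ then 1 else 0)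

/-- (TOP) -/
def TopStmt : Prop :=
  ∀ (G : Type) [Group G], Crest.Topology.HasClassifyingComplex G 2 → Nonempty (Pres G)

/-! ## 5. Right-angled Artin groups and heaps -/

section
variable {V : Type} (Γ : SimpleGraph V)

/-- the right-angled Artin group -/
abbrev RA : Type :=
  PresentedGroup {ω : FreeGroup V | ∃ a b, Γ.Adj a b ∧
    ω = FreeGroup.of a * FreeGroup.of b * (FreeGroup.of a)⁻¹ * (FreeGroup.of b)⁻¹}

/-- generators -/
def gen (a : V) : RA Γ := PresentedGroup.of a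

/-- the height -/
def ht : RA Γ →* Multiplicative ℤ :=
  PresentedGroup.toGroup (f := fun _ => Multiplicative.ofAdd 1) (by
    rintro _ ⟨a, b, -, rfl⟩
    simp)

/-- the Bestvina–Brady group -/
abbrev BB : Type := (ht Γ).ker

/-- letters that block each other -/
def blk (a b : V) : Prop := a ≠ b ∧ ¬ Γ.Adj a b

/-- the level at which the letter `a` lands on the heap `h` -/
noncomputable def top {C : Type} [Zero C] (a : V) (h : V → ℕ → C) : ℕ :=
  sInf {n | ∀ b j, blk Γ a b → n ≤ j → h b j = 0}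

/-- add `c` at the position `(a, i)` -/
noncomputable def bump {C : Type} [AddZeroClass C] (h : V → ℕ → C) (a : V) (i : ℕ) (c : C) :
    V → ℕ → C :=
  fun b j => h b j + if b = a ∧ j = i then c else 0

/-- Cartier–Foata normal forms -/
structure Valid {C : Type} [Zero C] (h : V → ℕ → C) : Prop where
  fin : ∃ N, ∀ a i, N ≤ i → h a i = 0
  clq : ∀ a b i, blk Γ a b → h a i ≠ 0 → h b i = 0
  sup : ∀ a i, h a (i + 1) ≠ 0 → ∃ b, blk Γ a b ∧ h b i ≠ 0

/-- the normal form map -/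
structure IsHeap (heap : RA Γ → V → ℕ → ℤ) : Prop where
  one : heap 1 = 0
  mul : ∀ g a (c : ℤ), heap (g * gen Γ a ^ c) = bump (heap g) a (top Γ a (heap g)) c
  valid : ∀ g, Valid Γ (heap g)
  inj : Function.Injective heap
  surj : ∀ h, Valid Γ h → ∃ g, heap g = h

variable [LinearOrder V]

/-- edges -/
abbrev Ed : Type := {p : V × V // p.1 < p.2 ∧ Γ.Adj p.1 p.2}
/-- triangles -/
abbrev Tr : Type := {p : V × V × V // (p.1 < p.2.1 ∧ Γ.Adj p.1 p.2.1) ∧
  (p.2.1 < p.2.2 ∧ Γ.Adj p.2.1 p.2.2) ∧ Γ.Adj p.1 p.2.2}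

variable {Γ}
def Tr.e01 (t : Tr Γ) : Ed Γ := ⟨(t.1.1, t.1.2.1), t.2.1⟩
def Tr.e12 (t : Tr Γ) : Ed Γ := ⟨(t.1.2.1, t.1.2.2), t.2.2.1⟩
def Tr.e02 (t : Tr Γ) : Ed Γ := ⟨(t.1.1, t.1.2.2), t.2.1.1.trans t.2.2.1.1, t.2.2.2⟩
variable (Γ)

/-- the generator `a⁻¹ b` of the Bestvina–Brady group -/
def labS (e : Ed Γ) : BB Γ := ⟨(gen Γ e.1.1)⁻¹ * gen Γ e.1.2, by simp [ht, gen]⟩

/-- the two triangle relators -/
def relS : Tr Γ × Bool → FreeGroup (Ed Γ)
  | (t, true) => FreeGroup.of t.e01 * FreeGroup.of t.e12 * (FreeGroup.of t.e02)⁻¹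
  | (t, false) => FreeGroup.of t.e12 * FreeGroup.of t.e01 * (FreeGroup.of t.e02)⁻¹

/-- simplicial boundaries of the flag complex -/
noncomputable def dL2 : (Tr Γ →₀ ℤ) →ₗ[ℤ] (Ed Γ →₀ ℤ) :=
  Finsupp.linearCombination ℤ fun t =>
    Finsupp.single t.e12 1 - Finsupp.single t.e02 1 + Finsupp.single t.e01 1
noncomputable def dL1 : (Ed Γ →₀ ℤ) →ₗ[ℤ] (V →₀ ℤ) :=
  Finsupp.linearCombination ℤ fun e => Finsupp.single e.1.2 1 - Finsupp.single e.1.1 1

/-- cubical boundaries of the universal cover of the Salvetti complex (the first one is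
`d1 (gen Γ)`) -/
noncomputable def sd2 : (RA Γ × Ed Γ →₀ ℤ) →ₗ[ℤ] (RA Γ × V →₀ ℤ) :=
  Finsupp.linearCombination ℤ fun p =>
    Finsupp.single (p.1 * gen Γ p.2.1.1, p.2.1.2) 1 - Finsupp.single (p.1, p.2.1.2) 1 -
      Finsupp.single (p.1 * gen Γ p.2.1.2, p.2.1.1) 1 + Finsupp.single (p.1, p.2.1.1) 1
noncomputable def sd3 : (RA Γ × Tr Γ →₀ ℤ) →ₗ[ℤ] (RA Γ × Ed Γ →₀ ℤ) :=
  Finsupp.linearCombination ℤ fun p =>
    Finsupp.single (p.1 * gen Γ p.2.1.1, p.2.e12) 1 - Finsupp.single (p.1, p.2.e12) 1 -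
      Finsupp.single (p.1 * gen Γ p.2.1.2.1, p.2.e02) 1 + Finsupp.single (p.1, p.2.e02) 1 +
      Finsupp.single (p.1 * gen Γ p.2.1.2.2, p.2.e01) 1 - Finsupp.single (p.1, p.2.e01) 1

/-- exactness of the cubical chain complex in the degrees one and two -/
structure Salv : Prop where
  h1 : ∀ z, d1 (gen Γ) z = 0 → ∃ y, sd2 Γ y = z
  h2 : ∀ z, sd2 Γ z = 0 → ∃ y, sd3 Γ y = z

/-- the flag complex is an acyclic 2-complex -/
structure LAcyc : Prop where
  conn : Γ.Connected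
  dim : Γ.CliqueFree 4
  h1 : ∀ z, dL1 Γ z = 0 → ∃ y, dL2 Γ y = z
  h2 : Function.Injective (dL2 Γ)

omit [LinearOrder V] in
/-- a flat quaternionic line bundle with non-trivial holonomy, in a good gauge -/
structure Coc (ρ : V → V → S3) : Prop where
  refl : ∀ a, ρ a a = 1
  mul : ∀ a b c, ¬ blk Γ a b → ¬ blk Γ b c → ¬ blk Γ a c → ρ a b * ρ b c = ρ a c
  pos : ∀ a b, ¬ blk Γ a b → 0 ≤ (ρ a b : ℍ[ℝ]).re
  hol : ∃ (k : ℕ) (c : ℕ → V), c k = c 0 ∧ (∀ j < k, Γ.Adj (c j) (c (j + 1))) ∧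
    ((List.range k).map fun j => ρ (c j) (c (j + 1))).prod ≠ 1

end

/-- (HEAP) -/
def HeapStmt : Prop :=
  ∀ (V : Type) [Finite V] (Γ : SimpleGraph V), ∃ heap, IsHeap Γ heap

/-- (RF) -/
def RFStmt : Prop :=
  ∀ (V : Type) [Finite V] (Γ : SimpleGraph V) (heap : RA Γ → V → ℕ → ℤ), IsHeap Γ heap →
    Group.ResiduallyFinite (RA Γ)

/-- (SALV) -/
def SalvStmt : Prop :=
  ∀ (V : Type) [Finite V] [LinearOrder V] (Γ : SimpleGraph V) (heap : RA Γ → V → ℕ → ℤ),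
    IsHeap Γ heap → Salv Γ

/-- (ACYC) -/
def AcycStmt : Prop :=
  ∀ (V : Type) [Finite V] [LinearOrder V] (Γ : SimpleGraph V), Salv Γ → LAcyc Γ →
    Acyc (labS Γ) (relS Γ)

/-- (SMALL) -/
def SmallStmt : Prop :=
  ∀ (V : Type) [Finite V] [LinearOrder V] (Γ : SimpleGraph V) (heap : RA Γ → V → ℕ → ℤ),
    IsHeap Γ heap → Group.ResiduallyFinite (RA Γ) → Γ.CliqueFree 4 → ∀ ρ, Coc Γ ρ →
    Small (labS Γ) (relS Γ)

/-- the infinite cyclic cover of the Salvetti complex -/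
def Kc {V : Type} [Fintype V] (Γ : SimpleGraph V) : Set ((V → AddCircle (1 : ℝ)) × ℝ) :=
  {p | Γ.IsClique {a | p.1 a ≠ 0} ∧ ((p.2 : ℝ) : AddCircle (1 : ℝ)) = ∑ a, p.1 a}

/-- (KCW) -/
def KCWStmt : Prop :=
  ∀ (V : Type) [Fintype V] (Γ : SimpleGraph V), Γ.CliqueFree 4 →
    ∃ _ : CWComplex (Set.univ : Set (Kc Γ)),
      ∀ n : ℕ, 3 < n → IsEmpty (RelCWComplex.cell (Set.univ : Set (Kc Γ)) n)

/-- (KCOV) -/
def KCovStmt : Prop :=
  ∀ (V : Type) [Fintype V] [Nonempty V] (Γ : SimpleGraph V) (heap : RA Γ → V → ℕ → ℤ),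
    IsHeap Γ heap → ∃ (E : Type) (_ : TopologicalSpace E) (_ : MulAction (BB Γ) E) (p : E → Kc Γ),
      ContractibleSpace E ∧ IsQuotientCoveringMap p (BB Γ)

/-- (L) the barycentric subdivision of the `A₅` acyclic 2-complex -/
def LStmt : Prop :=
  ∃ Γ : SimpleGraph (Fin 21), LAcyc Γ ∧ Nonempty (Tr Γ) ∧ ∃ ρ, Coc Γ ρ

end Crest.Agent.R197
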