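import Crest.Agent.R197.Defs

/-!
Row 197: the parity of the number of regular zeros is a homotopy invariant.
-/

set_option autoImplicit false
set_option linter.unusedVariables false
set_option linter.unusedSectionVars false

open Topology Filter MeasureTheory Module Set
open scoped Classical

namespace Crest.Agent.R197

namespace Deg

variable {V : Type} [NormedAddCommGroup V] [NormedSpace ℝ V] [FiniteDimensional ℝ V]

section integ
variable [MeasurableSpace V] [BorelSpace V] (μ : Measure V) [μ.IsAddHaarMeasure] {K : Set V}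

lemma integrable_of_supp (hK : IsCompact K) {g : V → ℝ} (hg : Continuous g)
    (h0 : ∀ x, x ∉ K → g x = 0) : Integrable g μ :=
  hg.integrable_of_hasCompactSupport (HasCompactSupport.intro hK h0)

lemma fderiv_zero (hK : IsCompact K) {a : ℝ × V → ℝ} (h0 : ∀ s x, x ∉ K → a (s, x) = 0)
    (s : ℝ) (x : V) (hx : x ∉ K) : fderiv ℝ a (s, x) = 0 := by
  have : a =ᶠ[𝓝 (s, x)] fun _ => 0 := by
    filter_upwards [(hK.isClosed.isOpen_compl.preimage continuous_snd).mem_nhds
      (show (s, x) ∈ Prod.snd ⁻¹' Kᶜ from hx)] with p hp using h0 p.1 p.2 hp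
  rw [this.fderiv_eq, fderiv_fun_const]
  rfl

lemma integrable_fderiv (hK : IsCompact K) {a : ℝ × V → ℝ} (ha : ContDiff ℝ 1 a)
    (h0 : ∀ s x, x ∉ K → a (s, x) = 0) (s : ℝ) (v : ℝ × V) :
    Integrable (fun x => fderiv ℝ a (s, x) v) μ :=
  integrable_of_supp μ hK (((ha.continuous_fderiv one_ne_zero).comp
    (Continuous.prodMk_right s)).clm_apply continuous_const)
    fun x hx => by simp [fderiv_zero hK h0 s x hx]

lemma hasDerivAt_int (hK : IsCompact K) {a : ℝ × V → ℝ} (ha : ContDiff ℝ 1 a)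
    (h0 : ∀ s x, x ∉ K → a (s, x) = 0) (s₀ : ℝ) :
    HasDerivAt (fun s => ∫ x, a (s, x) ∂μ) (∫ x, fderiv ℝ a (s₀, x) (1, 0) ∂μ) s₀ := by
  have hc : Continuous fun p : ℝ × V => fderiv ℝ a p (1, 0) :=
    (ha.continuous_fderiv one_ne_zero).clm_apply continuous_const
  obtain ⟨C, hC⟩ := ((isCompact_closedBall s₀ 1).prod hK).exists_bound_of_continuousOn
    hc.continuousOn
  have h1 : ∀ s, Integrable (fun x => a (s, x)) μ := fun s =>
    integrable_of_supp μ hK (ha.continuous.comp (Continuous.prodMk_right s)) (h0 s)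
  refine (hasDerivAt_integral_of_dominated_loc_of_deriv_le (μ := μ)
    (F := fun s x => a (s, x)) (F' := fun s x => fderiv ℝ a (s, x) (1, 0))
    (bound := K.indicator fun _ => C) (Metric.closedBall_mem_nhds s₀ one_pos)
    (Eventually.of_forall fun s => (h1 s).aestronglyMeasurable) (h1 s₀)
    (integrable_fderiv μ hK ha h0 s₀ _).aestronglyMeasurable
    (Eventually.of_forall fun x s hs => ?_)
    ((integrable_indicator_iff hK.measurableSet).mpr (integrableOn_const hK.measure_ne_top))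
    (Eventually.of_forall fun x s _ => ?_)).2
  · by_cases hx : x ∈ K
    · rw [indicator_of_mem hx]
      exact hC (s, x) ⟨hs, hx⟩
    · simp [fderiv_zero hK h0 s x hx, hx]
  · have h2 : HasDerivAt (fun r : ℝ => ((r, x) : ℝ × V)) (1, 0) s :=
      (hasDerivAt_id s).prodMk (hasDerivAt_const s _)
    exact (ha.differentiable one_ne_zero (s, x)).hasFDerivAt.comp_hasDerivAt s h2

lemma integral_space (hK : IsCompact K) {a : ℝ × V → ℝ} (ha : ContDiff ℝ 1 a)
    (h0 : ∀ s x, x ∉ K → a (s, x) = 0) (s : ℝ) (v : V) :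
    ∫ x, fderiv ℝ a (s, x) (0, v) ∂μ = 0 := by
  have hd : ∀ x, HasFDerivAt (fun x => a (s, x))
      ((fderiv ℝ a (s, x)).comp (ContinuousLinearMap.inr ℝ ℝ V)) x := fun x =>
    (ha.differentiable one_ne_zero (s, x)).hasFDerivAt.comp x (hasFDerivAt_prodMk_right s x)
  have e : ∀ x, fderiv ℝ (fun x => a (s, x)) x v = fderiv ℝ a (s, x) (0, v) := fun x => by
    rw [(hd x).fderiv]
    rfl
  have hi : Integrable (fun x => a (s, x)) μ :=
    integrable_of_supp μ hK (ha.continuous.comp (Continuous.prodMk_right s)) (h0 s)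
  have := integral_mul_fderiv_eq_neg_fderiv_mul_of_integrable (μ := μ) (f := fun _ : V => (1 : ℝ))
    (g := fun x => a (s, x)) (v := v) (by simp)
    (by simpa [e] using integrable_fderiv μ hK ha h0 s (0, v))
    (by simpa using hi)
    (fun _ _ => differentiableAt_const _) fun x _ => (hd x).differentiableAt
  simpa [e] using this

end integ

/-- the determinant form of a basis -/
noncomputable def detC {D : ℕ} (b : Basis (Fin D) ℝ V) : V [⋀^Fin D]→L[ℝ] ℝ :=
  { b.det with
    cont := by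
      change Continuous fun v => b.det v
      simp only [Basis.det_apply]
      refine Continuous.matrix_det (continuous_matrix fun i j => ?_)
      simp only [Basis.toMatrix_apply]
      exact (b.coord i).continuous_of_finiteDimensional.comp (continuous_apply j) }

/-- the constant frame -/
noncomputable def fr {D : ℕ} (b : Basis (Fin D) ℝ V) : Fin (D + 1) → ℝ × V :=
  Fin.cons (1, 0) fun i => (0, b i)

/-- coefficients of the pulled-back form -/
noncomputable def coef {D : ℕ} (b : Basis (Fin D) ℝ V) (φ : V → ℝ) (G : ℝ × V → V)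
    (i : Fin (D + 1)) (p : ℝ × V) : ℝ :=
  (φ (G p) • detC b).compContinuousLinearMap (fderiv ℝ G p) (i.removeNth (fr b))

lemma coef_contDiffAt {D : ℕ} (b : Basis (Fin D) ℝ V) {φ : V → ℝ} (hφ : ContDiff ℝ 1 φ)
    {G : ℝ × V → V} {p : ℝ × V} (hG : ContDiffAt ℝ 2 G p) (i : Fin (D + 1)) :
    ContDiffAt ℝ 1 (coef b φ G i) p := by
  have h1 : ContDiffAt ℝ 1 G p := hG.of_le (by norm_num)
  have h2 : ContDiffAt ℝ 1 (fderiv ℝ G) p := hG.fderiv_right (m := 1) (by norm_num)
  have : coef b φ G i = fun p => φ (G p) * (detC b).toContinuousMultilinearMap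
      (fun k => fderiv ℝ G p (fr b (i.succAbove k))) := rfl
  rw [this]
  refine (hφ.contDiffAt.comp _ h1).mul ?_
  refine (detC b).toContinuousMultilinearMap.contDiff.contDiffAt.comp _ ?_
  exact contDiffAt_pi.2 fun k => h2.clm_apply contDiffAt_const

lemma coef_zero {D : ℕ} (b : Basis (Fin D) ℝ V) (φ : V → ℝ) {G : ℝ × V → V} {s : ℝ} {x : V}
    (hG : ContDiffAt ℝ 2 G (s, x)) :
    coef b φ G 0 (s, x) = φ (G (s, x)) * (fderiv ℝ (fun y => G (s, y)) x).det := by
  have h1 : HasFDerivAt (fun y => G (s, y))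
      ((fderiv ℝ G (s, x)).comp (ContinuousLinearMap.inr ℝ ℝ V)) x :=
    (hG.differentiableAt (by simp)).hasFDerivAt.comp x (hasFDerivAt_prodMk_right s _)
  have : coef b φ G 0 (s, x) = φ (G (s, x)) *
      b.det ((fderiv ℝ (fun y => G (s, y)) x : V →ₗ[ℝ] V) ∘ b) := by
    change φ (G (s, x)) * b.det _ = _
    congr 2
    funext k
    rw [Function.comp_apply, h1.fderiv]
    rfl
  rw [this, Basis.det_comp, Basis.det_self, mul_one]

lemma closed_identity (b : Basis (Fin (finrank ℝ V)) ℝ V) {φ : V → ℝ} (hφ : ContDiff ℝ 1 φ)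
    {G : ℝ × V → V} {p : ℝ × V} (hG : ContDiffAt ℝ 2 G p) :
    ∑ i : Fin (finrank ℝ V + 1), (-1) ^ i.val • fderiv ℝ (coef b φ G i) p (fr b i) = 0 := by
  have h1 : DifferentiableAt ℝ G p := hG.differentiableAt (by simp)
  have h2 : DifferentiableAt ℝ (fderiv ℝ G) p :=
    (hG.fderiv_right (m := 1) (by norm_num)).differentiableAt (by simp)
  have hv : ∀ y, DifferentiableAt ℝ (fun y => φ y • detC b) y := fun y =>
    (hφ.differentiable one_ne_zero y).smul_const _
  have hΩ : DifferentiableAt ℝ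
      (fun p => (φ (G p) • detC b).compContinuousLinearMap (fderiv ℝ G p)) p :=
    ((hv _).comp _ h1).continuousAlternatingMapCompContinuousLinearMap h2
  have key := extDeriv_apply hΩ (fr b)
  rw [extDeriv_pullback (ω := fun y => φ y • detC b) (hv _) hG (by simp)] at key
  refine Eq.trans key.symm ?_
  rw [ContinuousAlternatingMap.compContinuousLinearMap_apply]
  refine (extDeriv (fun y => φ y • detC b) (G p)).toAlternatingMap.map_linearDependent _
    fun hli => ?_
  have h4 := hli.fintype_card_le_finrank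
  simp at h4

lemma homot [MeasurableSpace V] [BorelSpace V] (μ : Measure V) [μ.IsAddHaarMeasure]
    {Ω K : Set V} (hΩ : IsOpen Ω) (hK : IsCompact K) (hKΩ : K ⊆ Ω) {G : ℝ × V → V}
    (hG : ∀ s x, x ∈ Ω → ContDiffAt ℝ 2 G (s, x)) {φ : V → ℝ} (hφ : ContDiff ℝ 1 φ)
    (hv : ∀ s x, x ∈ Ω → x ∉ K → φ (G (s, x)) = 0) :
    ∫ x in Ω, φ (G (0, x)) * (fderiv ℝ (fun y => G (0, y)) x).det ∂μ =
      ∫ x in Ω, φ (G (1, x)) * (fderiv ℝ (fun y => G (1, y)) x).det ∂μ := by
  let b := Module.finBasis ℝ V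
  let a : Fin (finrank ℝ V + 1) → ℝ × V → ℝ := fun i p => if p.2 ∈ Ω then coef b φ G i p else 0
  have h0 : ∀ i s x, x ∉ K → a i (s, x) = 0 := fun i s x hx => by
    simp only [a]
    split_ifs with h
    · simp [coef, hv s x h hx]
    · rfl
  have hev : ∀ i s x, x ∈ Ω → a i =ᶠ[𝓝 (s, x)] coef b φ G i := fun i s x hx => by
    filter_upwards [(hΩ.preimage continuous_snd).mem_nhds
      (show (s, x) ∈ Prod.snd ⁻¹' Ω from hx)] with p hp using if_pos hp
  have ha : ∀ i, ContDiff ℝ 1 (a i) := fun i => contDiff_iff_contDiffAt.mpr fun p => by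
    by_cases hp : p.2 ∈ K
    · exact (coef_contDiffAt b hφ (hG p.1 p.2 (hKΩ hp)) i).congr_of_eventuallyEq
        (hev i p.1 p.2 (hKΩ hp))
    · refine (contDiffAt_const (c := 0)).congr_of_eventuallyEq ?_
      filter_upwards [(hK.isClosed.isOpen_compl.preimage continuous_snd).mem_nhds
        (show p ∈ Prod.snd ⁻¹' Kᶜ from hp)] with q hq using h0 i q.1 q.2 hq
  have hd : ∀ s, HasDerivAt (fun s => ∫ x, a 0 (s, x) ∂μ) 0 s := fun s => by
    have h1 := hasDerivAt_int μ hK (ha 0) (h0 0) s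
    have h2 : ∀ x, fderiv ℝ (a 0) (s, x) (1, 0) =
        ∑ i : Fin (finrank ℝ V), (-1 : ℝ) ^ i.val * fderiv ℝ (a i.succ) (s, x) (0, b i) := by
      intro x
      by_cases hx : x ∈ K
      · have := closed_identity b hφ (hG s x (hKΩ hx))
        rw [Fin.sum_univ_succ] at this
        simp only [Fin.val_zero, pow_zero, one_smul, Fin.val_succ, pow_succ, mul_neg, mul_one,
          neg_smul, Finset.sum_neg_distrib] at this
        rw [← sub_eq_add_neg, sub_eq_zero] at this
        simp only [(hev _ s x (hKΩ hx)).fderiv_eq]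
        refine Eq.trans this (Finset.sum_congr rfl fun i _ => ?_)
        rw [zsmul_eq_mul]
        simp [fr]
      · simp [fderiv_zero hK (h0 _) s x hx]
    simp only [h2] at h1
    rw [integral_finsetSum _ fun i _ => (integrable_fderiv μ hK (ha _) (h0 _) s _).const_mul _]
      at h1
    simpa only [integral_const_mul, integral_space μ hK (ha _) (h0 _), mul_zero,
      Finset.sum_const_zero] using h1
  have := is_const_of_deriv_eq_zero (fun s => (hd s).differentiableAt) (fun s => (hd s).deriv) 0 1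
  have e : ∀ s, ∫ x in Ω, φ (G (s, x)) * (fderiv ℝ (fun y => G (s, y)) x).det ∂μ =
      ∫ x, a 0 (s, x) ∂μ := fun s => by
    rw [← setIntegral_eq_integral_of_forall_compl_eq_zero (s := Ω) (f := fun x => a 0 (s, x))
      fun x hx => if_neg hx]
    refine setIntegral_congr_fun hΩ.measurableSet fun x hx => ?_
    simp only [a, if_pos hx]
    exact (coef_zero b φ (hG s x hx)).symm
  rw [e, e, this]

lemma local_data {f : V → V} {z : V} (hf : ContDiffAt ℝ 2 f z)
    (hi : Function.Injective (fderiv ℝ f z)) :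
    map f (𝓝 z) = 𝓝 (f z) ∧ ∃ W ∈ 𝓝 z, InjOn f W ∧ ∃ ε : ℤ, (ε = 1 ∨ ε = -1) ∧
      ∀ x ∈ W, (fderiv ℝ f x).det = ε * |(fderiv ℝ f x).det| := by
  have hd : (fderiv ℝ f z).det ≠ 0 :=
    (LinearEquiv.ofInjectiveEndo (fderiv ℝ f z : V →ₗ[ℝ] V) hi).isUnit_det'.ne_zero
  have hs : HasStrictFDerivAt f
      ((fderiv ℝ f z).toContinuousLinearEquivOfDetNeZero hd : V →L[ℝ] V) z := by
    rw [ContinuousLinearMap.coe_toContinuousLinearEquivOfDetNeZero]
    exact hf.hasStrictFDerivAt (by simp)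
  have hc : ContinuousAt (fun x => (fderiv ℝ f x).det) z :=
    ContinuousLinearMap.continuous_det.continuousAt.comp
      (hf.fderiv_right (m := 1) (by norm_num)).continuousAt
  refine ⟨hs.map_nhds_eq_of_equiv, ?_⟩
  have hl := hs.eventually_left_inverse
  rcases lt_or_gt_of_ne hd with h | h
  · refine ⟨_, hl.and (hc.eventually_lt_const h), fun x hx y hy e => ?_, -1, Or.inr rfl,
      fun x hx => by simp [abs_of_neg hx.2]⟩
    rw [← hx.1, e, hy.1]
  · refine ⟨_, hl.and (hc.eventually_const_lt h), fun x hx y hy e => ?_, 1, Or.inl rfl,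
      fun x hx => by simp [abs_of_pos hx.2]⟩
    rw [← hx.1, e, hy.1]

end Deg

open Deg in
theorem degStmt : DegStmt := by
  intro V _ _ _ Ω K F δ hΩ hK hKΩ hδ hF hb h0 hreg
  let _ : MeasurableSpace V := borel V
  have : BorelSpace V := ⟨rfl⟩
  let μ : Measure V := (Module.finBasis ℝ V).addHaar
  have hF' : ∀ s x, x ∈ Ω → ContDiffAt ℝ 2 F (s, x) := fun s x hx =>
    hF.contDiffAt ((isOpen_univ.prod hΩ).mem_nhds ⟨trivial, hx⟩)
  have hs : ∀ s x, x ∈ Ω → ContDiffAt ℝ 2 (fun y => F (s, y)) x := fun s x hx =>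
    (hF' s x hx).comp x (contDiffAt_const.prodMk contDiffAt_id)
  have hcK : ∀ s, ContinuousOn (fun y => F (s, y)) K := fun s x hx =>
    (hs s x (hKΩ hx)).continuousAt.continuousWithinAt
  set Z := {x | x ∈ Ω ∧ F (1, x) = 0} with hZ
  have hZK : Z ⊆ K := fun x hx => by
    by_contra h
    have := hb 1 ⟨zero_le_one, le_rfl⟩ x hx.1 h
    rw [hx.2, norm_zero] at this
    linarith
  have hZc : IsCompact Z := by
    have : Z = K ∩ (fun y => F (1, y)) ⁻¹' {0} :=
      Set.ext fun x => ⟨fun h => ⟨hZK h, h.2⟩, fun h => ⟨hKΩ h.1, h.2⟩⟩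
    rw [this]
    exact hK.of_isClosed_subset
      ((hcK 1).preimage_isClosed_of_isClosed hK.isClosed isClosed_singleton) inter_subset_left
  have loc := fun (z : V) (hz : z ∈ Z) => local_data (hs 1 z hz.1) (hreg z hz.1 hz.2)
  choose! hmap W hW hinj ε hε hdet using loc
  have hfin : Z.Finite := by
    obtain ⟨t, ht, hc⟩ := hZc.elim_nhds_subcover W hW
    refine t.finite_toSet.subset fun x hx => ?_
    obtain ⟨z, hz, hxz⟩ := mem_iUnion₂.mp (hc hx)
    rwa [hinj z (ht z hz) hxz (mem_of_mem_nhds (hW z (ht z hz))) (hx.2.trans (ht z hz).2.symm)]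
  refine ⟨hfin, ?_⟩
  obtain ⟨S, hS, hdis⟩ := hfin.t2_separation
  let U : V → Set V := fun z => interior (W z) ∩ S z ∩ Ω
  have hUo : ∀ z, IsOpen (U z) := fun z => (isOpen_interior.inter (hS z).2).inter hΩ
  have hUz : ∀ z ∈ Z, z ∈ U z := fun z hz =>
    ⟨⟨mem_interior_iff_mem_nhds.mpr (hW z hz), (hS z).1⟩, hz.1⟩
  have hUW : ∀ z, U z ⊆ W z := fun z x hx => interior_subset hx.1.1
  have hN : (⋂ z ∈ Z, (fun y => F (1, y)) '' U z) ∈ 𝓝 (0 : V) :=
    (biInter_mem hfin).mpr fun z hz => by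
      rw [← hz.2, ← hmap z hz]
      exact image_mem_map ((hUo z).mem_nhds (hUz z hz))
  obtain ⟨r₁, hr₁, h₁⟩ := Metric.mem_nhds_iff.mp hN
  obtain ⟨r₂, hr₂, h₂⟩ := hK.exists_forall_le' (hcK 0).norm (a := 0)
    fun x hx => norm_pos_iff.mpr (h0 x (hKΩ hx))
  obtain ⟨r₃, hr₃, h₃⟩ := (hK.diff (isOpen_biUnion fun z (_ : z ∈ Z) => hUo z)).exists_forall_le'
    ((hcK 1).norm.mono sdiff_subset) (a := 0) fun x hx => norm_pos_iff.mpr fun h =>
      hx.2 (mem_biUnion (show x ∈ Z from ⟨hKΩ hx.1, h⟩) (hUz x ⟨hKΩ hx.1, h⟩))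
  set ρ := min (min δ r₁) (min r₂ r₃) with hρ
  have hρ0 : 0 < ρ := by positivity
  let φ : ContDiffBump (0 : V) := ⟨ρ / 2, ρ, by positivity, by linarith⟩
  have hφ0 : ∀ y, ρ ≤ ‖y‖ → φ y = 0 := fun y hy => φ.zero_of_le_dist (by simpa using hy)
  have ρδ : ρ ≤ δ := (min_le_left _ _).trans (min_le_left _ _)
  have ρ₁ : ρ ≤ r₁ := (min_le_left _ _).trans (min_le_right _ _)
  have ρ₂ : ρ ≤ r₂ := (min_le_right _ _).trans (min_le_left _ _)
  have ρ₃ : ρ ≤ r₃ := (min_le_right _ _).trans (min_le_right _ _)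
  have key := homot μ hΩ hK hKΩ (G := fun p => F (Real.smoothTransition p.1, p.2))
    (fun s x hx => (hF' _ x hx).comp (s, x)
      ((Real.smoothTransition.contDiffAt.comp _ contDiffAt_fst).prodMk contDiffAt_snd))
    φ.contDiff fun s x hx hx' => hφ0 _ (ρδ.trans (hb _
      ⟨Real.smoothTransition.nonneg _, Real.smoothTransition.le_one _⟩ x hx hx'))
  simp only [Real.smoothTransition.zero, Real.smoothTransition.one] at key
  rw [setIntegral_eq_zero_of_forall_eq_zero fun x hx => by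
    by_cases hx' : x ∈ K
    · rw [hφ0 _ (ρ₂.trans (h₂ x hx')), zero_mul]
    · rw [hφ0 _ (ρδ.trans (hb 0 ⟨le_rfl, zero_le_one⟩ x hx hx')), zero_mul]] at key
  have hv : ∀ x ∈ Ω, x ∉ K → φ (F (1, x)) * (fderiv ℝ (fun y => F (1, y)) x).det = 0 :=
    fun x hx hx' => by rw [hφ0 _ (ρδ.trans (hb 1 ⟨zero_le_one, le_rfl⟩ x hx hx')), zero_mul]
  have hint : IntegrableOn (fun x => φ (F (1, x)) * (fderiv ℝ (fun y => F (1, y)) x).det) Ω μ := by
    refine IntegrableOn.of_forall_sdiff_eq_zero (s := K) (ContinuousOn.integrableOn_compact hK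
      fun x hx => ContinuousAt.continuousWithinAt ?_) hΩ.measurableSet fun x hx => hv x hx.1 hx.2
    exact (φ.continuous.continuousAt.comp (hs 1 x (hKΩ hx)).continuousAt).mul
      (ContinuousLinearMap.continuous_det.continuousAt.comp
        ((hs 1 x (hKΩ hx)).fderiv_right (m := 1) (by norm_num)).continuousAt)
  rw [setIntegral_eq_of_subset_of_forall_sdiff_eq_zero (s := ⋃ z ∈ hfin.toFinset, U z)
    hΩ.measurableSet (iUnion₂_subset fun z _ x hx => hx.2) (fun x hx => by
      by_cases hx' : x ∈ K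
      · rw [hφ0 _ (ρ₃.trans (h₃ x ⟨hx', by simpa using hx.2⟩)), zero_mul]
      · exact hv x hx.1 hx'),
    integral_biUnion_finset _ (fun z _ => (hUo z).measurableSet)
      (fun z hz z' hz' h => (hdis (by simpa using hz) (by simpa using hz') h).mono
        (fun x hx => hx.1.2) fun x hx => hx.1.2)
      fun z _ => hint.mono_set fun x hx => hx.2] at key
  have each : ∀ z ∈ hfin.toFinset, ∫ x in U z, φ (F (1, x)) *
      (fderiv ℝ (fun y => F (1, y)) x).det ∂μ = ε z * ∫ y, φ y ∂μ := fun z hz => by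
    have hz' : z ∈ Z := by simpa using hz
    rw [← setIntegral_eq_integral_of_forall_compl_eq_zero (s := (fun y => F (1, y)) '' U z)
      (fun y hy => hφ0 y (ρ₁.trans (not_lt.mp fun h => hy
        (mem_iInter₂.mp (h₁ (mem_ball_zero_iff.mpr h)) z hz')))),
      integral_image_eq_integral_abs_det_fderiv_smul μ (hUo z).measurableSet
        (fun x hx => ((hs 1 x hx.2).differentiableAt (by simp)).hasFDerivAt.hasFDerivWithinAt)
        ((hinj z hz').mono (hUW z)), ← integral_const_mul]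
    refine setIntegral_congr_fun (hUo z).measurableSet fun x hx => ?_
    simp only [smul_eq_mul]
    rw [← mul_assoc, ← hdet z hz' x (hUW z hx), mul_comm]
  rw [Finset.sum_congr rfl each, ← Finset.sum_mul] at key
  have hsum : ∑ z ∈ hfin.toFinset, ε z = 0 := by
    exact_mod_cast (mul_eq_zero.mp key.symm).resolve_right φ.integral_pos.ne'
  have h2 : ((hfin.toFinset.card : ℕ) : ZMod 2) = ((∑ z ∈ hfin.toFinset, ε z : ℤ) : ZMod 2) := by
    rw [Finset.card_eq_sum_ones]
    push_cast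
    refine Finset.sum_congr rfl fun z hz => ?_
    rcases hε z (by simpa using hz) with h | h <;> rw [h] <;> rfl
  rw [hsum, Int.cast_zero, ZMod.natCast_eq_zero_iff_even] at h2
  rwa [Set.ncard_eq_toFinset_card _ hfin]

end Crest.Agent.R197
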