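import Crest.Agent.R197.Defs

/-!
# Row 197: existence of zeros from a `ℤ/2` symmetry (Gromes' perturbation argument)
-/

set_option autoImplicit false

open unitInterval Topology Filter
open scoped Quaternion Classical

namespace Crest.Agent.R197

namespace EqA

variable {A B : Type} [NormedAddCommGroup A] [NormedSpace ℝ A] [NormedAddCommGroup B]
  [NormedSpace ℝ B]

/-- the equivariant perturbation -/
def L (s : ℝ) (y : A × B) : A × B := (s ^ 2 • y.1, s ^ 3 • y.2)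

lemma L_sub (s : ℝ) (y z : A × B) : L s (y - z) = L s y - L s z := by simp [L, smul_sub]

lemma L_inv {s : ℝ} (hs : s ≠ 0) (y : A × B) : L s⁻¹ (L s y) = y := by
  simp [L, smul_smul, hs]

lemma contDiff_L (ℓ : A × B →L[ℝ] ℝ) (y : A × B) : ContDiff ℝ 2 fun z => L (ℓ z) y := by
  unfold L; fun_prop

lemma hasFDerivAt_L_zero (ℓ : A × B →L[ℝ] ℝ) (y : A × B) {x : A × B} (hx : ℓ x = 0) :
    HasFDerivAt (fun z => L (ℓ z) y) (0 : A × B →L[ℝ] A × B) x := by
  have := ((ℓ.hasFDerivAt (x := x)).pow 2 |>.smul_const y.1).prodMk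
    ((ℓ.hasFDerivAt (x := x)).pow 3 |>.smul_const y.2)
  refine HasFDerivAt.congr_fderiv this ?_
  ext <;> simp [hx]

lemma norm_L_le {s R : ℝ} (hs : |s| ≤ R) (hR : 1 ≤ R) (y : A × B) : ‖L s y‖ ≤ R ^ 3 * ‖y‖ := by
  have h1 : |s| ^ 2 ≤ R ^ 3 :=
    (pow_le_pow_left₀ (abs_nonneg s) hs 2).trans (pow_le_pow_right₀ hR (by norm_num))
  have h2 : |s| ^ 3 ≤ R ^ 3 := pow_le_pow_left₀ (abs_nonneg s) hs 3
  rw [L, Prod.norm_mk, norm_smul, norm_smul, norm_pow, norm_pow, Real.norm_eq_abs]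
  exact max_le (mul_le_mul h1 (norm_fst_le y) (norm_nonneg _) (by positivity))
    (mul_le_mul h2 (norm_snd_le y) (norm_nonneg _) (by positivity))

lemma step [FiniteDimensional ℝ A] [FiniteDimensional ℝ B] {Ω : Set (A × B)} (hΩ : IsOpen Ω)
    {h : A × B → A × B} (hh : DifferentiableOn ℝ h Ω) (ℓ : A × B →L[ℝ] ℝ) {ε : ℝ} (hε : 0 < ε) :
    ∃ y : A × B, ‖y‖ < ε ∧ ∀ x ∈ Ω, ℓ x ≠ 0 → h x - L (ℓ x) y = 0 →
      Function.Injective (fderiv ℝ (fun z => h z - L (ℓ z) y) x) := by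
  borelize (A × B)
  set Ψ : A × B → A × B := fun z => L (ℓ z)⁻¹ (h z) with hΨ
  have hd : ∀ x ∈ Ω, ℓ x ≠ 0 → DifferentiableAt ℝ Ψ x := fun x hx h0 => by
    have := hh.differentiableAt (hΩ.mem_nhds hx)
    simp only [hΨ, L]
    fun_prop (disch := assumption)
  have h0 := MeasureTheory.addHaar_image_eq_zero_of_det_fderivWithin_eq_zero
    (MeasureTheory.Measure.addHaar) (f := Ψ) (f' := fderiv ℝ Ψ)
    (s := {x | x ∈ Ω ∧ ℓ x ≠ 0 ∧ (fderiv ℝ Ψ x).det = 0})
    (fun x hx => (hd x hx.1 hx.2.1).hasFDerivAt.hasFDerivWithinAt) fun x hx => hx.2.2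
  have h1 : ¬ Metric.ball (0 : A × B) ε ⊆ Ψ '' {x | x ∈ Ω ∧ ℓ x ≠ 0 ∧ (fderiv ℝ Ψ x).det = 0} :=
    fun hs => (Metric.measure_ball_pos MeasureTheory.Measure.addHaar 0 hε).ne'
      (MeasureTheory.measure_mono_null hs h0)
  obtain ⟨y, hy, hy'⟩ := Set.not_subset.1 h1
  refine ⟨y, mem_ball_zero_iff.1 hy, fun x hx hl hz => ?_⟩
  have hdet : (fderiv ℝ Ψ x).det ≠ 0 := fun hdet => hy' ⟨x, ⟨hx, hl, hdet⟩, by
    simp only [hΨ]; rw [sub_eq_zero.1 hz, L_inv hl]⟩
  have hinj : Function.Injective (fderiv ℝ Ψ x) := by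
    rw [ContinuousLinearMap.det, Ne, LinearMap.det_eq_zero_iff_ker_ne_bot, not_not] at hdet
    exact LinearMap.ker_eq_bot.1 hdet
  set g : A × B → A × B := fun z => h z - L (ℓ z) y with hg
  have hgd : HasFDerivAt g (fderiv ℝ g x) x :=
    ((hh.differentiableAt (hΩ.mem_nhds hx)).sub
      ((contDiff_L ℓ y).differentiable two_ne_zero x)).hasFDerivAt
  have he : Ψ =ᶠ[𝓝 x] fun z => L (ℓ z)⁻¹ (g z) + y := by
    filter_upwards [ℓ.continuous.continuousAt.eventually_ne hl] with z hz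
    simp only [hΨ, hg]
    rw [L_sub, L_inv hz, sub_add_cancel]
  have hi := (hasFDerivAt_inv hl).comp x ℓ.hasFDerivAt
  have hD := (((hi.pow 2).smul hgd.fst).prodMk ((hi.pow 3).smul hgd.snd)).add_const y
  have hD' := (hD.congr_of_eventuallyEq he).fderiv
  refine (injective_iff_map_eq_zero _).2 fun v hv => hinj ?_
  have hz' : g x = 0 := hz
  rw [hD', map_zero]
  simp [hv, hz']

/-- an admissible perturbation making all zeros over `T` regular -/
structure Pert (Ω : Set (A × B)) (f : A × B → A × B) (δ : ℝ) (T : Set B) (φ : A × B → A × B) :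
    Prop where
  smooth : ContDiff ℝ 2 φ
  equiv : ∀ a b, φ (a, -b) = ((φ (a, b)).1, -(φ (a, b)).2)
  zero : ∀ a, φ (a, 0) = 0
  small : ∃ δ' < δ, ∀ x ∈ Ω, ‖φ x‖ ≤ δ'
  reg : ∀ x ∈ Ω, x.2 ∈ T → f x - φ x = 0 → Function.Injective (fderiv ℝ (fun z => f z - φ z) x)

lemma Pert.step [FiniteDimensional ℝ A] [FiniteDimensional ℝ B] {Ω : Set (A × B)} (hΩ : IsOpen Ω)
    (hb : Bornology.IsBounded Ω) {f : A × B → A × B} (hf : DifferentiableOn ℝ f Ω) {δ : ℝ}
    {T : Set B} {φ : A × B → A × B} (h : Pert Ω f δ T φ) (ℓ : B →L[ℝ] ℝ) :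
    ∃ φ', Pert Ω f δ (T ∪ {b | ℓ b ≠ 0}) φ' := by
  obtain ⟨δ', h1, h2⟩ := h.small
  set ℓ' : A × B →L[ℝ] ℝ := ℓ ∘L ContinuousLinearMap.snd ℝ A B with hℓ'
  obtain ⟨R₀, hR₀⟩ := (ℓ'.lipschitz.isBounded_image hb).exists_norm_le
  set R := max R₀ 1 with hR
  have hR1 : 1 ≤ R := le_max_right _ _
  have hd : DifferentiableOn ℝ (fun z => f z - φ z) Ω :=
    hf.sub (h.smooth.differentiable two_ne_zero).differentiableOn
  obtain ⟨y, hy, hreg⟩ := EqA.step hΩ hd ℓ' (ε := (δ - δ') / R ^ 3)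
    (div_pos (sub_pos.2 h1) (by positivity))
  refine ⟨fun z => φ z + L (ℓ' z) y, h.smooth.add (contDiff_L ℓ' y), fun a b => ?_, fun a => ?_,
    ⟨δ' + R ^ 3 * ‖y‖, ?_, fun x hx => ?_⟩, fun x hx hT hz => ?_⟩
  · simp only [h.equiv, hℓ', L]
    ext
    · simp
    · simp [Odd.neg_pow (by decide : Odd 3), add_comm]
  · simp [h.zero, hℓ', L]
  · rw [lt_div_iff₀ (by positivity)] at hy
    linarith
  · exact (norm_add_le _ _).trans (add_le_add (h2 x hx)
      (norm_L_le ((hR₀ _ ⟨x, hx, rfl⟩).trans (le_max_left _ _)) hR1 y))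
  · simp only [← sub_sub] at hz ⊢
    by_cases h0 : ℓ' x = 0
    · have hxT : x.2 ∈ T := hT.resolve_right fun h' => h' h0
      have := ((hd.differentiableAt (hΩ.mem_nhds hx)).hasFDerivAt.sub
        (hasFDerivAt_L_zero ℓ' y h0)).fderiv
      rw [sub_zero] at this
      erw [this]
      exact h.reg x hx hxT (by simpa [h0, L, Prod.mk_zero_zero] using hz)
    · exact hreg x hx h0 hz

lemma Pert.base [FiniteDimensional ℝ A] [FiniteDimensional ℝ B] {Ω : Set (A × B)} (hΩ : IsOpen Ω)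
    (hb : Bornology.IsBounded Ω) {f : A × B → A × B} (hf : DifferentiableOn ℝ f Ω) {δ : ℝ}
    (hδ : 0 < δ)
    (heq : ∀ a b, (a, b) ∈ Ω → f (a, -b) = ((f (a, b)).1, -(f (a, b)).2))
    (hfin : {a | (a, (0 : B)) ∈ Ω ∧ f (a, 0) = 0}.Finite)
    (hinj : ∀ a, (a, (0 : B)) ∈ Ω → f (a, 0) = 0 →
      Function.Injective (fderiv ℝ (fun a' => (f (a', 0)).1) a)) :
    ∃ φ, Pert Ω f δ {0} φ := by
  obtain ⟨R₀, hR₀⟩ := hb.exists_norm_le
  set R := max R₀ 1 with hR
  have hR1 : 1 ≤ R := le_max_right _ _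
  have hE : (⋃ a ∈ {a | (a, (0 : B)) ∈ Ω ∧ f (a, 0) = 0},
      {μ | Module.End.HasEigenvalue (fderiv ℝ f (a, 0)).toLinearMap μ}).Finite :=
    hfin.biUnion fun a _ => Module.End.finite_hasEigenvalue _
  obtain ⟨l, hl, hl'⟩ := (Set.Ioo_infinite (div_pos hδ (by positivity : 0 < R))).exists_notMem_finite
    hE
  have hsm : ContDiff ℝ 2 fun z : A × B => ((0, l • z.2) : A × B) := by fun_prop
  refine ⟨fun z => (0, l • z.2), hsm, fun a b => by simp, fun a => by simp,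
    ⟨l * R, (lt_div_iff₀ (by positivity)).1 hl.2, fun x hx => ?_⟩, ?_⟩
  · rw [Prod.norm_mk, norm_zero, norm_smul, Real.norm_of_nonneg hl.1.le,
      max_eq_right (mul_nonneg hl.1.le (norm_nonneg _))]
    exact mul_le_mul_of_nonneg_left ((norm_snd_le x).trans ((hR₀ x hx).trans (le_max_left _ _)))
      hl.1.le
  rintro ⟨a, b⟩ hx (rfl : b = 0) hz
  have hz' : f (a, 0) = 0 := by simpa [Prod.mk_zero_zero] using hz
  have hD := (hf.differentiableAt (hΩ.mem_nhds hx)).hasFDerivAt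
  set D := fderiv ℝ f (a, 0) with hDdef
  set τ : A × B →L[ℝ] A × B := (ContinuousLinearMap.fst ℝ A B).prod (-ContinuousLinearMap.snd ℝ A B)
    with hτ
  have hτD : ∀ u v, D (u, -v) = ((D (u, v)).1, -(D (u, v)).2) := fun u v => by
    have e1 : HasFDerivAt (f ∘ τ) (D ∘L τ) (a, 0) :=
      HasFDerivAt.comp (a, 0) (by simpa [hτ] using hD) τ.hasFDerivAt
    have e2 : HasFDerivAt (τ ∘ f) (τ ∘L D) (a, 0) := τ.hasFDerivAt.comp (a, 0) hD
    have e3 : f ∘ τ =ᶠ[𝓝 (a, 0)] τ ∘ f := by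
      filter_upwards [hΩ.mem_nhds hx] with z hz
      simpa [hτ] using heq z.1 z.2 hz
    have := congrArg (fun M : A × B →L[ℝ] A × B => M (u, v))
      (e1.unique (e2.congr_of_eventuallyEq e3))
    simpa [hτ] using this
  have hA : ∀ u, fderiv ℝ (fun a' => (f (a', 0)).1) a u = (D (u, 0)).1 := fun u => by
    have e0 : HasFDerivAt (fun a' => f (a', 0)) (D ∘L ContinuousLinearMap.inl ℝ A B) a :=
      HasFDerivAt.comp a (f := fun a' : A => (a', (0 : B))) hD (hasFDerivAt_prodMk_left a (0 : B))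
    rw [e0.fst.fderiv]
    simp
  have hP : HasFDerivAt (fun z : A × B => ((0, l • z.2) : A × B))
      ((0 : A × B →L[ℝ] A).prod (l • ContinuousLinearMap.snd ℝ A B)) (a, 0) :=
    ((0 : A × B →L[ℝ] A).prod (l • ContinuousLinearMap.snd ℝ A B)).hasFDerivAt
  erw [(hD.sub hP).fderiv]
  refine (injective_iff_map_eq_zero _).2 ?_
  rintro ⟨u, v⟩ huv
  have h1 : D (u, v) = (0, l • v) := by simpa [sub_eq_zero] using huv
  have h2 := hτD u v
  have h3 : (D (u, 0)).1 = 0 := by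
    have : (2 : ℝ) • D (u, 0) = D (u, v) + D (u, -v) := by
      rw [← map_smul, ← map_add]; simp [two_smul]
    rw [h2, h1] at this
    simpa using congrArg Prod.fst this
  have hu : u = 0 := hinj a hx hz' (by rw [hA, h3, map_zero])
  subst hu
  by_contra hne
  refine hl' (Set.mem_biUnion (x := a) ⟨hx, hz'⟩ ?_)
  exact Module.End.hasEigenvalue_of_hasEigenvector (x := (0, v))
    ⟨Module.End.mem_eigenspace_iff.2 (by simpa using h1), hne⟩

lemma exists_pert [FiniteDimensional ℝ A] [FiniteDimensional ℝ B] {Ω : Set (A × B)} (hΩ : IsOpen Ω)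
    (hb : Bornology.IsBounded Ω) {f : A × B → A × B} (hf : DifferentiableOn ℝ f Ω) {δ : ℝ}
    {φ : A × B → A × B} (h : Pert Ω f δ {0} φ) : ∃ φ', Pert Ω f δ Set.univ φ' := by
  set e := Module.finBasis ℝ B
  have key : ∀ S : Finset (Fin (Module.finrank ℝ B)),
      ∃ φ', Pert Ω f δ {b | b = 0 ∨ ∃ i ∈ S, e.coord i b ≠ 0} φ' := by
    intro S
    induction S using Finset.induction_on with
    | empty => exact ⟨φ, by simpa using h⟩
    | insert i S _ ih =>
      obtain ⟨ψ, hψ⟩ := ih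
      obtain ⟨ψ', hψ'⟩ := hψ.step hΩ hb hf (LinearMap.toContinuousLinearMap (e.coord i))
      refine ⟨ψ', ?_⟩
      convert hψ' using 1
      ext b
      simp only [Finset.mem_insert, exists_eq_or_imp, Set.mem_ofPred_eq, Set.mem_union,
        LinearMap.coe_toContinuousLinearMap']
      rw [or_assoc, or_comm (a := e.coord i b ≠ 0)]
  obtain ⟨ψ, hψ⟩ := key Finset.univ
  refine ⟨ψ, ?_⟩
  convert hψ using 1
  refine (Set.eq_univ_of_forall fun b => or_iff_not_imp_right.2 fun hb => ?_).symm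
  push Not at hb
  exact e.forall_coord_eq_zero_iff.1 fun i => hb i (Finset.mem_univ i)

lemma even_of_invol {X : Type} {Z : Set X} (hZ : Z.Finite) (τ : X → X) (h1 : ∀ x ∈ Z, τ x ∈ Z)
    (h2 : ∀ x, τ (τ x) = x) (he : Even Z.ncard) : Even {x ∈ Z | τ x = x}.ncard := by
  have h3 : ∑ _x ∈ hZ.toFinset.filter (fun x => τ x ≠ x), (1 : ZMod 2) = 0 :=
    Finset.sum_involution (fun x _ => τ x) (fun _ _ => by decide)
      (fun x hx _ => (Finset.mem_filter.1 hx).2)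
      (fun x hx => by
        simp only [Finset.mem_filter, Set.Finite.mem_toFinset] at hx ⊢
        exact ⟨h1 x hx.1, by rw [h2]; exact hx.2.symm⟩) fun x _ => h2 x
  rw [Finset.sum_const, nsmul_eq_mul, mul_one, ZMod.natCast_eq_zero_iff_even] at h3
  have h4 := Finset.card_filter_add_card_filter_not (s := hZ.toFinset) (fun x => τ x = x)
  have h5 : {x ∈ Z | τ x = x} = ↑(hZ.toFinset.filter fun x => τ x = x) := by ext; simp
  rw [h5, Set.ncard_coe_finset]
  rw [Set.ncard_eq_toFinset_card _ hZ, ← h4] at he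
  exact (Nat.even_add.1 he).2 h3

end EqA

open EqA in
theorem eqStmt_of (h : DegStmt) : EqStmt := by
  intro A B _ _ _ _ _ _ Ω K F δ hΩ hb hK hKΩ hδ hF hbd heq hodd hinj
  by_contra hne
  push Not at hne
  have hf : DifferentiableOn ℝ (fun z => F (1, z)) Ω :=
    (hF.differentiableOn two_ne_zero).comp (by fun_prop) fun z hz => ⟨trivial, hz⟩
  have hfin : {a | (a, (0 : B)) ∈ Ω ∧ F (1, (a, 0)) = 0}.Finite := by
    by_contra hinf
    rw [Set.Infinite.ncard hinf] at hodd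
    exact absurd hodd (by decide)
  obtain ⟨φ₀, h₀⟩ := Pert.base hΩ hb hf hδ (fun a b hab => (heq a b hab).2) hfin hinj
  obtain ⟨φ, hφ⟩ := exists_pert hΩ hb hf h₀
  obtain ⟨δ', h1, h2⟩ := hφ.small
  have hs := hφ.smooth
  obtain ⟨z1, z2⟩ := h (A × B) Ω K (fun p => F p - p.1 • φ p.2) (δ - δ') hΩ hK hKΩ (sub_pos.2 h1)
    (hF.sub (by fun_prop : ContDiff ℝ 2 fun p : ℝ × A × B => p.1 • φ p.2).contDiffOn)
    (fun t ht x hx hxK => by
      have e1 := hbd t ht x hx hxK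
      have e2 := norm_sub_norm_le (F (t, x)) (t • φ x)
      have e3 : ‖t • φ x‖ ≤ δ' := by
        rw [norm_smul, Real.norm_of_nonneg ht.1]
        exact (mul_le_of_le_one_left (norm_nonneg _) ht.2).trans (h2 x hx)
      linarith)
    (fun x hx => by simpa using hne x hx)
    (fun x hx hz => by
      simp only [one_smul] at hz ⊢
      exact hφ.reg x hx trivial hz)
  simp only [one_smul] at z1 z2
  have h3 := even_of_invol z1 (fun x => (x.1, -x.2)) (fun x hx => ⟨(heq x.1 x.2 hx.1).1, by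
    rw [(heq x.1 x.2 hx.1).2, hφ.equiv, sub_eq_zero.1 hx.2, sub_self]⟩) (fun x => by simp) z2
  have h4 : {x ∈ {x | x ∈ Ω ∧ F (1, x) - φ x = 0} | (x.1, -x.2) = x} =
      (fun a => (a, (0 : B))) '' {a | (a, (0 : B)) ∈ Ω ∧ F (1, (a, 0)) = 0} := by
    ext ⟨a, b⟩
    constructor
    · rintro ⟨⟨hx, hz⟩, hτ⟩
      have hb0 : b = 0 := by
        have : (2 : ℝ) • b = 0 := by
          rw [two_smul]; nth_rw 1 [← (Prod.mk.inj hτ).2]; exact neg_add_cancel b
        simpa using this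
      subst hb0
      exact ⟨a, ⟨hx, by simpa [hφ.zero] using hz⟩, rfl⟩
    · rintro ⟨a', ⟨hx, hz⟩, he⟩
      obtain ⟨rfl, rfl⟩ := Prod.mk.inj he
      exact ⟨⟨hx, by simp [hφ.zero, hz]⟩, by simp⟩
  rw [h4, Set.ncard_image_of_injective _ (Prod.mk_left_injective _)] at h3
  exact (Nat.not_even_iff_odd.2 hodd) h3

end Crest.Agent.R197
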