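import Crest.Agent.R197.Def

/-!
# Row 197: extension of coverings over cells (EXT)
-/

set_option autoImplicit false

open unitInterval Topology Filter
open scoped Quaternion Classical

namespace Crest.Agent.R197

namespace ExtA

open DefA

variable {Z : Type} [TopologicalSpace Z] {Y : Set Z} {n : ℕ} (A : Att Z Y n)

/-- radial projection to the boundary -/
noncomputable def hat (y : Dk n) (hy : y.1 ≠ 0) : Sp n := ⟨radD y 1, norm_radD_one y hy⟩

lemma rho_mem {z : Z} (hz : z ∈ A.O) : rho A z 1 ∈ Y := by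
  by_cases h : z ∈ Y
  · rwa [rho_of_mem A h]
  · obtain ⟨j, y, rfl⟩ := A.cover z h
    rw [rho_Φ]
    exact A.bd j _ (norm_radD_one y ((mem_O_iff A j y).1 hz))

/-- the retraction onto `Y` -/
noncomputable def ret (z : A.O) : Y := ⟨rho A z.1 1, rho_mem A z.2⟩

lemma continuous_ret : Continuous (ret A) :=
  Continuous.subtype_mk ((continuous_rho A).comp (f := fun z : A.O => (z, (1 : I))) (by fun_prop)) _

lemma ret_of_mem (y : Y) (h : y.1 ∈ A.O) : ret A ⟨y.1, h⟩ = y :=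
  Subtype.ext (rho_of_mem A y.2 1)

lemma ret_Φ (j : A.J) (y : Dk n) (h : A.Φ j y ∈ A.O) (hy : y.1 ≠ 0) :
    ret A ⟨A.Φ j y, h⟩ = A.att j (hat y hy) :=
  Subtype.ext (rho_Φ A j y 1)

lemma eventually_O {z : Z} (hz : z ∈ A.O) {p : Z → Prop}
    (h : ∀ᶠ x : A.O in 𝓝 ⟨z, hz⟩, p x.1) : ∀ᶠ z' in 𝓝 z, p z' := by
  have := (isOpen_O A).isOpenEmbedding_subtypeVal.map_nhds_eq ⟨z, hz⟩
  rw [← this]
  exact h

variable {U : Type} [Group U] (P : Pot Y U) (s : A.J → Sp n → U)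

/-- the section on a cell -/
noncomputable def ll (j : A.J) (y : Dk n) : U := if h : y.1 = 0 then 1 else s j (hat y h)

/-- the potential on the open cells -/
noncomputable def cc (z : Z) : U :=
  if h : z ∈ Y then 1 else ll A s (A.cover z h).choose (A.cover z h).choose_spec.choose

omit P in
lemma cc_Φ (j : A.J) (y : Dk n) (hy : ‖y.1‖ < 1) : cc A s (A.Φ j y) = ll A s j y := by
  have h := A.int j y hy
  have h1 := (A.cover _ h).choose_spec.choose_spec
  obtain ⟨h2, h3⟩ := A.inj j _ y _ hy h1.symm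
  rw [cc, dif_neg h, ← h3, ← h2]

/-- the pulled back potentials -/
noncomputable def cr (i : P.ι) (z : Z) : U := if h : z ∈ A.O then P.c i (ret A ⟨z, h⟩) else 1

/-- the pulled back charts -/
def Or (i : P.ι) : Set Z := Subtype.val '' (ret A ⁻¹' P.O i)

omit s in
lemma mem_Or {i : P.ι} {z : Z} : z ∈ Or A P i ↔ ∃ h : z ∈ A.O, ret A ⟨z, h⟩ ∈ P.O i := by
  constructor
  · rintro ⟨x, hx, rfl⟩
    exact ⟨x.2, hx⟩
  · rintro ⟨h, hx⟩
    exact ⟨⟨z, h⟩, hx, rfl⟩

lemma key (hs : ∀ j, P.Sec (A.att j) (s j)) (i : P.ι) (j : A.J) (y : Dk n)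
    (h : A.Φ j y ∈ Or A P i) : ∀ᶠ y' in 𝓝 y, ll A s j y' * (cr A P i (A.Φ j y'))⁻¹ =
      ll A s j y * (cr A P i (A.Φ j y))⁻¹ := by
  obtain ⟨hO, h⟩ := (mem_Or A P).1 h
  have hy : y.1 ≠ 0 := (mem_O_iff A j y).1 hO
  rw [ret_Φ A j y hO hy] at h
  have h1 := hs j i (hat y hy) h
  rw [nhds_subtype, eventually_comap] at h1
  have h2 := (continuousAt_radD_one y hy).eventually h1
  have h3 : ∀ᶠ y' : Dk n in 𝓝 y, y'.1 ≠ 0 :=
    (isOpen_ne_fun continuous_subtype_val continuous_const).mem_nhds hy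
  filter_upwards [h2, h3] with y' h2 h3
  have hO' : A.Φ j y' ∈ A.O := (mem_O_iff A j y').2 h3
  have h4 := h2 (hat y' h3) rfl
  rw [ll, ll, cr, cr, dif_neg h3, dif_neg hy, dif_pos hO, dif_pos hO', ret_Φ A j y hO hy,
    ret_Φ A j y' hO' h3]
  exact h4

lemma mixed (hs : ∀ j, P.Sec (A.att j) (s j)) (i : P.ι) (z : Z) (hz : z ∉ Y)
    (h : z ∈ Or A P i) : ∀ᶠ z' in 𝓝 z, cc A s z' * (cr A P i z')⁻¹ =
      cc A s z * (cr A P i z)⁻¹ := by
  obtain ⟨j, y, rfl⟩ := A.cover z hz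
  have hy := lt_of_not_mem A hz
  refine eventually_nhds A j y hy ?_
  have h1 : ∀ᶠ y' : Dk n in 𝓝 y, ‖y'.1‖ < 1 :=
    (isOpen_lt (by fun_prop) continuous_const).mem_nhds hy
  filter_upwards [key A P s hs i j y h, h1] with y' h2 h3
  rw [cc_Φ A s j y' h3, cc_Φ A s j y hy]
  exact h2

/-- the extended covering -/
noncomputable def pot (hs : ∀ j, P.Sec (A.att j) (s j)) : Pot Z U where
  ι := Option P.ι
  O i := i.elim Yᶜ (Or A P)
  c i := i.elim (cc A s) (cr A P)
  isOpen := by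
    rintro (_ | i)
    · exact A.closedY.isOpen_compl
    · exact (isOpen_O A).isOpenEmbedding_subtypeVal.isOpenMap _
        ((P.isOpen i).preimage (continuous_ret A))
  cover z := by
    by_cases hz : z ∈ Y
    · obtain ⟨i, hi⟩ := P.cover ⟨z, hz⟩
      refine ⟨some i, (mem_Or A P).2 ⟨mem_O_of_mem A hz, ?_⟩⟩
      rwa [ret_of_mem A ⟨z, hz⟩]
    · exact ⟨none, hz⟩
  lc := by
    rintro (_ | i) (_ | i') z hz hz'
    · exact Eventually.of_forall fun z' => by simp
    · exact mixed A P s hs i' z hz hz'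
    · filter_upwards [mixed A P s hs i z hz' hz] with z' h
      have := congrArg (·⁻¹) h
      simpa using this
    · obtain ⟨hO, h⟩ := (mem_Or A P).1 hz
      obtain ⟨_, h'⟩ := (mem_Or A P).1 hz'
      refine eventually_O A hO ?_
      filter_upwards [(continuous_ret A).continuousAt.eventually (P.lc i i' _ h h')] with x hx
      change cr A P i x.1 * (cr A P i' x.1)⁻¹ = cr A P i z * (cr A P i' z)⁻¹
      rw [cr, cr, cr, cr, dif_pos x.2, dif_pos x.2, dif_pos hO, dif_pos hO]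
      exact hx

end ExtA

theorem extStmt : ExtStmt := by
  intro Z _ Y n A U _ P s hs
  refine ⟨ExtA.pot A P s hs, ?_, fun j => ⟨ExtA.ll A s j, ?_, fun y => ?_⟩⟩
  · rintro W _ f ℓ hℓ (_ | i) w hw
    · exact absurd (f w).2 hw
    · obtain ⟨hO, h⟩ := (ExtA.mem_Or A P).1 hw
      have hc : ∀ y : Y, ExtA.cr A P i y.1 = P.c i y := fun y => by
        rw [ExtA.cr, dif_pos (DefA.mem_O_of_mem A y.2), ExtA.ret_of_mem]
      have h' : f w ∈ P.O i := by
        rw [← ExtA.ret_of_mem A (f w) hO]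
        exact h
      filter_upwards [hℓ i w h'] with w' hw'
      change ℓ w' * (ExtA.cr A P i (f w').1)⁻¹ = ℓ w * (ExtA.cr A P i (f w).1)⁻¹
      rw [hc, hc]
      exact hw'
  · rintro (_ | i) y hy
    · have hy' := DefA.lt_of_not_mem A hy
      have h1 : ∀ᶠ y' : Dk n in 𝓝 y, ‖y'.1‖ < 1 :=
        (isOpen_lt (by fun_prop) continuous_const).mem_nhds hy'
      filter_upwards [h1] with y' h2
      change ExtA.ll A s j y' * (ExtA.cc A s (A.Φ j y'))⁻¹ =
        ExtA.ll A s j y * (ExtA.cc A s (A.Φ j y))⁻¹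
      rw [ExtA.cc_Φ A s j y' h2, ExtA.cc_Φ A s j y hy', mul_inv_cancel, mul_inv_cancel]
    · exact ExtA.key A P s hs i j y hy
  · have hy : y.1.1 ≠ 0 := fun h => by simpa [h] using y.2
    rw [ExtA.ll, dif_neg hy]
    exact congrArg (s j) (Subtype.ext (DefA.radD_of_norm y.1 y.2 1))

theorem extStmt_of (_h : DefStmt) : ExtStmt := extStmt

end Crest.Agent.R197
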