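import Crest.Agent.R197.PF0

/-!
# Row 197: path functors with prescribed values on the edges (FREE)
-/

set_option autoImplicit false

open unitInterval Topology Filter
open scoped Quaternion Classical

namespace Crest.Agent.R197

namespace FreeA

instance : Finite (Sp 1) := by
  refine Finite.of_surjective
    (fun b : Bool => if b then (⟨seg 0, norm_seg_zero⟩ : Sp 1) else ⟨seg 1, norm_seg_one⟩) ?_
  intro y
  rcases eq_seg y.2 with h | h
  · exact ⟨true, Subtype.ext h.symm⟩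
  · exact ⟨false, Subtype.ext h.symm⟩

lemma seg_ne : seg 0 ≠ seg 1 := fun h => by
  have := congrFun (congrArg Subtype.val h) 0
  rw [seg_zero, seg_one] at this
  norm_num at this

/-- the trivial covering -/
def triv (Z U : Type) [TopologicalSpace Z] [Group U] : Pot Z U where
  ι := Unit
  O _ := Set.univ
  c _ _ := 1
  isOpen _ := isOpen_univ
  cover _ := ⟨(), trivial⟩
  lc _ _ _ _ _ := Eventually.of_forall fun _ => rfl

/-- closed lifts along the boundary loop descend -/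
lemma descend {Z U : Type} [TopologicalSpace Z] [Group U] (P : Pot Z U) {lp : C(I, Sp 2)}
    (hlp : IsLoop lp) (g : C(Sp 2, Z)) (ℓ : I → U) (hℓ : P.Sec (g.comp lp) ℓ) (h : ℓ 0 = ℓ 1) :
    ∃ s : Sp 2 → U, P.Sec g s := by
  have hs : ∀ t, ℓ (Function.surjInv hlp.surj (lp t)) = ℓ t := fun t => by
    rcases hlp.inj _ t (Function.surjInv_eq hlp.surj (lp t)) with e | ⟨e, e'⟩ | ⟨e, e'⟩
    · rw [e]
    · rw [e, e', h]
    · rw [e, e', h]
  refine ⟨fun y => ℓ (Function.surjInv hlp.surj y), fun i y hy => ?_⟩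
  have := lp.continuous.isClosedMap.eventually_nhds_fiber
    (p := fun t => ℓ t * (P.c i (g (lp t)))⁻¹ =
      ℓ (Function.surjInv hlp.surj y) * (P.c i (g y))⁻¹) y (by
      rintro t rfl
      rw [hs]
      exact hℓ i t hy)
  filter_upwards [this] with y' hy'
  have := hy' _ (Function.surjInv_eq hlp.surj y')
  rwa [Function.surjInv_eq hlp.surj y'] at this

end FreeA

theorem freeStmt_of (hP : PotStmt) (hE : ExtStmt) : FreeStmt := by
  intro X _ X1 A2 X0 A1 lp hlp U _ u
  obtain ⟨P1, -, hP1⟩ := hE X1 X0 1 A1 U (FreeA.triv X0 U)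
    (fun e y => if y.1 = seg 1 then u e else 1) (fun e i y _ => by
      rw [nhds_discrete]
      exact eventually_pure.2 rfl)
  obtain ⟨m1, hm1⟩ := hP X1 U P1
  refine ⟨m1, fun e => ?_, fun h => ?_⟩
  · obtain ⟨ℓ, hℓ, hb⟩ := hP1 e
    have := (hm1 ((A1.Φ e).comp seg)).2 _ (hℓ.comp seg.continuous)
    have e0 := hb ⟨seg 0, norm_seg_zero⟩
    have e1 := hb ⟨seg 1, norm_seg_one⟩
    simp only [if_neg FreeA.seg_ne] at e0
    simp only [if_true] at e1
    rw [this, e0, e1, inv_one, one_mul]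
  · have hs : ∀ f, ∃ s : Sp 2 → U, P1.Sec (A2.att f) s := fun f => by
      obtain ⟨⟨ℓ, hℓ⟩, h2⟩ := hm1 ((A2.att f).comp lp)
      refine FreeA.descend P1 hlp (A2.att f) ℓ hℓ ?_
      have := h2 ℓ hℓ
      rw [h f] at this
      exact inv_mul_eq_one.1 this.symm
    choose s hs using hs
    obtain ⟨P2, hP2, -⟩ := hE X X1 2 A2 U P1 s hs
    obtain ⟨m, hm⟩ := hP X U P2
    refine ⟨m, fun γ => ?_⟩
    obtain ⟨⟨ℓ, hℓ⟩, h2⟩ := hm1 γ
    rw [h2 ℓ hℓ]
    exact (hm _).2 ℓ (hP2 I γ ℓ hℓ)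

end Crest.Agent.R197
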