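import Crest.Agent.R197.Defs

/-!
# Row 197 (GR): a local Gerstenhaber–Rothaus theorem for unit quaternions
-/

set_option autoImplicit false

open unitInterval Topology Filter
open scoped Quaternion Classical

namespace Crest.Agent.R197

namespace GR

/-! ## evaluation of words -/

/-- evaluation of a word -/
def ev {L K : Type} [Monoid K] [Inv K] (x : L → K) (w : List (L × Bool)) : K :=
  (w.map fun p => cond p.2 (x p.1) (x p.1)⁻¹).prod

lemma ev_map {L K K' : Type} [Monoid K] [Inv K] [Monoid K'] [Inv K'] (f : K →* K')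
    (hf : ∀ y, f y⁻¹ = (f y)⁻¹) (x : L → K) (w : List (L × Bool)) :
    f (ev x w) = ev (fun l => f (x l)) w := by
  rw [ev, ev, map_list_prod, List.map_map]
  congr 1
  refine List.map_congr_left fun p _ => ?_
  cases h : p.2 <;> simp [h, hf]

/-- the reduced word -/
noncomputable def wd {L : Type} (w : FreeGroup L) : List (L × Bool) := w.toWord

lemma lift_eq {L G : Type} [Group G] (v : L → G) (w : FreeGroup L) :
    FreeGroup.lift v w = ev v (wd w) := by
  conv_lhs => rw [← FreeGroup.mk_toWord (x := w)]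
  rw [FreeGroup.lift_mk]; rfl

lemma ev_lift {L G K : Type} [Group G] [DivisionMonoid K] (f : G →* K) (v : L → G)
    (w : FreeGroup L) : ev (fun l => f (v l)) (wd w) = f (FreeGroup.lift v w) := by
  rw [lift_eq, ev_map f (map_inv f)]

lemma contDiffAt_ev {L X : Type} [NormedAddCommGroup X] [NormedSpace ℝ X] {x : X → L → ℍ[ℝ]}
    {p : X} (hx : ∀ l, ContDiffAt ℝ 2 (fun y => x y l) p) (h0 : ∀ l, x p l ≠ 0)
    (w : List (L × Bool)) : ContDiffAt ℝ 2 (fun y => ev (x y) w) p := by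
  induction w with
  | nil => exact contDiffAt_const
  | cons a w ih =>
    refine ContDiffAt.mul (f := fun y => cond a.2 (x y a.1) (x y a.1)⁻¹) ?_ ih
    cases a.2
    · have := (contDiffAt_ringInverse ℝ (n := 2) (Units.mk0 _ (h0 a.1))).comp p (hx a.1)
      simpa only [Ring.inverse_eq_inv', Function.comp_def, cond_false] using this
    · exact hx a.1

/-! ## the exponent matrix -/

section expo
variable {Φ C : Type} [Fintype Φ]

/-- exponent sums -/
noncomputable def ex (w : FreeGroup (Φ ⊕ C)) (l : Φ) : ℤ :=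
  Multiplicative.toAdd (FreeGroup.lift (fun m => Multiplicative.ofAdd
    (if m = Sum.inl l then (1 : ℤ) else 0)) w)

lemma lift_comm {Z : Type} [CommGroup Z] (v : Φ → Z) (w : FreeGroup (Φ ⊕ C)) :
    FreeGroup.lift (Sum.elim v fun _ => 1) w = ∏ l, v l ^ ex w l := by
  induction w using FreeGroup.induction_on with
  | C1 => simp [ex]
  | of m =>
    cases m with
    | inl m => simp [ex]
    | inr m => simp [ex]
  | inv_of m ih => rw [map_inv, ih]; simp [ex]
  | mul x y hx hy => rw [map_mul, hx, hy]; simp [ex, zpow_add, Finset.prod_mul_distrib]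

lemma pow_det {Z : Type} [CommGroup Z] (M : Matrix Φ Φ ℤ) (v : Φ → Z)
    (h : ∀ k, ∏ l, v l ^ M k l = 1) (m : Φ) : v m ^ M.det = 1 := by
  have h' : ∀ k, ∑ l, M k l • Additive.ofMul (v l) = 0 := fun k => by
    have := congrArg Additive.ofMul (h k)
    simpa [ofMul_prod, ofMul_zpow] using this
  have : M.det • Additive.ofMul (v m) = 0 := by
    calc M.det • Additive.ofMul (v m)
        = ∑ l, (M.adjugate * M) m l • Additive.ofMul (v l) := by
          simp [Matrix.adjugate_mul, Matrix.one_apply]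
      _ = ∑ k, M.adjugate m k • ∑ l, M k l • Additive.ofMul (v l) := by
          simp only [Matrix.mul_apply, Finset.sum_smul, Finset.smul_sum, mul_smul]
          exact Finset.sum_comm
      _ = 0 := by simp [h']
  exact congrArg Additive.toMul this

lemma det_odd (W : Φ → FreeGroup (Φ ⊕ C)) (h : ∀ v : Φ → Multiplicative (ZMod 2),
    (∀ k, FreeGroup.lift (Sum.elim v fun _ => 1) (W k) = 1) → ∀ k, v k = 1) :
    Odd (Matrix.of fun k l => ex (W k) l).det := by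
  rw [← Int.not_even_iff_odd, even_iff_two_dvd]
  intro hd
  have h0 : ((Matrix.of fun k l => ex (W k) l).map (Int.castRingHom (ZMod 2))).det = 0 := by
    rw [← RingHom.mapMatrix_apply, ← RingHom.map_det]
    exact (ZMod.intCast_zmod_eq_zero_iff_dvd _ 2).2 hd
  obtain ⟨v, hv, hm⟩ := Matrix.exists_mulVec_eq_zero_iff.2 h0
  refine hv (funext fun k => h (fun l => Multiplicative.ofAdd (v l)) (fun k => ?_) k)
  rw [lift_comm]
  have := congrFun hm k
  simp only [Matrix.mulVec, dotProduct, Matrix.map_apply, Matrix.of_apply, eq_intCast,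
    Pi.zero_apply] at this
  simp only [← ofAdd_zsmul, ← ofAdd_sum, zsmul_eq_mul, this, ofAdd_zero]

lemma add_zero_of {K : Type} [Field K] [CharZero K] (M : Matrix Φ Φ ℤ) (hM : Odd M.det)
    (v : Φ → K) (h : ∀ k, ∑ l, (M k l : K) * v l = 0) (m : Φ) : v m = 0 := by
  have := pow_det M (fun l => Multiplicative.ofAdd (v l)) (fun k => by
    simp only [← ofAdd_zsmul, ← ofAdd_sum, zsmul_eq_mul, h, ofAdd_zero]) m
  rw [← ofAdd_zsmul, zsmul_eq_mul, ofAdd_eq_one, mul_eq_zero, Int.cast_eq_zero] at this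
  refine this.resolve_left fun h0 => ?_
  rw [h0] at hM
  exact absurd hM (by decide)

/-- the circle-valued solutions -/
noncomputable def Zs (W : Φ → FreeGroup (Φ ⊕ C)) : Subgroup (Φ → Circle) where
  carrier := {z | ∀ k, ∏ l, z l ^ ex (W k) l = 1}
  one_mem' := by simp
  mul_mem' := fun {x y} hx hy k => by
    simp only [Pi.mul_apply, mul_zpow, Finset.prod_mul_distrib, hx k, hy k, mul_one]
  inv_mem' := fun {x} hx k => by
    simp only [Pi.inv_apply, inv_zpow, Finset.prod_inv_distrib, hx k, inv_one]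

lemma odd_Zs (W : Φ → FreeGroup (Φ ⊕ C)) (hM : Odd (Matrix.of fun k l => ex (W k) l).det) :
    Odd (Zs W : Set (Φ → Circle)).ncard := by
  set n := (Matrix.of fun k l => ex (W k) l).det with hn
  have hz : ∀ z ∈ Zs W, ∀ m, z m ^ n = 1 := fun z hz m => pow_det _ z hz m
  have hn0 : 0 < n.natAbs := Int.natAbs_pos.2 fun h0 => by
    rw [h0] at hM; exact absurd hM (by decide)
  have hfin : (Zs W : Set (Φ → Circle)).Finite := by
    have h1 : {w : Circle | w ^ n = 1}.Finite := by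
      refine Set.Finite.of_finite_image (f := fun w : Circle => (w : ℂ))
        ((Polynomial.nthRoots n.natAbs (1 : ℂ)).finite_toSet.subset ?_) Circle.coe_injective.injOn
      rintro _ ⟨w, hw, rfl⟩
      rw [Set.mem_ofPred_eq, Polynomial.mem_nthRoots hn0, ← Circle.coe_pow,
        pow_natAbs_eq_one.2 hw, Circle.coe_one]
    exact (Set.Finite.pi' fun _ => h1).subset hz
  have : Finite (Zs W) := hfin
  rw [← Nat.not_even_iff_odd, even_iff_two_dvd]
  intro hd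
  obtain ⟨x, hx⟩ := exists_prime_orderOf_dvd_card' (G := Zs W) 2 hd
  have h2 : x ^ n = 1 := Subtype.ext (funext fun m => hz x x.2 m)
  rw [← orderOf_dvd_iff_zpow_eq_one, hx] at h2
  exact (Int.not_even_iff_odd.2 hM) (even_iff_two_dvd.2 h2)

end expo

/-! ## quaternions -/

lemma norm_S3 (q : S3) : ‖(q : ℍ[ℝ])‖ = 1 := CStarRing.norm_of_mem_unitary q.2

lemma mem_S3 {q : ℍ[ℝ]} (h : ‖q‖ = 1) : q ∈ unitary ℍ[ℝ] := by
  have : Quaternion.normSq q = 1 := by rw [Quaternion.normSq_eq_norm_mul_self, h, one_mul]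
  rw [Unitary.mem_iff, Quaternion.star_mul_self, Quaternion.self_mul_star, this]
  simp

/-- the quaternion `a + b j` -/
def mkq (a b : ℂ) : ℍ[ℝ] := ⟨a.re, a.im, b.re, b.im⟩

@[simp] lemma mkq_re (a b : ℂ) : (mkq a b).re = a.re := rfl
@[simp] lemma mkq_imI (a b : ℂ) : (mkq a b).imI = a.im := rfl
@[simp] lemma mkq_imJ (a b : ℂ) : (mkq a b).imJ = b.re := rfl
@[simp] lemma mkq_imK (a b : ℂ) : (mkq a b).imK = b.im := rfl

/-- conjugation by `i` -/
def sg : ℍ[ℝ] →+* ℍ[ℝ] where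
  toFun x := mkq ⟨x.re, x.imI⟩ (-⟨x.imJ, x.imK⟩)
  map_one' := by ext <;> simp
  map_mul' x y := by ext <;> simp <;> ring
  map_zero' := by ext <;> simp
  map_add' x y := by ext <;> simp <;> ring

lemma sg_apply (x : ℍ[ℝ]) : sg x = mkq ⟨x.re, x.imI⟩ (-⟨x.imJ, x.imK⟩) := rfl

lemma norm_sg (x : ℍ[ℝ]) : ‖sg x‖ = ‖x‖ := by
  have : Quaternion.normSq (sg x) = Quaternion.normSq x := by
    simp [Quaternion.normSq_def', sg_apply]
  rw [Quaternion.normSq_eq_norm_mul_self, Quaternion.normSq_eq_norm_mul_self] at this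
  exact (mul_self_inj (norm_nonneg _) (norm_nonneg _)).1 this

/-- `ℍ = ℂ ⊕ ℂ j` -/
noncomputable def eq (Φ : Type) [Fintype Φ] : ((Φ → ℂ) × (Φ → ℂ)) ≃L[ℝ] (Φ → ℍ[ℝ]) :=
  LinearEquiv.toContinuousLinearEquiv
    { toFun := fun x k => mkq (x.1 k) (x.2 k)
      invFun := fun q => (fun k => ⟨(q k).re, (q k).imI⟩, fun k => ⟨(q k).imJ, (q k).imK⟩)
      map_add' := fun x y => by funext k; ext <;> simp
      map_smul' := fun c x => by funext k; ext <;> simp
      left_inv := fun x => rfl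
      right_inv := fun q => rfl }

lemma eq_neg {Φ : Type} [Fintype Φ] (a b : Φ → ℂ) (k : Φ) :
    eq Φ (a, -b) k = sg (eq Φ (a, b) k) := rfl

lemma eq_zero {Φ : Type} [Fintype Φ] (a : Φ → ℂ) (k : Φ) :
    eq Φ (a, 0) k = Quaternion.ofComplex (a k) := rfl

lemma norm_ofComplex (z : ℂ) : ‖Quaternion.ofComplex z‖ = ‖z‖ := by
  have : Quaternion.normSq (Quaternion.ofComplex z) = Complex.normSq z := by
    simp [Quaternion.normSq_def', Quaternion.coe_ofComplex, Complex.normSq_apply, sq]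
  rw [Quaternion.normSq_eq_norm_mul_self, Complex.normSq_eq_norm_sq, sq] at this
  exact (mul_self_inj (norm_nonneg _) (norm_nonneg _)).1 this

/-- the segment from `a` to `1` -/
noncomputable def sgm (a : S3) (t : ℝ) : ℍ[ℝ] := 1 + (1 - t) • ((a : ℍ[ℝ]) - 1)

lemma sgm_ne {a : S3} (h : nu a ≤ 1) (t : ℝ) : sgm a t ≠ 0 := by
  intro h0
  have h1 : Quaternion.normSq (a : ℍ[ℝ]) = 1 := by
    rw [Quaternion.normSq_eq_norm_mul_self, norm_S3, one_mul]
  have h2 : Quaternion.normSq ((a : ℍ[ℝ]) - 1) ≤ 1 := by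
    rw [Quaternion.normSq_eq_norm_mul_self]
    exact mul_le_one₀ h (norm_nonneg _) h
  have e1 := congrArg QuaternionAlgebra.re h0
  have e2 := congrArg QuaternionAlgebra.imI h0
  have e3 := congrArg QuaternionAlgebra.imJ h0
  have e4 := congrArg QuaternionAlgebra.imK h0
  simp [sgm, Quaternion.normSq_def'] at h1 h2 e1 e2 e3 e4
  have ht : 1 - t ≠ 0 := fun h => by rw [h] at e1; simp at e1
  rw [e2.resolve_left ht, e3.resolve_left ht, e4.resolve_left ht] at h1 h2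
  have : (a : ℍ[ℝ]).re = 1 := by nlinarith
  rw [this] at e1; simp at e1

/-- the normalised segment -/
noncomputable def pth (a : S3) (t : ℝ) : ℍ[ℝ] := ‖sgm a t‖⁻¹ • sgm a t

lemma norm_pth {a : S3} (h : nu a ≤ 1) (t : ℝ) : ‖pth a t‖ = 1 := by
  rw [pth, norm_smul, norm_inv, norm_norm, inv_mul_cancel₀ (norm_ne_zero_iff.2 (sgm_ne h t))]

lemma pth_zero (a : S3) : pth a 0 = a := by simp [pth, sgm]

lemma pth_one (a : S3) : pth a 1 = 1 := by simp [pth, sgm]

lemma pth_near {a : S3} (h : nu a ≤ 1) {t : ℝ} (ht : t ∈ Set.Icc (0 : ℝ) 1) :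
    ‖pth a t - 1‖ ≤ 2 * nu a := by
  have h0 := norm_pos_iff.2 (sgm_ne h t)
  have h1 : ‖sgm a t - 1‖ ≤ nu a := by
    rw [sgm, add_sub_cancel_left, norm_smul, Real.norm_of_nonneg (by linarith [ht.2])]
    exact mul_le_of_le_one_left (norm_nonneg _) (by linarith [ht.1])
  have h2 : ‖pth a t - sgm a t‖ ≤ ‖sgm a t - 1‖ := by
    have : pth a t - sgm a t = (‖sgm a t‖⁻¹ - 1) • sgm a t := by rw [pth, sub_smul, one_smul]
    rw [this, norm_smul, ← norm_norm (sgm a t), ← norm_mul, norm_norm, sub_mul,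
      inv_mul_cancel₀ h0.ne', one_mul, Real.norm_eq_abs, abs_sub_comm]
    simpa using abs_norm_sub_norm_le (sgm a t) 1
  have := norm_sub_le_norm_sub_add_norm_sub (pth a t) (sgm a t) 1
  linarith

lemma contDiff_pth {a : S3} (h : nu a ≤ 1) : ContDiff ℝ 2 (pth a) := by
  have h1 : ContDiff ℝ 2 (sgm a) := by unfold sgm; fun_prop
  exact ((h1.norm ℝ (sgm_ne h)).inv fun t => norm_ne_zero_iff.2 (sgm_ne h t)).smul h1

/-- solutions have norm one -/
lemma norm_one {Φ C : Type} [Fintype Φ] (W : Φ → FreeGroup (Φ ⊕ C))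
    (hM : Odd (Matrix.of fun k l => ex (W k) l).det) (q : Φ → ℍ[ℝ]) (a : C → ℍ[ℝ])
    (hq : ∀ k, q k ≠ 0) (ha : ∀ c, ‖a c‖ = 1) (h : ∀ k, ev (Sum.elim q a) (wd (W k)) = 1)
    (m : Φ) : ‖q m‖ = 1 := by
  have h0 : ∀ l, Sum.elim q a l ≠ 0 := fun l => by
    cases l with
    | inl l => exact hq l
    | inr c => exact norm_ne_zero_iff.1 (by simp [ha])
  let φ : ℍ[ℝ]ˣ →* Multiplicative ℝ := MonoidHom.mk'
    (fun u => Multiplicative.ofAdd (Real.log ‖(u : ℍ[ℝ])‖)) fun u v => by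
      rw [Units.val_mul, norm_mul, Real.log_mul (by simp) (by simp), ofAdd_add]
  have := add_zero_of _ hM (fun l => Real.log ‖q l‖) (fun k => by
    have e1 : FreeGroup.lift (fun l => Units.mk0 _ (h0 l)) (W k) = 1 :=
      Units.ext ((ev_lift (Units.coeHom _) (fun l => Units.mk0 _ (h0 l)) (W k)).symm.trans (h k))
    have e2 := ev_lift φ (fun l => Units.mk0 _ (h0 l)) (W k)
    rw [e1, map_one, ← lift_eq, show (fun l => φ (Units.mk0 _ (h0 l))) =
      Sum.elim (fun l => Multiplicative.ofAdd (Real.log ‖q l‖)) fun _ => 1 from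
        funext fun l => by cases l <;> simp [φ, ha], lift_comm] at e2
    simpa only [← ofAdd_zsmul, ← ofAdd_sum, zsmul_eq_mul, ofAdd_eq_one, Matrix.of_apply]
      using e2) m
  exact Real.eq_one_of_pos_of_log_eq_zero (norm_pos_iff.2 (hq m)) this

lemma ev_S3 {Φ C : Type} (w : FreeGroup (Φ ⊕ C)) (q : Φ → S3) (a : C → S3) :
    ev (Sum.elim (fun k => (q k : ℍ[ℝ])) fun c => (a c : ℍ[ℝ])) (wd w) =
      (FreeGroup.lift (Sum.elim q a) w : S3) := by
  refine Eq.trans ?_ (ev_lift (unitary ℍ[ℝ]).subtype (Sum.elim q a) w)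
  congr 1
  funext l; cases l <;> rfl

lemma ev_complex {Φ C : Type} [Fintype Φ] (w : FreeGroup (Φ ⊕ C)) (a : Φ → ℂ) (ha : ∀ k, a k ≠ 0) :
    ev (Sum.elim (fun k => Quaternion.ofComplex (a k)) fun _ => 1) (wd w) =
      Quaternion.ofComplex (∏ l, a l ^ ex w l) := by
  have := ev_lift ((Quaternion.ofComplex : ℂ →* ℍ[ℝ]).comp (Units.coeHom ℂ))
    (Sum.elim (fun k => Units.mk0 _ (ha k)) fun _ => 1) w
  rw [lift_comm] at this
  refine Eq.trans ?_ (this.trans (by simp))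
  congr 1
  funext l; cases l <;> simp

/-! ## the homotopy -/

section main
variable {Φ C : Type} [Fintype Φ]

/-- the equations -/
noncomputable def GG (W : Φ → FreeGroup (Φ ⊕ C)) (a₀ : C → S3) (p : ℝ × (Φ → ℍ[ℝ])) (k : Φ) :
    ℍ[ℝ] := ev (Sum.elim p.2 fun c => pth (a₀ c) p.1) (wd (W k)) - 1

/-- the equations in complex coordinates -/
noncomputable def FF (W : Φ → FreeGroup (Φ ⊕ C)) (a₀ : C → S3) (p : ℝ × ((Φ → ℂ) × (Φ → ℂ))) :
    (Φ → ℂ) × (Φ → ℂ) := (eq Φ).symm (GG W a₀ (p.1, eq Φ p.2))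

variable {W : Φ → FreeGroup (Φ ⊕ C)} {a₀ : C → S3}

lemma GG_smooth (ha1 : ∀ c, nu (a₀ c) ≤ 1) (p : ℝ × (Φ → ℍ[ℝ])) (hp : ∀ k, p.2 k ≠ 0) :
    ContDiffAt ℝ 2 (GG W a₀) p := by
  refine contDiffAt_pi.2 fun k => ?_
  refine (contDiffAt_ev (x := fun p : ℝ × (Φ → ℍ[ℝ]) => Sum.elim p.2 fun c => pth (a₀ c) p.1)
    (fun l => ?_) (fun l => ?_) _).sub contDiffAt_const
  · cases l with
    | inl l => exact (contDiff_apply ℝ _ l).contDiffAt.comp p contDiffAt_snd
    | inr c => exact (contDiff_pth (ha1 c)).contDiffAt.comp p contDiffAt_fst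
  · cases l with
    | inl l => exact hp l
    | inr c => exact norm_ne_zero_iff.1 (by simp [norm_pth (ha1 c)])

lemma FF_smooth (ha1 : ∀ c, nu (a₀ c) ≤ 1) (p : ℝ × ((Φ → ℂ) × (Φ → ℂ)))
    (hp : ∀ k, eq Φ p.2 k ≠ 0) : ContDiffAt ℝ 2 (FF W a₀) p :=
  (eq Φ).symm.contDiff.contDiffAt.comp p ((GG_smooth ha1 (p.1, eq Φ p.2) hp).comp p
    (contDiffAt_fst.prodMk ((eq Φ).contDiff.contDiffAt.comp p contDiffAt_snd)))

lemma sol (hM : Odd (Matrix.of fun k l => ex (W k) l).det) (ha1 : ∀ c, nu (a₀ c) ≤ 1) (t : ℝ)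
    (x : (Φ → ℂ) × (Φ → ℂ)) (hx : ∀ k, eq Φ x k ≠ 0) (h0 : FF W a₀ (t, x) = 0) :
    ∃ q : Φ → S3, (∀ k, (q k : ℍ[ℝ]) = eq Φ x k) ∧
      ∀ k, FreeGroup.lift (Sum.elim q fun c => (⟨pth (a₀ c) t, mem_S3 (norm_pth (ha1 c) t)⟩ : S3))
        (W k) = 1 := by
  rw [FF, map_eq_zero_iff _ (eq Φ).symm.injective, funext_iff] at h0
  simp only [GG, Pi.zero_apply, sub_eq_zero] at h0
  have hn := norm_one W hM _ _ hx (fun c => norm_pth (ha1 c) t) h0
  exact ⟨fun k => ⟨_, mem_S3 (hn k)⟩, fun _ => rfl, fun k => Subtype.ext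
    ((ev_S3 (W k) _ _).symm.trans (h0 k))⟩

lemma FF_one (a : Φ → ℂ) (ha0 : ∀ k, a k ≠ 0) :
    FF W a₀ (1, (a, 0)) = (fun k => ∏ l, a l ^ ex (W k) l - 1, 0) := by
  rw [FF, ContinuousLinearEquiv.symm_apply_eq]
  funext k
  rw [GG, eq_zero, map_sub, map_one, ← ev_complex (W k) a ha0]
  simp only [pth_one]
  rfl

lemma FF_neg (a b : Φ → ℂ) :
    FF W a₀ (1, (a, -b)) = ((FF W a₀ (1, (a, b))).1, -(FF W a₀ (1, (a, b))).2) := by
  rw [FF, ContinuousLinearEquiv.symm_apply_eq]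
  funext k
  rw [eq_neg, Prod.mk.eta, FF, ContinuousLinearEquiv.apply_symm_apply, GG, GG, map_sub, map_one]
  congr 1
  refine Eq.trans ?_ (ev_map (sg : ℍ[ℝ] →* ℍ[ℝ]) (map_inv₀ sg) _ _).symm
  congr 1
  funext l
  cases l with
  | inl l => exact eq_neg a b l
  | inr c => simp [pth_one]

lemma FF_inj (hM : Odd (Matrix.of fun k l => ex (W k) l).det) (ha1 : ∀ c, nu (a₀ c) ≤ 1)
    (a : Φ → ℂ) (ha2 : ∀ k, a k ≠ 0) (h0 : FF W a₀ (1, (a, 0)) = 0) :
    Function.Injective (fderiv ℝ (fun a' => (FF W a₀ (1, (a', 0))).1) a) := by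
  rw [injective_iff_map_eq_zero]
  intro v hv
  have hd : DifferentiableAt ℝ (fun a' => (FF W a₀ (1, (a', 0))).1) a :=
    (((FF_smooth ha1 (1, (a, 0)) fun k => by
      rw [eq_zero]; exact (map_ne_zero _).2 (ha2 k)).differentiableAt (by norm_num)).comp a
      (by fun_prop : DifferentiableAt ℝ
        (fun a' : Φ → ℂ => ((1 : ℝ), (a', (0 : Φ → ℂ)))) a)).fst
  have hγ : HasDerivAt (fun (s : ℝ) l => a l * Complex.exp (s * (v l / a l))) v 0 := by
    refine hasDerivAt_pi.2 fun l => ?_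
    have := (((hasDerivAt_id (0 : ℝ)).ofReal_comp.mul_const (v l / a l)).cexp).const_mul (a l)
    refine this.congr_deriv ?_
    have := ha2 l
    simp
    field_simp
  have h5 := HasFDerivAt.comp_hasDerivAt_of_eq (0 : ℝ) hd.hasFDerivAt hγ (by simp)
  rw [hv] at h5
  rw [FF_one a ha2] at h0
  have h6 : ∀ k, ∑ l, (ex (W k) l : ℂ) * (v l / a l) = 0 := fun k => by
    have e0 := sub_eq_zero.1 (congrFun (congrArg Prod.fst h0) k)
    have e1 := hasDerivAt_pi.1 h5 k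
    have e2 := (((hasDerivAt_id (0 : ℝ)).ofReal_comp.mul_const
      (∑ l, (ex (W k) l : ℂ) * (v l / a l))).cexp).sub_const 1
    have e3 := e2.unique (e1.congr_of_eventuallyEq (Eventually.of_forall fun s => by
      simp only [Function.comp_apply, id]
      rw [FF_one _ fun l => mul_ne_zero (ha2 l) (Complex.exp_ne_zero _)]
      simp only [mul_zpow, Finset.prod_mul_distrib, ← Complex.exp_int_mul, ← Complex.exp_sum]
      rw [e0, one_mul, Finset.mul_sum]
      congr 2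
      exact Finset.sum_congr rfl fun l _ => by ring))
    simpa using e3
  funext l
  have := add_zero_of _ hM (fun l => v l / a l) h6 l
  exact (div_eq_zero_iff.1 this).resolve_right (ha2 l)

/-- the open domain -/
def Om (Y : Set Φ) (r : ℝ) : Set ((Φ → ℂ) × (Φ → ℂ)) :=
  {x | ∀ k, (1 / 2 < ‖eq Φ x k‖ ∧ ‖eq Φ x k‖ < 2) ∧ (k ∈ Y → ‖eq Φ x k - 1‖ < r)}

/-- the closed domain -/
def Cl (Y : Set Φ) (r : ℝ) : Set ((Φ → ℂ) × (Φ → ℂ)) :=
  {x | ∀ k, (1 / 2 ≤ ‖eq Φ x k‖ ∧ ‖eq Φ x k‖ ≤ 2) ∧ (k ∈ Y → ‖eq Φ x k - 1‖ ≤ r)}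

variable {Y : Set Φ} {r : ℝ}

lemma Om_sub : Om Y r ⊆ Cl Y r := fun _ hx k =>
  ⟨⟨(hx k).1.1.le, (hx k).1.2.le⟩, fun hk => ((hx k).2 hk).le⟩

lemma Cl_ne {x : (Φ → ℂ) × (Φ → ℂ)} (hx : x ∈ Cl Y r) (k : Φ) : eq Φ x k ≠ 0 :=
  norm_pos_iff.1 (lt_of_lt_of_le (by norm_num) (hx k).1.1)

lemma Om_ne {a : Φ → ℂ} (ha : (a, (0 : Φ → ℂ)) ∈ Om Y r) (k : Φ) : a k ≠ 0 := fun hk =>
  Cl_ne (Om_sub ha) k (by rw [eq_zero, hk, map_zero])

lemma cont_eq (k : Φ) : Continuous fun x => eq Φ x k :=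
  (continuous_apply k).comp (eq Φ).continuous

lemma isOpen_Om : IsOpen (Om Y r) := by
  simp only [Om, Set.ofPred_forall]
  refine isOpen_iInter_of_finite fun k => IsOpen.inter (IsOpen.inter
    (isOpen_lt continuous_const (cont_eq k).norm) (isOpen_lt (cont_eq k).norm continuous_const)) ?_
  by_cases hk : k ∈ Y
  · simp only [hk, forall_const]
    exact isOpen_lt ((cont_eq k).sub continuous_const).norm continuous_const
  · simp only [hk, false_imp_iff]
    exact isOpen_univ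

lemma isCompact_Cl : IsCompact (Cl Y r) := by
  have hb : IsCompact (eq Φ ⁻¹' Metric.closedBall 0 2) :=
    (eq Φ).toHomeomorph.isCompact_preimage.2 (isCompact_closedBall _ _)
  refine hb.of_isClosed_subset ?_ fun x hx => ?_
  · simp only [Cl, Set.ofPred_forall]
    refine isClosed_iInter fun k => IsClosed.inter (IsClosed.inter
      (isClosed_le continuous_const (cont_eq k).norm)
      (isClosed_le (cont_eq k).norm continuous_const)) ?_
    by_cases hk : k ∈ Y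
    · simp only [hk, forall_const]
      exact isClosed_le ((cont_eq k).sub continuous_const).norm continuous_const
    · simp only [hk, false_imp_iff]
      exact isClosed_univ
  · rw [Set.mem_preimage, mem_closedBall_zero_iff, pi_norm_le_iff_of_nonneg (by norm_num)]
    exact fun k => (hx k).1.2

lemma mem_Zs (z : Φ → Circle) : z ∈ Zs W ↔ ∀ k, ∏ l, (z l : ℂ) ^ ex (W k) l = 1 := by
  refine forall_congr' fun k => ?_
  have : ((∏ l, z l ^ ex (W k) l : Circle) : ℂ) = ∏ l, (z l : ℂ) ^ ex (W k) l :=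
    (map_prod Circle.coeHom _ _).trans (Finset.prod_congr rfl fun l _ => Circle.coe_zpow _ _)
  rw [← this, Circle.coe_eq_one]

lemma fixed_eq (hM : Odd (Matrix.of fun k l => ex (W k) l).det) (ha1 : ∀ c, nu (a₀ c) ≤ 1)
    (hr : 0 < r) (h3 : ∀ z : Φ → Circle,
      (∀ k, FreeGroup.lift (Sum.elim z fun _ => 1) (W k) = 1) → ∀ k ∈ Y, z k = 1) :
    {a | (a, (0 : Φ → ℂ)) ∈ Om Y r ∧ FF W a₀ (1, (a, 0)) = 0} =
      (fun (z : Φ → Circle) k => (z k : ℂ)) '' (Zs W : Set (Φ → Circle)) := by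
  ext a
  constructor
  · rintro ⟨ha0, ha1'⟩
    obtain ⟨q, hq, -⟩ := sol hM ha1 1 _ (Cl_ne (Om_sub ha0)) ha1'
    have hn : ∀ k, ‖a k‖ = 1 := fun k => by
      rw [← norm_ofComplex, ← eq_zero, ← hq, norm_S3]
    rw [FF_one a (Om_ne ha0)] at ha1'
    exact ⟨fun k => ⟨a k, mem_sphere_zero_iff_norm.2 (hn k)⟩, (mem_Zs _).2 fun k =>
      sub_eq_zero.1 (congrFun (congrArg Prod.fst ha1') k), rfl⟩
  · rintro ⟨z, hz, rfl⟩
    refine ⟨fun k => ?_, ?_⟩
    · rw [eq_zero, norm_ofComplex, Circle.norm_coe]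
      refine ⟨by norm_num, fun hk => ?_⟩
      simpa [h3 z (fun k => by rw [lift_comm]; exact hz k) k hk] using hr
    · rw [FF_one _ fun k => (z k).coe_ne_zero]
      exact Prod.ext (funext fun k => sub_eq_zero.2 ((mem_Zs z).1 hz k)) rfl

/-- a compact core -/
lemma exists_core {V : Type} [NormedAddCommGroup V] {Ω D : Set V} {F : ℝ × V → V} (hΩ : IsOpen Ω)
    (hD : IsCompact D) (hsub : Ω ⊆ D) (hc : ∀ t, ∀ x ∈ D, ContinuousAt F (t, x))
    (h0 : ∀ t ∈ Set.Icc (0 : ℝ) 1, ∀ x ∈ D, F (t, x) = 0 → x ∈ Ω) :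
    ∃ (K : Set V) (δ : ℝ), IsCompact K ∧ K ⊆ Ω ∧ 0 < δ ∧
      ∀ t ∈ Set.Icc (0 : ℝ) 1, ∀ x ∈ Ω, x ∉ K → δ ≤ ‖F (t, x)‖ := by
  have hcont : ContinuousOn (fun p => ‖F p‖) (Set.Icc (0 : ℝ) 1 ×ˢ D) := fun p hp =>
    (hc p.1 p.2 hp.2).norm.continuousWithinAt
  obtain ⟨δ, hδ, hδ'⟩ := (isCompact_Icc.prod (hD.diff hΩ)).exists_forall_le' (a := 0)
    (hcont.mono (Set.prod_mono subset_rfl Set.sdiff_subset)) fun p hp =>
      norm_pos_iff.2 fun h => hp.2.2 (h0 p.1 hp.1 p.2 hp.2.1 h)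
  refine ⟨Prod.snd '' (Set.Icc (0 : ℝ) 1 ×ˢ D ∩ (fun p => ‖F p‖) ⁻¹' Set.Iic (δ / 2)), δ / 2,
    ((isCompact_Icc.prod hD).of_isClosed_subset (hcont.preimage_isClosed_of_isClosed
      (isClosed_Icc.prod hD.isClosed) isClosed_Iic) Set.inter_subset_left).image continuous_snd,
    ?_, half_pos hδ, fun t ht x hx hxK => ?_⟩
  · rintro _ ⟨p, ⟨hp, hp'⟩, rfl⟩
    by_contra hn
    have := hδ' p ⟨hp.1, hp.2, hn⟩
    have : ‖F p‖ ≤ δ / 2 := hp'
    linarith
  · by_contra hn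
    exact hxK ⟨(t, x), ⟨⟨ht, hsub hx⟩, (not_le.1 hn).le⟩, rfl⟩

end main

end GR

open GR

theorem grStmt_of (h : EqStmt) : GRStmt := by
  intro Φ C _ _ W Y r ε a₀ hr hε ha h1 h2 h3
  have := Fintype.ofFinite Φ
  have hM := det_odd W h1
  have ha1 : ∀ c, nu (a₀ c) ≤ 1 := fun c => (ha c).trans hε
  obtain ⟨K, δ, hK, hKΩ, hδ, hb⟩ := exists_core (F := FF W a₀) (isOpen_Om (Y := Y) (r := r))
    isCompact_Cl Om_sub (fun t x hx => (FF_smooth ha1 (t, x) (Cl_ne hx)).continuousAt)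
    fun t ht x hx h0 k => by
      obtain ⟨q, hq, hq'⟩ := sol hM ha1 t x (Cl_ne hx) h0
      have := h2 (fun c => ⟨pth (a₀ c) t, mem_S3 (norm_pth (ha1 c) t)⟩)
        (fun c => (pth_near (ha1 c) ht).trans (by linarith [ha c])) q hq'
        fun k hk => by rw [nu, hq]; exact (hx k).2 hk
      rw [← hq, norm_S3]
      exact ⟨by norm_num, fun hk => this k hk⟩
  obtain ⟨x, hx, hx0⟩ := h (Φ → ℂ) (Φ → ℂ) (Om Y r) K (FF W a₀) δ isOpen_Om
    (isCompact_Cl.isBounded.subset Om_sub) hK hKΩ hδ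
    (fun p hp => (FF_smooth ha1 p (Cl_ne (Om_sub hp.2))).contDiffWithinAt) hb
    (fun a b hab => ⟨fun k => by
      rw [eq_neg, norm_sg, ← map_one sg, ← map_sub, norm_sg]
      exact hab k, FF_neg a b⟩)
    (by
      rw [fixed_eq hM ha1 hr h3, Set.ncard_image_of_injective _ fun z z' e =>
        funext fun k => Circle.ext (congrFun e k)]
      exact odd_Zs W hM)
    fun a ha0 h0 => FF_inj hM ha1 a (Om_ne ha0) h0
  obtain ⟨q, hq, hq'⟩ := sol hM ha1 0 x (Cl_ne (Om_sub hx)) hx0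
  refine ⟨q, fun k => ?_, fun k hk => by rw [nu, hq]; exact (hx k).2 hk⟩
  simpa only [pth_zero] using hq' k

end Crest.Agent.R197
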