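import Crest.Agent.R197.Basic

/-! Row 197: basic lemmas on path functors, potentials and cell attachments. -/

set_option autoImplicit false

open unitInterval Topology Filter
open scoped Classical

namespace Crest.Agent.R197

instance : ContractibleSpace I := (convex_Icc (0 : ℝ) 1).contractibleSpace ⟨0, by simp⟩

instance (n : ℕ) : ContractibleSpace (Dk n) :=
  (convex_closedBall (0 : Fin n → ℝ) 1).contractibleSpace ⟨0, by simp⟩

instance (n : ℕ) : LocallyPathConnectedSpace (Dk n) :=
  (convex_closedBall (0 : Fin n → ℝ) 1).locallyPathConnectedSpace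

/-- a continuous map on the interval as a path -/
def toPath {Z : Type} [TopologicalSpace Z] (γ : C(I, Z)) {x y : Z} (hx : γ 0 = x) (hy : γ 1 = y) :
    Path x y := ⟨γ, hx, hy⟩

/-- the affine path from `a` to `b` in the interval -/
def aff (a b : I) : C(I, I) :=
  ⟨fun t => ⟨(1 - t) * a + t * b, by
      constructor
      · have := t.2.1; have := t.2.2; have := a.2.1; have := b.2.1
        have : 0 ≤ 1 - (t : ℝ) := by linarith
        positivity
      · nlinarith [t.2.1, t.2.2, a.2.2, b.2.2]⟩, by fun_prop⟩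

@[simp] theorem aff_zero (a b : I) : aff a b 0 = a := Subtype.ext (by simp [aff])
@[simp] theorem aff_one (a b : I) : aff a b 1 = b := Subtype.ext (by simp [aff])
theorem aff_id : aff 0 1 = ContinuousMap.id I := by ext t; simp [aff]

theorem aff_mem {a b : I} (hab : a ≤ b) (t : I) : aff a b t ∈ Set.Icc a b := by
  have h : (a : ℝ) ≤ b := hab
  constructor
  · change (a : ℝ) ≤ (1 - t) * a + t * b
    nlinarith [t.2.1]
  · change (1 - t) * a + t * b ≤ (b : ℝ)
    nlinarith [t.2.2]

namespace PF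
variable {Z W U U' : Type} [TopologicalSpace Z] [TopologicalSpace W] [Group U] [Group U']
  (m : PF Z U)

/-- pull-back -/
def comap (f : C(W, Z)) : PF W U where
  m γ := m.m (f.comp γ)
  const w := m.const (f w)
  sq H := m.sq (f.comp H)

/-- push-forward -/
def map (φ : U →* U') : PF Z U' where
  m γ := φ (m.m γ)
  const z := by rw [m.const, map_one]
  sq H := by rw [← map_mul, ← map_mul, m.sq]

/-- product -/
def prod (m' : PF Z U') : PF Z (U × U') where
  m γ := (m.m γ, m'.m γ)
  const z := Prod.ext (m.const z) (m'.const z)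
  sq H := Prod.ext (m.sq H) (m'.sq H)

/-- the path functor of a potential -/
def pot (c : Z → U) : PF Z U where
  m γ := (c (γ 0))⁻¹ * c (γ 1)
  const z := inv_mul_cancel _
  sq H := by simp [sB, sR, sL, sT]

@[simp] theorem comap_m (f : C(W, Z)) (γ : C(I, W)) : (m.comap f).m γ = m.m (f.comp γ) := rfl
@[simp] theorem map_m (φ : U →* U') (γ : C(I, Z)) : (m.map φ).m γ = φ (m.m γ) := rfl
@[simp] theorem prod_m (m' : PF Z U') (γ : C(I, Z)) : (m.prod m').m γ = (m.m γ, m'.m γ) := rfl
@[simp] theorem pot_m (c : Z → U) (γ : C(I, Z)) : (pot c).m γ = (c (γ 0))⁻¹ * c (γ 1) := rfl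

theorem m_of_const (γ : C(I, Z)) (h : ∀ s, γ s = γ 0) : m.m γ = 1 := by
  have : γ = ContinuousMap.const I (γ 0) := ContinuousMap.ext h
  rw [this]
  exact m.const _

theorem m_refl (x : Z) : m.m (Path.refl x).toContinuousMap = 1 := m.const x

theorem m_homotopic {x y : Z} {p q : Path x y} (h : p.Homotopic q) :
    m.m p.toContinuousMap = m.m q.toContinuousMap := by
  obtain ⟨H⟩ := h
  have := m.sq H.toContinuousMap
  rw [m.m_of_const (sB _) fun s => (H.source s).trans (H.source 0).symm,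
    m.m_of_const (sT _) fun s => (H.target s).trans (H.target 0).symm, one_mul, mul_one] at this
  have hL : sL H.toContinuousMap = p.toContinuousMap := ContinuousMap.ext fun t => H.apply_zero t
  have hR : sR H.toContinuousMap = q.toContinuousMap := ContinuousMap.ext fun t => H.apply_one t
  rw [hL, hR] at this
  exact this.symm

theorem m_trans {x y z : Z} (p : Path x y) (q : Path y z) :
    m.m (p.trans q).toContinuousMap = m.m p.toContinuousMap * m.m q.toContinuousMap := by
  let φ : C(I × I, I) := ⟨fun st => ⟨st.1 * (1 + st.2) / 2, by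
    have := st.1.2.1; have := st.1.2.2; have := st.2.2.1; have := st.2.2.2
    constructor
    · positivity
    · nlinarith⟩, by fun_prop⟩
  have := m.sq ((p.trans q).toContinuousMap.comp φ)
  have hB : sB ((p.trans q).toContinuousMap.comp φ) = p.toContinuousMap := by
    ext s
    change (p.trans q) (φ (s, 0)) = p s
    have h : ((φ (s, 0) : I) : ℝ) ≤ 1 / 2 := by
      have := s.2.2; simp only [φ, ContinuousMap.coe_mk, Set.Icc.coe_zero]; linarith
    rw [Path.trans_apply, dif_pos h]
    congr 1; ext; simp only [φ, ContinuousMap.coe_mk, Set.Icc.coe_zero]; ring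
  have hR : sR ((p.trans q).toContinuousMap.comp φ) = q.toContinuousMap := by
    ext t
    change (p.trans q) (φ (1, t)) = q t
    rw [Path.trans_apply]
    split_ifs with h
    · have ht : t = 0 := by
        have := t.2.1
        simp only [φ, ContinuousMap.coe_mk, Set.Icc.coe_one] at h
        ext; simp only [Set.Icc.coe_zero]; linarith
      subst ht
      rw [q.source]
      convert p.target
      simp [φ]
    · congr 1; ext; simp only [φ, ContinuousMap.coe_mk, Set.Icc.coe_one]; ring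
  have hT : sT ((p.trans q).toContinuousMap.comp φ) = (p.trans q).toContinuousMap := by
    ext s
    change (p.trans q) (φ (s, 1)) = (p.trans q) s
    congr 1; ext; simp only [φ, ContinuousMap.coe_mk, Set.Icc.coe_one]; ring
  have hL : m.m (sL ((p.trans q).toContinuousMap.comp φ)) = 1 := m.m_of_const _ fun t => by
    change (p.trans q) (φ (0, t)) = (p.trans q) (φ (0, 0))
    congr 1; ext; simp [φ]
  rw [hB, hR, hT, hL, one_mul] at this
  exact this.symm

theorem m_symm {x y : Z} (p : Path x y) :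
    m.m p.symm.toContinuousMap = (m.m p.toContinuousMap)⁻¹ := by
  rw [eq_inv_iff_mul_eq_one, ← m.m_trans, m.m_homotopic (Path.Homotopic.symm_trans p)]
  exact m.const y

/-- on a simply connected space a path functor has a potential -/
theorem exists_pot [SimplyConnectedSpace Z] :
    ∃ c : Z → U, ∀ γ : C(I, Z), m.m γ = (c (γ 0))⁻¹ * c (γ 1) := by
  obtain ⟨z₀⟩ : Nonempty Z := inferInstance
  refine ⟨fun z => m.m (PathConnectedSpace.somePath z₀ z).toContinuousMap, fun γ => ?_⟩
  rw [eq_inv_mul_iff_mul_eq]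
  exact (m.m_trans _ (toPath γ rfl rfl)).symm.trans
    (m.m_homotopic (SimplyConnectedSpace.paths_homotopic _ _))

/-- paths factoring through a simply connected space -/
theorem m_comp_eq [SimplyConnectedSpace W] (f : C(W, Z)) (β β' : C(I, W)) (h0 : β 0 = β' 0)
    (h1 : β 1 = β' 1) : m.m (f.comp β) = m.m (f.comp β') := by
  obtain ⟨c, hc⟩ := (m.comap f).exists_pot
  exact (hc β).trans (by rw [h0, h1]; exact (hc β').symm)

theorem m_comp_loop [SimplyConnectedSpace W] (f : C(W, Z)) (β : C(I, W)) (h : β 0 = β 1) :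
    m.m (f.comp β) = 1 := by
  obtain ⟨c, hc⟩ := (m.comap f).exists_pot
  exact (hc β).trans (by rw [h, inv_mul_cancel])

theorem m_aff_mul (γ : C(I, Z)) (a b c : I) :
    m.m (γ.comp (aff a b)) * m.m (γ.comp (aff b c)) = m.m (γ.comp (aff a c)) := by
  obtain ⟨d, hd⟩ := (m.comap γ).exists_pot
  have h1 := hd (aff a b)
  have h2 := hd (aff b c)
  have h3 := hd (aff a c)
  simp only [comap_m, aff_zero, aff_one] at h1 h2 h3
  rw [h1, h2, h3, mul_assoc, mul_inv_cancel_left]

/-- from short paths to all paths -/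
theorem induction (Q : Z → Z → U → Prop) (hQ : ∀ x y z u v, Q x y u → Q y z v → Q x z (u * v))
    {ι : Sort*} (O : ι → Set Z) (hO : ∀ i, IsOpen (O i)) (γ : C(I, Z))
    (hc : ∀ s, ∃ i, γ s ∈ O i)
    (hs : ∀ i (β : C(I, Z)), (∀ s, β s ∈ O i) → Q (β 0) (β 1) (m.m β)) :
    Q (γ 0) (γ 1) (m.m γ) := by
  obtain ⟨t, t0, tm, ⟨n, hn⟩, ht⟩ := exists_monotone_Icc_subset_open_cover_unitInterval
    (c := fun i => γ ⁻¹' O i) (fun i => (hO i).preimage γ.continuous)
    (fun s _ => Set.mem_iUnion.2 (hc s))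
  have key : ∀ k, Q (γ 0) (γ (t (k + 1))) (m.m (γ.comp (aff 0 (t (k + 1))))) := by
    have step : ∀ k, Q (γ (t k)) (γ (t (k + 1))) (m.m (γ.comp (aff (t k) (t (k + 1))))) := by
      intro k
      obtain ⟨i, hi⟩ := ht k
      simpa using hs i (γ.comp (aff (t k) (t (k + 1))))
        fun s => hi (aff_mem (tm (Nat.le_succ k)) s)
    intro k
    induction k with
    | zero => simpa [t0] using step 0
    | succ k ih => rw [← m.m_aff_mul γ 0 (t (k + 1))]; exact hQ _ _ _ _ _ ih (step (k + 1))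
  have := key n
  rwa [hn (n + 1) (Nat.le_succ n), aff_id, ContinuousMap.comp_id] at this

end PF

namespace Pot
variable {Z U : Type} [TopologicalSpace Z] [Group U] {P : Pot Z U} {W W' : Type}
  [TopologicalSpace W] [TopologicalSpace W'] {f : W → Z} {ℓ ℓ' : W → U}

theorem Sec.comp (h : P.Sec f ℓ) {g : W' → W} (hg : Continuous g) :
    P.Sec (fun w => f (g w)) (fun w => ℓ (g w)) :=
  fun i w hw => hg.continuousAt.eventually (h i (g w) hw)

theorem Sec.mul_left (h : P.Sec f ℓ) (u : U) : P.Sec f (fun w => u * ℓ w) :=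
  fun i w hw => (h i w hw).mono fun w' e => by rw [mul_assoc, e, mul_assoc]

/-- it suffices to check one chart at every point -/
theorem sec_of_exists (hf : Continuous f)
    (h : ∀ w, ∃ i, f w ∈ P.O i ∧
      ∀ᶠ w' in 𝓝 w, ℓ w' * (P.c i (f w'))⁻¹ = ℓ w * (P.c i (f w))⁻¹) : P.Sec f ℓ := by
  intro j w hw
  obtain ⟨i, hi, h⟩ := h w
  filter_upwards [h, hf.continuousAt.eventually (P.lc i j (f w) hi hw)] with w' e1 e2
  calc ℓ w' * (P.c j (f w'))⁻¹
      = ℓ w' * (P.c i (f w'))⁻¹ * (P.c i (f w') * (P.c j (f w'))⁻¹) := by group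
    _ = _ := by rw [e1, e2]; group

theorem Sec.isLocallyConstant (h : P.Sec f ℓ) (h' : P.Sec f ℓ') :
    IsLocallyConstant fun w => ℓ' w * (ℓ w)⁻¹ := by
  rw [IsLocallyConstant.iff_eventually_eq]
  intro w
  obtain ⟨i, hi⟩ := P.cover (f w)
  filter_upwards [h i w hi, h' i w hi] with w' e1 e2
  calc ℓ' w' * (ℓ w')⁻¹ = ℓ' w' * (P.c i (f w'))⁻¹ * (ℓ w' * (P.c i (f w'))⁻¹)⁻¹ := by group
    _ = _ := by rw [e1, e2]; group

/-- uniqueness of lifts -/
theorem Sec.unique [PreconnectedSpace W] (h : P.Sec f ℓ) (h' : P.Sec f ℓ') (w w' : W) :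
    (ℓ w)⁻¹ * ℓ w' = (ℓ' w)⁻¹ * ℓ' w' := by
  have := (h.isLocallyConstant h').apply_eq_of_preconnectedSpace w w'
  calc (ℓ w)⁻¹ * ℓ w' = (ℓ' w)⁻¹ * (ℓ' w * (ℓ w)⁻¹) * ℓ w' := by group
    _ = _ := by rw [this]; group

end Pot

namespace Att
variable {Z : Type} [TopologicalSpace Z] {Y : Set Z} {n : ℕ} (A : Att Z Y n)

theorem norm_le (y : Dk n) : ‖y.1‖ ≤ 1 := mem_closedBall_zero_iff.1 y.2

theorem mem_iff (j : A.J) (y : Dk n) : A.Φ j y ∈ Y ↔ ‖y.1‖ = 1 :=
  ⟨fun h => by_contra fun hne => A.int j y ((norm_le y).lt_of_ne hne) h, A.bd j y⟩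

theorem lt_of_not_mem {j : A.J} {y : Dk n} (h : A.Φ j y ∉ Y) : ‖y.1‖ < 1 :=
  (norm_le y).lt_of_ne fun e => h (A.bd j y e)

@[simp] theorem att_coe (j : A.J) (y : Sp n) : (A.att j y : Z) = A.Φ j y.1 := rfl

theorem incl_comp_att (j : A.J) : (incl Y).comp (A.att j) =
    (A.Φ j).comp ⟨Subtype.val, continuous_subtype_val⟩ := rfl

theorem preimage_image_self (j : A.J) {W : Set (Dk n)} (hW : ∀ y ∈ W, ‖y.1‖ < 1) :
    A.Φ j ⁻¹' (A.Φ j '' W) = W := by
  refine Set.Subset.antisymm ?_ (Set.subset_preimage_image _ _)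
  rintro y ⟨y', hy', e⟩
  exact (A.inj _ _ _ _ (hW y' hy') e).2 ▸ hy'

theorem preimage_image_ne {j j' : A.J} (h : j ≠ j') {W : Set (Dk n)} (hW : ∀ y ∈ W, ‖y.1‖ < 1) :
    A.Φ j' ⁻¹' (A.Φ j '' W) = ∅ := by
  refine Set.eq_empty_of_forall_notMem ?_
  rintro y ⟨y', hy', e⟩
  exact h (A.inj _ _ _ _ (hW y' hy') e).1

/-- open subsets of open cells are open -/
theorem isOpen_image (j : A.J) {W : Set (Dk n)} (ho : IsOpen W) (hW : ∀ y ∈ W, ‖y.1‖ < 1) :
    IsOpen (A.Φ j '' W) := by
  rw [← isClosed_compl_iff]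
  refine A.weak _ ?_ fun j' => ?_
  · convert A.closedY using 1
    refine Set.inter_eq_right.2 ?_
    rintro z hz ⟨y, hy, rfl⟩
    exact A.int j y (hW y hy) hz
  · rw [Set.preimage_compl, isClosed_compl_iff]
    by_cases h : j = j'
    · subst h; rwa [A.preimage_image_self j hW]
    · rw [A.preimage_image_ne h hW]; exact isOpen_empty

/-- closed subsets of the cube inside the open cube have closed images -/
theorem isClosed_image (j : A.J) {W : Set (Dk n)} (hc : IsClosed W) (hW : ∀ y ∈ W, ‖y.1‖ < 1) :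
    IsClosed (A.Φ j '' W) := by
  refine A.weak _ ?_ fun j' => ?_
  · convert isClosed_empty using 1
    refine Set.eq_empty_of_forall_notMem ?_
    rintro z ⟨⟨y, hy, rfl⟩, hz⟩
    exact A.int j y (hW y hy) hz
  · by_cases h : j = j'
    · subst h; rwa [A.preimage_image_self j hW]
    · rw [A.preimage_image_ne h hW]; exact isClosed_empty

theorem isOpen_ball : IsOpen {y : Dk n | ‖y.1‖ < 1} :=
  isOpen_lt (by fun_prop) continuous_const

/-- a characteristic map is a local homeomorphism at interior points -/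
theorem map_nhds (j : A.J) {y : Dk n} (hy : ‖y.1‖ < 1) : map (A.Φ j) (𝓝 y) = 𝓝 (A.Φ j y) := by
  refine le_antisymm (A.Φ j).continuous.continuousAt fun S hS => ?_
  obtain ⟨W, hW, ho, hyW⟩ := mem_nhds_iff.1 (inter_mem hS (isOpen_ball.mem_nhds hy))
  refine mem_of_superset ((A.isOpen_image j ho fun y hy => (hW hy).2).mem_nhds ⟨y, hyW, rfl⟩) ?_
  rintro _ ⟨y', hy', rfl⟩
  exact (hW hy').1

/-- maps into an open cell lift to the cube -/
theorem exists_lift (j : A.J) {W : Type} [TopologicalSpace W] (f : C(W, Z))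
    (hf : ∀ w, f w ∈ A.Φ j '' {y | ‖y.1‖ < 1}) :
    ∃ β : C(W, Dk n), (∀ w, ‖(β w).1‖ < 1) ∧ (A.Φ j).comp β = f := by
  choose β hβ hβ' using hf
  refine ⟨⟨β, continuous_def.2 fun S hS => ?_⟩, hβ, ContinuousMap.ext hβ'⟩
  have := (A.isOpen_image j (hS.inter isOpen_ball) fun y hy => hy.2).preimage f.continuous
  convert this using 1
  ext w
  refine ⟨fun h => ⟨β w, ⟨h, hβ w⟩, hβ' w⟩, ?_⟩
  rintro ⟨y, hy, e⟩
  have := (A.inj _ _ _ _ hy.2 (e.trans (hβ' w).symm)).2
  exact Set.mem_preimage.2 (this ▸ hy.1)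

end Att

@[simp] theorem seg_zero : (seg 0).1 = fun _ => -1 := by ext; simp [seg]
@[simp] theorem seg_one : (seg 1).1 = fun _ => 1 := by ext; simp [seg]; norm_num

/-- the two boundary points of the one-dimensional cube -/
theorem eq_seg {y : Dk 1} (hy : ‖y.1‖ = 1) : y = seg 0 ∨ y = seg 1 := by
  have h : y.1 = fun _ => y.1 0 := funext fun i => by rw [Subsingleton.elim i 0]
  rw [h, pi_norm_const, Real.norm_eq_abs, abs_eq zero_le_one] at hy
  rcases hy with hy | hy
  · right; apply Subtype.ext; rw [seg_one, h, hy]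
  · left; apply Subtype.ext; rw [seg_zero, h, hy]

theorem norm_seg_zero : ‖(seg 0).1‖ = 1 := by rw [seg_zero, pi_norm_const]; simp
theorem norm_seg_one : ‖(seg 1).1‖ = 1 := by rw [seg_one, pi_norm_const]; simp

end Crest.Agent.R197
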