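import Crest.Agent.R197.Ext
import Crest.Agent.R197.PF0

/-!
# Row 197: paths are generated by paths in `Y` and paths in the cells (GEN)
-/

set_option autoImplicit false

open unitInterval Topology Filter
open scoped Quaternion Classical

namespace Crest.Agent.R197

namespace GenA

open DefA

variable {Z : Type} [TopologicalSpace Z] {Y : Set Z} {n : ℕ}

lemma radD_zero (y : Dk n) : radD y 0 = y := by
  apply Subtype.ext
  simp [radD]

lemma rho_zero (A : Att Z Y n) (z : Z) : rho A z 0 = z := by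
  by_cases h : z ∈ Y
  · exact rho_of_mem A h 0
  · obtain ⟨j, y, rfl⟩ := A.cover z h
    rw [rho_Φ, radD_zero]

/-- the track of a point -/
noncomputable def track (A : Att Z Y n) (z : A.O) : C(I, Z) :=
  ⟨fun t => rho A z.1 t, (continuous_rho A).comp (f := fun t : I => (z, t)) (by fun_prop)⟩

/-- a radius -/
noncomputable def radius (n : ℕ) : C(I, Dk (n + 1)) :=
  ⟨fun t => ⟨fun _ => (t : ℝ), by
    rw [mem_closedBall_zero_iff, pi_norm_const, Real.norm_eq_abs, abs_le]
    constructor <;> linarith [t.2.1, t.2.2]⟩, by fun_prop⟩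

lemma exists_ab (A : Att Z Y (n + 1)) {U : Type} [Group U] (m : PF Z U) :
    ∃ (b : Z → Z) (a : Z → U), (∀ z : A.O, b z.1 = rho A z.1 1 ∧ a z.1 = m.m (track A z)) ∧
      ∀ j (y : Dk (n + 1)), ∃ β : C(I, Dk (n + 1)), β 0 = y ∧ ‖(β 1).1‖ = 1 ∧
        b (A.Φ j y) = A.Φ j (β 1) ∧ a (A.Φ j y) = m.m ((A.Φ j).comp β) := by
  have hex : ∀ z, z ∉ A.O → ∃ j, A.Φ j ⟨0, by simp⟩ = z := fun z hz => by
    by_contra h
    exact hz fun j hj => h ⟨j, hj⟩
  refine ⟨fun z => if h : z ∈ A.O then rho A z 1 else A.Φ (hex z h).choose (radius n 1),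
    fun z => if h : z ∈ A.O then m.m (track A ⟨z, h⟩) else
      m.m ((A.Φ (hex z h).choose).comp (radius n)), fun z => ⟨dif_pos z.2, dif_pos z.2⟩, ?_⟩
  intro j y
  by_cases hy : y.1 = 0
  · have hO : A.Φ j y ∉ A.O := fun h => (mem_O_iff A j y).1 h hy
    have hj : (hex _ hO).choose = j := (A.inj _ _ _ _ (by simp) (hex _ hO).choose_spec).1
    refine ⟨radius n, Subtype.ext ?_, ?_, ?_, ?_⟩
    · rw [hy]
      funext i
      rfl
    · change ‖fun _ : Fin (n + 1) => ((1 : I) : ℝ)‖ = 1
      rw [pi_norm_const]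
      simp
    · simp only [dif_neg hO, hj]
    · simp only [dif_neg hO, hj]
  · have hO : A.Φ j y ∈ A.O := (mem_O_iff A j y).2 hy
    refine ⟨⟨fun t => radD y t, continuous_iff_continuousAt.2 fun t =>
      ContinuousAt.comp (f := fun t : I => (y, t)) (continuousAt_radD y hy t) (by fun_prop)⟩,
      radD_zero y, norm_radD_one y hy, ?_, ?_⟩
    · simp only [dif_pos hO]
      exact rho_Φ A j y 1
    · simp only [dif_pos hO]
      exact congrArg m.m (ContinuousMap.ext fun t => rho_Φ A j y t)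

end GenA

theorem genStmt : GenStmt := by
  intro Z _ Y n A U _ m Q hQ hY hC γ h0 h1
  obtain ⟨b, a, hO, hcell⟩ := GenA.exists_ab A m
  have hb : ∀ z ∈ Y, b z = z ∧ a z = 1 := fun z hz => by
    obtain ⟨e1, e2⟩ := hO ⟨z, DefA.mem_O_of_mem A hz⟩
    refine ⟨e1.trans (DefA.rho_of_mem A hz 1), e2.trans (m.m_of_const _ fun s => ?_)⟩
    exact (DefA.rho_of_mem A hz s).trans (DefA.rho_of_mem A hz 0).symm
  have key := m.induction (fun x y u => Q (b x) (b y) ((a x)⁻¹ * u * a y))
    (fun x y z u v h h' => by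
      have := hQ _ _ _ _ _ h h'
      convert this using 1
      group)
    (fun i : Option A.J => i.elim A.O fun j => A.Φ j '' {y | ‖y.1‖ < 1})
    (by
      rintro (_ | j)
      · exact DefA.isOpen_O A
      · exact A.isOpen_image j Att.isOpen_ball fun y hy => hy) γ
    (fun s => by
      by_cases hz : γ s ∈ Y
      · exact ⟨none, DefA.mem_O_of_mem A hz⟩
      · obtain ⟨j, y, h⟩ := A.cover _ hz
        exact ⟨some j, y, A.lt_of_not_mem (h ▸ hz), h⟩)
    (by
      rintro (_ | j) β hβ
      · let H : C(I × I, Z) := ⟨fun p => DefA.rho A (β p.1) p.2,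
          (DefA.continuous_rho A).comp (f := fun p : I × I => ((⟨β p.1, hβ p.1⟩ : A.O), p.2))
            (by fun_prop)⟩
        have hsq := m.sq H
        have hB : sB H = β := ContinuousMap.ext fun s => GenA.rho_zero A (β s)
        have hR : m.m (sR H) = a (β 1) := (hO ⟨β 1, hβ 1⟩).2.symm
        have hL : m.m (sL H) = a (β 0) := (hO ⟨β 0, hβ 0⟩).2.symm
        rw [hB, hR, hL] at hsq
        have hT := hY (sT H) fun s => ExtA.rho_mem A (hβ s)
        have e0 : b (β 0) = sT H 0 := (hO ⟨β 0, hβ 0⟩).1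
        have e1 : b (β 1) = sT H 1 := (hO ⟨β 1, hβ 1⟩).1
        change Q (b (β 0)) (b (β 1)) ((a (β 0))⁻¹ * m.m β * a (β 1))
        rw [e0, e1, mul_assoc, hsq, inv_mul_cancel_left]
        exact hT
      · obtain ⟨β', -, rfl⟩ := A.exists_lift j β hβ
        obtain ⟨c, hc⟩ := (m.comap (A.Φ j)).exists_pot
        obtain ⟨β₀, e0, n0, b0, a0⟩ := hcell j (β' 0)
        obtain ⟨β₁, e1, n1, b1, a1⟩ := hcell j (β' 1)
        let δ := PathConnectedSpace.somePath (β₀ 1) (β₁ 1)
        have hδ := hC j δ.toContinuousMap (by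
          change ‖(δ 0).1‖ = 1
          rw [δ.source]; exact n0) (by
          change ‖(δ 1).1‖ = 1
          rw [δ.target]; exact n1)
        have d0 : δ.toContinuousMap 0 = β₀ 1 := δ.source
        have d1 : δ.toContinuousMap 1 = β₁ 1 := δ.target
        have k0 := hc β₀
        have k1 := hc β₁
        have k2 := hc β'
        have k3 := hc δ.toContinuousMap
        simp only [PF.comap_m] at k0 k1 k2 k3
        change Q (b (A.Φ j (β' 0))) (b (A.Φ j (β' 1)))
          ((a (A.Φ j (β' 0)))⁻¹ * m.m ((A.Φ j).comp β') * a (A.Φ j (β' 1)))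
        rw [k3, d0, d1] at hδ
        rw [b0, b1, a0, a1, k0, k1, k2, e0, e1]
        convert hδ using 1
        group)
  simpa [(hb _ h0).1, (hb _ h0).2, (hb _ h1).1, (hb _ h1).2] using key

theorem genStmt_of (_h : DefStmt) : GenStmt := genStmt

end Crest.Agent.R197
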