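import Crest.Agent.R197.Heap0

/-! Row 197: existence of the normal form map. -/

set_option autoImplicit false

open scoped Classical
open Filter

namespace Crest.Agent.R197

namespace Heap

variable {V : Type} (Γ : SimpleGraph V) {C : Type} [Ring C] (R : ℕ → Prop)

/-- heaps supported on the levels in `R` -/
def X (V C : Type) [Zero C] (R : ℕ → Prop) : Type :=
  {h : V → ℕ → C // ∀ a i, ¬ R i → h a i = 0}

variable {R}

/-- dropping `c` copies of the letter `a` -/
noncomputable def st (c : C) (a : V) (h : X V C R) : X V C R :=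
  if hR : R (top Γ a h.1) then ⟨bump h.1 a (top Γ a h.1) c, fun b i hi => by
    rw [bump_of_ne_right (by rintro rfl; exact hi hR), h.2 b i hi]⟩ else h

variable {Γ}

lemma st_pos (c : C) {a : V} {h : X V C R} (hR : R (top Γ a h.1)) :
    (st Γ c a h).1 = bump h.1 a (top Γ a h.1) c := by rw [st, dif_pos hR]

lemma st_neg (c : C) {a : V} {h : X V C R} (hR : ¬ R (top Γ a h.1)) : st Γ c a h = h := by
  rw [st, dif_neg hR]

lemma top_st (c : C) {a b : V} (hab : ¬ blk Γ a b) (h : X V C R) :
    top Γ a (st Γ c b h).1 = top Γ a h.1 := by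
  by_cases hR : R (top Γ b h.1)
  · rw [st_pos c hR, top_bump hab]
  · rw [st_neg c hR]

lemma st_st (c d : C) (a : V) (h : X V C R) : st Γ d a (st Γ c a h) = st Γ (c + d) a h := by
  have ht := top_st c (not_blk_self (Γ := Γ) a) h
  by_cases hR : R (top Γ a h.1)
  · apply Subtype.ext
    rw [st_pos d (ht ▸ hR), ht, st_pos c hR, st_pos _ hR, bump_bump]
  · rw [st_neg c hR, st_neg d hR, st_neg _ hR]

lemma st_zero (a : V) (h : X V C R) : st Γ 0 a h = h := by
  by_cases hR : R (top Γ a h.1)
  · exact Subtype.ext (by rw [st_pos _ hR, bump_zero])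
  · exact st_neg _ hR

lemma st_comm (c d : C) {a b : V} (hab : Γ.Adj a b) (h : X V C R) :
    st Γ c a (st Γ d b h) = st Γ d b (st Γ c a h) := by
  have h1 := top_st d (not_blk_of_adj hab) h
  have h2 := top_st c (not_blk_of_adj hab.symm) h
  by_cases ha : R (top Γ a h.1)
  · by_cases hb : R (top Γ b h.1)
    · apply Subtype.ext
      have ha' : R (top Γ a (st Γ d b h).1) := by rw [h1]; exact ha
      have hb' : R (top Γ b (st Γ c a h).1) := by rw [h2]; exact hb
      rw [st_pos c ha', st_pos d hb', h1, h2, st_pos d hb, st_pos c ha,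
        bump_comm fun h => hab.ne h.1.symm]
    · rw [st_neg d hb, st_neg d (h2 ▸ hb)]
  · rw [st_neg c ha, st_neg c (h1 ▸ ha)]

variable (Γ C R)

/-- the permutation of a letter -/
noncomputable def P (a : V) : Equiv.Perm (X V C R) where
  toFun := st Γ 1 a
  invFun := st Γ (-1) a
  left_inv h := by rw [st_st, add_neg_cancel, st_zero]
  right_inv h := by rw [st_st, neg_add_cancel, st_zero]

lemma P_zpow (a : V) (c : ℤ) (h : X V C R) : (P Γ C R a ^ c) h = st Γ (c : C) a h := by
  induction c using Int.induction_on generalizing h with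
  | zero => simp [st_zero]
  | succ n ih =>
    rw [zpow_add_one, Equiv.Perm.mul_apply, ih]
    change st Γ _ a (st Γ 1 a h) = _
    rw [st_st]; push_cast; rw [add_comm]
  | pred n ih =>
    rw [zpow_sub_one, Equiv.Perm.mul_apply, ih]
    change st Γ _ a (st Γ (-1) a h) = _
    rw [st_st]; push_cast; rw [add_comm, sub_eq_add_neg]

/-- the right action -/
noncomputable def act : RA Γ →* (Equiv.Perm (X V C R))ᵐᵒᵖ :=
  RA.lift (fun a => MulOpposite.op (P Γ C R a)) fun _ _ hab =>
    Commute.op (Equiv.ext fun h => st_comm 1 1 hab h)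

/-- the orbit map -/
noncomputable def ac (g : RA Γ) : X V C R := (act Γ C R g).unop ⟨0, fun _ _ _ => rfl⟩

lemma ac_one : (ac Γ C R 1).1 = 0 := by rw [ac, map_one]; rfl

lemma ac_mul (g : RA Γ) (a : V) (c : ℤ) :
    ac Γ C R (g * gen Γ a ^ c) = st Γ (c : C) a (ac Γ C R g) := by
  rw [ac, map_mul, map_zpow, act, RA.lift_gen, MulOpposite.unop_mul, Equiv.Perm.mul_apply,
    ← MulOpposite.op_zpow, MulOpposite.unop_op, P_zpow]
  rfl

lemma prod_change {ι G : Type*} [Group G] {f f' : ι → G} {p : ι} {y : G} (hp : f' p = f p * y)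
    (hq : ∀ q, q ≠ p → f' q = f q) (hc : ∀ q, Commute y (f q)) (L : List ι) (hL : L.Nodup)
    (hm : p ∈ L) : (L.map f').prod = (L.map f).prod * y := by
  induction L with
  | nil => simp at hm
  | cons q L ih =>
    rw [List.nodup_cons] at hL
    simp only [List.map_cons, List.prod_cons]
    by_cases h : q = p
    · subst h
      rw [hp, List.map_congr_left (g := f) fun r hr => hq r (by rintro rfl; exact hL.1 hr),
        mul_assoc, mul_assoc, (Commute.list_prod_right _ _ (by simpa using fun r _ => hc r)).eq]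
    · rw [hq q h, ih hL.2 ((List.mem_cons.1 hm).resolve_left (Ne.symm h)), mul_assoc]

variable [Fintype V]

/-- one level of the normal form -/
noncomputable def lev (h : V → ℕ → ℤ) (i : ℕ) : RA Γ :=
  ((Finset.univ : Finset V).toList.map fun a => gen Γ a ^ h a i).prod

/-- the normal form -/
noncomputable def nf (h : V → ℕ → ℤ) : ℕ → RA Γ
  | 0 => 1
  | N + 1 => nf h N * lev Γ h N

variable {Γ}

lemma nf_zero (N : ℕ) : nf Γ 0 N = 1 := by
  induction N with
  | zero => rfl
  | succ N ih => simp [nf, ih, lev]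

lemma comm_top {h : V → ℕ → ℤ} (hb : Bdd h) (a : V) (c : ℤ) {i : ℕ} (hi : top Γ a h ≤ i) (b : V) :
    Commute (gen Γ a ^ c) (gen Γ b ^ h b i) := by
  by_cases hab : blk Γ a b
  · rw [top_spec hb hab hi, zpow_zero]; exact Commute.one_right _
  · exact (gen_comm' hab).zpow_zpow _ _

lemma lev_bump {h : V → ℕ → ℤ} {a : V} {t i : ℕ} (c : ℤ) (hi : i ≠ t) :
    lev Γ (bump h a t c) i = lev Γ h i := by
  simp only [lev, bump_of_ne_right hi]

lemma nf_bump_le {h : V → ℕ → ℤ} {a : V} {t : ℕ} (c : ℤ) {N : ℕ} (hN : N ≤ t) :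
    nf Γ (bump h a t c) N = nf Γ h N := by
  induction N with
  | zero => rfl
  | succ N ih => rw [nf, nf, ih (by omega), lev_bump c (by omega)]

lemma nf_bump {h : V → ℕ → ℤ} (hb : Bdd h) (a : V) (c : ℤ) {N : ℕ} (hN : top Γ a h < N) :
    nf Γ (bump h a (top Γ a h) c) N = nf Γ h N * gen Γ a ^ c := by
  induction N, hN using Nat.le_induction with
  | base =>
    rw [nf, nf, nf_bump_le c le_rfl, mul_assoc]
    congr 1
    exact prod_change (p := a) (by rw [bump_self, zpow_add]) (fun q hq => by rw [bump_of_ne_left hq])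
      (comm_top hb a c le_rfl) _ (Finset.nodup_toList _) (by simp)
  | succ N hN ih =>
    rw [nf, nf, ih, lev_bump c (by omega), mul_assoc, mul_assoc]
    congr 1
    exact Commute.list_prod_right _ _ (by simpa using fun b => comm_top hb a c (by omega) b)

end Heap

open Heap in
theorem heapStmt : HeapStmt := by
  intro V _ Γ
  cases nonempty_fintype V
  let heap : RA Γ → V → ℕ → ℤ := fun g => (ac Γ ℤ (fun _ => True) g).1
  have h1 : heap 1 = 0 := ac_one Γ ℤ _
  have hm : ∀ g a (c : ℤ), heap (g * gen Γ a ^ c) = bump (heap g) a (top Γ a (heap g)) c :=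
    fun g a c => by simp only [heap]; rw [ac_mul, st_pos _ trivial]; rfl
  have ind : ∀ {P : RA Γ → Prop}, P 1 → (∀ g a (c : ℤ), P g → P (g * gen Γ a ^ c)) → ∀ g, P g :=
    fun h1 h2 => RA.induction_right h1 (fun g a h => by simpa using h2 g a 1 h)
      (fun g a h => by simpa using h2 g a (-1) h)
  have hv : ∀ g, Valid Γ (heap g) := ind (h1 ▸ valid_zero) fun g a c h => hm g a c ▸ h.bump_top
  have hn : ∀ g, ∀ᶠ N in atTop, nf Γ (heap g) N = g :=
    ind (Eventually.of_forall fun N => by rw [h1, nf_zero]) fun g a c h => by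
      filter_upwards [h, eventually_gt_atTop (top Γ a (heap g))] with N h2 h3
      rw [hm, nf_bump (hv g).bdd a c h3, h2]
  refine ⟨heap, h1, hm, hv, fun g g' h => ?_, fun h hh => ?_⟩
  · obtain ⟨N, h2, h3⟩ := ((hn g).and (hn g')).exists
    rw [← h2, h, h3]
  · induction hk : mass h using Nat.strong_induction_on generalizing h with
    | _ k ih =>
      by_cases h0 : h = 0
      · exact ⟨1, h1.trans h0.symm⟩
      obtain ⟨a, ha⟩ := hh.exists_top_ne_zero h0
      have h2 := mass_bump hh.bdd a (top Γ a h) (-h a (top Γ a h))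
      have h3 := Int.natAbs_pos.2 ha
      rw [add_neg_cancel, Int.natAbs_zero] at h2
      obtain ⟨g, hg⟩ := ih _ (by omega) _ (hh.bump_top (a := a) (c := -h a (top Γ a h))) rfl
      exact ⟨g * gen Γ a ^ h a (top Γ a h), by
        rw [hm, hg, top_bump_self, bump_bump, neg_add_cancel, bump_zero]⟩

end Crest.Agent.R197
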