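import Crest.Agent.R197.Defs

/-!
# Row 197: lifting maps from contractible spaces along the Hopf map
-/

set_option autoImplicit false

open unitInterval Topology Filter
open scoped Quaternion Classical

namespace Crest.Agent.R197

namespace HopfA

/-- the rotation from `a` to `b` -/
noncomputable def R (a b : ℍ[ℝ]) : ℍ[ℝ] := (2 : ℝ)⁻¹ • (1 - b * a)

lemma R_mul {a b : ℍ[ℝ]} (ha : a * a = -1) (hb : b * b = -1) : R a b * a = b * R a b := by
  rw [R, smul_mul_assoc, mul_smul_comm, sub_mul, mul_sub, mul_assoc, ha, ← mul_assoc, hb]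
  congr 1
  noncomm_ring

lemma R_self {a : ℍ[ℝ]} (ha : a * a = -1) : R a a = 1 := by
  rw [R, ha, sub_neg_eq_add, ← two_smul ℝ, smul_smul]
  simp

lemma R_ne_zero {a b : ℍ[ℝ]} (ha : a * a = -1) (h : a + b ≠ 0) : R a b ≠ 0 := by
  intro h0
  rw [R, smul_eq_zero, sub_eq_zero] at h0
  have h1 : 1 = b * a := h0.resolve_left (by norm_num)
  have h2 : a = b * (a * a) := by rw [← mul_assoc, ← h1, one_mul]
  rw [ha, mul_neg_one] at h2
  exact h (by rw [h2, neg_add_cancel])

/-- the partial products -/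
noncomputable def U {E : Type} (b : ℕ → E → ℍ[ℝ]) : ℕ → E → ℍ[ℝ]
  | 0, _ => 1
  | n + 1, x => R (b n x) (b (n + 1) x) * U b n x

lemma exists_v {a : ℍ[ℝ]} (ha : a * a = -1) : ∃ v : ℍ[ℝ], v ≠ 0 ∧ v * qI = a * v := by
  have hI : qI * qI = -1 := by ext <;> simp [qI]
  by_cases h : qI + a = 0
  · refine ⟨⟨0, 0, 1, 0⟩, fun h0 => one_ne_zero (congrArg QuaternionAlgebra.imJ h0), ?_⟩
    rw [← neg_eq_iff_add_eq_zero.2 h]
    ext <;> simp [qI]
  · exact ⟨R qI a, R_ne_zero hI h, R_mul hI ha⟩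

end HopfA

open HopfA in
theorem hopfStmt : HopfStmt := by
  intro E _ _ q hq
  obtain ⟨e₀, ⟨H⟩⟩ := id_nullhomotopic E
  set a : E → I → ℍ[ℝ] := fun x s => q (H.symm (s, x)) with ha
  have hac : Continuous fun p : E × I => a p.1 p.2 := by simp only [ha]; fun_prop
  have ha0 : ∀ x, a x 0 = q e₀ := fun x => by simp [ha]
  have ha1 : ∀ x, a x 1 = q x := fun x => by simp [ha]
  have haa : ∀ x s, a x s * a x s = -1 := fun x s => hq _
  set f : E → I × I → ℝ := fun x p => |(p.1 : ℝ) - p.2| + ‖a x p.1 + a x p.2‖ with hf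
  have hfc : Continuous fun p : E × (I × I) => f p.1 p.2 := by simp only [hf, ha]; fun_prop
  set δ : E → ℝ := fun x => sInf (f x '' Set.univ) with hδ
  have hδc : Continuous δ := isCompact_univ.continuous_sInf hfc
  have hmin : ∀ x, ∃ p, δ x = f x p ∧ ∀ p', f x p ≤ f x p' := fun x => by
    obtain ⟨p, -, h1, h2⟩ := isCompact_univ.exists_sInf_image_eq_and_le Set.univ_nonempty
      (f := f x) (hfc.comp (Continuous.prodMk_right x)).continuousOn
    exact ⟨p, h1, fun p' => h2 p' trivial⟩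
  have hδ0 : ∀ x, 0 < δ x := fun x => by
    obtain ⟨p, h1, -⟩ := hmin x
    rw [h1]
    by_cases hp : p.1 = p.2
    · refine add_pos_of_nonneg_of_pos (abs_nonneg _) (norm_pos_iff.2 fun h0 => ?_)
      rw [hp, ← two_smul ℝ, smul_eq_zero] at h0
      have := haa x p.2
      rw [h0.resolve_left two_ne_zero, mul_zero, zero_eq_neg] at this
      exact one_ne_zero this
    · exact add_pos_of_pos_of_nonneg (abs_pos.2 (sub_ne_zero.2 fun h => hp (Subtype.ext h)))
        (norm_nonneg _)
  have hne : ∀ x (s t : I), |(s : ℝ) - t| < δ x → a x s + a x t ≠ 0 := fun x s t h h0 => by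
    obtain ⟨p, h1, h2⟩ := hmin x
    have := h2 (s, t)
    rw [← h1] at this
    simp only [hf, h0, norm_zero, add_zero] at this
    exact absurd h this.not_gt
  set b : ℕ → E → ℍ[ℝ] := fun n x => a x (Set.projIcc 0 1 zero_le_one (n * (δ x / 2))) with hb
  have hbc : ∀ n, Continuous (b n) := fun n =>
    hac.comp (continuous_id.prodMk
      ((continuous_projIcc (h := zero_le_one)).comp (by fun_prop)))
  have hb0 : ∀ x, b 0 x = q e₀ := fun x => by
    simp only [hb, Nat.cast_zero, zero_mul, Set.projIcc_left]; exact ha0 x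
  have hb1 : ∀ (n : ℕ) x, 1 ≤ n * (δ x / 2) → b n x = q x := fun n x h => by
    simp only [hb, Set.projIcc_of_right_le _ h]; exact ha1 x
  have hUc : ∀ n, Continuous (U b n) := fun n => by
    induction n with
    | zero => exact continuous_const
    | succ n ih =>
      have := hbc n
      have := hbc (n + 1)
      change Continuous fun x => R (b n x) (b (n + 1) x) * U b n x
      unfold R
      fun_prop
  have hU : ∀ n x, U b n x ≠ 0 ∧ U b n x * q e₀ = b n x * U b n x := fun n x => by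
    induction n with
    | zero => exact ⟨one_ne_zero, by rw [hb0, U, one_mul, mul_one]⟩
    | succ n ih =>
      refine ⟨mul_ne_zero (R_ne_zero (haa _ _) (hne x _ _ ?_)) ih.1, ?_⟩
      · refine (Set.abs_projIcc_sub_projIcc zero_le_one).trans_lt ?_
        have := hδ0 x
        rw [abs_lt]
        push_cast
        constructor <;> linarith
      · rw [U, mul_assoc, ih.2, ← mul_assoc, R_mul (haa _ _) (haa _ _), mul_assoc]
  have hst : ∀ (n : ℕ) x, 1 ≤ n * (δ x / 2) → ∀ m, n ≤ m → U b m x = U b n x := by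
    intro n x h m hm
    induction m, hm using Nat.le_induction with
    | base => rfl
    | succ m hm ih =>
      have h1 : 1 ≤ m * (δ x / 2) := h.trans (mul_le_mul_of_nonneg_right (by exact_mod_cast hm)
        (half_pos (hδ0 x)).le)
      have h2 : 1 ≤ ((m + 1 : ℕ) : ℝ) * (δ x / 2) := by
        have := hδ0 x
        push_cast
        linarith
      rw [U, hb1 m x h1, hb1 _ x h2, R_self (hq x), one_mul, ih]
  have hN : ∀ x, 1 ≤ (⌈2 / δ x⌉₊ : ℝ) * (δ x / 2) := fun x => by
    have := Nat.le_ceil (2 / δ x)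
    rw [div_le_iff₀ (hδ0 x)] at this
    linarith
  obtain ⟨v, hv0, hv⟩ := exists_v (hq e₀)
  refine ⟨⟨fun x => U b ⌈2 / δ x⌉₊ x * v, Continuous.mul ?_ continuous_const⟩, fun x =>
    ⟨mul_ne_zero (hU _ x).1 hv0, ?_⟩⟩
  · refine continuous_iff_continuousAt.2 fun x₀ => ?_
    obtain ⟨N, hN'⟩ := exists_nat_gt (2 / δ x₀)
    rw [div_lt_iff₀ (hδ0 x₀)] at hN'
    refine (hUc N).continuousAt.congr ?_
    have : ∀ᶠ x in 𝓝 x₀, 2 < N * δ x :=
      continuousAt_const.eventually_lt (by fun_prop) hN'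
    filter_upwards [this] with x hx
    rw [← hst N x (by linarith) _ (le_max_left N ⌈2 / δ x⌉₊), hst _ x (hN x) _ (le_max_right _ _)]
  · change U b ⌈2 / δ x⌉₊ x * v * qI = q x * (U b ⌈2 / δ x⌉₊ x * v)
    rw [mul_assoc, hv, ← mul_assoc, (hU _ x).2, hb1 _ x (hN x), mul_assoc]

end Crest.Agent.R197
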