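import Crest.Agent.R197.PF0

/-! Row 197: the linking cocycle of a 2-cell of the universal cover. -/

set_option autoImplicit false

open unitInterval Topology Filter
open scoped Quaternion Classical

namespace Crest.Agent.R197

namespace Inj

/-- the winding number as a path functor -/
theorem exists_wind (hL : LogStmt) : ∃ w : PF {z : ℂ // z ≠ 0} (Multiplicative ℤ),
    ∀ γ : C(I, {z : ℂ // z ≠ 0}), (∃ ℓ : C(I, ℂ), ∀ s, Complex.exp (ℓ s) = γ s) ∧
      ∀ ℓ : C(I, ℂ), (∀ s, Complex.exp (ℓ s) = γ s) → γ 0 = γ 1 →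
        ℓ 1 - ℓ 0 = (w.m γ).toAdd * (2 * Real.pi * Complex.I) := by
  obtain ⟨Δ, hΔ⟩ := hL
  have h1 : ∀ γ : C(I, {z : ℂ // z ≠ 0}), ∃ n : ℤ, (Δ.m γ).toAdd - Complex.log (γ 1) +
      Complex.log (γ 0) = n * (2 * Real.pi * Complex.I) := fun γ => by
    obtain ⟨⟨ℓ, h1⟩, h2⟩ := hΔ γ
    rw [← Complex.exp_eq_one_iff, h2 ℓ h1, toAdd_ofAdd, Complex.exp_add, Complex.exp_sub,
      Complex.exp_sub, h1, h1, Complex.exp_log (γ 1).2, Complex.exp_log (γ 0).2]
    have := (γ 0).2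
    have := (γ 1).2
    field_simp
  choose n hn using h1
  have h2 : ∀ a b : ℤ, (a * (2 * Real.pi * Complex.I) : ℂ) = b * (2 * Real.pi * Complex.I) →
      a = b := fun a b h => Int.cast_injective (mul_right_cancel₀ Complex.two_pi_I_ne_zero h)
  refine ⟨⟨fun γ => Multiplicative.ofAdd (n γ), fun z => congrArg Multiplicative.ofAdd
    (h2 _ 0 ?_), fun H => congrArg Multiplicative.ofAdd (h2 _ (n (sL H) + n (sT H)) ?_)⟩,
    fun γ => ⟨(hΔ γ).1, fun ℓ h e => ?_⟩⟩
  · rw [← hn, Δ.const]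
    simp
  · have := congrArg Multiplicative.toAdd (Δ.sq H)
    simp only [toAdd_ofAdd, toAdd_mul, Int.cast_add, add_mul, ← hn] at this ⊢
    simp only [sB, sR, sL, sT, ContinuousMap.comp_apply, ContinuousMap.coe_mk] at this ⊢
    linear_combination this
  · change _ = (n γ : ℂ) * _
    rw [← hn, (hΔ γ).2 ℓ h, e, toAdd_ofAdd, sub_add_cancel]

variable {X E G : Type} [TopologicalSpace X] [TopologicalSpace E] [Group G] {p : C(E, X)}
  (hp : IsCoveringMap p)
include hp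

/-- descent of a path functor to the base -/
theorem exists_wr {lab : PF X G} {lam : E → G} (h : IsLab p lab lam) (X1 : Set X) {U : Type}
    [Group U] (ν : PF {e // p e ∈ X1} U) : ∃ μ : PF X1 (Wr G U),
      (∀ γ, (μ.m γ).right = lab.m ((incl X1).comp γ)) ∧
      ∀ (γ : C(I, X1)) (δ : C(I, {e // p e ∈ X1})), (∀ s, p (δ s) = γ s) →
        (μ.m γ).left (lam (δ 0)) = ν.m δ := by
  have h1 : ∀ (γ : C(I, X1)) (g : G), ∃ δ : C(I, E), p ∘ δ = (incl X1).comp γ ∧ lam (δ 0) = g :=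
    fun γ g => by
      obtain ⟨e, he⟩ := h.bij.2 (γ 0, g)
      obtain ⟨δ, h1, h2⟩ := hp.exists_path_lifts ((incl X1).comp γ) e (congrArg Prod.fst he).symm
      exact ⟨δ, h1, h2 ▸ congrArg Prod.snd he⟩
  have h2 : ∀ {A : Type} [TopologicalSpace A] (γ : C(A, X1)) (δ : C(A, E)),
      p ∘ δ = (incl X1).comp γ → ∃ δ' : C(A, {e // p e ∈ X1}), ∀ s, δ' s = δ s :=
    fun γ δ h => ⟨⟨fun s => ⟨δ s, Set.mem_of_eq_of_mem (congrFun h s) (γ s).2⟩, by fun_prop⟩,
      fun _ => rfl⟩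
  have h3 : ∀ (γ : C(I, X1)) (g : G), ∃ δ : C(I, {e // p e ∈ X1}),
      (∀ s, p (δ s) = γ s) ∧ lam (δ 0) = g := fun γ g => by
    obtain ⟨δ, a1, a2⟩ := h1 γ g
    obtain ⟨δ', a3⟩ := h2 γ δ a1
    exact ⟨δ', fun s => a3 s ▸ congrFun a1 s, a3 0 ▸ a2⟩
  choose dl h4 h5 using h3
  have key : ∀ (γ : C(I, X1)) (δ : C(I, {e // p e ∈ X1})), (∀ s, p (δ s) = γ s) →
      dl γ (lam (δ 0)) = δ := fun γ δ hδ => ContinuousMap.ext fun s => Subtype.ext (congrFun
    (hp.eq_of_comp_eq (g₁ := fun s => (dl γ (lam (δ 0)) s).1) (g₂ := fun s => (δ s).1)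
      (by fun_prop) (by fun_prop) (funext fun s => (h4 _ _ s).trans (hδ s).symm) 0
      (h.bij.1 (Prod.ext ((h4 _ _ 0).trans (hδ 0).symm) (h5 _ _)))) s)
  refine ⟨⟨fun γ => ⟨fun g => ν.m (dl γ g), lab.m ((incl X1).comp γ)⟩,
    fun z => Wr.ext (funext fun g => ?_) (lab.const z.1),
    fun H => Wr.ext (funext fun g => ?_) (lab.sq ((incl X1).comp H))⟩, fun _ => rfl,
    fun γ δ hδ => congrArg ν.m (key γ δ hδ)⟩
  · exact ν.m_of_const _ fun s => Subtype.ext (hp.const_of_comp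
      (g := fun s => (dl (.const I z) g s).1) (by fun_prop)
      (fun a b => (h4 _ _ a).trans (h4 (.const I z) g b).symm) s 0)
  · obtain ⟨δ, a1, a2⟩ := h1 (sL H) g
    have a3 : ∀ a, ((incl X1).comp H) (0, a) = p (δ a) := fun a => (congrFun a1 a).symm
    obtain ⟨K, hK⟩ := h2 H _ (hp.liftHomotopy_lifts _ δ a3)
    have a4 : ∀ s, p (K s) = H s := fun s => hK s ▸ congrFun (hp.liftHomotopy_lifts _ δ a3) s
    have a5 : lam (K (0, 0)) = g := by rw [hK, hp.liftHomotopy_zero, a2]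
    have a6 : ∀ (γ : C(I, X1)) (δ : C(I, {e // p e ∈ X1})), (∀ s, p (δ s) = γ s) →
        lam (δ 1) = lam (δ 0) * lab.m ((incl X1).comp γ) := fun γ δ hδ =>
      (h.path ((incl _).comp δ)).trans (congrArg (fun x => _ * lab.m x) (ContinuousMap.ext hδ))
    have b1 := key (sB H) (sB K) fun _ => a4 _
    have b2 := key (sR H) (sR K) fun _ => a4 _
    have b3 := key (sL H) (sL K) fun _ => a4 _
    have b4 := key (sT H) (sT K) fun _ => a4 _
    subst a5
    rw [show lam (sR K 0) = _ from a6 (sB H) (sB K) fun _ => a4 _] at b2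
    rw [show lam (sT K 0) = _ from a6 (sL H) (sL K) fun _ => a4 _] at b4
    exact (congrArg₂ (fun x y => ν.m x * ν.m y) b1 b2).trans
      ((ν.sq K).trans (congrArg₂ (fun x y => ν.m x * ν.m y) b3 b4).symm)

/-- a function supported on one sheet over a cell -/
theorem exists_sheet {Y : Set X} {n : ℕ} (A : Att X Y n) (j : A.J) (F : C(Dk n, E))
    (hF : ∀ y, p (F y) = A.Φ j y) {T : Type} [TopologicalSpace T] (Q : C(Dk n, T)) (t₀ : T)
    (hQ : ∀ y, 1 / 2 < ‖y.1‖ → Q y = t₀) :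
    ∃ q : C(E, T), (∀ y, q (F y) = Q y) ∧ ∀ e, e ∉ Set.range F → q e = t₀ := by
  let V : Set E := p ⁻¹' (A.Φ j '' {y | ‖y.1‖ < 1})
  have hV : IsOpen V := (A.isOpen_image j Att.isOpen_ball fun _ h => h).preimage p.continuous
  obtain ⟨β, h1, h2⟩ := A.exists_lift j (p.comp (incl V)) fun w => w.2
  have h3 : ∀ w : V, A.Φ j (β w) = p w := fun w => DFunLike.congr_fun h2 w
  have h4 : p ∘ (fun w : V => F (β w)) = p ∘ Subtype.val := funext fun w => (hF _).trans (h3 w)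
  have h5 : IsClopen {w : V | F (β w) = w} :=
    ⟨hp.isSeparatedMap.isClosed_eqLocus (by fun_prop) continuous_subtype_val h4,
      hp.isLocalHomeomorph.isLocallyInjective.isOpen_eqLocus (by fun_prop)
        continuous_subtype_val h4⟩
  let q : E → T := fun e => if h : e ∈ V then if F (β ⟨e, h⟩) = e then Q (β ⟨e, h⟩) else t₀ else t₀
  refine ⟨⟨q, continuous_iff_continuousAt.2 fun e => ?_⟩, fun y => ?_, fun e he => ?_⟩
  · by_cases h : e ∈ V
    · refine (hV.isOpenEmbedding_subtypeVal.continuousAt_iff (x := ⟨e, h⟩)).1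
        (Continuous.continuousAt ?_)
      have : q ∘ (Subtype.val : V → E) = fun w => if F (β w) = w then Q (β w) else t₀ :=
        funext fun w => dif_pos w.2
      rw [this]
      exact Continuous.if (by simp [h5.frontier_eq]) (by fun_prop) continuous_const
    · have hc := (A.isClosed_image j (W := {y | ‖y.1‖ ≤ 1 / 2})
        (isClosed_le (by fun_prop) continuous_const)
        fun y hy => hy.trans_lt (by norm_num)).preimage p.continuous
      refine (continuousAt_const (y := t₀)).congr (mem_of_superset (hc.isOpen_compl.mem_nhds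
        fun ⟨y, hy, e⟩ => h ⟨y, lt_of_le_of_lt (b := (1 / 2 : ℝ)) hy one_half_lt_one, e⟩) fun e' he' => ?_)
      simp only [q, Set.mem_ofPred_eq]
      split_ifs with a1 a2
      exacts [(hQ _ (not_le.1 fun H => he' ⟨_, H, h3 _⟩)).symm, rfl, rfl]
  · by_cases h : F y ∈ V
    · have e := (A.inj _ _ _ _ (h1 ⟨_, h⟩) ((h3 _).trans (hF y))).2
      simp only [q, ContinuousMap.coe_mk, dif_pos h, e, if_true]
    · refine (dif_neg h).trans (hQ y (not_le.1 fun H => h ⟨y, ?_, (hF y).symm⟩)).symm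
      exact H.trans_lt (by norm_num)
  · simp only [q, ContinuousMap.coe_mk]
    split_ifs with a1 a2
    exacts [absurd ⟨_, a2⟩ he, rfl, rfl]

omit hp

/-- the complex part of a quaternion -/
def cx (v : ℍ[ℝ]) : ℂ := ⟨v.re, v.imI⟩

@[fun_prop] theorem continuous_cx : Continuous cx := by
  have : cx = fun v => (v.re : ℂ) + v.imI * Complex.I := funext fun v => by
    apply Complex.ext <;> simp [cx]
  rw [this]
  have := Quaternion.continuous_re
  have := Quaternion.continuous_imI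
  fun_prop

/-- the quaternion `j` -/
def qJ : ℍ[ℝ] := ⟨0, 0, 1, 0⟩

@[simp] theorem qI_re : qI.re = 0 := rfl
@[simp] theorem qI_imI : qI.imI = 1 := rfl
@[simp] theorem qI_imJ : qI.imJ = 0 := rfl
@[simp] theorem qI_imK : qI.imK = 0 := rfl
@[simp] theorem qJ_re : qJ.re = 0 := rfl
@[simp] theorem qJ_imI : qJ.imI = 0 := rfl
@[simp] theorem qJ_imJ : qJ.imJ = 1 := rfl
@[simp] theorem qJ_imK : qJ.imK = 0 := rfl

theorem im_of_comm {v : ℍ[ℝ]} (h : v * qI = qI * v) : v.imJ = 0 ∧ v.imK = 0 := by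
  have h1 := congrArg QuaternionAlgebra.imJ h
  have h2 := congrArg QuaternionAlgebra.imK h
  simp at h1 h2
  constructor <;> linarith

theorem cx_ne {v : ℍ[ℝ]} (h : v * qI = qI * v) (h0 : v ≠ 0) : cx v ≠ 0 := fun e =>
  h0 (Quaternion.ext _ _ (congrArg Complex.re e) (congrArg Complex.im e) (im_of_comm h).1
    (im_of_comm h).2)

theorem cx_mul {a : ℍ[ℝ]} (h : a * qI = qI * a) (b : ℍ[ℝ]) : cx (a * b) = cx a * cx b := by
  apply Complex.ext <;> simp [cx, (im_of_comm h).1, (im_of_comm h).2]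

/-- the capping function -/
noncomputable def kap (y : Dk 2) : ℍ[ℝ] :=
  y.1 0 • 1 + y.1 1 • qI + max 0 (1 - 2 * ‖y.1‖) • qJ

@[fun_prop] theorem continuous_kap : Continuous kap := by
  have h : ∀ i, Continuous fun y : Dk 2 => y.1 i := fun i =>
    (continuous_apply i).comp continuous_subtype_val
  exact (((h 0).smul continuous_const).add ((h 1).smul continuous_const)).add
    (Continuous.smul (f := fun y : Dk 2 => max 0 (1 - 2 * ‖y.1‖)) (by fun_prop) continuous_const)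

theorem kap_ne (y : Dk 2) : kap y ≠ 0 := fun h => by
  have h0 := congrArg QuaternionAlgebra.re h
  have h1 := congrArg QuaternionAlgebra.imI h
  have h2 := congrArg QuaternionAlgebra.imJ h
  simp [kap] at h0 h1 h2
  have : y.1 = 0 := by
    ext i
    fin_cases i
    exacts [h0, h1]
  norm_num [this] at h2

theorem kap_comm {y : Dk 2} (h : 1 / 2 < ‖y.1‖) : kap y * qI = qI * kap y := by
  rw [kap, max_eq_left (by linarith)]
  simp [add_mul, mul_add]

theorem cx_kap (y : Dk 2) : cx (kap y) = y.1 0 + y.1 1 * Complex.I := by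
  apply Complex.ext <;> simp [cx, kap]

theorem qI_mul : qI * qI = -1 := by
  ext <;> simp

end Inj

open Inj in
theorem injStmt_of (hH : HopfStmt) (hL : LogStmt) : InjStmt := by
  intro X E G _ _ _ _ p hp lab lam h X1 A lp hlp g₀ f₀
  have h1 : ∀ f g, ∃ F : C(Dk 2, E), (∀ y, p (F y) = A.Φ f y) ∧ lam (F (lp 0).1) = g := fun f g => by
    obtain ⟨e, he⟩ := h.bij.2 (A.Φ f (lp 0).1, g)
    obtain ⟨F, ⟨h1, h2⟩, -⟩ := hp.existsUnique_continuousMap_lifts (A.Φ f) (lp 0).1 e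
      (congrArg Prod.fst he)
    exact ⟨F, congrFun h2, h1 ▸ congrArg Prod.snd he⟩
  choose F h1 h2 using h1
  have hk : ∀ y : Dk 2, 1 / 2 < ‖y.1‖ → kap y * qI * (kap y)⁻¹ = qI := fun y hy => by
    rw [kap_comm hy, mul_inv_cancel_right₀ (kap_ne y)]
  obtain ⟨q, h3, h4⟩ := exists_sheet hp A f₀ (F f₀ g₀) (h1 _ _) ⟨fun y => kap y * qI * (kap y)⁻¹,
    (continuous_kap.mul continuous_const).mul (continuous_kap.inv₀ kap_ne)⟩ qI hk
  replace h3 : ∀ y, q (F f₀ g₀ y) = kap y * qI * (kap y)⁻¹ := h3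
  have h5 : ∀ e, (∀ y : Dk 2, ‖y.1‖ < 1 → F f₀ g₀ y ≠ e) → q e = qI := fun e he => by
    by_cases a : e ∈ Set.range (F f₀ g₀)
    · obtain ⟨y, rfl⟩ := a
      exact (h3 y).trans (hk y (by linarith [not_lt.1 fun H => he y H rfl]))
    · exact h4 e a
  obtain ⟨u, hu⟩ := hH E q fun e => by
    by_cases a : e ∈ Set.range (F f₀ g₀)
    · obtain ⟨y, rfl⟩ := a
      simp only [h3, mul_assoc, inv_mul_cancel_left₀ (kap_ne y)]
      rw [← mul_assoc qI, qI_mul, neg_one_mul, mul_neg, mul_inv_cancel₀ (kap_ne y)]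
    · rw [h4 e a, qI_mul]
  have h6 : ∀ e, q e = qI → cx (u e) ≠ 0 := fun e he => cx_ne (he ▸ (hu e).2) (hu e).1
  obtain ⟨w, hw⟩ := exists_wind hL
  let c : C({e // p e ∈ X1}, {z : ℂ // z ≠ 0}) := ⟨fun e => ⟨cx (u e), h6 _ (h5 _ fun y hy a =>
    A.int f₀ y hy (by rw [← h1 f₀ g₀, a]; exact e.2))⟩, by fun_prop⟩
  obtain ⟨μ, h7, h8⟩ := exists_wr hp h X1 (w.comap c)
  refine ⟨μ, h7, fun f g => ?_⟩
  let δ : C(I, {e // p e ∈ X1}) :=
    ⟨fun s => ⟨F f g (lp s).1, h1 f g _ ▸ A.bd f _ (lp s).2⟩, by fun_prop⟩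
  let β : C(I, Dk 2) := ⟨fun s => (lp s).1, by fun_prop⟩
  have hβ : β 0 = β 1 := congrArg Subtype.val hlp.closed
  rw [← h2 f g, show lam (F f g (lp 0).1) = lam (δ 0) from rfl, h8 _ δ fun s => h1 f g _,
    show lam (δ 0) = g from h2 f g, PF.comap_m]
  split_ifs with a
  · obtain ⟨rfl, rfl⟩ := a
    have b1 : ∀ y, (kap y)⁻¹ * u (F f g y) * qI = qI * ((kap y)⁻¹ * u (F f g y)) := fun y => by
      rw [mul_assoc, (hu _).2, h3, mul_assoc, mul_assoc, inv_mul_cancel_left₀ (kap_ne y)]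
    let θ : C(Dk 2, {z : ℂ // z ≠ 0}) := ⟨fun y => ⟨cx ((kap y)⁻¹ * u (F f g y)),
      cx_ne (b1 y) (mul_ne_zero (inv_ne_zero (kap_ne y)) (hu _).1)⟩,
      (continuous_cx.comp ((continuous_kap.inv₀ kap_ne).mul (by fun_prop))).subtype_mk _⟩
    obtain ⟨⟨ℓ, b2⟩, b3⟩ := hw (θ.comp β)
    have b4 := b3 ℓ b2 (congrArg θ hβ)
    rw [w.m_comp_loop θ β hβ] at b4
    obtain ⟨ℓ', b5, b6⟩ := hlp.wind
    have b7 := (hw (c.comp δ)).2 (ℓ' + ℓ) (fun s => by
      rw [ContinuousMap.add_apply, Complex.exp_add, b5, b2, ← cx_kap]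
      exact (cx_mul (kap_comm (by rw [(lp s).2]; norm_num)) _).symm.trans
        (congrArg cx (mul_inv_cancel_left₀ (kap_ne _) _)))
      (congrArg c (Subtype.ext (congrArg (F f g) hβ)))
    refine congrArg Multiplicative.ofAdd (?_ : (w.m (c.comp δ)).toAdd = 1)
    simp only [ContinuousMap.add_apply, toAdd_one, Int.cast_zero, zero_mul] at b4 b7
    exact_mod_cast mul_right_cancel₀ Complex.two_pi_I_ne_zero
      (show ((w.m (c.comp δ)).toAdd : ℂ) * _ = 1 * _ by linear_combination b4 + b6 - b7)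
  · let θ : C(Dk 2, {z : ℂ // z ≠ 0}) := ⟨fun y => ⟨cx (u (F f g y)), h6 _ (h5 _ fun y' hy e => by
      obtain ⟨rfl, rfl⟩ := A.inj _ _ _ _ hy ((h1 _ g₀ _).symm.trans ((congrArg p e).trans (h1 _ _ _)))
      refine a ⟨?_, rfl⟩
      rw [← h2 f₀ g, ← h2 f₀ g₀, congrFun (hp.eq_of_comp_eq (F f₀ g₀).continuous (F f₀ g).continuous
        (funext fun y => (h1 _ _ y).trans (h1 _ _ y).symm) y' e) (lp 0).1])⟩, by fun_prop⟩
    exact w.m_comp_loop θ β hβ

end Crest.Agent.R197
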