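import Crest.Agent.R197.Defs

/-!
# Row 197: the CW structure on the cyclic cover of the Salvetti complex
-/

set_option autoImplicit false
set_option linter.unusedSectionVars false

open unitInterval Topology Filter Set Metric
open scoped Quaternion Classical

namespace Crest.Agent.R197

namespace KCW

/-- a partial equivalence from a left inverse on the ball -/
def mkPE {n : ℕ} {X : Type} (f : (Fin n → ℝ) → X) (r : X → Fin n → ℝ)
    (h : ∀ y ∈ ball (0 : Fin n → ℝ) 1, r (f y) = y) : PartialEquiv (Fin n → ℝ) X where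
  toFun := f
  invFun := r
  source := ball 0 1
  target := f '' ball 0 1
  map_source' _ hy := mem_image_of_mem _ hy
  map_target' := by rintro _ ⟨y, hy, rfl⟩; rw [h y hy]; exact hy
  left_inv' := h
  right_inv' := by rintro _ ⟨y, hy, rfl⟩; rw [h y hy]

/-- the representative in `[0, 1)` -/
noncomputable def rep (θ : AddCircle (1 : ℝ)) : ℝ := AddCircle.equivIco 1 0 θ

lemma coe_rep (θ : AddCircle (1 : ℝ)) : (rep θ : AddCircle (1 : ℝ)) = θ := AddCircle.coe_equivIco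

lemma rep_coe {t : ℝ} (h0 : 0 ≤ t) (h1 : t < 1) : rep t = t :=
  AddCircle.equivIco_coe_of_mem ⟨h0, by rwa [zero_add]⟩

lemma rep_mem (θ : AddCircle (1 : ℝ)) : 0 ≤ rep θ ∧ rep θ ≤ 1 :=
  ⟨(AddCircle.equivIco 1 0 θ).2.1, (AddCircle.equivIco 1 0 θ).2.2.le.trans (zero_add _).le⟩

lemma coe_int (m : ℤ) : ((m : ℝ) : AddCircle (1 : ℝ)) = 0 :=
  (AddCircle.coe_eq_zero_iff _).2 ⟨m, by simp⟩

lemma coe_sum {V : Type} (s : Finset V) (t : V → ℝ) :
    ((∑ a ∈ s, t a : ℝ) : AddCircle (1 : ℝ)) = ∑ a ∈ s, (t a : AddCircle (1 : ℝ)) :=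
  map_sum (QuotientAddGroup.mk' _) t s

variable {V : Type} [Fintype V] (Γ : SimpleGraph V)

/-- the cells -/
def cell (n : ℕ) : Type := ℤ × {s : Finset V // s.card = n ∧ Γ.IsClique (s : Set V)}

variable {Γ} {n : ℕ}

/-- enumeration of the directions of a cell -/
noncomputable def en (c : cell Γ n) : c.2.1 ≃ Fin n := Finset.equivFinOfCardEq c.2.2.1

/-- cube coordinates -/
noncomputable def tt (c : cell Γ n) (y : Fin n → ℝ) (a : V) : ℝ :=
  if h : a ∈ c.2.1 then (y (en c ⟨a, h⟩) + 1) / 2 else 0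

lemma tt_not (c : cell Γ n) (y : Fin n → ℝ) {a : V} (h : a ∉ c.2.1) : tt c y a = 0 := dif_neg h

lemma tt_en (c : cell Γ n) (y : Fin n → ℝ) (i : Fin n) :
    tt c y ((en c).symm i).1 = (y i + 1) / 2 := by
  rw [tt, dif_pos ((en c).symm i).2, Subtype.coe_eta, Equiv.apply_symm_apply]

lemma tt_ball (c : cell Γ n) {y : Fin n → ℝ} (hy : y ∈ ball (0 : Fin n → ℝ) 1) {a : V}
    (h : a ∈ c.2.1) : 0 < tt c y a ∧ tt c y a < 1 := by
  have := abs_lt.1 ((norm_le_pi_norm y (en c ⟨a, h⟩)).trans_lt (mem_ball_zero_iff.1 hy))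
  rw [tt, dif_pos h]
  constructor <;> linarith

lemma tt_closed (c : cell Γ n) {y : Fin n → ℝ} (hy : y ∈ closedBall (0 : Fin n → ℝ) 1) (a : V) :
    0 ≤ tt c y a ∧ tt c y a ≤ 1 := by
  by_cases h : a ∈ c.2.1
  · have := abs_le.1 ((norm_le_pi_norm y (en c ⟨a, h⟩)).trans (mem_closedBall_zero_iff.1 hy))
    rw [tt, dif_pos h]
    constructor <;> linarith
  · rw [tt_not c y h]
    exact ⟨le_rfl, zero_le_one⟩

lemma rep_tt (c : cell Γ n) {y : Fin n → ℝ} (hy : y ∈ ball (0 : Fin n → ℝ) 1) (a : V) :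
    rep (tt c y a) = tt c y a := by
  by_cases h : a ∈ c.2.1
  · exact rep_coe (tt_ball c hy h).1.le (tt_ball c hy h).2
  · rw [tt_not c y h]
    exact rep_coe le_rfl one_pos

lemma continuous_tt (c : cell Γ n) (a : V) : Continuous fun y => tt c y a := by
  unfold tt
  split_ifs <;> fun_prop

/-- the characteristic maps -/
noncomputable def ch (c : cell Γ n) (y : Fin n → ℝ) : Kc Γ :=
  ⟨(fun a => (tt c y a : AddCircle (1 : ℝ)), c.1 + ∑ a, tt c y a),
    c.2.2.2.subset fun a ha => by_contra fun h => ha (by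
      change ((tt c y a : ℝ) : AddCircle (1 : ℝ)) = 0
      rw [tt_not c y h, AddCircle.coe_zero]),
    by
      change ((c.1 + ∑ a, tt c y a : ℝ) : AddCircle (1 : ℝ)) = _
      rw [AddCircle.coe_add, coe_int, zero_add, coe_sum]⟩

lemma continuous_ch (c : cell Γ n) : Continuous (ch c) :=
  ((continuous_pi fun a => (AddCircle.continuous_mk' 1).comp (continuous_tt c a)).prodMk
    (continuous_const.add (continuous_finsetSum _ fun a _ => continuous_tt c a))).subtype_mk _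

/-- their inverses -/
noncomputable def iv (c : cell Γ n) (x : Kc Γ) (i : Fin n) : ℝ :=
  2 * rep (x.1.1 ((en c).symm i).1) - 1

lemma iv_ch (c : cell Γ n) (y : Fin n → ℝ) (hy : y ∈ ball (0 : Fin n → ℝ) 1) :
    iv c (ch c y) = y := by
  funext i
  change 2 * rep (tt c y ((en c).symm i).1) - 1 = _
  rw [rep_tt c hy, tt_en]
  ring

lemma continuousOn_iv (c : cell Γ n) : ContinuousOn (iv c) (ch c '' ball 0 1) := by
  refine continuousOn_pi.2 fun i => ?_
  rintro _ ⟨y, hy, rfl⟩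
  refine ContinuousAt.continuousWithinAt ((continuousAt_const.mul ?_).sub continuousAt_const)
  refine (continuousAt_subtype_val.comp (AddCircle.continuousAt_equivIco 1 0 fun h => ?_)).comp
    (f := fun x : Kc Γ => x.1.1 ((en c).symm i).1) (by fun_prop)
  have h1 := rep_tt c hy ((en c).symm i).1
  have h2 : rep (tt c y ((en c).symm i).1) = rep (0 : ℝ) := congrArg rep h
  rw [h1, rep_coe le_rfl one_pos] at h2
  exact (tt_ball c hy ((en c).symm i).2).1.ne' h2

lemma mem_closed (c : cell Γ n) (x : Kc Γ) (t : V → ℝ) (h0 : ∀ a, a ∉ c.2.1 → t a = 0)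
    (h1 : ∀ a, 0 ≤ t a ∧ t a ≤ 1) (h2 : ∀ a, x.1.1 a = t a) (h3 : x.1.2 = c.1 + ∑ a, t a) :
    x ∈ ch c '' closedBall 0 1 := by
  have ht : tt c (fun i => 2 * t ((en c).symm i).1 - 1) = t := funext fun a => by
    by_cases h : a ∈ c.2.1
    · rw [tt, dif_pos h, Equiv.symm_apply_apply]
      ring
    · rw [tt_not c _ h, h0 a h]
  refine ⟨fun i => 2 * t ((en c).symm i).1 - 1, ?_, Subtype.ext (Prod.ext ?_ ?_)⟩
  · rw [mem_closedBall_zero_iff, pi_norm_le_iff_of_nonneg zero_le_one]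
    intro i
    have := h1 ((en c).symm i).1
    rw [Real.norm_eq_abs, abs_le]
    constructor <;> linarith
  · funext a
    change ((tt c _ a : ℝ) : AddCircle (1 : ℝ)) = _
    rw [ht, h2]
  · change c.1 + ∑ a, tt c _ a = _
    rw [ht, h3]

/-- the label of a cell -/
def lbl (c : Σ n, cell Γ n) : ℤ × Finset V := (c.2.1, c.2.2.1)

lemma lbl_inj : Function.Injective (lbl (Γ := Γ)) := by
  rintro ⟨n, m, s, rfl, hs⟩ ⟨n', m', s', rfl, hs'⟩ h
  obtain ⟨rfl, rfl⟩ : m = m' ∧ s = s' := Prod.mk.inj h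
  rfl

lemma pairwise : (univ : Set (Σ n, cell Γ n)).PairwiseDisjoint
    (fun c => ch c.2 '' ball 0 1) := by
  intro c _ c' _ hcc
  refine Set.disjoint_left.2 ?_
  rintro _ ⟨y, hy, rfl⟩ ⟨y', hy', h⟩
  have h1 : tt c'.2 y' = tt c.2 y := funext fun a => by
    rw [← rep_tt c.2 hy, ← rep_tt c'.2 hy']
    exact congrArg (fun x : Kc Γ => rep (x.1.1 a)) h
  have h2 : (c'.2.1 : ℝ) + ∑ a, tt c'.2 y' a = c.2.1 + ∑ a, tt c.2 y a :=
    congrArg (fun x : Kc Γ => x.1.2) h
  rw [h1, add_left_inj, Int.cast_inj] at h2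
  refine hcc (lbl_inj (Prod.ext h2.symm (Finset.ext fun a => ⟨fun ha => ?_, fun ha => ?_⟩)))
  · by_contra h3
    exact (tt_ball c.2 hy ha).1.ne' (by rw [← h1, tt_not c'.2 y' h3])
  · by_contra h3
    exact (tt_ball c'.2 hy' ha).1.ne' (by rw [h1, tt_not c.2 y h3])

lemma mapsTo (c : cell Γ n) : ∃ J : ∀ m, Finset (cell Γ m), MapsTo (ch c) (sphere 0 1)
    (⋃ (m < n) (j ∈ J m), ch j '' closedBall 0 1) := by
  refine ⟨fun m => ({c.1, c.1 + 1} : Finset ℤ) ×ˢ Finset.univ, fun y hy => ?_⟩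
  obtain ⟨i, hi⟩ : ∃ i, |y i| = 1 := by
    rw [mem_sphere_zero_iff_norm] at hy
    by_contra hne
    push Not at hne
    exact ((pi_norm_lt_iff zero_lt_one).2 fun i =>
      lt_of_le_of_ne (hy ▸ norm_le_pi_norm y i) (hne i)).ne hy
  have hc := tt_closed c (sphere_subset_closedBall hy)
  obtain ⟨a, ha, k, hk, hak⟩ : ∃ a ∈ c.2.1, ∃ k : ℤ, (k = 0 ∨ k = 1) ∧ tt c y a = k := by
    refine ⟨_, ((en c).symm i).2, ?_⟩
    rw [tt_en]
    rcases abs_eq_abs.1 (hi.trans abs_one.symm) with h | h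
    · exact ⟨1, Or.inr rfl, by rw [h]; norm_num⟩
    · exact ⟨0, Or.inl rfl, by rw [h]; norm_num⟩
  simp only [mem_iUnion]
  refine ⟨_, (Finset.card_erase_lt_of_mem ha).trans_eq c.2.2.1,
    (c.1 + k, ⟨c.2.1.erase a, rfl, c.2.2.2.subset (Finset.erase_subset _ _)⟩),
    Finset.mem_product.2 ⟨by rcases hk with rfl | rfl <;> simp, Finset.mem_univ _⟩,
    mem_closed _ _ (Function.update (tt c y) a 0) (fun b hb => ?_) (fun b => ?_) (fun b => ?_) ?_⟩
  · by_cases h : b = a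
    · rw [h, Function.update_self]
    · rw [Function.update_of_ne h, tt_not c y fun h' => hb (Finset.mem_erase.2 ⟨h, h'⟩)]
  · by_cases h : b = a
    · rw [h, Function.update_self]
      exact ⟨le_rfl, zero_le_one⟩
    · rw [Function.update_of_ne h]
      exact hc b
  · change ((tt c y b : ℝ) : AddCircle (1 : ℝ)) = _
    by_cases h : b = a
    · rw [h, Function.update_self, hak, coe_int, AddCircle.coe_zero]
    · rw [Function.update_of_ne h]
  · change c.1 + ∑ b, tt c y b = ((c.1 + k : ℤ) : ℝ) + _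
    rw [Finset.sum_update_of_mem (Finset.mem_univ a), ← Finset.add_sum_erase _ _ (Finset.mem_univ a),
      hak, Finset.sdiff_singleton_eq_erase]
    push_cast
    ring

lemma exists_cell (x : Kc Γ) : ∃ c : Σ n, cell Γ n, x ∈ ch c.2 '' closedBall 0 1 := by
  obtain ⟨m, hm⟩ := (AddCircle.coe_eq_zero_iff (1 : ℝ)).1
    (show ((x.1.2 - ∑ a, rep (x.1.1 a) : ℝ) : AddCircle (1 : ℝ)) = 0 by
      rw [AddCircle.coe_sub, coe_sum, x.2.2]
      simp only [coe_rep, sub_self])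
  refine ⟨⟨_, m, ⟨Finset.univ.filter fun a => x.1.1 a ≠ 0, rfl, x.2.1.subset (by simp)⟩⟩,
    mem_closed _ _ (fun a => rep (x.1.1 a)) (fun a ha => ?_) (fun a => rep_mem _)
      (fun a => (coe_rep _).symm) ?_⟩
  · have : x.1.1 a = ((0 : ℝ) : AddCircle (1 : ℝ)) := by simpa using ha
    rw [this, rep_coe le_rfl one_pos]
  · rw [zsmul_eq_mul, mul_one] at hm
    change _ = (m : ℝ) + _
    rw [hm, sub_add_cancel]

lemma locallyFinite : LocallyFinite fun c : Σ n, cell Γ n => ch c.2 '' closedBall 0 1 := by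
  intro x
  refine ⟨{x' | |x'.1.2 - x.1.2| < 1}, (isOpen_lt (by fun_prop) continuous_const).mem_nhds
    (by simp), (((Set.finite_Icc ⌊x.1.2 - 1 - Fintype.card V⌋ ⌈x.1.2 + 1⌉).prod
      finite_univ).preimage lbl_inj.injOn).subset ?_⟩
  rintro c ⟨_, ⟨y, hy, rfl⟩, h⟩
  have h1 := abs_lt.1 (show |(c.2.1 : ℝ) + ∑ a, tt c.2 y a - x.1.2| < 1 from h)
  have h2 : 0 ≤ ∑ a, tt c.2 y a := Finset.sum_nonneg fun a _ => (tt_closed c.2 hy a).1
  have h3 : ∑ a, tt c.2 y a ≤ Fintype.card V := by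
    simpa using Finset.sum_le_card_nsmul Finset.univ _ 1 fun a _ => (tt_closed c.2 hy a).2
  refine ⟨⟨Int.floor_le_iff.2 ?_, Int.le_ceil_iff.2 ?_⟩, mem_univ _⟩
  · change _ < (c.2.1 : ℝ) + 1
    linarith
  · change (c.2.1 : ℝ) - 1 < _
    linarith

variable (Γ) in
/-- the CW structure -/
@[reducible] noncomputable def cw : CWComplex (univ : Set (Kc Γ)) where
  cell := cell Γ
  map _ c := mkPE (ch c) (iv c) (iv_ch c)
  source_eq _ _ := rfl
  continuousOn _ c := (continuous_ch c).continuousOn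
  continuousOn_symm _ c := continuousOn_iv c
  pairwiseDisjoint' := pairwise
  mapsTo' _ c := mapsTo c
  closed' A _ h := by
    have : A = ⋃ c : Σ n, cell Γ n, A ∩ ch c.2 '' closedBall 0 1 := by
      rw [← inter_iUnion, eq_univ_of_forall fun x => mem_iUnion.2 (exists_cell x), inter_univ]
    rw [this]
    exact (locallyFinite.subset fun _ => inter_subset_right).isClosed_iUnion fun c => h c.1 c.2
  union' := eq_univ_of_forall fun x => by
    obtain ⟨c, hc⟩ := exists_cell x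
    exact mem_iUnion₂.2 ⟨c.1, c.2, hc⟩

end KCW

theorem kCWStmt : KCWStmt := by
  intro V _ Γ h
  refine ⟨KCW.cw Γ, fun n hn => ⟨fun c : KCW.cell Γ n => ?_⟩⟩
  obtain ⟨t, ht, h4⟩ := Finset.exists_subset_card_eq (s := c.2.1) (n := 4)
    (by rw [c.2.2.1]; exact hn)
  exact h t ⟨c.2.2.2.subset ht, h4⟩

end Crest.Agent.R197
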