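import Crest.Agent.R197.Defs

/-!
# Row 197: the universal cover of the Salvetti complex as the space of real heaps
-/

set_option autoImplicit false
set_option linter.unusedSectionVars false

open unitInterval Topology Filter
open scoped Quaternion Classical

namespace Crest.Agent.R197

namespace KCov

variable {V : Type} {Γ : SimpleGraph V}

lemma blk_symm {a b : V} (h : blk Γ a b) : blk Γ b a := ⟨h.1.symm, fun h' => h.2 h'.symm⟩

section top
variable {C : Type} [Zero C] {h : V → ℕ → C}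

lemma top_le {a : V} {n : ℕ} (hn : ∀ b j, blk Γ a b → n ≤ j → h b j = 0) : top Γ a h ≤ n :=
  Nat.sInf_le hn

lemma zero_of_top_le (hf : ∃ N, ∀ a i, N ≤ i → h a i = 0) {a b : V} {j : ℕ} (hb : blk Γ a b)
    (hj : top Γ a h ≤ j) : h b j = 0 := by
  obtain ⟨N, hN⟩ := hf
  have : top Γ a h ∈ {n | ∀ b j, blk Γ a b → n ≤ j → h b j = 0} :=
    Nat.sInf_mem ⟨N, fun b j _ hj => hN b j hj⟩
  exact this b j hb hj

lemma exists_of_top_eq (hf : ∃ N, ∀ a i, N ≤ i → h a i = 0) {a : V} {i : ℕ}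
    (hi : i + 1 = top Γ a h) : ∃ b, blk Γ a b ∧ h b i ≠ 0 := by
  by_contra hc
  push Not at hc
  have : top Γ a h ≤ i := top_le fun b j hb hj => by
    rcases hj.eq_or_lt with rfl | hj
    · exact hc b hb
    · exact zero_of_top_le hf hb (by omega)
  omega

lemma top_congr {h' : V → ℕ → C} {a : V} (e : ∀ b j, blk Γ a b → h b j = h' b j) :
    top Γ a h = top Γ a h' := by
  unfold top
  congr 1
  ext n
  exact ⟨fun H b j hb hj => e b j hb ▸ H b j hb hj, fun H b j hb hj => (e b j hb).symm ▸ H b j hb hj⟩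

end top

variable (Γ) in
/-- the support is a clique -/
def Clq {C : Type} [Zero C] (t : V → C) : Prop := ∀ a b, blk Γ a b → t a ≠ 0 → t b = 0

lemma clq_iff {C : Type} [Zero C] {t : V → C} : Clq Γ t ↔ Γ.IsClique {a | t a ≠ 0} := by
  constructor
  · intro h a ha b hb hab
    by_contra hc
    exact hb (h a b ⟨hab, hc⟩ ha)
  · intro h a b hab ha
    by_contra hb
    exact hab.2 (h ha hb hab.1)

lemma Clq.of_imp {C C' : Type} [Zero C] [Zero C'] {t : V → C} {t' : V → C'} (h : Clq Γ t)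
    (e : ∀ a, t a = 0 → t' a = 0) : Clq Γ t' :=
  fun a b hab ha => e b (h a b hab fun h0 => ha (e a h0))

variable (Γ) in
/-- non-integral entries are maximal -/
def IntC (x : V → ℕ → ℝ) : Prop :=
  ∀ a i, (∀ n : ℤ, x a i ≠ n) → ∀ b j, blk Γ a b → i < j → x b j = 0

variable (Γ) in
/-- the space of real heaps -/
abbrev EE : Type := {x : V → ℕ → ℝ // Valid Γ x ∧ IntC Γ x}

variable (Γ) in
/-- put `t` on top of `h` -/
noncomputable def Psi (h : V → ℕ → ℤ) (t : V → ℝ) : V → ℕ → ℝ :=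
  fun a i => h a i + if i = top Γ a h then t a else 0

variable (Γ) in
/-- the chart coordinates -/
noncomputable def tau (h : V → ℕ → ℤ) (x : V → ℕ → ℝ) : V → ℝ :=
  fun a => x a (top Γ a h) - h a (top Γ a h)

lemma continuous_Psi (h : V → ℕ → ℤ) : Continuous (Psi Γ h) := by
  refine continuous_pi fun a => continuous_pi fun i => ?_
  unfold Psi
  split_ifs <;> fun_prop

lemma continuous_tau (h : V → ℕ → ℤ) : Continuous (tau Γ h) := by
  unfold tau; fun_prop

lemma tau_Psi (h : V → ℕ → ℤ) (t : V → ℝ) : tau Γ h (Psi Γ h t) = t := by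
  funext a; simp [tau, Psi]

lemma Psi_cases (h : V → ℕ → ℤ) (t : V → ℝ) (a : V) (i : ℕ) :
    Psi Γ h t a i = h a i ∨ (i = top Γ a h ∧ t a ≠ 0) := by
  unfold Psi
  by_cases h1 : i = top Γ a h
  · by_cases h2 : t a = 0
    · left; simp [h2]
    · exact Or.inr ⟨h1, h2⟩
  · left; simp [h1]

lemma Psi_mem {h : V → ℕ → ℤ} (hh : Valid Γ h) {t : V → ℝ} (ht : Clq Γ t) :
    Valid Γ (Psi Γ h t) ∧ IntC Γ (Psi Γ h t) := by
  have z : ∀ {a b : V} {j : ℕ}, blk Γ a b → t a ≠ 0 → top Γ a h ≤ j → Psi Γ h t b j = 0 :=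
    fun {a b j} hab ha hj => by simp [Psi, ht a b hab ha, zero_of_top_le hh.fin hab hj]
  refine ⟨⟨?_, fun a b i hab ha => ?_, fun a i ha => ?_⟩, fun a i ha b j hab hij => ?_⟩
  · obtain ⟨N, hN⟩ := hh.fin
    refine ⟨N + 1, fun a i hi => ?_⟩
    have : top Γ a h ≤ N := top_le fun b j _ hj => hN b j hj
    simp [Psi, hN a i (by omega), show i ≠ top Γ a h by omega]
  · rcases Psi_cases h t a i with h1 | h1
    · have h2 : h a i ≠ 0 := fun h0 => ha (by rw [h1, h0, Int.cast_zero])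
      rcases Psi_cases h t b i with h3 | h3
      · rw [h3, hh.clq a b i hab h2, Int.cast_zero]
      · exact absurd (zero_of_top_le hh.fin (blk_symm hab) h3.1.ge) h2
    · exact z hab h1.2 h1.1.ge
  · have : ∃ b, blk Γ a b ∧ h b i ≠ 0 := by
      rcases Psi_cases h t a (i + 1) with h1 | h1
      · exact hh.sup a i fun h0 => ha (by rw [h1, h0, Int.cast_zero])
      · exact exists_of_top_eq hh.fin h1.1
    obtain ⟨b, hab, hb⟩ := this
    refine ⟨b, hab, ?_⟩
    rcases Psi_cases h t b i with h3 | h3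
    · rw [h3]; exact_mod_cast hb
    · exact absurd (z (blk_symm hab) h3.2 (by omega)) ha
  · rcases Psi_cases h t a i with h1 | h1
    · exact absurd h1 (ha _)
    · exact z hab h1.2 (by omega)

lemma int_eq_of_abs_lt {r : ℝ} {m n : ℤ} (h : |r - m| < 1) (e : r = n) : r = m := by
  subst e
  have : |n - m| < 1 := by exact_mod_cast h
  have : n = m := by have := abs_lt.1 this; omega
  rw [this]

/-- real heaps close to an integral one -/
lemma near {x : V → ℕ → ℝ} (hx : Valid Γ x ∧ IntC Γ x) {h : V → ℕ → ℤ}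
    (hf : ∃ N, ∀ a i, N ≤ i → h a i = 0) (hd : ∀ a i, |x a i - h a i| < 1) :
    Psi Γ h (tau Γ h x) = x ∧ Clq Γ (tau Γ h x) := by
  have ni : ∀ {a i}, x a i ≠ h a i → ∀ n : ℤ, x a i ≠ n := fun {a i} h1 n h2 =>
    h1 (int_eq_of_abs_lt (hd a i) h2)
  have nz : ∀ {a i}, x a i ≠ h a i → x a i ≠ 0 := fun {a i} h1 => by simpa using ni h1 0
  have up : ∀ {a b i j}, x a i ≠ h a i → blk Γ a b → i ≤ j → x b j = 0 := fun {a b i j} h1 hab hj => by
    rcases hj.eq_or_lt with rfl | hj
    · exact hx.1.clq a b i hab (nz h1)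
    · exact hx.2 a i (ni h1) b j hab hj
  have key : ∀ a i, x a i ≠ h a i → i = top Γ a h := fun a i h1 => by
    refine le_antisymm ?_ (top_le fun b j hab hj => ?_)
    · cases i with
      | zero => exact Nat.zero_le _
      | succ i =>
        obtain ⟨b, hab, hb⟩ := hx.1.sup a i (nz h1)
        by_contra hc
        have h2 : h b i = 0 := zero_of_top_le hf hab (by omega)
        exact nz h1 (up (a := b) (i := i) (by rw [h2, Int.cast_zero]; exact hb) (blk_symm hab)
          (by omega))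
    · have h2 := up h1 hab hj
      have h3 := int_eq_of_abs_lt (hd b j) (n := 0) (by rw [h2, Int.cast_zero])
      rw [h2] at h3
      exact_mod_cast h3.symm
  refine ⟨?_, fun a b hab ha => ?_⟩
  · funext a i
    unfold Psi tau
    split_ifs with h1
    · rw [← h1]; ring
    · rw [add_zero]
      by_contra hc
      exact h1 (key a i (Ne.symm hc))
  · by_contra hb
    have ha' : x a (top Γ a h) ≠ h a (top Γ a h) := sub_ne_zero.1 ha
    have hb' : x b (top Γ b h) ≠ h b (top Γ b h) := sub_ne_zero.1 hb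
    rcases le_total (top Γ a h) (top Γ b h) with h1 | h1
    · exact nz hb' (up ha' hab h1)
    · exact nz ha' (up hb' (blk_symm hab) h1)

lemma near' {x : V → ℕ → ℝ} (hx : Valid Γ x ∧ IntC Γ x) {h : V → ℕ → ℤ} {N : ℕ}
    (hN : ∀ a i, N ≤ i → h a i = 0) (hd : ∀ a, ∀ i ≤ N, |x a i - h a i| < 1) :
    ∀ a i, |x a i - h a i| < 1 := by
  have key : ∀ j a, x a (N + j + 1) = 0 := by
    intro j
    induction j with
    | zero =>
      intro a
      by_contra hc
      obtain ⟨b, hab, hb⟩ := hx.1.sup a _ hc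
      refine hc (hx.2 b N (fun n hn => hb ?_) a _ (blk_symm hab) (by omega))
      have := int_eq_of_abs_lt (hd b N le_rfl) hn
      rw [hN b N le_rfl, Int.cast_zero] at this
      exact this
    | succ j ih =>
      intro a
      by_contra hc
      obtain ⟨b, -, hb⟩ := hx.1.sup a _ hc
      exact hb (ih b)
  intro a i
  by_cases hi : i ≤ N
  · exact hd a i hi
  · obtain ⟨j, rfl⟩ : ∃ j, i = N + j + 1 := ⟨i - N - 1, by omega⟩
    simp [key, hN a _ (show N ≤ N + j + 1 by omega)]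

/-- the integral part -/
noncomputable def fl (x : V → ℕ → ℝ) : V → ℕ → ℤ := fun a i => ⌊x a i⌋

lemma fl_valid {x : V → ℕ → ℝ} (hx : Valid Γ x ∧ IntC Γ x) : Valid Γ (fl x) := by
  have nz : ∀ {a i}, fl x a i ≠ 0 → x a i ≠ 0 := fun {a i} h h0 => h (by simp [fl, h0])
  refine ⟨?_, fun a b i hab ha => ?_, fun a i ha => ?_⟩
  · obtain ⟨N, hN⟩ := hx.1.fin
    exact ⟨N, fun a i hi => by simp [fl, hN a i hi]⟩
  · simp [fl, hx.1.clq a b i hab (nz ha)]
  · obtain ⟨b, hab, hb⟩ := hx.1.sup a i (nz ha)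
    refine ⟨b, hab, ?_⟩
    by_cases hi : ∀ n : ℤ, x b i ≠ n
    · exact absurd (hx.2 b i hi a _ (blk_symm hab) (by omega)) (nz ha)
    · push Not at hi
      obtain ⟨n, hn⟩ := hi
      rw [hn] at hb
      simpa [fl, hn] using hb

lemma abs_sub_fl (x : V → ℕ → ℝ) (a : V) (i : ℕ) : |x a i - fl x a i| < 1 := by
  have h1 := Int.floor_le (x a i)
  have h2 := Int.lt_floor_add_one (x a i)
  rw [abs_lt, fl]; constructor <;> linarith

lemma tau_fl_mem (x : V → ℕ → ℝ) (a : V) : tau Γ (fl x) x a ∈ Set.Ico (0 : ℝ) 1 :=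
  ⟨Int.fract_nonneg _, Int.fract_lt_one _⟩

lemma fl_Psi (h : V → ℕ → ℤ) {t : V → ℝ} (ht : ∀ a, t a ∈ Set.Ico (0 : ℝ) 1) :
    fl (Psi Γ h t) = h := by
  funext a i
  unfold fl Psi
  rw [Int.floor_intCast_add]
  split_ifs
  · rw [Int.floor_eq_zero_iff.2 (ht a), add_zero]
  · simp

/-! ### the contraction -/

/-- the level-wise contraction factors -/
noncomputable def phi (i : ℕ) (s : ℝ) : ℝ := max 0 (min 1 ((i + 2) * (1 - (i + 1) * s)))

lemma phi_zero (i : ℕ) : phi i 0 = 1 := by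
  have : (0 : ℝ) ≤ i := Nat.cast_nonneg i
  rw [phi, min_eq_left (by linarith), max_eq_right zero_le_one]

lemma phi_one (i : ℕ) : phi i 1 = 0 := by
  have : (0 : ℝ) ≤ i := Nat.cast_nonneg i
  exact max_eq_left ((min_le_right _ _).trans (by nlinarith))

lemma phi_eq_one {i j : ℕ} {s : ℝ} (_hs : 0 ≤ s) (hij : i < j) (h : phi j s ≠ 0) : phi i s = 1 := by
  have h0 : (0 : ℝ) ≤ i := Nat.cast_nonneg i
  have h1 : (i : ℝ) + 1 ≤ j := by exact_mod_cast hij
  have h2 : ((j : ℝ) + 1) * s < 1 := by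
    by_contra hc
    exact h (max_eq_left ((min_le_right _ _).trans (by nlinarith)))
  have h3 : ((i : ℝ) + 2) * s < 1 := by nlinarith
  rw [phi, min_eq_left (by nlinarith), max_eq_right zero_le_one]

lemma contr_mem {x : V → ℕ → ℝ} (hx : Valid Γ x ∧ IntC Γ x) {s : ℝ} (hs : 0 ≤ s) :
    Valid Γ (fun a i => x a i * phi i s) ∧ IntC Γ (fun a i => x a i * phi i s) := by
  refine ⟨⟨?_, fun a b i hab ha => ?_, fun a i ha => ?_⟩, fun a i ha b j hab hij => ?_⟩
  · obtain ⟨N, hN⟩ := hx.1.fin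
    exact ⟨N, fun a i hi => by rw [hN a i hi, zero_mul]⟩
  · rw [hx.1.clq a b i hab (left_ne_zero_of_mul ha), zero_mul]
  · obtain ⟨b, hab, hb⟩ := hx.1.sup a i (left_ne_zero_of_mul ha)
    exact ⟨b, hab, by rwa [phi_eq_one hs (Nat.lt_succ_self i) (right_ne_zero_of_mul ha), mul_one]⟩
  · by_cases h : phi j s = 0
    · exact mul_eq_zero_of_right _ h
    · simp only [phi_eq_one hs hij h, mul_one] at ha
      exact mul_eq_zero_of_left (hx.2 a i ha b j hab hij) _

lemma contractible : ContractibleSpace (EE Γ) := by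
  let o : EE Γ := ⟨0, ⟨⟨0, fun _ _ _ => rfl⟩, fun _ _ _ _ _ => rfl, fun _ _ h => absurd rfl h⟩,
    fun _ _ _ _ _ _ _ => rfl⟩
  refine (contractible_iff_id_nullhomotopic _).2 ⟨o, ⟨⟨⟨fun z : I × EE Γ =>
    ⟨fun a i => z.2.1 a i * phi i z.1, contr_mem z.2.2 z.1.2.1⟩, ?_⟩, fun x => ?_, fun x => ?_⟩⟩⟩
  · refine Continuous.subtype_mk (continuous_pi fun a => continuous_pi fun i => ?_) _
    have h1 : Continuous fun z : I × EE Γ => z.2.1 a i :=
      (continuous_apply_apply a i).comp (continuous_subtype_val.comp continuous_snd)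
    refine h1.mul ?_
    unfold phi
    fun_prop
  · exact Subtype.ext (funext fun a => funext fun i => by simp [phi_zero])
  · exact Subtype.ext (funext fun a => funext fun i => by simp [phi_one, o])

/-! ### the action -/

variable [Fintype V] {heap : RA Γ → V → ℕ → ℤ} (H : IsHeap Γ heap)
include H

lemma exists_word {n : V → ℤ} (hn : Clq Γ n) : ∃ w : RA Γ, (ht Γ w).toAdd = ∑ a, n a ∧
    ∀ g a i, heap (g * w) a i = heap g a i + if i = top Γ a (heap g) then n a else 0 := by
  have : ∀ s : Finset V, ∃ w : RA Γ, (ht Γ w).toAdd = ∑ a ∈ s, n a ∧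
      ∀ g a i, heap (g * w) a i =
        heap g a i + if a ∈ s ∧ i = top Γ a (heap g) then n a else 0 := by
    intro s
    induction s using Finset.induction_on with
    | empty => exact ⟨1, by simp, by simp⟩
    | insert c s hc ih =>
      obtain ⟨w, h1, h2⟩ := ih
      refine ⟨w * gen Γ c ^ n c, ?_, fun g a i => ?_⟩
      · rw [map_mul, toAdd_mul, h1, Finset.sum_insert hc, add_comm]
        simp [ht, gen]
      · rw [← mul_assoc, H.mul, bump, h2]
        by_cases hac : a = c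
        · subst hac
          by_cases h0 : n a = 0
          · simp [h0]
          · have : top Γ a (heap (g * w)) = top Γ a (heap g) :=
              top_congr fun b j hb => by rw [h2, hn a b hb h0]; simp
            simp [hc, this]
        · simp [hac]
  obtain ⟨w, h1, h2⟩ := this Finset.univ
  exact ⟨w, h1, by simpa using h2⟩

lemma exists_norm {t : V → ℝ} (ht' : Clq Γ t) : ∃ w : RA Γ, (ht Γ w).toAdd = ∑ a, ⌊t a⌋ ∧
    ∀ g, Psi Γ (heap (g * w)) (fun a => Int.fract (t a)) = Psi Γ (heap g) t := by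
  obtain ⟨w, h1, h2⟩ := exists_word H (n := fun a => ⌊t a⌋)
    (ht'.of_imp fun a h => by simp [h])
  refine ⟨w, h1, fun g => ?_⟩
  funext a i
  unfold Psi
  rw [h2]
  by_cases h0 : t a = 0
  · simp [h0]
  · have : top Γ a (heap (g * w)) = top Γ a (heap g) :=
      top_congr fun b j hb => by rw [h2, ht' a b hb h0]; simp
    rw [this]
    split_ifs
    · push_cast; rw [add_assoc, Int.floor_add_fract]
    · simp

/-- the point with coordinates `(g, t)` -/
noncomputable def mk (g : RA Γ) (t : V → ℝ) (ht : Clq Γ t) : EE Γ :=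
  ⟨Psi Γ (heap g) t, Psi_mem (H.valid g) ht⟩

/-- the group coordinate -/
noncomputable def G (x : EE Γ) : RA Γ := (H.surj _ (fl_valid x.2)).choose

lemma heap_G (x : EE Γ) : heap (G H x) = fl x.1 := (H.surj _ (fl_valid x.2)).choose_spec

omit H in
/-- the cube coordinate -/
noncomputable def T (x : EE Γ) : V → ℝ := tau Γ (fl x.1) x.1

omit H in
lemma T_clq (x : EE Γ) : Clq Γ (T x) := (near x.2 (fl_valid x.2).fin (abs_sub_fl _)).2

omit H in
lemma T_mem (x : EE Γ) (a : V) : T x a ∈ Set.Ico (0 : ℝ) 1 := tau_fl_mem _ _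

lemma mk_G_T (x : EE Γ) : mk H (G H x) (T x) (T_clq x) = x :=
  Subtype.ext (by
    change Psi Γ (heap (G H x)) _ = _
    rw [heap_G H]
    exact (near x.2 (fl_valid x.2).fin (abs_sub_fl _)).1)

lemma G_mk (g : RA Γ) {t : V → ℝ} (ht : Clq Γ t) (h : ∀ a, t a ∈ Set.Ico (0 : ℝ) 1) :
    G H (mk H g t ht) = g := H.inj (by rw [heap_G H]; exact fl_Psi _ h)

lemma T_mk (g : RA Γ) {t : V → ℝ} (ht : Clq Γ t) (h : ∀ a, t a ∈ Set.Ico (0 : ℝ) 1) :
    T (mk H g t ht) = t := by
  change tau Γ (fl (Psi Γ (heap g) t)) (Psi Γ (heap g) t) = t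
  rw [fl_Psi _ h, tau_Psi]

lemma exists_norm' {t : V → ℝ} (ht' : Clq Γ t) : ∃ w : RA Γ, (ht Γ w).toAdd = ∑ a, ⌊t a⌋ ∧
    ∀ g, G H (mk H g t ht') = g * w ∧ T (mk H g t ht') = fun a => Int.fract (t a) := by
  obtain ⟨w, h1, h2⟩ := exists_norm H ht'
  refine ⟨w, h1, fun g => ?_⟩
  have hc : Clq Γ fun a => Int.fract (t a) := ht'.of_imp fun a h => by simp [h]
  have e : mk H g t ht' = mk H (g * w) _ hc := Subtype.ext (h2 g).symm
  have hm : ∀ a, Int.fract (t a) ∈ Set.Ico (0 : ℝ) 1 :=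
    fun a => ⟨Int.fract_nonneg _, Int.fract_lt_one _⟩
  rw [e]
  exact ⟨G_mk H _ _ hm, T_mk H _ _ hm⟩

/-- the action -/
noncomputable def act (g : RA Γ) (x : EE Γ) : EE Γ := mk H (g * G H x) (T x) (T_clq x)

lemma G_act (g : RA Γ) (x : EE Γ) : G H (act H g x) = g * G H x := G_mk H _ _ (T_mem x)
lemma T_act (g : RA Γ) (x : EE Γ) : T (act H g x) = T x := T_mk H _ _ (T_mem x)

lemma ext_G_T {x y : EE Γ} (h1 : G H x = G H y) (h2 : T x = T y) : x = y := by
  rw [← mk_G_T H x, ← mk_G_T H y]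
  simp only [h1, h2]

lemma act_mk (g' g : RA Γ) {t : V → ℝ} (ht' : Clq Γ t) :
    act H g' (mk H g t ht') = mk H (g' * g) t ht' := by
  obtain ⟨w, -, h⟩ := exists_norm' H ht'
  refine ext_G_T H ?_ ?_
  · rw [G_act, (h g).1, (h _).1, mul_assoc]
  · rw [T_act, (h g).2, (h _).2]

/-- the charts -/
lemma chart (x₀ : EE Γ) : ∀ᶠ x in 𝓝 x₀, ∃ hc : Clq Γ (tau Γ (fl x₀.1) x.1),
    x = mk H (G H x₀) _ hc := by
  obtain ⟨N, hN⟩ := (fl_valid x₀.2).fin
  have : ∀ᶠ x : EE Γ in 𝓝 x₀, ∀ a, ∀ i ∈ Finset.range (N + 1), |x.1 a i - fl x₀.1 a i| < 1 := by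
    refine eventually_all.2 fun a => (eventually_all_finset _).2 fun i _ => ?_
    have h1 : Continuous fun z : EE Γ => z.1 a i :=
      (continuous_apply_apply a i).comp continuous_subtype_val
    exact (h1.sub continuous_const).abs.continuousAt.eventually_lt
      continuousAt_const (abs_sub_fl _ a i)
  filter_upwards [this] with x hx
  have h2 := near x.2 ⟨N, hN⟩ (near' x.2 hN fun a i hi => hx a i (by simp; omega))
  refine ⟨h2.2, Subtype.ext ?_⟩
  change _ = Psi Γ (heap (G H x₀)) _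
  rw [heap_G H, h2.1]

lemma continuous_act (g : RA Γ) : Continuous (act H g) := by
  refine continuous_iff_continuousAt.2 fun x₀ => ?_
  refine Topology.IsInducing.subtypeVal.continuousAt_iff.2 ?_
  have h1 : Continuous fun x : EE Γ => Psi Γ (heap (g * G H x₀)) (tau Γ (fl x₀.1) x.1) :=
    (continuous_Psi _).comp ((continuous_tau _).comp continuous_subtype_val)
  refine h1.continuousAt.congr ?_
  filter_upwards [chart H x₀] with x ⟨hc, hx⟩
  change _ = (act H g x).1
  conv_rhs => rw [hx, act_mk]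
  rfl

/-! ### the projection -/

omit H in
lemma exists_int {r s : ℝ} (h : (r : AddCircle (1 : ℝ)) = s) : ∃ n : ℤ, r - s = n := by
  rw [← sub_eq_zero, ← AddCircle.coe_sub, AddCircle.coe_eq_zero_iff] at h
  obtain ⟨n, hn⟩ := h
  exact ⟨n, by simpa using hn.symm⟩

omit H in
lemma eq_of_coe_eq {r s : ℝ} (h : (r : AddCircle (1 : ℝ)) = s) (h' : |r - s| < 1) : r = s := by
  obtain ⟨n, hn⟩ := exists_int h
  have := int_eq_of_abs_lt (r := r - s) (m := 0) (by simpa using h') hn
  rw [Int.cast_zero] at this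
  exact sub_eq_zero.1 this

omit H in
lemma coe_int (n : ℤ) : ((n : ℝ) : AddCircle (1 : ℝ)) = 0 :=
  (AddCircle.coe_eq_zero_iff _).2 ⟨n, by simp⟩

omit H in
lemma coe_sum (t : V → ℝ) : ((∑ a, t a : ℝ) : AddCircle (1 : ℝ)) = ∑ a, (t a : AddCircle (1 : ℝ)) :=
  map_sum (QuotientAddGroup.mk' (AddSubgroup.zmultiples (1 : ℝ))) t Finset.univ

/-- the projection -/
noncomputable def pr (x : EE Γ) : Kc Γ :=
  ⟨(fun a => (T x a : AddCircle (1 : ℝ)), ((ht Γ (G H x)).toAdd : ℝ) + ∑ a, T x a),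
    clq_iff.1 ((T_clq x).of_imp fun a h => by simp [h]), by
      simp only [AddCircle.coe_add, coe_int, coe_sum, zero_add]⟩

lemma pr_mk (g : RA Γ) {t : V → ℝ} (ht' : Clq Γ t) : (pr H (mk H g t ht')).1 =
    (fun a => (t a : AddCircle (1 : ℝ)), ((ht Γ g).toAdd : ℝ) + ∑ a, t a) := by
  obtain ⟨w, h1, h⟩ := exists_norm' H ht'
  simp only [pr, (h g).1, (h g).2, map_mul, toAdd_mul, h1]
  refine Prod.ext (funext fun a => ?_) ?_
  · change ((t a - (⌊t a⌋ : ℝ) : ℝ) : AddCircle (1 : ℝ)) = _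
    rw [AddCircle.coe_sub, coe_int, sub_zero]
  · push_cast
    rw [add_assoc, ← Finset.sum_add_distrib]
    simp only [Int.floor_add_fract]

lemma continuous_pr : Continuous (pr H) := by
  refine continuous_iff_continuousAt.2 fun x₀ => ?_
  refine Topology.IsInducing.subtypeVal.continuousAt_iff.2 ?_
  have h0 : Continuous fun x : EE Γ => tau Γ (fl x₀.1) x.1 :=
    (continuous_tau _).comp continuous_subtype_val
  have h1 : Continuous fun x : EE Γ => ((fun a => (tau Γ (fl x₀.1) x.1 a : AddCircle (1 : ℝ)),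
      ((ht Γ (G H x₀)).toAdd : ℝ) + ∑ a, tau Γ (fl x₀.1) x.1 a) :
        (V → AddCircle (1 : ℝ)) × ℝ) := by
    refine Continuous.prodMk (continuous_pi fun a => ?_) (by fun_prop)
    exact (AddCircle.continuous_mk' 1).comp ((continuous_apply a).comp h0)
  refine h1.continuousAt.congr ?_
  filter_upwards [chart H x₀] with x ⟨hc, hx⟩
  change _ = (pr H x).1
  conv_rhs => rw [hx, pr_mk]

lemma surjective_pr [Nonempty V] : Function.Surjective (pr H) := by
  rintro ⟨⟨θ, r⟩, h1, h2⟩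
  let t : V → ℝ := fun a => AddCircle.equivIco 1 0 (θ a)
  have e : ∀ a, (t a : AddCircle (1 : ℝ)) = θ a := fun a =>
    (AddCircle.equivIco (1 : ℝ) 0).symm_apply_apply (θ a)
  have hc : Clq Γ t := (clq_iff.2 h1).of_imp fun a h => by
    refine eq_of_coe_eq (by rw [e]; exact h) ?_
    have := (AddCircle.equivIco (1 : ℝ) 0 (θ a)).2
    rw [sub_zero, abs_lt]
    exact ⟨by linarith [this.1], by linarith [this.2]⟩
  obtain ⟨n, hn⟩ := exists_int (r := r) (s := ∑ a, t a) (by rw [coe_sum]; simp only [e]; exact h2)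
  refine ⟨mk H (gen Γ (Classical.arbitrary V) ^ n) t hc, Subtype.ext ?_⟩
  rw [pr_mk]
  refine Prod.ext (funext e) ?_
  have : (ht Γ (gen Γ (Classical.arbitrary V) ^ n)).toAdd = n := by simp [ht, gen]
  rw [this, ← hn]
  simp

lemma isOpenMap_pr : IsOpenMap (pr H) := by
  refine isOpenMap_iff_nhds_le.2 fun x₀ => ?_
  let t : Kc Γ → V → ℝ := fun y a => AddCircle.equivIoc 1 (T x₀ a - 1 / 2) (y.1.1 a)
  have e : ∀ y a, (t y a : AddCircle (1 : ℝ)) = y.1.1 a := fun y a =>
    (AddCircle.equivIoc (1 : ℝ) _).symm_apply_apply _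
  have t0 : t (pr H x₀) = T x₀ := funext fun a => by
    change (AddCircle.equivIoc 1 (T x₀ a - 1 / 2) (T x₀ a : AddCircle (1 : ℝ)) : ℝ) = _
    rw [AddCircle.equivIoc_coe_eq ⟨by linarith, by linarith⟩]
  have ct : ContinuousAt t (pr H x₀) := by
    refine continuousAt_pi.2 fun a => continuousAt_subtype_val.comp ?_
    refine ContinuousAt.comp (g := AddCircle.equivIoc (1 : ℝ) (T x₀ a - 1 / 2))
      (AddCircle.continuousAt_equivIoc _ _ fun h => ?_) (by fun_prop)
    have := eq_of_coe_eq (r := T x₀ a) h (by norm_num [abs_lt])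
    linarith
  have h1 : ∀ᶠ y in 𝓝 (pr H x₀), ∀ a, |t y a| < 1 := by
    refine eventually_all.2 fun a => ?_
    refine (continuousAt_pi.1 ct a).abs.eventually_lt continuousAt_const ?_
    rw [t0, abs_of_nonneg (T_mem x₀ a).1]
    exact (T_mem x₀ a).2
  have h2 : ∀ᶠ y in 𝓝 (pr H x₀), |((ht Γ (G H x₀)).toAdd : ℝ) + ∑ a, t y a - y.1.2| < 1 := by
    refine (show ContinuousAt (fun y => |((ht Γ (G H x₀)).toAdd : ℝ) + ∑ a, t y a - y.1.2|)
      (pr H x₀) by fun_prop).eventually_lt continuousAt_const ?_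
    rw [t0]
    simp [pr]
  have h3 : ∀ᶠ y in 𝓝 (pr H x₀), Clq Γ (t y) := by
    filter_upwards [h1] with y hy
    exact (clq_iff.2 y.2.1).of_imp fun a h =>
      eq_of_coe_eq (by rw [e]; exact h) (by simpa using hy a)
  let s : Kc Γ → EE Γ := fun y => if hc : Clq Γ (t y) then mk H (G H x₀) _ hc else x₀
  have s0 : s (pr H x₀) = x₀ := by
    simp only [s, t0, T_clq, dif_pos, mk_G_T]
  have cs : ContinuousAt s (pr H x₀) := by
    refine Topology.IsInducing.subtypeVal.continuousAt_iff.2 ?_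
    refine ((continuous_Psi (Γ := Γ) (heap (G H x₀))).continuousAt.comp ct).congr ?_
    filter_upwards [h3] with y hy
    simp only [s, Function.comp, dif_pos hy]
    rfl
  have ps : ∀ᶠ y in 𝓝 (pr H x₀), pr H (s y) = y := by
    filter_upwards [h2, h3] with y hy hc
    refine Subtype.ext ?_
    simp only [s, dif_pos hc, pr_mk]
    refine Prod.ext (funext (e y)) (eq_of_coe_eq ?_ hy)
    simp only [AddCircle.coe_add, coe_int, coe_sum, zero_add, e]
    exact y.2.2.symm
  intro W hW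
  rw [Filter.mem_map, ← s0] at hW
  filter_upwards [ps, cs hW] with y h1 h2
  rw [← h1]
  exact h2

end KCov

open KCov in
theorem kCovStmt : KCovStmt := by
  intro V _ _ Γ heap H
  let A : MulAction (BB Γ) (EE Γ) :=
    { smul := fun g x => act H g.1 x
      one_smul := fun x => ext_G_T H (by
        change G H (act H 1 x) = _
        rw [G_act, one_mul]) (T_act H _ _)
      mul_smul := fun g g' x => ext_G_T H (by
        change G H (act H (g.1 * g'.1) x) = G H (act H g.1 (act H g'.1 x))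
        rw [G_act, G_act, G_act, mul_assoc]) (by
        change T (act H (g.1 * g'.1) x) = T (act H g.1 (act H g'.1 x))
        rw [T_act, T_act, T_act]) }
  refine ⟨EE Γ, inferInstance, A, pr H, contractible,
    { toIsQuotientMap := (isOpenMap_pr H).isQuotientMap (continuous_pr H) (surjective_pr H)
      continuous_const_smul := fun g => continuous_act H g.1
      apply_eq_iff_mem_orbit := fun {x y} => ⟨fun h => ?_, ?_⟩
      disjoint := fun e => ?_ }⟩
  · have h1 : T x = T y := funext fun a => by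
      refine eq_of_coe_eq (congrArg (fun z : Kc Γ => z.1.1 a) h) ?_
      have := T_mem x a
      have := T_mem y a
      rw [abs_lt]
      constructor <;> linarith [(T_mem x a).1, (T_mem x a).2, (T_mem y a).1, (T_mem y a).2]
    have h2 : ((ht Γ (G H x)).toAdd : ℝ) + ∑ a, T x a = (ht Γ (G H y)).toAdd + ∑ a, T y a :=
      congrArg (fun z : Kc Γ => z.1.2) h
    rw [h1, add_left_inj, Int.cast_inj] at h2
    refine ⟨⟨G H x * (G H y)⁻¹, ?_⟩, ext_G_T H ?_ ?_⟩
    · rw [MonoidHom.mem_ker, map_mul, map_inv, Multiplicative.toAdd.injective h2, mul_inv_cancel]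
    · change G H (act H _ y) = _
      rw [G_act, inv_mul_cancel_right]
    · change T (act H _ y) = _
      rw [T_act, h1]
  · rintro ⟨g, rfl⟩
    refine Subtype.ext ?_
    change (pr H (act H g.1 y)).1 = _
    simp only [pr, G_act, T_act, map_mul, MonoidHom.mem_ker.1 g.2, one_mul]
  · have h0 : Continuous fun x : EE Γ => tau Γ (fl e.1) x.1 :=
      (continuous_tau _).comp continuous_subtype_val
    have h1 : ∀ᶠ x in 𝓝 e, ∀ a, |tau Γ (fl e.1) x.1 a - T e a| < 1 / 2 := by
      refine eventually_all.2 fun a => ?_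
      refine (((continuous_apply a).comp h0).sub
        continuous_const).abs.continuousAt.eventually_lt continuousAt_const ?_
      simp [T]
    refine ⟨_, (chart H e).and h1, fun g => ?_⟩
    rintro ⟨_, ⟨x, ⟨⟨c1, e1⟩, d1⟩, rfl⟩, ⟨c2, e2⟩, d2⟩
    change act H g.1 x = _ at e2
    change ∀ a, |tau Γ (fl e.1) (act H g.1 x).1 a - T e a| < 1 / 2 at d2
    have h2 : ∀ a, ((tau Γ (fl e.1) (act H g.1 x).1 a : ℝ) : AddCircle (1 : ℝ)) =
        (tau Γ (fl e.1) x.1 a : ℝ) := fun a => by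
      have p1 := congrArg (fun z => (pr H z).1.1 a) e1
      have p2 := congrArg (fun z => (pr H z).1.1 a) e2
      simp only [pr_mk] at p1 p2
      refine p2.symm.trans (Eq.trans ?_ p1)
      simp only [pr, T_act]
    have h3 : tau Γ (fl e.1) (act H g.1 x).1 = tau Γ (fl e.1) x.1 := funext fun a => by
      refine eq_of_coe_eq (h2 a) ?_
      have := abs_lt.1 (d1 a)
      have := abs_lt.1 (d2 a)
      rw [abs_lt]
      constructor <;> linarith
    have h4 : act H g.1 x = x := by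
      refine e2.trans (Eq.trans ?_ e1.symm)
      exact Subtype.ext (congrArg (Psi Γ (heap (G H e))) h3)
    have h5 := congrArg (G H) h4
    rw [G_act] at h5
    exact Subtype.ext (mul_eq_right.1 h5)

end Crest.Agent.R197
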