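import Crest.Agent.R197.Heap0
import Crest.Agent.R197.LData

/-! Row 197: the barycentric subdivision of the `A₅` acyclic 2-complex (finite checks). -/

set_option autoImplicit false

open scoped Quaternion

namespace Crest.Agent.R197
namespace LP

open LData

def mask : ℕ := 27464061180116374301634337969719606033267766873766921199268466846591971562490066721340622942512515093685022139283492153825532281312
def idxN : ℕ := 222414959439334417791976783670405040411629751224696944990277258721650475455207525071832018229121543942658808782282926593966756150006176423215173281569004267323803042028376255066126748846228542210522853741765805306404233912136170740271954980852730304292016282607878235574471523540628320910965996410706921920564664665288627456504486622566931202876252177029147482047578806976297692442203541770158564749215548132274469191702473366580203469883838095767157964824340576640268141393764417230035790358030972410808804066135963555792943658203568510170532161599688305757197816357876389258948302573790525647391298064627710376894413714734065402460318047692343300697142329344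
def triN : ℕ := 929031094787520153209607550002969100079430256516087989095806407952869902376828617399314690512813241253764108641026378193931221421757086607249671723394031982371803234971200651454949853826266944427003318838192984495000656732843679027524772618752835338360

/-- adjacency -/
def adj (a b : Fin 21) : Bool := mask.testBit (21 * a.val + b.val)

/-- the number of an edge -/
def ix (a b : Fin 21) : ℕ := idxN >>> (7 * (21 * a.val + b.val)) % 128

def ta (k : ℕ) : Fin 21 := Fin.ofNat 21 (triN >>> (14 * k) % 16384 / 441)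
def tb (k : ℕ) : Fin 21 := Fin.ofNat 21 (triN >>> (14 * k) % 16384 / 21)
def tc (k : ℕ) : Fin 21 := Fin.ofNat 21 (triN >>> (14 * k) % 16384)

def dl (a b a' b' : Fin 21) : ℤ := if a = a' ∧ b = b' then 1 else 0

theorem chk_symm : ∀ a b, adj a b = true → adj b a = true := by decide +kernel
theorem chk_irr : ∀ a, ¬ adj a a = true := by decide +kernel

/-- the graph -/
def G : SimpleGraph (Fin 21) where
  Adj a b := adj a b = true
  symm := ⟨chk_symm⟩
  loopless := ⟨chk_irr⟩

theorem chk_tri : ∀ k : Fin 60, (ta k < tb k ∧ adj (ta k) (tb k) = true) ∧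
    (tb k < tc k ∧ adj (tb k) (tc k) = true) ∧ adj (ta k) (tc k) = true := by decide +kernel

theorem chk_surj : ∀ a b, (a < b ∧ adj a b = true) → ∀ c, (b < c ∧ adj b c = true) →
    adj a c = true → ∃ k : Fin 60, ta k = a ∧ tb k = b ∧ tc k = c := by decide +kernel

theorem chk_conn : ∀ w, w = 0 ∨ adj 0 w = true ∨ ∃ u, adj 0 u = true ∧ adj u w = true := by
  decide +kernel

def col (v : Fin 21) : Fin 3 := if v < 5 then 0 else if v < 15 then 1 else 2

theorem chk_col : ∀ a b, adj a b = true → col a ≠ col b := by decide +kernel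

theorem chk_h2 : ∀ k l : Fin 60, s1 (ix (tb k) (tc k)) l - s1 (ix (ta k) (tc k)) l +
    s1 (ix (ta k) (tb k)) l = if k = l then 1 else 0 := by decide +kernel

def cofN : ℕ := 716953047088473623177337384253777978489092924671293628819022678938385780642880087680639973784064620195566096809615732705334105619808318439181101983576017945000999467801750247090811803302440411926860213581579879108574695452973879287664698927128693352963808400544245004785278666791686325574260608871941369615079566974467124975188703385791189673635231813723507356824211887609907530111624962201746160256948038042623589898273664192154295663407215847799107738137363178401708357813884509411567159959265631499085877858847496588362742817705655590020175287267895247108598534951678903810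

/-- the triangles containing an edge, with signs -/
def cf (j r : ℕ) : Fin 60 := Fin.ofNat 60 (cofN >>> (8 * (3 * j + r)) % 256 / 4)
def sg (j r : ℕ) : ℤ := (cofN >>> (8 * (3 * j + r)) % 4 : ℕ) - 1

theorem chk_bd : ∀ a b, (a < b ∧ adj a b = true) → ∀ k : Fin 60,
    dl (tb k) (tc k) a b - dl (ta k) (tc k) a b + dl (ta k) (tb k) a b =
      (if k = cf (ix a b) 0 then sg (ix a b) 0 else 0) +
      (if k = cf (ix a b) 1 then sg (ix a b) 1 else 0) +
      (if k = cf (ix a b) 2 then sg (ix a b) 2 else 0) := by decide +kernel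

theorem chk_h1 : ∀ a b, (a < b ∧ adj a b = true) → ∀ a' b', (a' < b' ∧ adj a' b' = true) →
    s1 (ix a b) (cf (ix a' b') 0) * sg (ix a' b') 0 + s1 (ix a b) (cf (ix a' b') 1) * sg (ix a' b') 1 +
      s1 (ix a b) (cf (ix a' b') 2) * sg (ix a' b') 2 =
      dl a b a' b' - (s0 b (ix a' b') - s0 a (ix a' b')) := by decide +kernel

/-- the triangles -/
def tr (k : Fin 60) : Tr G := ⟨(ta k, tb k, tc k), chk_tri k⟩

theorem tr_surj (t : Tr G) : ∃ k, tr k = t := by
  obtain ⟨k, h1, h2, h3⟩ := chk_surj _ _ t.2.1 _ t.2.2.1 t.2.2.2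
  exact ⟨k, Subtype.ext (Prod.ext h1 (Prod.ext h2 h3))⟩

theorem single_ed (e e' : Ed G) :
    (Finsupp.single e (1 : ℤ)) e' = dl e.1.1 e.1.2 e'.1.1 e'.1.2 := by
  classical
  rw [Finsupp.single_apply, dl]
  exact if_congr (by rw [Subtype.ext_iff, Prod.ext_iff]) rfl rfl

theorem h1 (z : Ed G →₀ ℤ) (hz : dL1 G z = 0) : ∃ y, dL2 G y = z := by
  let S0 : (Fin 21 →₀ ℤ) →ₗ[ℤ] (Ed G →₀ ℤ) := Finsupp.linearCombination ℤ fun v =>
    Finsupp.equivFunOnFinite.symm fun e => s0 v (ix e.1.1 e.1.2)
  let S1 : (Ed G →₀ ℤ) →ₗ[ℤ] (Tr G →₀ ℤ) := Finsupp.linearCombination ℤ fun e =>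
    ∑ k : Fin 60, s1 (ix e.1.1 e.1.2) k • Finsupp.single (tr k) 1
  have : dL2 G ∘ₗ S1 = LinearMap.id - S0 ∘ₗ dL1 G := by
    refine Finsupp.lhom_ext' fun e => LinearMap.ext_ring (Finsupp.ext fun e' => ?_)
    have h := chk_h1 _ _ e.2 _ _ e'.2
    simp only [LinearMap.comp_apply, Finsupp.lsingle_apply, LinearMap.sub_apply, LinearMap.id_apply,
      S0, S1, dL1, dL2, Finsupp.linearCombination_single, one_smul, map_sum, map_smul, map_sub,
      Finsupp.finsetSum_apply, Finsupp.smul_apply, Finsupp.sub_apply, Finsupp.add_apply, single_ed,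
      Finsupp.equivFunOnFinite_symm_apply_apply, smul_eq_mul, ← h]
    simp only [tr, Tr.e01, Tr.e02, Tr.e12, chk_bd _ _ e'.2, mul_add, mul_ite, mul_zero,
      Finset.sum_add_distrib, Finset.sum_ite_eq', Finset.mem_univ, if_true]
  exact ⟨S1 z, by simpa [hz] using LinearMap.congr_fun this z⟩

theorem h2 : Function.Injective (dL2 G) := by
  choose n hn using tr_surj
  let S1 : (Ed G →₀ ℤ) →ₗ[ℤ] (Tr G →₀ ℤ) := Finsupp.linearCombination ℤ fun e =>
    Finsupp.equivFunOnFinite.symm fun t => s1 (ix e.1.1 e.1.2) (n t)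
  have : S1 ∘ₗ dL2 G = LinearMap.id := by
    refine Finsupp.lhom_ext' fun t => LinearMap.ext_ring (Finsupp.ext fun t' => ?_)
    have h := chk_h2 (n t) (n t')
    have e : (Finsupp.single t (1 : ℤ)) t' = if n t = n t' then 1 else 0 := by
      classical
      rw [Finsupp.single_apply]
      exact if_congr ⟨congrArg n, fun h => by rw [← hn t, h, hn]⟩ rfl rfl
    simp only [LinearMap.comp_apply, Finsupp.lsingle_apply, LinearMap.id_apply, S1, dL2,
      Finsupp.linearCombination_single, one_smul, map_add, map_sub, Finsupp.sub_apply,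
      Finsupp.add_apply, Finsupp.equivFunOnFinite_symm_apply_apply, e, ← h]
    conv_lhs => rw [← hn t]
    rfl
  exact Function.LeftInverse.injective (g := S1) fun t => LinearMap.congr_fun this t

theorem lacyc : LAcyc G where
  conn := (SimpleGraph.connected_iff_exists_forall_reachable G).2 ⟨0, fun w => by
    rcases chk_conn w with rfl | h | ⟨u, h, h'⟩
    · rfl
    · exact SimpleGraph.Adj.reachable h
    · exact (SimpleGraph.Adj.reachable (G := G) h).trans (SimpleGraph.Adj.reachable h')⟩
  dim := SimpleGraph.Colorable.cliqueFree (n := 3)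
    ⟨SimpleGraph.Coloring.mk col fun h => chk_col _ _ h⟩ (by norm_num)
  h1 := h1
  h2 := h2

/-- four times the value on an edge -/
def qe (j : ℕ) : ℍ[ℤ√5] :=
  ⟨⟨rho j 0, rho j 1⟩, ⟨rho j 2, rho j 3⟩, ⟨rho j 4, rho j 5⟩, ⟨rho j 6, rho j 7⟩⟩

def q4 : ℍ[ℤ√5] := ⟨4, 0, 0, 0⟩

/-- four times the cocycle -/
def r4 (a b : Fin 21) : ℍ[ℤ√5] :=
  if adj a b = true then (if a < b then qe (ix a b) else star (qe (ix b a))) else q4

instance (p q : ℍ[ℤ√5]) : Decidable (p = q) :=
  decidable_of_iff (p.re = q.re ∧ p.imI = q.imI ∧ p.imJ = q.imJ ∧ p.imK = q.imK)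
    QuaternionAlgebra.ext_iff.symm

theorem chk_unit : ∀ a b, star (r4 a b) * r4 a b = q4 * q4 ∧ r4 a b * star (r4 a b) = q4 * q4 := by
  decide +kernel

theorem chk_mul : ∀ a b, (a = b ∨ adj a b = true) → ∀ c, (b = c ∨ adj b c = true) →
    (a = c ∨ adj a c = true) → r4 a b * r4 b c = q4 * r4 a c := by decide +kernel

theorem chk_pos : ∀ a b, 0 ≤ (r4 a b).re.im ∧ 0 ≤ (r4 a b).re.re + (r4 a b).re.im := by
  decide +kernel

theorem chk_hol : (r4 0 5 * (r4 5 1 * (r4 1 18 * r4 18 0))).imJ = ⟨-128, 0⟩ := by decide +kernel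

/-- the embedding into the real quaternions -/
noncomputable def toH (p : ℍ[ℤ√5]) : ℍ[ℝ] :=
  ⟨Zsqrtd.toReal (by norm_num) p.re, Zsqrtd.toReal (by norm_num) p.imI,
    Zsqrtd.toReal (by norm_num) p.imJ, Zsqrtd.toReal (by norm_num) p.imK⟩

theorem toH_mul (p q : ℍ[ℤ√5]) : toH (p * q) = toH p * toH q := by
  ext <;> simp [toH, -Zsqrtd.toReal_apply]

theorem toH_star (p : ℍ[ℤ√5]) : toH (star p) = star (toH p) := by
  ext <;> simp [toH, -Zsqrtd.toReal_apply]

theorem star_sm (c : ℝ) (x : ℍ[ℝ]) : star (c • x) = c • star x := by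
  ext <;> simp

theorem toH_q4 : toH q4 = (4 : ℝ) • 1 := by
  ext <;> simp [toH, q4, map_ofNat]

/-- the cocycle -/
noncomputable def rh (a b : Fin 21) : S3 := ⟨(1 / 4 : ℝ) • toH (r4 a b), by
  constructor
  · rw [star_sm, smul_mul_smul_comm, ← toH_star, ← toH_mul, (chk_unit a b).1, toH_mul, toH_q4,
      smul_mul_smul_comm, smul_smul]
    norm_num
  · rw [star_sm, smul_mul_smul_comm, ← toH_star, ← toH_mul, (chk_unit a b).2, toH_mul, toH_q4,
      smul_mul_smul_comm, smul_smul]
    norm_num⟩

theorem coc : Coc G rh where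
  refl a := Subtype.ext (by
    change (1 / 4 : ℝ) • toH (r4 a a) = 1
    rw [r4, if_neg (chk_irr a), toH_q4, smul_smul]
    norm_num)
  mul a b c h1 h2 h3 := Subtype.ext (by
    change (1 / 4 : ℝ) • toH (r4 a b) * (1 / 4 : ℝ) • toH (r4 b c) = (1 / 4 : ℝ) • toH (r4 a c)
    rw [smul_mul_smul_comm, ← toH_mul, chk_mul a b (not_blk_iff.1 h1) c (not_blk_iff.1 h2)
      (not_blk_iff.1 h3), toH_mul, toH_q4, smul_mul_assoc, one_mul, smul_smul]
    norm_num)
  pos a b _ := by
    have h1 : (0 : ℝ) ≤ (r4 a b).re.im := by exact_mod_cast (chk_pos a b).1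
    have h2 : (0 : ℝ) ≤ (r4 a b).re.re + (r4 a b).re.im := by exact_mod_cast (chk_pos a b).2
    have h3 : (1 : ℝ) ≤ √5 := Real.one_le_sqrt.2 (by norm_num)
    simp only [rh, toH, Quaternion.re_smul, Zsqrtd.toReal, Zsqrtd.lift_apply_apply, Int.cast_ofNat,
      smul_eq_mul]
    nlinarith
  hol := ⟨4, fun j => if j = 1 then 5 else if j = 2 then 1 else if j = 3 then 18 else 0, rfl,
    by
      change ∀ j < 4, adj _ _ = true
      decide +kernel, fun h => by
      have h1 : (rh 0 5 * (rh 5 1 * (rh 1 18 * rh 18 0)) : S3) = 1 := by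
        simpa [List.range_succ] using h
      have h2 : (1 / 4 : ℝ) • toH (r4 0 5) * ((1 / 4 : ℝ) • toH (r4 5 1) *
          ((1 / 4 : ℝ) • toH (r4 1 18) * (1 / 4 : ℝ) • toH (r4 18 0))) = 1 :=
        congrArg Subtype.val h1
      simp only [smul_mul_smul_comm, ← toH_mul] at h2
      have h3 := congrArg QuaternionAlgebra.imJ h2
      rw [Quaternion.imJ_smul, toH, chk_hol] at h3
      simp [Zsqrtd.toReal] at h3⟩

end LP

theorem lStmt : LStmt := ⟨LP.G, LP.lacyc, ⟨LP.tr 0⟩, LP.rh, LP.coc⟩

end Crest.Agent.R197
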