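import Crest.Agent.R197.PF0

/-! Row 197: labelling the universal cover by the fundamental group. -/

set_option autoImplicit false

open unitInterval Topology Filter
open scoped Classical

namespace Crest.Agent.R197

namespace Lab

open Path.Homotopic Path.Homotopic.Quotient

variable {X G : Type} [TopologicalSpace X] [Group G] {x : X}
  (be : ∀ y, Path.Homotopic.Quotient x y) (e : FundamentalGroup X x ≃* G)

/-- the group element attached to a class of paths -/
noncomputable def cl {y z : X} (q : Path.Homotopic.Quotient y z) : G :=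
  (e (FundamentalGroup.fromPath ((be y).trans (q.trans (be z).symm))))⁻¹

theorem symm_trans_cancel {y z w : X} (a : Path.Homotopic.Quotient y z)
    (b : Path.Homotopic.Quotient z w) : a.symm.trans (a.trans b) = b := by
  rw [← Quotient.trans_assoc, Quotient.symm_trans, Quotient.refl_trans]

theorem trans_symm_cancel {y z w : X} (a : Path.Homotopic.Quotient y z)
    (b : Path.Homotopic.Quotient y w) : a.trans (a.symm.trans b) = b := by
  rw [← Quotient.trans_assoc, Quotient.trans_symm, Quotient.refl_trans]

theorem cl_trans {y z w : X} (q : Path.Homotopic.Quotient y z) (q' : Path.Homotopic.Quotient z w) :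
    cl be e (q.trans q') = cl be e q * cl be e q' := by
  unfold cl
  rw [← mul_inv_rev, ← map_mul, FundamentalGroup.mul_def]
  congr 2
  change (be y).trans _ = ((be y).trans _).trans _
  simp only [Quotient.trans_assoc, symm_trans_cancel]

theorem cl_refl (y : X) : cl be e (Quotient.refl y) = 1 := by
  have := cl_trans be e (Quotient.refl y) (Quotient.refl y)
  rwa [Quotient.refl_trans, left_eq_mul] at this

theorem cl_eq_one {y : X} {q : Path.Homotopic.Quotient y y} (h : cl be e q = 1) :
    q = Quotient.refl y := by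
  unfold cl at h
  rw [inv_eq_one, map_eq_one_iff _ e.injective] at h
  have h1 : (be y).trans (q.trans (be y).symm) = Quotient.refl x := h
  have h2 := congrArg (fun r => ((be y).symm.trans r).trans (be y)) h1
  simpa only [symm_trans_cancel, Quotient.trans_assoc, Quotient.symm_trans, Quotient.trans_refl,
    Quotient.refl_trans] using h2

theorem cl_surj (y : X) (g : G) : ∃ q : Path.Homotopic.Quotient y y, cl be e q = g := by
  refine ⟨(be y).symm.trans ((FundamentalGroup.toPath (e.symm g⁻¹)).trans (be y)), ?_⟩
  unfold cl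
  rw [Quotient.trans_assoc, trans_symm_cancel, Quotient.trans_assoc, Quotient.trans_symm,
    Quotient.trans_refl]
  change (e (e.symm g⁻¹))⁻¹ = g
  rw [e.apply_symm_apply, inv_inv]

theorem cl_toPath (γ : C(I, X)) {y z : X} (h0 : γ 0 = y) (h1 : γ 1 = z) :
    cl be e (mk (toPath γ rfl rfl)) = cl be e (mk (toPath γ h0 h1)) := by
  subst h0 h1
  rfl

/-- the path functor -/
noncomputable def lab : PF X G where
  m γ := cl be e (mk (toPath γ rfl rfl))
  const z := cl_refl be e z
  sq H := by
    let a : Path ((0, 0) : I × I) (1, 0) := ⟨⟨fun s => (s, 0), by fun_prop⟩, rfl, rfl⟩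
    let b : Path ((1, 0) : I × I) (1, 1) := ⟨⟨fun s => (1, s), by fun_prop⟩, rfl, rfl⟩
    let c : Path ((0, 0) : I × I) (0, 1) := ⟨⟨fun s => (0, s), by fun_prop⟩, rfl, rfl⟩
    let d : Path ((0, 1) : I × I) (1, 1) := ⟨⟨fun s => (s, 1), by fun_prop⟩, rfl, rfl⟩
    have h := (SimplyConnectedSpace.paths_homotopic (a.trans b) (c.trans d)).map H
    rw [Path.map_trans, Path.map_trans] at h
    have h1 := congrArg (cl be e) (Path.Homotopic.Quotient.eq.2 h)
    rw [mk_trans, mk_trans, cl_trans, cl_trans] at h1
    exact h1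

end Lab

open Lab Path.Homotopic.Quotient in
theorem labStmt : LabStmt := by
  rintro X E G _ _ _ _ p hp hs x ⟨e⟩
  have : PathConnectedSpace X := hs.pathConnectedSpace p.continuous
  let be : ∀ y, Path.Homotopic.Quotient x y := fun y => mk (PathConnectedSpace.somePath x y)
  obtain ⟨lam, hlam⟩ := ((lab be e).comap p).exists_pot
  have hpath : ∀ δ : C(I, E), lam (δ 1) = lam (δ 0) * (lab be e).m (p.comp δ) := fun δ => by
    rw [← PF.comap_m, hlam, mul_inv_cancel_left]
  refine ⟨lab be e, lam, ⟨fun a b hab => ?_, ?_⟩, hpath⟩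
  · obtain ⟨h1, h2⟩ := Prod.mk.inj hab
    let δ := PathConnectedSpace.somePath a b
    have h3 := hpath δ.toContinuousMap
    have h0 : (p.comp δ.toContinuousMap) 0 = p a := congrArg p δ.source
    have h1' : (p.comp δ.toContinuousMap) 1 = p a := (congrArg p δ.target).trans h1.symm
    rw [show δ.toContinuousMap 1 = b from δ.target, show δ.toContinuousMap 0 = a from δ.source,
      h2, left_eq_mul] at h3
    have h4 := cl_eq_one be e ((cl_toPath be e _ h0 h1').symm.trans h3)
    have h5 : (p.comp δ.toContinuousMap).HomotopicRel (ContinuousMap.const I (p a)) {0, 1} :=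
      exact h4
    have h6 := hp.liftPath_apply_one_eq_of_homotopicRel h5 a h0 rfl
    have h7 := (hp.eq_liftPath_iff' (Γ := δ.toContinuousMap) h0).2 ⟨rfl, δ.source⟩
    have h8 := (hp.eq_liftPath_iff' (Γ := ContinuousMap.const I a)
      (γ := ContinuousMap.const I (p a)) rfl).2 ⟨rfl, rfl⟩
    exact ((DFunLike.congr_fun h8 1).trans h6.symm).trans
      ((DFunLike.congr_fun h7 1).symm.trans δ.target)
  · rintro ⟨y, g⟩
    obtain ⟨a, rfl⟩ := hs y
    obtain ⟨q, hq⟩ := cl_surj be e (p a) ((lam a)⁻¹ * g)
    obtain ⟨γ, rfl⟩ := mk_surjective q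
    obtain ⟨Γ, h1, h2⟩ := hp.exists_path_lifts γ.toContinuousMap a γ.source
    have h3 : p.comp Γ = γ.toContinuousMap := ContinuousMap.ext (congrFun h1)
    refine ⟨Γ 1, Prod.ext ((congrFun h1 1).trans γ.target) ?_⟩
    change lam (Γ 1) = g
    rw [hpath, h2, h3]
    change lam a * cl be e _ = g
    rw [cl_toPath be e _ γ.source γ.target]
    change lam a * cl be e (mk γ) = g
    rw [hq, mul_inv_cancel_left]

end Crest.Agent.R197
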