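import Crest.Agent.R197.Defs

/-! Row 197: monodromy of local potentials and variation of the logarithm. -/

set_option autoImplicit false
set_option maxHeartbeats 400000

open unitInterval Topology Filter

namespace Crest.Agent.R197

namespace PotAux

/-- lifts of paths and squares -/
theorem lifts {E X : Type} [TopologicalSpace E] [TopologicalSpace X] {p : E → X}
    (cov : IsCoveringMap p) (hs : Function.Surjective p) :
    (∀ γ : C(I, X), ∃ Γ : C(I, E), p ∘ Γ = γ) ∧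
      ∀ H : C(I × I, X), ∃ Γ : C(I × I, E), p ∘ Γ = H := by
  have h1 : ∀ γ : C(I, X), ∃ Γ : C(I, E), p ∘ Γ = γ := fun γ => by
    obtain ⟨e, he⟩ := hs (γ 0)
    obtain ⟨Γ, h, -⟩ := cov.exists_path_lifts γ e he.symm
    exact ⟨Γ, h⟩
  refine ⟨h1, fun H => ?_⟩
  obtain ⟨Γ, h⟩ := h1 (sL H)
  exact ⟨cov.liftHomotopy H Γ fun a => (congrFun h a).symm, cov.liftHomotopy_lifts _ _ _⟩

variable {Z U : Type} [TopologicalSpace Z] [Group U] (P : Pot Z U)

theorem sec_comp {W W' : Type} [TopologicalSpace W] [TopologicalSpace W'] {f : W → Z}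
    {ℓ : W → U} (h : P.Sec f ℓ) {g : W' → W} (hg : Continuous g) : P.Sec (f ∘ g) (ℓ ∘ g) :=
  fun i w hw => hg.continuousAt.eventually (h i (g w) hw)

theorem sec_unique {W : Type} [TopologicalSpace W] [PreconnectedSpace W] {f : W → Z}
    {ℓ ℓ' : W → U} (h : P.Sec f ℓ) (h' : P.Sec f ℓ') (a b : W) :
    (ℓ a)⁻¹ * ℓ b = (ℓ' a)⁻¹ * ℓ' b := by
  have hlc : IsLocallyConstant fun w => ℓ' w * (ℓ w)⁻¹ := by
    refine (IsLocallyConstant.iff_eventually_eq _).2 fun w => ?_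
    obtain ⟨i, hi⟩ := P.cover (f w)
    filter_upwards [h i w hi, h' i w hi] with w' h1 h2
    calc ℓ' w' * (ℓ w')⁻¹ = (ℓ' w' * (P.c i (f w'))⁻¹) * (ℓ w' * (P.c i (f w'))⁻¹)⁻¹ := by group
      _ = ℓ' w * (ℓ w)⁻¹ := by rw [h1, h2]; group
  have := hlc.apply_eq_of_preconnectedSpace a b
  calc (ℓ a)⁻¹ * ℓ b = (ℓ' a)⁻¹ * (ℓ' a * (ℓ a)⁻¹) * ℓ b := by group
    _ = (ℓ' a)⁻¹ * ℓ' b := by rw [this]; group

/-- the covering space defined by the potentials -/
noncomputable def core [TopologicalSpace U] [DiscreteTopology U] : FiberBundleCore P.ι Z U where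
  baseSet := P.O
  isOpen_baseSet := P.isOpen
  indexAt z := (P.cover z).choose
  mem_baseSet_at z := (P.cover z).choose_spec
  coordChange i j z v := v * (P.c i z * (P.c j z)⁻¹)
  coordChange_self i z _ v := by simp
  continuousOn_coordChange i j := by
    rintro ⟨z, v⟩ ⟨⟨hi, hj⟩, -⟩
    refine ContinuousAt.continuousWithinAt ?_
    refine (continuousAt_const (y := v * (P.c i z * (P.c j z)⁻¹))).congr ?_
    rw [nhds_prod_eq, nhds_discrete U]
    filter_upwards [(P.lc i j z hi hj).prod_mk (eventually_pure.2 (rfl : v = v) :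
      ∀ᶠ v' in pure v, v' = v)] with q hq
    rw [hq.1, hq.2]
  coordChange_comp i j k z _ v := by group

theorem sec_of_lift [TopologicalSpace U] [DiscreteTopology U] {W : Type} [TopologicalSpace W]
    (F : C(W, (core P).TotalSpace)) : ∃ ℓ, P.Sec ((core P).proj ∘ F) ℓ := by
  refine ⟨fun w => (show U from (F w).2) * P.c ((core P).indexAt (F w).1) (F w).1,
    fun i w hw => ?_⟩
  have h1 : ContinuousAt (fun w' => (((core P).localTriv i) (F w')).2) w :=
    continuousAt_snd.comp ((((core P).localTriv i).continuousAt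
      (((core P).mem_localTriv_source i _).2 hw)).comp F.continuous.continuousAt)
  have h2 := h1.tendsto
  rw [nhds_discrete U, tendsto_pure] at h2
  filter_upwards [h2] with w' hw'
  rw [mul_assoc, mul_assoc]
  exact hw'

theorem exists_sec : (∀ γ : C(I, Z), ∃ ℓ, P.Sec γ ℓ) ∧ ∀ H : C(I × I, Z), ∃ ℓ, P.Sec H ℓ := by
  let _ : TopologicalSpace U := ⊥
  have _ : DiscreteTopology U := ⟨rfl⟩
  have cov : IsCoveringMap (core P).proj := FiberBundle.isCoveringMap (F := U) (E := (core P).Fiber)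
  obtain ⟨h1, h2⟩ := lifts cov fun z => ⟨⟨z, (1 : U)⟩, rfl⟩
  refine ⟨fun γ => ?_, fun H => ?_⟩
  · obtain ⟨Γ, h⟩ := h1 γ
    exact h ▸ sec_of_lift P Γ
  · obtain ⟨Γ, h⟩ := h2 H
    exact h ▸ sec_of_lift P Γ

theorem log_unique {ℓ ℓ' : C(I, ℂ)} (h : ∀ s, Complex.exp (ℓ s) = Complex.exp (ℓ' s)) :
    ℓ 1 - ℓ 0 = ℓ' 1 - ℓ' 0 := by
  have h1 : (fun s => ℓ s + (ℓ' 0 - ℓ 0)) = ℓ' := by
    refine Complex.isCoveringMap_exp.eq_of_comp_eq (by fun_prop) ℓ'.continuous ?_ 0 (by ring)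
    funext s
    refine Subtype.ext ?_
    change Complex.exp (ℓ s + (ℓ' 0 - ℓ 0)) = Complex.exp (ℓ' s)
    rw [Complex.exp_add, Complex.exp_sub, h 0, div_self (Complex.exp_ne_zero _), mul_one, h s]
  rw [← congrFun h1 1]
  ring

end PotAux

open PotAux in
theorem potStmt : PotStmt := by
  intro Z U _ _ P
  obtain ⟨h1, h2⟩ := exists_sec P
  choose ℓ hℓ using h1
  have key : ∀ (γ : C(I, Z)) ℓ', P.Sec γ ℓ' → (ℓ γ 0)⁻¹ * ℓ γ 1 = (ℓ' 0)⁻¹ * ℓ' 1 :=
    fun γ ℓ' h => sec_unique P (hℓ γ) h 0 1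
  refine ⟨⟨fun γ => (ℓ γ 0)⁻¹ * ℓ γ 1, fun z => ?_, fun H => ?_⟩,
    fun γ => ⟨⟨ℓ γ, hℓ γ⟩, key γ⟩⟩
  · rw [key _ (fun _ => 1) fun i w _ => Eventually.of_forall fun _ => rfl]
    simp
  · obtain ⟨l, hl⟩ := h2 H
    rw [key (sB H) _ (sec_comp P hl (g := fun s : I => (s, 0)) (by fun_prop)),
      key (sR H) _ (sec_comp P hl (g := fun s : I => (1, s)) (by fun_prop)),
      key (sL H) _ (sec_comp P hl (g := fun s : I => (0, s)) (by fun_prop)),
      key (sT H) _ (sec_comp P hl (g := fun s : I => (s, 1)) (by fun_prop))]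
    simp only [Function.comp_apply]
    group

open PotAux in
theorem logStmt : LogStmt := by
  obtain ⟨h1, h2⟩ := lifts Complex.isCoveringMap_exp
    fun z => ⟨Complex.log z, Subtype.ext (Complex.exp_log z.2)⟩
  choose ℓ hℓ using h1
  have hℓ' : ∀ γ s, Complex.exp (ℓ γ s) = γ s := fun γ s =>
    congrArg Subtype.val (congrFun (hℓ γ) s)
  have key : ∀ (γ : C(I, {z : ℂ // z ≠ 0})) (ℓ' : C(I, ℂ)), (∀ s, Complex.exp (ℓ' s) = γ s) →
      Multiplicative.ofAdd (ℓ γ 1 - ℓ γ 0) = Multiplicative.ofAdd (ℓ' 1 - ℓ' 0) :=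
    fun γ ℓ' h => by rw [log_unique fun s => (hℓ' γ s).trans (h s).symm]
  refine ⟨⟨fun γ => Multiplicative.ofAdd (ℓ γ 1 - ℓ γ 0), fun z => ?_, fun H => ?_⟩,
    fun γ => ⟨⟨ℓ γ, hℓ' γ⟩, key γ⟩⟩
  · rw [key (ContinuousMap.const I z) (ContinuousMap.const I (Complex.log z))
      fun _ => Complex.exp_log z.2]
    simp
  · obtain ⟨l, hl⟩ := h2 H
    have hl' : ∀ q, Complex.exp (l q) = H q := fun q => congrArg Subtype.val (congrFun hl q)
    rw [key (sB H) (sB l) fun _ => hl' _, key (sR H) (sR l) fun _ => hl' _,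
      key (sL H) (sL l) fun _ => hl' _, key (sT H) (sT l) fun _ => hl' _,
      ← ofAdd_add, ← ofAdd_add]
    congr 1
    change l (1, 0) - l (0, 0) + (l (1, 1) - l (1, 0)) = l (0, 1) - l (0, 0) + (l (1, 1) - l (0, 1))
    ring

end Crest.Agent.R197
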