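import Crest.Agent.R197.Heap

/-! Row 197: right-angled Artin groups are residually finite. -/

set_option autoImplicit false

open scoped Classical

namespace Crest.Agent.R197

namespace RF

open Heap

instance (V C : Type) [Finite V] [Finite C] [Zero C] (R : ℕ) : Finite (X V C (· < R)) :=
  Finite.of_injective (fun (h : X V C (· < R)) (p : V × Fin R) => h.1 p.1 p.2) fun h h' e =>
    Subtype.ext (funext fun a => funext fun i => by
      by_cases hi : i < R
      · exact congrFun e (a, ⟨i, hi⟩)
      · rw [h.2 a i hi, h'.2 a i hi])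

variable {V : Type} [Finite V] {Γ : SimpleGraph V} {heap : RA Γ → V → ℕ → ℤ}

lemma cast_eq_zero {m : ℕ} {h : V → ℕ → ℤ} (hb : Bdd h) (hm : mass h < m) (a : V) (i : ℕ) :
    ((h a i : ℤ) : ZMod m) = 0 ↔ h a i = 0 := by
  refine ⟨fun h0 => ?_, fun h0 => by rw [h0, Int.cast_zero]⟩
  rw [ZMod.intCast_zmod_eq_zero_iff_dvd] at h0
  have := natAbs_le_mass hb a i
  exact Int.eq_zero_of_dvd_of_natAbs_lt_natAbs h0 (by simpa using by omega)

lemma key (H : IsHeap Γ heap) (g : RA Γ) : ∃ k, mass (heap g) ≤ k ∧ ∀ m, k < m →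
    (ac Γ (ZMod m) (· < m) g).1 = fun a i => ((heap g a i : ℤ) : ZMod m) := by
  have step : ∀ g a (c : ℤ), (∃ k, mass (heap g) ≤ k ∧ ∀ m, k < m →
      (ac Γ (ZMod m) (· < m) g).1 = fun a i => ((heap g a i : ℤ) : ZMod m)) →
      ∃ k, mass (heap (g * gen Γ a ^ c)) ≤ k ∧ ∀ m, k < m →
        (ac Γ (ZMod m) (· < m) (g * gen Γ a ^ c)).1 =
          fun b i => ((heap (g * gen Γ a ^ c) b i : ℤ) : ZMod m) := by
    rintro g a c ⟨k, hk, h⟩
    refine ⟨k + c.natAbs, (H.mass_mul_le g a c).trans (by omega), fun m hm => ?_⟩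
    have h1 := h m (by omega)
    have hv := H.valid g
    have ht : top Γ a (ac Γ (ZMod m) (· < m) g).1 = top Γ a (heap g) := by
      rw [h1]
      exact top_congr fun b j _ => cast_eq_zero hv.bdd (by omega) b j
    have ht2 : top Γ a (heap g) ≤ mass (heap g) := top_le fun b j _ hj => by
      by_contra hc
      have := hv.lt_mass hc
      omega
    rw [ac_mul, st_pos _ (by rw [ht]; omega), ht, h1, H.mul]
    funext b i
    simp only [bump]
    split_ifs <;> simp
  induction g using RA.induction_right with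
  | h1 => exact ⟨0, by simp [H.one], fun m _ => by rw [ac_one, H.one]; funext a i; simp⟩
  | hm g a ih => simpa using step g a 1 ih
  | hi g a ih => simpa using step g a (-1) ih

end RF

open Heap RF in
theorem rfStmt : RFStmt := by
  intro V _ Γ heap H
  refine Group.residuallyFinite_of_forall_exists_finite_monoidHom.{0} fun g hg => ?_
  obtain ⟨k, hk, h⟩ := key H g
  haveI : Finite (Equiv.Perm (X V (ZMod (k + 1)) (· < k + 1)))ᵐᵒᵖ :=
    Finite.of_equiv _ MulOpposite.opEquiv
  refine ⟨_, inferInstance, inferInstance, act Γ (ZMod (k + 1)) (· < k + 1), fun h1 => hg ?_⟩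
  have h2 := h (k + 1) (by omega)
  rw [ac, h1] at h2
  refine H.eq_one (funext fun a => funext fun i => ?_)
  exact (cast_eq_zero (H.valid g).bdd (by omega) a i).1 (congrFun (congrFun h2 a) i).symm

end Crest.Agent.R197
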