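import Crest.Agent.R197.Salv0

/-! Row 197: exactness of the cubical chain complex of a right-angled Artin group. -/

set_option autoImplicit false
set_option linter.unusedSectionVars false

open scoped Classical

namespace Crest.Agent.R197
namespace SalvP

/-- chains supported on cells of weight `< m` -/
def Low {B : Type} (wt : B → ℕ) (m : ℕ) : Submodule ℤ (B →₀ ℤ) :=
  Finsupp.supported ℤ ℤ {b | wt b < m}

lemma single_mem_low {B : Type} {wt : B → ℕ} {m : ℕ} {b : B} (h : wt b < m) :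
    Finsupp.single b (1 : ℤ) ∈ Low wt m := Finsupp.single_mem_supported _ _ h

lemma exact_of {B M : Type} [AddCommGroup M] (d : (B →₀ ℤ) →ₗ[ℤ] M) (h : M →ₗ[ℤ] (B →₀ ℤ))
    (N : Submodule ℤ (B →₀ ℤ)) (hN : ∀ z ∈ N, d z = 0) (wt : B → ℕ)
    (H : ∀ b, Finsupp.single b 1 - h (d (Finsupp.single b 1)) ∈ N ⊔ Low wt (wt b))
    (z : B →₀ ℤ) (hz : d z = 0) : z ∈ N := by
  obtain ⟨m, hm⟩ : ∃ m, z ∈ Low wt m :=
    ⟨z.support.sup wt + 1, fun b hb => Nat.lt_succ_of_le (Finset.le_sup (f := wt) hb)⟩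
  induction m generalizing z with
  | zero =>
    have : z = 0 := by simpa [Low] using hm
    exact this ▸ N.zero_mem
  | succ m ih =>
    have h1 : Low wt (m + 1) ≤ (N ⊔ Low wt m).comap (LinearMap.id - h ∘ₗ d) := by
      rw [Low, Finsupp.supported_eq_span_single, Submodule.span_le]
      rintro _ ⟨b, hb, rfl⟩
      exact (sup_le_sup_left (Finsupp.supported_mono fun b' (hb' : wt b' < wt b) =>
        lt_of_lt_of_le hb' (Nat.lt_succ_iff.1 hb)) N) (H b)
    have h2 : z ∈ N ⊔ Low wt m := by simpa [hz] using h1 hm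
    obtain ⟨n, hn, z', hz', rfl⟩ := Submodule.mem_sup.1 h2
    exact N.add_mem hn (ih z' (by simpa [hN n hn] using hz) hz')

variable {V : Type} [LinearOrder V] {Γ : SimpleGraph V}

/-- the alternating square -/
noncomputable def sq (g : RA Γ) (a b : V) : RA Γ × Ed Γ →₀ ℤ :=
  if h : a < b ∧ Γ.Adj a b then Finsupp.single (g, ⟨(a, b), h⟩) 1
  else if h : b < a ∧ Γ.Adj b a then -Finsupp.single (g, ⟨(b, a), h⟩) 1 else 0

lemma sq_of_lt (g : RA Γ) {a b : V} (h : a < b ∧ Γ.Adj a b) :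
    sq g a b = Finsupp.single (g, ⟨(a, b), h⟩) 1 := dif_pos h

lemma sq_swap (g : RA Γ) (a b : V) : sq g b a = -sq g a b := by
  unfold sq
  split_ifs with h1 h2 <;> first | exact absurd h1.1 h2.1.asymm | simp

lemma sq_self (g : RA Γ) (a : V) : sq g a a = 0 := by simp [sq]

lemma sd2_sq (g : RA Γ) {a b : V} (h : Γ.Adj a b) : sd2 Γ (sq g a b) =
    (Finsupp.single (g * gen Γ a, b) 1 - Finsupp.single (g, b) 1) -
      (Finsupp.single (g * gen Γ b, a) 1 - Finsupp.single (g, a) 1) := by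
  rcases lt_or_gt_of_ne h.ne with h1 | h1
  · rw [sq_of_lt g ⟨h1, h⟩, sd2_single]
    abel
  · rw [sq_swap, sq_of_lt g ⟨h1, h.symm⟩, map_neg, sd2_single]
    abel

/-- the boundary of the alternating cube -/
noncomputable def dcu (g : RA Γ) (a b c : V) : RA Γ × Ed Γ →₀ ℤ :=
  (sq (g * gen Γ a) b c - sq g b c) - (sq (g * gen Γ b) a c - sq g a c) +
    (sq (g * gen Γ c) a b - sq g a b)

lemma dcu_swap (g : RA Γ) (a b c : V) : dcu g b a c = -dcu g a b c := by
  simp only [dcu, sq_swap _ a b]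
  abel

lemma dcu_swap' (g : RA Γ) (a b c : V) : dcu g a c b = -dcu g a b c := by
  simp only [dcu, sq_swap _ b c]
  abel

lemma dcu_mem (g : RA Γ) {a b c : V} (hab : Γ.Adj a b) (hbc : Γ.Adj b c) (hac : Γ.Adj a c) :
    dcu g a b c ∈ LinearMap.range (sd3 Γ) := by
  have key : ∀ {a b c : V}, Γ.Adj a b → Γ.Adj b c → Γ.Adj a c → a < b → b < c →
      dcu g a b c ∈ LinearMap.range (sd3 Γ) := fun {a b c} hab hbc hac h1 h2 => by
    refine ⟨Finsupp.single (g, ⟨(a, b, c), ⟨h1, hab⟩, ⟨h2, hbc⟩, hac⟩) 1, ?_⟩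
    simp only [sd3_single, dcu, sq_of_lt _ ⟨h1, hab⟩, sq_of_lt _ ⟨h2, hbc⟩,
      sq_of_lt _ ⟨h1.trans h2, hac⟩, Tr.e01, Tr.e02, Tr.e12]
    abel
  have key2 : ∀ {a b c : V}, Γ.Adj a b → Γ.Adj b c → Γ.Adj a c → a < b →
      dcu g a b c ∈ LinearMap.range (sd3 Γ) := fun {a b c} hab hbc hac h1 => by
    rcases lt_or_gt_of_ne hbc.ne with h2 | h2
    · exact key hab hbc hac h1 h2
    · rw [dcu_swap', neg_mem_iff]
      rcases lt_or_gt_of_ne hac.ne with h3 | h3
      · exact key hac hbc.symm hab h3 h2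
      · rw [dcu_swap, neg_mem_iff]
        exact key hac.symm hab hbc.symm h3 h1
  rcases lt_or_gt_of_ne hab.ne with h1 | h1
  · exact key2 hab hbc hac h1
  · rw [dcu_swap, neg_mem_iff]
    exact key2 hab.symm hac hbc h1

variable (heap : RA Γ → V → ℕ → ℤ)

/-- the top entry -/
noncomputable def cc (v : RA Γ) (a : V) : ℤ := heap v a (top Γ a (heap v))
/-- the downward direction -/
noncomputable def dn (v : RA Γ) (a : V) : ℤ := if 0 < cc heap v a then -1 else 1
/-- the shift to the base point -/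
noncomputable def lo (v : RA Γ) (a : V) : ℤ := if 0 < cc heap v a then -1 else 0
/-- the far end of an edge -/
noncomputable def hi (v : RA Γ) (a : V) : ℕ := if 0 ≤ cc heap v a then 1 else 0

lemma dn_dn (v : RA Γ) (a : V) : dn heap v a * dn heap v a = 1 := by
  unfold dn
  split_ifs <;> rfl

lemma flip {M : Type} [AddCommGroup M] (φ : RA Γ → M) (v : RA Γ) (a : V) :
    dn heap v a • (φ (v * gen Γ a ^ lo heap v a * gen Γ a) - φ (v * gen Γ a ^ lo heap v a)) =
      φ (v * gen Γ a ^ dn heap v a) - φ v := by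
  unfold dn lo
  split_ifs <;> simp

/-- oriented edges -/
noncomputable def E (v : RA Γ) (a : V) : RA Γ × V →₀ ℤ :=
  dn heap v a • Finsupp.single (v * gen Γ a ^ lo heap v a, a) 1

/-- oriented squares -/
noncomputable def S (v : RA Γ) (a b : V) : RA Γ × Ed Γ →₀ ℤ :=
  dn heap v a • dn heap v b • sq (v * gen Γ a ^ lo heap v a * gen Γ b ^ lo heap v b) a b

lemma d1_E (v : RA Γ) (a : V) : d1 (gen Γ) (E heap v a) =
    Finsupp.single (v * gen Γ a ^ dn heap v a) 1 - Finsupp.single v 1 := by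
  rw [E, map_smul, d1_single1]
  exact flip heap (fun w => Finsupp.single w (1 : ℤ)) v a

lemma rc {a b : V} (h : Γ.Adj a b) (g : RA Γ) (k l : ℤ) :
    g * gen Γ a ^ k * gen Γ b ^ l = g * gen Γ b ^ l * gen Γ a ^ k :=
  ((gen_comm h).zpow_zpow k l).right_comm g

lemma rc' {a b : V} (h : Γ.Adj a b) (g : RA Γ) (k : ℤ) :
    g * gen Γ a ^ k * gen Γ b = g * gen Γ b * gen Γ a ^ k :=
  ((gen_comm h).zpow_left k).right_comm g

lemma S_self (v : RA Γ) (a : V) : S heap v a a = 0 := by simp [S, sq_self]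

lemma S_swap (v : RA Γ) {a b : V} (h : Γ.Adj a b) : S heap v b a = -S heap v a b := by
  rw [S, S, sq_swap, rc h, smul_comm]
  simp

variable {heap} (H : IsHeap Γ heap)
include H

lemma cc_self (v : RA Γ) (a : V) (k : ℤ) : cc heap (v * gen Γ a ^ k) a = cc heap v a + k := by
  rw [cc, H.top_mul v (not_blk_self a), H.mul, bump_self, cc]

lemma cc_adj (v : RA Γ) {a b : V} (h : Γ.Adj a b) (k : ℤ) :
    cc heap (v * gen Γ a ^ k) b = cc heap v b := by
  rw [cc, H.top_mul v (not_blk_of_adj h.symm), H.mul, bump_of_ne_left h.ne', cc]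

lemma dn_adj (v : RA Γ) {a b : V} (h : Γ.Adj a b) (k : ℤ) :
    dn heap (v * gen Γ a ^ k) b = dn heap v b := by rw [dn, cc_adj H v h, dn]

lemma lo_adj (v : RA Γ) {a b : V} (h : Γ.Adj a b) (k : ℤ) :
    lo heap (v * gen Γ a ^ k) b = lo heap v b := by rw [lo, cc_adj H v h, lo]

lemma hi_adj (v : RA Γ) {a b : V} (h : Γ.Adj a b) (k : ℤ) :
    hi heap (v * gen Γ a ^ k) b = hi heap v b := by rw [hi, cc_adj H v h, hi]

lemma adj_of {v : RA Γ} {a b : V} (ha : cc heap v a ≠ 0) (hb : cc heap v b ≠ 0) (h : a ≠ b) :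
    Γ.Adj a b := (not_blk_iff.1 ((H.valid v).not_blk_of_top ha hb)).resolve_left h

lemma sd2_S (v : RA Γ) {a b : V} (h : Γ.Adj a b) : sd2 Γ (S heap v a b) =
    (E heap (v * gen Γ a ^ dn heap v a) b - E heap v b) -
      (E heap (v * gen Γ b ^ dn heap v b) a - E heap v a) := by
  have h1 := flip heap (fun w => Finsupp.single (w * gen Γ b ^ lo heap v b, b) (1 : ℤ)) v a
  have h2 := flip heap (fun w => Finsupp.single (w * gen Γ a ^ lo heap v a, a) (1 : ℤ)) v b
  simp only [E, dn_adj H v h, lo_adj H v h, dn_adj H v h.symm, lo_adj H v h.symm, ← smul_sub,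
    ← h1, ← h2]
  rw [S, map_smul, map_smul, sd2_sq _ h, smul_comm (dn heap v b), ← smul_sub, ← smul_sub,
    rc' h.symm, rc h v, rc' h]

lemma cube_mem (v : RA Γ) {a b c : V} (hab : Γ.Adj a b) (hbc : Γ.Adj b c) (hac : Γ.Adj a c) :
    (S heap (v * gen Γ a ^ dn heap v a) b c - S heap v b c) -
      (S heap (v * gen Γ b ^ dn heap v b) a c - S heap v a c) +
      (S heap (v * gen Γ c ^ dn heap v c) a b - S heap v a b) ∈ LinearMap.range (sd3 Γ) := by
  have h1 := flip heap (fun w => sq (w * gen Γ b ^ lo heap v b * gen Γ c ^ lo heap v c) b c) v a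
  have h2 := flip heap (fun w => sq (w * gen Γ a ^ lo heap v a * gen Γ c ^ lo heap v c) a c) v b
  have h3 := flip heap (fun w => sq (w * gen Γ a ^ lo heap v a * gen Γ b ^ lo heap v b) a b) v c
  simp only [S, dn_adj H v hab, lo_adj H v hab, dn_adj H v hab.symm, lo_adj H v hab.symm,
    dn_adj H v hbc, lo_adj H v hbc, dn_adj H v hbc.symm, lo_adj H v hbc.symm,
    dn_adj H v hac, lo_adj H v hac, dn_adj H v hac.symm, lo_adj H v hac.symm, ← smul_sub,
    ← h1, ← h2, ← h3]
  convert Submodule.smul_mem _ (dn heap v a * dn heap v b * dn heap v c) (dcu_mem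
    (v * gen Γ a ^ lo heap v a * gen Γ b ^ lo heap v b * gen Γ c ^ lo heap v c) hab hbc hac) using 1
  rw [dcu, ← rc' hab.symm, ← rc' hac.symm, ← rc' hab, rc hab.symm v, ← rc' hbc.symm, ← rc' hac,
    ← rc' hbc, rc hac.symm v, rc hbc.symm]
  module

lemma far_lo {v : RA Γ} {a : V} (h : cc heap v a ≠ 0) :
    v * gen Γ a ^ lo heap v a * gen Γ a ^ (hi heap (v * gen Γ a ^ lo heap v a) a : ℤ) = v := by
  rw [hi, cc_self H, lo]
  split_ifs <;> first | omega | simp

lemma far (g : RA Γ) (a : V) : ∃ v, cc heap v a ≠ 0 ∧ v * gen Γ a ^ lo heap v a = g := by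
  refine ⟨g * gen Γ a ^ (hi heap g a : ℤ), ?_, ?_⟩
  · rw [cc_self H, hi]
    split_ifs <;> omega
  · rw [lo, cc_self H, hi]
    split_ifs <;> first | omega | simp

variable [Finite V]

lemma mass_dn {v : RA Γ} {a : V} (h : cc heap v a ≠ 0) :
    mass (heap (v * gen Γ a ^ dn heap v a)) + 1 = mass (heap v) := by
  have := mass_bump (H.valid v).bdd a (top Γ a (heap v)) (dn heap v a)
  rw [H.mul]
  unfold dn cc at *
  split_ifs at * <;> omega

lemma mass_lo {v : RA Γ} {a : V} (h : cc heap v a ≠ 0) :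
    mass (heap (v * gen Γ a ^ lo heap v a)) + hi heap (v * gen Γ a ^ lo heap v a) a =
      mass (heap v) := by
  have := mass_bump (H.valid v).bdd a (top Γ a (heap v)) (lo heap v a)
  rw [hi, cc_self H, H.mul]
  unfold lo cc at *
  split_ifs at * <;> omega

lemma mass_lo2 {v : RA Γ} {a b : V} (ha : cc heap v a ≠ 0) (hb : cc heap v b ≠ 0)
    (h : Γ.Adj a b) :
    mass (heap (v * gen Γ a ^ lo heap v a * gen Γ b ^ lo heap v b)) +
      hi heap (v * gen Γ a ^ lo heap v a * gen Γ b ^ lo heap v b) a +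
      hi heap (v * gen Γ a ^ lo heap v a * gen Γ b ^ lo heap v b) b = mass (heap v) := by
  have h1 := mass_lo H ha
  have h2 := mass_lo H (v := v * gen Γ a ^ lo heap v a) (a := b) (by rwa [cc_adj H v h])
  rw [lo_adj H v h] at h2
  rw [hi_adj H _ h.symm]
  omega

lemma E_low {v : RA Γ} {a : V} (h : cc heap v a ≠ 0) {m : ℕ} (hm : mass (heap v) < m) :
    E heap v a ∈ Low (fun p => mass (heap p.1) + hi heap p.1 p.2) m :=
  Submodule.smul_mem _ _ (single_mem_low (by simpa only [mass_lo H h] using hm))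

lemma S_low {v : RA Γ} {a b : V} (ha : cc heap v a ≠ 0) (hb : cc heap v b ≠ 0) {m : ℕ}
    (hm : mass (heap v) < m) :
    S heap v a b ∈ Low (fun p => mass (heap p.1) + hi heap p.1 p.2.1.1 + hi heap p.1 p.2.1.2) m := by
  refine Submodule.smul_mem _ _ (Submodule.smul_mem _ _ ?_)
  unfold sq
  split_ifs with h1 h2
  · exact single_mem_low (by simpa only [mass_lo2 H ha hb h1.2] using hm)
  · refine neg_mem (single_mem_low ?_)
    have := mass_lo2 H ha hb h2.2.symm
    dsimp only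
    omega
  · exact zero_mem _

theorem salv [Nonempty V] : Salv Γ := by
  let o : RA Γ → V := fun v => Classical.epsilon fun b => cc heap v b ≠ 0
  have ho : ∀ {v a}, cc heap v a ≠ 0 → cc heap v (o v) ≠ 0 := fun {v a} h =>
    Classical.epsilon_spec (p := fun b => cc heap v b ≠ 0) ⟨a, h⟩
  constructor
  · refine exact_of (d1 (gen Γ)) (Finsupp.linearCombination ℤ fun v =>
      if cc heap v (o v) ≠ 0 then -E heap v (o v) else 0) (LinearMap.range (sd2 Γ))
      (by rintro _ ⟨y, rfl⟩; exact d1_sd2 Γ y) (fun p => mass (heap p.1) + hi heap p.1 p.2) ?_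
    rintro ⟨g, a⟩
    obtain ⟨v, ha, rfl⟩ := far H g a
    have e : Finsupp.single (v * gen Γ a ^ lo heap v a, a) (1 : ℤ) = dn heap v a • E heap v a := by
      rw [E, smul_smul, dn_dn, one_smul]
    have hm := mass_dn H ha
    simp only [mass_lo H ha]
    rw [e, map_smul, map_smul, ← smul_sub, d1_E, map_sub, Finsupp.linearCombination_single,
      Finsupp.linearCombination_single, one_smul, one_smul, if_pos (ho ha)]
    refine Submodule.smul_mem _ _ ?_
    rw [sub_sub_eq_add_sub, ← sub_eq_add_neg]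
    refine sub_mem ?_ (Submodule.mem_sup_right ?_)
    · by_cases h : o v = a
      · simp [h]
      · have h1 := adj_of H (ho ha) ha h
        have h2 := mass_dn H (ho ha)
        have e2 : E heap v a - E heap v (o v) = -sd2 Γ (S heap v (o v) a) +
            (E heap (v * gen Γ (o v) ^ dn heap v (o v)) a -
              E heap (v * gen Γ a ^ dn heap v a) (o v)) := by
          rw [sd2_S H v h1]
          abel
        rw [e2]
        exact Submodule.add_mem_sup (neg_mem ⟨_, rfl⟩)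
          (sub_mem (E_low H (by rwa [cc_adj H v h1]) (by omega))
            (E_low H (by rw [cc_adj H v h1.symm]; exact ho ha) (by omega)))
    · split_ifs with h
      · exact neg_mem (E_low H h (by omega))
      · exact zero_mem _
  · let h1 : (RA Γ × V →₀ ℤ) →ₗ[ℤ] (RA Γ × Ed Γ →₀ ℤ) := Finsupp.linearCombination ℤ fun p =>
      dn heap (p.1 * gen Γ p.2 ^ (hi heap p.1 p.2 : ℤ)) p.2 •
        -S heap (p.1 * gen Γ p.2 ^ (hi heap p.1 p.2 : ℤ))
          (o (p.1 * gen Γ p.2 ^ (hi heap p.1 p.2 : ℤ))) p.2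
    have hE : ∀ {v a}, cc heap v a ≠ 0 → h1 (E heap v a) = -S heap v (o v) a := fun {v a} h => by
      simp only [h1, E, map_smul, Finsupp.linearCombination_single, one_smul, far_lo H h,
        smul_smul, dn_dn, one_mul]
    refine exact_of (sd2 Γ) h1 (LinearMap.range (sd3 Γ))
      (by rintro _ ⟨y, rfl⟩; exact sd2_sd3 Γ y)
      (fun p => mass (heap p.1) + hi heap p.1 p.2.1.1 + hi heap p.1 p.2.1.2) ?_
    rintro ⟨g, ⟨a, b⟩, hab⟩
    obtain ⟨w, hb, rfl⟩ := far H g b
    obtain ⟨v, ha, rfl⟩ := far H w a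
    have h := hab.2
    dsimp only at h
    rw [cc_adj H v h] at hb
    simp only [lo_adj H v h, mass_lo2 H ha hb h]
    have e : Finsupp.single (v * gen Γ a ^ lo heap v a * gen Γ b ^ lo heap v b,
        (⟨(a, b), hab⟩ : Ed Γ)) (1 : ℤ) = dn heap v b • dn heap v a • S heap v a b := by
      rw [S, smul_smul (dn heap v a), dn_dn, one_smul, smul_smul, dn_dn, one_smul, sq_of_lt _ hab]
    have ma := mass_dn H ha
    have mb := mass_dn H hb
    have mo := mass_dn H (ho ha)
    have ha' : cc heap (v * gen Γ b ^ dn heap v b) a ≠ 0 := by rwa [cc_adj H v h.symm]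
    have hb' : cc heap (v * gen Γ a ^ dn heap v a) b ≠ 0 := by rwa [cc_adj H v h]
    rw [e, map_smul, map_smul, map_smul, map_smul, ← smul_sub, ← smul_sub, sd2_S H v h, map_sub,
      map_sub, map_sub, hE ha, hE hb, hE ha', hE hb']
    refine Submodule.smul_mem _ _ (Submodule.smul_mem _ _ ?_)
    have e2 : ∀ x y z s t : RA Γ × Ed Γ →₀ ℤ, x - (-s - -y - (-t - -z)) = (x - y + z) + (s - t) :=
      fun x y z s t => by abel
    rw [e2]
    refine add_mem ?_ (Submodule.mem_sup_right (sub_mem (S_low H (ho hb') hb' (by omega))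
      (S_low H (ho ha') ha' (by omega))))
    by_cases k1 : o v = a
    · simp [k1, S_self]
    by_cases k2 : o v = b
    · simp [k2, S_self, S_swap heap v h]
    have l1 := adj_of H (ho ha) ha k1
    have l2 := adj_of H (ho ha) hb k2
    have e3 : ∀ x y z s t u : RA Γ × Ed Γ →₀ ℤ,
        x - y + z = -((s - x) - (t - y) + (u - z)) + (s - t + u) := fun x y z s t u => by abel
    rw [e3 _ _ _ (S heap (v * gen Γ (o v) ^ dn heap v (o v)) a b)
      (S heap (v * gen Γ a ^ dn heap v a) (o v) b) (S heap (v * gen Γ b ^ dn heap v b) (o v) a)]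
    exact Submodule.add_mem_sup (neg_mem (cube_mem H v l1 h l2)) (add_mem (sub_mem
      (S_low H (by rwa [cc_adj H v l1]) (by rwa [cc_adj H v l2]) (by omega))
      (S_low H (by rw [cc_adj H v l1.symm]; exact ho ha) hb' (by omega)))
      (S_low H (by rw [cc_adj H v l2.symm]; exact ho ha) ha' (by omega)))

end SalvP

theorem salvStmt : SalvStmt := by
  intro V _ _ Γ heap H
  cases isEmpty_or_nonempty V
  · exact ⟨fun z _ => ⟨0, Subsingleton.elim _ _⟩, fun z _ => ⟨0, Subsingleton.elim _ _⟩⟩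
  · exact SalvP.salv H

end Crest.Agent.R197
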