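import Crest.Agent.R197.Heap0

/-! Row 197: the cubical boundaries form a chain complex. -/

set_option autoImplicit false

open scoped Classical

namespace Crest.Agent.R197

variable {V : Type} [LinearOrder V] (Γ : SimpleGraph V)

theorem d1_single1 {L G : Type} [Group G] (lab : L → G) (g : G) (a : L) :
    d1 lab (Finsupp.single (g, a) 1) = Finsupp.single (g * lab a) 1 - Finsupp.single g 1 := by
  simp [d1]

theorem sd2_single (g : RA Γ) (e : Ed Γ) :
    sd2 Γ (Finsupp.single (g, e) 1) =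
      Finsupp.single (g * gen Γ e.1.1, e.1.2) 1 - Finsupp.single (g, e.1.2) 1 -
        Finsupp.single (g * gen Γ e.1.2, e.1.1) 1 + Finsupp.single (g, e.1.1) 1 := by
  simp [sd2]

theorem sd3_single (g : RA Γ) (t : Tr Γ) :
    sd3 Γ (Finsupp.single (g, t) 1) =
      Finsupp.single (g * gen Γ t.1.1, t.e12) 1 - Finsupp.single (g, t.e12) 1 -
        Finsupp.single (g * gen Γ t.1.2.1, t.e02) 1 + Finsupp.single (g, t.e02) 1 +
        Finsupp.single (g * gen Γ t.1.2.2, t.e01) 1 - Finsupp.single (g, t.e01) 1 := by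
  simp [sd3]

theorem d1_sd2 (y : RA Γ × Ed Γ →₀ ℤ) : d1 (gen Γ) (sd2 Γ y) = 0 := by
  have : d1 (gen Γ) ∘ₗ sd2 Γ = 0 := by
    refine Finsupp.lhom_ext' fun p => LinearMap.ext_ring ?_
    obtain ⟨g, e⟩ := p
    simp only [LinearMap.comp_apply, Finsupp.lsingle_apply, LinearMap.zero_apply, sd2_single,
      map_add, map_sub, d1_single1, mul_assoc, (gen_comm e.2.2).eq]
    abel
  exact LinearMap.congr_fun this y

theorem sd2_sd3 (y : RA Γ × Tr Γ →₀ ℤ) : sd2 Γ (sd3 Γ y) = 0 := by
  have : sd2 Γ ∘ₗ sd3 Γ = 0 := by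
    refine Finsupp.lhom_ext' fun p => LinearMap.ext_ring ?_
    obtain ⟨g, t⟩ := p
    simp only [LinearMap.comp_apply, Finsupp.lsingle_apply, LinearMap.zero_apply, sd3_single,
      map_add, map_sub, sd2_single, mul_assoc, Tr.e01, Tr.e02, Tr.e12, (gen_comm t.2.1.2).eq,
      (gen_comm t.2.2.1.2).eq, (gen_comm t.2.2.2).eq]
    abel
  exact LinearMap.congr_fun this y

end Crest.Agent.R197
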