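import Crest.Agent.R197.Basic
import Crest.Agent.R197.Heap0

/-!
Row 197: small, almost flat `S³`-connections on finite quotients of the Bestvina–Brady group.
-/

set_option autoImplicit false
set_option linter.unusedVariables false
set_option linter.unusedSectionVars false

open scoped Quaternion Classical

namespace Crest.Agent.R197

namespace SmallAux

lemma exists_inj {G : Type} [Group G] [Group.ResiduallyFinite G] {B : Set G} (hB : B.Finite) :
    ∃ (Q : Type) (_ : Group Q) (_ : Finite Q) (φ : G →* Q), Set.InjOn φ B := by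
  have := hB.to_subtype
  let I := {p : B × B // p.1 ≠ p.2}
  choose H hH using fun p : I => Group.exists_finiteIndexNormalSubgroup_of_residuallyFinite
    (p.1.1 : G) p.1.2 fun h => p.2 (Subtype.ext h)
  refine ⟨∀ p : I, G ⧸ (H p).toSubgroup, inferInstance, inferInstance,
    MonoidHom.pi fun p => QuotientGroup.mk' _, fun x hx y hy e => ?_⟩
  by_contra hne
  exact hH ⟨(⟨x, hx⟩, ⟨y, hy⟩), fun h => hne (congrArg Subtype.val h)⟩ (congrFun e _)

/-! ### normalisation -/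

/-- the unit quaternion in the direction of `v` -/
noncomputable def N (v : ℍ[ℝ]) : S3 :=
  if h : v = 0 then 1 else ⟨‖v‖⁻¹ • v, by
    have h1 : ‖‖v‖⁻¹ • v‖ = 1 := by
      rw [norm_smul, norm_inv, norm_norm, inv_mul_cancel₀ (norm_ne_zero_iff.mpr h)]
    have h2 : Quaternion.normSq (‖v‖⁻¹ • v) = 1 := by
      rw [Quaternion.normSq_eq_norm_mul_self, h1, one_mul]
    rw [Unitary.mem_iff, Quaternion.star_mul_self, Quaternion.self_mul_star, h2]
    simp⟩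

lemma N_coe {v : ℍ[ℝ]} (h : v ≠ 0) : (N v : ℍ[ℝ]) = ‖v‖⁻¹ • v := by simp [N, h]

lemma smul_N (v : ℍ[ℝ]) : ‖v‖ • (N v : ℍ[ℝ]) = v := by
  by_cases h : v = 0
  · simp [h]
  · rw [N_coe h, smul_inv_smul₀ (norm_ne_zero_iff.mpr h)]

lemma N_mul {v : ℍ[ℝ]} (h : v ≠ 0) (q : S3) : N (v * q) = N v * q := by
  have hq : (q : ℍ[ℝ]) ≠ 0 := norm_ne_zero_iff.mp (by rw [S3.norm_coe]; exact one_ne_zero)
  ext1
  rw [Submonoid.coe_mul, N_coe h, N_coe (mul_ne_zero h hq), norm_mul, S3.norm_coe, mul_one,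
    smul_mul_assoc]

lemma norm_N_sub (u v : ℍ[ℝ]) : ‖u‖ * ‖(N u : ℍ[ℝ]) - N v‖ ≤ 2 * ‖u - v‖ := by
  have e : ‖u‖ • ((N u : ℍ[ℝ]) - N v) = (u - v) + (‖v‖ - ‖u‖) • (N v : ℍ[ℝ]) := by
    rw [smul_sub, sub_smul, smul_N, smul_N]
    abel
  have := congrArg norm e
  rw [norm_smul, norm_norm] at this
  rw [this]
  refine (norm_add_le _ _).trans ?_
  rw [norm_smul, S3.norm_coe, mul_one, Real.norm_eq_abs, abs_sub_comm]
  linarith [abs_norm_sub_norm_le u v]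

/-! ### weights -/

variable {V : Type} (Γ : SimpleGraph V)

/-- the position `(a, i)` lies above the position `(b, 0)` -/
inductive Below (h : V → ℕ → ℤ) (b : V) : V → ℕ → Prop
  | base : Below h b b 0
  | step {a a' : V} {i j : ℕ} : blk Γ a a' → j < i → h a' j ≠ 0 → Below h b a' j → Below h b a i

/-- the mass above `(b, 0)` -/
noncomputable def w (h : V → ℕ → ℤ) (b : V) : ℕ :=
  ∑ᶠ p : V × ℕ, if Below Γ h b p.1 p.2 then (h p.1 p.2).natAbs else 0

variable {Γ}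

lemma below_root {h : V → ℕ → ℤ} {b a : V} {i : ℕ} (H : Below Γ h b a i) (hi : h a i ≠ 0) :
    h b 0 ≠ 0 := by
  induction H with
  | base => exact hi
  | step _ _ h3 _ ih => exact ih h3

lemma root_of_w {h : V → ℕ → ℤ} {b : V} (H : w Γ h b ≠ 0) : h b 0 ≠ 0 := by
  by_contra hc
  refine H (finsum_eq_zero_of_forall_eq_zero fun p => ?_)
  split_ifs with hp
  · by_contra h'
    exact below_root hp (Int.natAbs_ne_zero.mp h') hc
  · rfl

lemma exists_root {h : V → ℕ → ℤ} (hv : Valid Γ h) (i : ℕ) (a : V) (hi : h a i ≠ 0) :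
    ∃ b, Below Γ h b a i := by
  induction i generalizing a with
  | zero => exact ⟨a, .base⟩
  | succ i ih =>
    obtain ⟨a', h1, h2⟩ := hv.sup a i hi
    obtain ⟨b, hb⟩ := ih a' h2
    exact ⟨b, .step h1 (Nat.lt_succ_self i) h2 hb⟩

lemma mass_le [Fintype V] {h : V → ℕ → ℤ} (hv : Valid Γ h) : mass h ≤ ∑ b, w Γ h b := by
  have hfin := hv.bdd.finite_support
  have e : ∀ b, w Γ h b = ∑ p ∈ hfin.toFinset,
      if Below Γ h b p.1 p.2 then (h p.1 p.2).natAbs else 0 := fun b =>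
    finsum_eq_sum_of_support_subset _ fun p hp => by
      by_contra hc
      simp only [Set.Finite.coe_toFinset, Set.mem_ofPred_eq, not_not] at hc
      simp [hc] at hp
  rw [mass, finsum_eq_sum_of_support_subset (s := hfin.toFinset) _
    (by intro p hp; simpa using hp)]
  simp only [e]
  rw [Finset.sum_comm]
  refine Finset.sum_le_sum fun p hp => ?_
  obtain ⟨b, hb⟩ := exists_root hv p.2 p.1 (by simpa using hp)
  exact le_trans (by rw [if_pos hb]) (Finset.single_le_sum (f := fun b =>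
    if Below Γ h b p.1 p.2 then (h p.1 p.2).natAbs else 0) (fun _ _ => Nat.zero_le _)
    (Finset.mem_univ b))

lemma below_congr {h h' : V → ℕ → ℤ} {a : V} {t : ℕ}
    (hag : ∀ e j, ¬ (e = a ∧ j = t) → h' e j = h e j)
    (htop : ∀ e j, blk Γ a e → t ≤ j → h e j = 0) {b a' : V} {i : ℕ} (H : Below Γ h b a' i)
    (hi : h a' i ≠ 0 ∨ a' = a) : Below Γ h' b a' i := by
  induction H with
  | base => exact .base
  | step h1 h2 h3 _ ih =>
    refine .step h1 h2 ?_ (ih (Or.inl h3))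
    rw [hag]
    · exact h3
    · rintro ⟨rfl, rfl⟩
      rcases hi with hi | rfl
      · exact hi (htop _ _ h1.symm h2.le)
      · exact not_blk_self _ h1

lemma w_bump [Finite V] {h : V → ℕ → ℤ} (hv : Valid Γ h) (a : V) (c : ℤ) (b : V) :
    |(w Γ (bump h a (top Γ a h) c) b : ℝ) - w Γ h b| ≤ |(c : ℝ)| := by
  have key := finsum_bump hv.bdd (fun a' i z => if Below Γ h b a' i then z.natAbs else 0)
    (fun _ _ => by simp) a (top Γ a h) c
  have e : w Γ (bump h a (top Γ a h) c) b = ∑ᶠ p : V × ℕ,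
      if Below Γ h b p.1 p.2 then (bump h a (top Γ a h) c p.1 p.2).natAbs else 0 := by
    refine finsum_congr fun p => ?_
    by_cases hp : bump h a (top Γ a h) c p.1 p.2 = 0
    · simp [hp]
    · congr 1
      refine propext ⟨fun H => below_congr (a := a) (t := top Γ a h)
        (fun e j hne => (bump_of_ne hne).symm) (fun e j he hj => ?_) H (Or.inl hp),
        fun H => below_congr (fun e j hne => bump_of_ne hne)
          (fun e j he hj => top_spec hv.bdd he hj) H ?_⟩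
      · rw [bump_of_ne_left he.1.symm]
        exact top_spec hv.bdd he hj
      · by_cases ha : p.1 = a
        · exact Or.inr ha
        · exact Or.inl (by rwa [bump_of_ne_left ha] at hp)
  rw [← e] at key
  change _ = w Γ h b + _ at key
  have : |(w Γ (bump h a (top Γ a h) c) b : ℤ) - w Γ h b| ≤ |c| := by
    rw [Int.abs_eq_natAbs, Int.abs_eq_natAbs]
    split_ifs at key <;> omega
  exact_mod_cast this

/-! ### cliques -/

variable (Γ) in
/-- pairwise non-blocking sets -/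
def Clq (A : Set V) : Prop := ∀ a ∈ A, ∀ b ∈ A, ¬ blk Γ a b

variable (Γ) in
/-- the bottom clique -/
def Cl (h : V → ℕ → ℤ) (A : Set V) : Set V := {b | h b 0 ≠ 0 ∨ (b ∈ A ∧ top Γ b h = 0)}

lemma Cl_clq {h : V → ℕ → ℤ} (hv : Valid Γ h) {A : Set V} (hA : Clq Γ A) : Clq Γ (Cl Γ h A) := by
  rintro a (ha | ha) b (hb | hb) hab
  · exact hb (hv.clq a b 0 hab ha)
  · exact ha (top_spec hv.bdd hab.symm hb.2.le)
  · exact hb (top_spec hv.bdd hab ha.2.le)
  · exact hA a ha.1 b hb.1 hab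

variable {heap : RA Γ → V → ℕ → ℤ}

lemma Cl_mul (H : IsHeap Γ heap) {A : Set V} (hA : Clq Γ A) (g : RA Γ) {a : V} (ha : a ∈ A)
    (c : ℤ) : Cl Γ (heap (g * gen Γ a ^ c)) A ⊆ Cl Γ (heap g) A := by
  rintro b (hb | hb)
  · rw [H.mul] at hb
    by_cases h : b = a ∧ 0 = top Γ a (heap g)
    · exact Or.inr ⟨h.1 ▸ ha, h.1 ▸ h.2.symm⟩
    · exact Or.inl (by rwa [bump_of_ne h] at hb)
  · exact Or.inr ⟨hb.1, by rw [← H.top_mul g (hA b hb.1 a ha) c, hb.2]⟩

lemma edge_eq (g : RA Γ) (a b : V) :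
    g * ((gen Γ a)⁻¹ * gen Γ b) = g * gen Γ a ^ (-1 : ℤ) * gen Γ b ^ (1 : ℤ) := by
  simp [mul_assoc]

lemma Cl_edge (H : IsHeap Γ heap) {A : Set V} (hA : Clq Γ A) (g : RA Γ) {a b : V} (ha : a ∈ A)
    (hb : b ∈ A) : Cl Γ (heap (g * ((gen Γ a)⁻¹ * gen Γ b))) A ⊆ Cl Γ (heap g) A := by
  rw [edge_eq]
  exact (Cl_mul H hA _ hb _).trans (Cl_mul H hA _ ha _)

lemma Cl_one (H : IsHeap Γ heap) (A : Set V) : Cl Γ (heap 1) A ⊆ A := by
  rintro b (hb | hb)
  · simp [H.one] at hb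
  · exact hb.1

lemma clq_pair {a b : V} (h : Γ.Adj a b) : Clq Γ {a, b} := by
  rintro x (rfl | rfl) y (rfl | rfl)
  exacts [not_blk_self _, not_blk_of_adj h, not_blk_of_adj h.symm, not_blk_self _]

variable [Fintype V] [Nonempty V]

lemma mass_edge (H : IsHeap Γ heap) (g : RA Γ) (a b : V) :
    mass (heap (g * ((gen Γ a)⁻¹ * gen Γ b))) ≤ mass (heap g) + 2 := by
  rw [← mul_assoc]
  exact (H.mass_mul_gen_le _ _).trans (Nat.succ_le_succ (H.mass_mul_gen_inv_le _ _))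

lemma mass_edge' (H : IsHeap Γ heap) (g : RA Γ) (a b : V) :
    mass (heap g) ≤ mass (heap (g * ((gen Γ a)⁻¹ * gen Γ b))) + 2 := by
  have := mass_edge H (g * ((gen Γ a)⁻¹ * gen Γ b)) b a
  simpa [mul_assoc] using this

lemma w_edge (H : IsHeap Γ heap) (g : RA Γ) (a b e : V) :
    |(w Γ (heap (g * ((gen Γ a)⁻¹ * gen Γ b))) e : ℝ) - w Γ (heap g) e| ≤ 2 := by
  have h1 := w_bump (H.valid g) a (-1) e
  have h2 := w_bump (H.valid (g * gen Γ a ^ (-1 : ℤ))) b 1 e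
  rw [← H.mul] at h1 h2
  rw [edge_eq]
  norm_num at h1 h2 ⊢
  rw [abs_le] at *
  constructor <;> linarith [h1.1, h1.2, h2.1, h2.2]

/-! ### the connection -/

variable (Γ) in
/-- the heaviest root -/
noncomputable def d (h : V → ℕ → ℤ) : V := (Finite.exists_max (w Γ h)).choose

lemma mass_le_d {h : V → ℕ → ℤ} (hv : Valid Γ h) :
    mass h ≤ Fintype.card V * w Γ h (d Γ h) := by
  refine (mass_le hv).trans ?_
  have := Finset.sum_le_card_nsmul Finset.univ (w Γ h) (w Γ h (d Γ h))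
    fun b _ => (Finite.exists_max (w Γ h)).choose_spec b
  simpa using this

lemma d_mem {h : V → ℕ → ℤ} (hv : Valid Γ h) (h0 : 0 < mass h) (A : Set V) : d Γ h ∈ Cl Γ h A :=
  Or.inl (root_of_w fun h' => by
    have := mass_le_d hv
    rw [h', mul_zero] at this
    omega)

variable (Γ) in
/-- the weighted sum in the gauge `e` -/
noncomputable def u (ρ : V → V → S3) (h : V → ℕ → ℤ) (e : V) : ℍ[ℝ] :=
  ∑ b, (w Γ h b : ℝ) • (ρ b e : ℍ[ℝ])

variable (Γ) in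
/-- the frame -/
noncomputable def fr (ρ : V → V → S3) (h : V → ℕ → ℤ) : S3 := N (u Γ ρ h (d Γ h))

variable (Γ) in
/-- the connection -/
noncomputable def U (ρ : V → V → S3) (h h' : V → ℕ → ℤ) : S3 :=
  fr Γ ρ h * ρ (d Γ h) (d Γ h') * (fr Γ ρ h')⁻¹

variable [LinearOrder V] {ρ : V → V → S3}

lemma u_mul (hρ : Coc Γ ρ) {C : Set V} (hC : Clq Γ C) {h : V → ℕ → ℤ} (hh : Cl Γ h ∅ ⊆ C)
    {e e' : V} (he : e ∈ C) (he' : e' ∈ C) : u Γ ρ h e * ρ e e' = u Γ ρ h e' := by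
  rw [u, u, Finset.sum_mul]
  refine Finset.sum_congr rfl fun b _ => ?_
  by_cases hb : w Γ h b = 0
  · simp [hb]
  · have hb' : b ∈ C := hh (Or.inl (root_of_w hb))
    rw [smul_mul_assoc, ← Submonoid.coe_mul, hρ.mul b e e' (hC _ hb' _ he) (hC _ he _ he')
      (hC _ hb' _ he')]

lemma le_norm_u (hρ : Coc Γ ρ) {h : V → ℕ → ℤ} (hv : Valid Γ h) (h0 : 0 < mass h) :
    (mass h : ℝ) ≤ Fintype.card V * ‖u Γ ρ h (d Γ h)‖ := by
  have h1 : (w Γ h (d Γ h) : ℝ) ≤ (u Γ ρ h (d Γ h)).re := by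
    have e : (u Γ ρ h (d Γ h)).re = ∑ b, (w Γ h b : ℝ) * (ρ b (d Γ h) : ℍ[ℝ]).re := by
      rw [u]
      exact (map_sum (QuaternionAlgebra.reₗ _ _ _) _ _).trans (by simp)
    rw [e]
    refine le_trans (by simp [hρ.refl]) (Finset.single_le_sum (f := fun b =>
      (w Γ h b : ℝ) * (ρ b (d Γ h) : ℍ[ℝ]).re) (fun b _ => ?_) (Finset.mem_univ (d Γ h)))
    by_cases hb : w Γ h b = 0
    · simp [hb]
    · exact mul_nonneg (Nat.cast_nonneg _) (hρ.pos _ _ (Cl_clq hv (A := ∅) (by simp [Clq]) _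
        (Or.inl (root_of_w hb)) _ (d_mem hv h0 _)))
  have h2 : ∀ q : ℍ[ℝ], q.re ≤ ‖q‖ := fun q => by
    refine le_trans (le_abs_self _) (abs_le_of_sq_le_sq' ?_ (norm_nonneg _) |> abs_le.mpr)
    rw [sq ‖q‖, ← Quaternion.normSq_eq_norm_mul_self, Quaternion.normSq_def']
    nlinarith [sq_nonneg q.imI, sq_nonneg q.imJ, sq_nonneg q.imK]
  have h3 : (mass h : ℝ) ≤ Fintype.card V * w Γ h (d Γ h) := by exact_mod_cast mass_le_d hv
  exact h3.trans (mul_le_mul_of_nonneg_left (h1.trans (h2 _)) (Nat.cast_nonneg _))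

lemma Cl_empty {h : V → ℕ → ℤ} (A : Set V) : Cl Γ h ∅ ⊆ Cl Γ h A :=
  fun b hb => hb.elim Or.inl fun h => h.1.elim

lemma nu_U (H : IsHeap Γ heap) (hρ : Coc Γ ρ) (g : RA Γ) {a b : V} (hab : Γ.Adj a b)
    (h0 : 0 < mass (heap g)) (h1 : 0 < mass (heap (g * ((gen Γ a)⁻¹ * gen Γ b)))) :
    nu (U Γ ρ (heap g) (heap (g * ((gen Γ a)⁻¹ * gen Γ b)))) * mass (heap g) ≤
      4 * (Fintype.card V : ℝ) ^ 2 := by
  set g' := g * ((gen Γ a)⁻¹ * gen Γ b) with hg'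
  have hC := Cl_clq (H.valid g) (clq_pair hab)
  have hs : Cl Γ (heap g') {a, b} ⊆ Cl Γ (heap g) {a, b} :=
    Cl_edge H (clq_pair hab) g (by simp) (by simp)
  have m1 := d_mem (H.valid g) h0 {a, b}
  have m2 := hs (d_mem (H.valid g') h1 {a, b})
  have e1 := u_mul hρ hC ((Cl_empty _).trans hs) m1 m2
  have hne : u Γ ρ (heap g') (d Γ (heap g)) ≠ 0 := fun h => by
    have := le_norm_u hρ (H.valid g') h1
    rw [← e1, h, zero_mul, norm_zero, mul_zero] at this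
    have : mass (heap g') ≤ 0 := by exact_mod_cast this
    omega
  have e2 : U Γ ρ (heap g) (heap g') =
      N (u Γ ρ (heap g) (d Γ (heap g))) * (N (u Γ ρ (heap g') (d Γ (heap g))))⁻¹ := by
    rw [U, fr, fr, ← e1, N_mul hne]
    group
  have e3 : ‖u Γ ρ (heap g) (d Γ (heap g)) - u Γ ρ (heap g') (d Γ (heap g))‖ ≤
      Fintype.card V * 2 := by
    rw [u, u, ← Finset.sum_sub_distrib]
    refine (norm_sum_le _ _).trans ((Finset.sum_le_card_nsmul _ _ 2 fun e _ => ?_).trans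
      (by simp))
    rw [← sub_smul, norm_smul, S3.norm_coe, mul_one, Real.norm_eq_abs, abs_sub_comm]
    exact w_edge H g a b e
  rw [e2, nu_mul_inv]
  have e4 := norm_N_sub (u Γ ρ (heap g) (d Γ (heap g))) (u Γ ρ (heap g') (d Γ (heap g)))
  have e5 := le_norm_u hρ (H.valid g) h0
  have e6 : (0 : ℝ) ≤ Fintype.card V := Nat.cast_nonneg _
  calc _ ≤ ‖(N (u Γ ρ (heap g) (d Γ (heap g))) : ℍ[ℝ]) - N (u Γ ρ (heap g') (d Γ (heap g)))‖ *
        (Fintype.card V * ‖u Γ ρ (heap g) (d Γ (heap g))‖) :=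
        mul_le_mul_of_nonneg_left e5 (norm_nonneg _)
    _ ≤ _ := by nlinarith

lemma U_mul (hρ : Coc Γ ρ) {C : Set V} (hC : Clq Γ C) {h₀ h₁ h₂ : V → ℕ → ℤ} (m₀ : d Γ h₀ ∈ C)
    (m₁ : d Γ h₁ ∈ C) (m₂ : d Γ h₂ ∈ C) : U Γ ρ h₀ h₁ * U Γ ρ h₁ h₂ = U Γ ρ h₀ h₂ := by
  rw [U, U, U, ← hρ.mul _ _ _ (hC _ m₀ _ m₁) (hC _ m₁ _ m₂) (hC _ m₀ _ m₂)]
  group

lemma U_self (hρ : Coc Γ ρ) (h : V → ℕ → ℤ) : U Γ ρ h h = 1 := by simp [U, hρ.refl]

variable (Γ) in
/-- the letter from `p` to `q` -/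
noncomputable def sl (p q : V) : FreeGroup (Ed Γ) :=
  if h : p < q ∧ Γ.Adj p q then FreeGroup.of ⟨(p, q), h⟩
  else if h' : q < p ∧ Γ.Adj q p then (FreeGroup.of ⟨(q, p), h'⟩)⁻¹ else 1

lemma sl_cases {p q : V} (h : Γ.Adj p q) : (∃ h', sl Γ p q = FreeGroup.of ⟨(p, q), h'⟩) ∨
    ∃ h', sl Γ p q = (FreeGroup.of ⟨(q, p), h'⟩)⁻¹ := by
  rcases lt_or_gt_of_ne h.ne with h1 | h1
  · exact Or.inl ⟨⟨h1, h⟩, dif_pos _⟩
  · exact Or.inr ⟨⟨h1, h.symm⟩, by rw [sl, dif_neg fun h' => h1.not_gt h'.1, dif_pos]⟩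

lemma coe_labS (e : Ed Γ) : (labS Γ e : RA Γ) = (gen Γ e.1.1)⁻¹ * gen Γ e.1.2 := rfl

lemma lift_sl {p q : V} (h : Γ.Adj p q) :
    (FreeGroup.lift (labS Γ) (sl Γ p q) : RA Γ) = (gen Γ p)⁻¹ * gen Γ q := by
  rcases sl_cases h with ⟨h', e⟩ | ⟨h', e⟩ <;> simp [e, coe_labS]

section path
variable (H : IsHeap Γ heap) (hρ : Coc Γ ρ) {n : ℕ} (hn : 0 < n) (x₀ : RA Γ)
  (a : Ed Γ → BB Γ → S3)
  (hpos : ∀ y : BB Γ, 0 < mass (heap (x₀ * y)))
  (ha : ∀ e (y : BB Γ), mass (heap (x₀ * y)) ≤ n →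
    a e y = U Γ ρ (heap (x₀ * y)) (heap (x₀ * y * labS Γ e)))
include H hρ hpos ha

lemma hol_sl {p q : V} (h : Γ.Adj p q) (y : BB Γ) (h1 : mass (heap (x₀ * y)) ≤ n)
    (h2 : mass (heap (x₀ * y * ((gen Γ p)⁻¹ * gen Γ q))) ≤ n) :
    hol (labS Γ) a (sl Γ p q) y =
      U Γ ρ (heap (x₀ * y)) (heap (x₀ * y * ((gen Γ p)⁻¹ * gen Γ q))) := by
  rcases sl_cases h with ⟨h', e⟩ | ⟨h', e⟩
  · rw [e, hol_of, ha _ _ h1]
    rfl
  · have e1 : x₀ * ((y * (labS Γ ⟨(q, p), h'⟩)⁻¹ : BB Γ) : RA Γ) =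
        x₀ * y * ((gen Γ p)⁻¹ * gen Γ q) := by
      simp [coe_labS, mul_assoc]
    have e2 : x₀ * y * ((gen Γ p)⁻¹ * gen Γ q) * labS Γ ⟨(q, p), h'⟩ = x₀ * y := by
      simp [coe_labS, mul_assoc]
    have hp := hpos (y * (labS Γ ⟨(q, p), h'⟩)⁻¹)
    rw [e1] at hp
    rw [e, hol_inv, hol_of, FreeGroup.lift_apply_of, ha _ _ (by rwa [e1]), e1, e2,
      inv_eq_iff_mul_eq_one, ← U_self hρ (heap (x₀ * y * ((gen Γ p)⁻¹ * gen Γ q)))]
    have m1 := d_mem (H.valid _) (hpos y) {p, q}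
    have m2 := Cl_edge H (clq_pair h) (x₀ * y) (a := p) (b := q) (by simp) (by simp)
      (d_mem (H.valid _) hp {p, q})
    exact U_mul hρ (Cl_clq (H.valid _) (clq_pair h)) m2 m1 m2

lemma hol_sl_pow {p q : V} (h : Γ.Adj p q) (y : BB Γ) (hy : x₀ * y = gen Γ p ^ n) (i : ℕ)
    (hi : i ≤ n) :
    x₀ * (y * FreeGroup.lift (labS Γ) (sl Γ p q ^ i) : BB Γ) =
      1 * gen Γ p ^ ((n : ℤ) - i) * gen Γ q ^ (i : ℤ) ∧
    hol (labS Γ) a (sl Γ p q ^ i) y =
      U Γ ρ (heap (x₀ * y)) (heap (x₀ * (y * FreeGroup.lift (labS Γ) (sl Γ p q ^ i) : BB Γ))) := by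
  have hm : ∀ j : ℕ, j ≤ n → mass (heap (1 * gen Γ p ^ ((n : ℤ) - j) * gen Γ q ^ (j : ℤ))) ≤ n :=
    fun j hj => by
      have h1 := H.mass_mul_le (1 * gen Γ p ^ ((n : ℤ) - j)) q j
      have h2 := H.mass_mul_le 1 p ((n : ℤ) - j)
      rw [H.one, mass_zero] at h2
      omega
  have hd : ∀ (z : BB Γ) (j k : ℤ), x₀ * z = 1 * gen Γ p ^ j * gen Γ q ^ k →
      d Γ (heap (x₀ * z)) ∈ ({p, q} : Set V) := fun z j k e => by
    have := d_mem (H.valid _) (hpos z) {p, q}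
    rw [e] at this ⊢
    exact Cl_one H _ (Cl_mul H (clq_pair h) _ (by simp) _ (Cl_mul H (clq_pair h) _ (by simp) _ this))
  induction i with
  | zero => simp [hy, U_self hρ]
  | succ i ih =>
    obtain ⟨e1, e2⟩ := ih (by omega)
    have e3 : x₀ * (y * FreeGroup.lift (labS Γ) (sl Γ p q ^ (i + 1)) : BB Γ) =
        x₀ * (y * FreeGroup.lift (labS Γ) (sl Γ p q ^ i) : BB Γ) * ((gen Γ p)⁻¹ * gen Γ q) := by
      rw [pow_succ, map_mul, ← mul_assoc y, Subgroup.coe_mul, lift_sl h, ← mul_assoc]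
    have e4 : x₀ * (y * FreeGroup.lift (labS Γ) (sl Γ p q ^ (i + 1)) : BB Γ) =
        1 * gen Γ p ^ ((n : ℤ) - (i + 1 : ℕ)) * gen Γ q ^ ((i + 1 : ℕ) : ℤ) := by
      rw [e3, e1, mul_assoc, ← mul_assoc (gen Γ q ^ _),
        ← ((gen_comm h).inv_left.zpow_right _).eq]
      push_cast
      group
    refine ⟨e4, ?_⟩
    rw [pow_succ, hol_mul, e2, hol_sl H hρ x₀ a hpos ha h _ (by rw [e1]; exact hm i (by omega))
      (by rw [← e3, e4]; exact hm _ hi), ← e3, ← pow_succ]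
    exact U_mul hρ (clq_pair h) (hd y n 0 (by simp [hy])) (hd _ _ _ e1) (hd _ _ _ e4)

lemma d_pow (y : BB Γ) {p : V} (hy : x₀ * y = gen Γ p ^ n) : d Γ (heap (x₀ * y)) = p := by
  have := d_mem (H.valid _) (hpos y) {p}
  have e : x₀ * y = 1 * gen Γ p ^ (n : ℤ) := by simp [hy]
  rw [e] at this ⊢
  exact Cl_one H {p} (Cl_mul H (by simp [Clq, not_blk_self]) _ (by simp) _ this)

lemma hol_path (c : ℕ → V) (hx : x₀ = gen Γ (c 0) ^ n) (m : ℕ)
    (hc : ∀ j < m, Γ.Adj (c j) (c (j + 1))) :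
    x₀ * (FreeGroup.lift (labS Γ) ((List.range m).map fun j => sl Γ (c j) (c (j + 1)) ^ n).prod :
      BB Γ) = gen Γ (c m) ^ n ∧
    hol (labS Γ) a ((List.range m).map fun j => sl Γ (c j) (c (j + 1)) ^ n).prod 1 =
      fr Γ ρ (heap x₀) * ((List.range m).map fun j => ρ (c j) (c (j + 1))).prod *
        (fr Γ ρ (heap (gen Γ (c m) ^ n)))⁻¹ := by
  induction m with
  | zero => simp [hx]
  | succ m ih =>
    obtain ⟨e1, e2⟩ := ih fun j hj => hc j (by omega)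
    obtain ⟨e3, e4⟩ := hol_sl_pow H hρ x₀ a hpos ha (hc m (by omega)) _ e1 n le_rfl
    simp only [sub_self, zpow_zero, mul_one, one_mul, zpow_natCast] at e3
    simp only [List.range_succ, List.map_append, List.prod_append, List.map_cons, List.map_nil,
      List.prod_cons, List.prod_nil, mul_one]
    refine ⟨by rw [map_mul, e3], ?_⟩
    rw [hol_mul, e2, one_mul, e4, U, d_pow H hρ x₀ a hpos ha _ e1, d_pow H hρ x₀ a hpos ha _ e3,
      e1, e3]
    group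

end path

end SmallAux

open SmallAux in
theorem smallStmt : SmallStmt := by
  intro V _ _ Γ heap H hRF _ ρ hρ ε hε
  obtain ⟨k, c, hck, hc, hne⟩ := hρ.hol
  have := Fintype.ofFinite V
  have : Nonempty V := ⟨c 0⟩
  set C : ℝ := 4 * (Fintype.card V : ℝ) ^ 2 with hC
  have hC0 : 0 ≤ C := by positivity
  obtain ⟨n, hn⟩ := exists_nat_gt (C / ε)
  have hn0 : 0 < n := by exact_mod_cast (div_nonneg hC0 hε.le).trans_lt hn
  set x₀ := gen Γ (c 0) ^ n with hx₀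
  have hmass : ∀ y : BB Γ, n ≤ mass (heap (x₀ * y)) := fun y => by
    have := H.natAbs_ht_le (x₀ * y)
    rw [map_mul, show ht Γ y = 1 from y.2, hx₀] at this
    simpa using this
  have hpos : ∀ y : BB Γ, 0 < mass (heap (x₀ * y)) := fun y => hn0.trans_le (hmass y)
  have hnu : ∀ (e : Ed Γ) (y : BB Γ) (M : ℝ), 0 < M → M ≤ mass (heap (x₀ * y)) →
      nu (U Γ ρ (heap (x₀ * y)) (heap (x₀ * y * labS Γ e))) ≤ C / M := fun e y M hM h => by
    have := nu_U H hρ (x₀ * y) e.2.2 (hpos y) (by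
      have := hpos (y * labS Γ e)
      rwa [Subgroup.coe_mul, ← mul_assoc] at this)
    rw [le_div_iff₀ hM]
    exact (mul_le_mul_of_nonneg_left h (nu_nonneg _)).trans this
  have hγ := (hol_path H hρ x₀ (fun e y => U Γ ρ (heap (x₀ * y)) (heap (x₀ * y * labS Γ e))) hpos
    (fun _ _ _ => rfl) c rfl k hc).1
  rw [hck, ← hx₀, mul_eq_left] at hγ
  refine ⟨((List.range k).map fun j => sl Γ (c j) (c (j + 1)) ^ n).prod, Subtype.ext hγ, _,
    nu_pos hne, fun η hη => ?_⟩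
  obtain ⟨R₀, hR₀⟩ := exists_nat_gt (3 * C / η)
  set R := R₀ + n + 1 with hR
  have hB : {y : BB Γ | mass (heap (x₀ * y)) ≤ R + 4}.Finite :=
    (H.finite_ball (R + 4)).preimage (f := fun y : BB Γ => x₀ * (y : RA Γ))
      fun y _ z _ e => Subtype.ext (mul_left_cancel e)
  obtain ⟨Q, _, _, φ, hφ⟩ := exists_inj hB
  let a : Ed Γ → Q → S3 := fun e q =>
    if h : ∃ y : BB Γ, mass (heap (x₀ * y)) ≤ R ∧ φ y = q then
      U Γ ρ (heap (x₀ * h.choose)) (heap (x₀ * h.choose * labS Γ e)) else 1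
  have a1 : ∀ e (y : BB Γ), mass (heap (x₀ * y)) ≤ R →
      a e (φ y) = U Γ ρ (heap (x₀ * y)) (heap (x₀ * y * labS Γ e)) := fun e y hy => by
    have h : ∃ z : BB Γ, mass (heap (x₀ * z)) ≤ R ∧ φ z = φ y := ⟨y, hy, rfl⟩
    have : h.choose = y := hφ (h.choose_spec.1.trans (Nat.le_add_right _ _))
      (hy.trans (Nat.le_add_right _ _)) h.choose_spec.2
    simp only [a, dif_pos h, this]
  have a2 : ∀ e (y : BB Γ), mass (heap (x₀ * y)) ≤ R + 4 → R₀ + 1 ≤ mass (heap (x₀ * y)) + 1 →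
      nu (a e (φ y)) ≤ η / 3 := fun e y hy hy' => by
    simp only [a]
    split_ifs with h
    · rw [hφ (h.choose_spec.1.trans (Nat.le_add_right _ _)) hy h.choose_spec.2]
      have hR0 : (0 : ℝ) < R₀ := (by positivity : 0 ≤ 3 * C / η).trans_lt hR₀
      refine (hnu e y R₀ hR0 (by exact_mod_cast Nat.le_of_succ_le_succ hy')).trans ?_
      rw [div_lt_iff₀ hη] at hR₀
      rw [div_le_iff₀ hR0]
      linarith
    · rw [nu_one]
      positivity
  have tri : ∀ (e₁ e₂ e₃ : Ed Γ) (A : Set V), Clq Γ A → e₁.1.1 ∈ A → e₁.1.2 ∈ A → e₃.1.1 ∈ A →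
      e₃.1.2 ∈ A → labS Γ e₁ * labS Γ e₂ = labS Γ e₃ → ∀ q, nu (hol (fun s => φ (labS Γ s)) a
        (FreeGroup.of e₁ * FreeGroup.of e₂ * (FreeGroup.of e₃)⁻¹) q) ≤ η := by
    intro e₁ e₂ e₃ A hA m₁ m₂ m₃ m₄ he q
    have e : hol (fun s => φ (labS Γ s)) a
        (FreeGroup.of e₁ * FreeGroup.of e₂ * (FreeGroup.of e₃)⁻¹) q =
        a e₁ q * a e₂ (q * φ (labS Γ e₁)) * (a e₃ q)⁻¹ := by
      simp only [hol_mul, hol_inv, hol_of, map_mul, FreeGroup.lift_apply_of]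
      rw [← map_mul, he, mul_inv_cancel_right]
    rw [e]
    by_cases hq : ∃ y : BB Γ, mass (heap (x₀ * y)) ≤ R + 2 ∧ φ y = q
    · obtain ⟨y, hy, rfl⟩ := hq
      have c1 : x₀ * (y * labS Γ e₁ : BB Γ) = x₀ * y * labS Γ e₁ := by
        rw [Subgroup.coe_mul, mul_assoc]
      have l1 := mass_edge H (x₀ * y) e₁.1.1 e₁.1.2
      have l2 := mass_edge' H (x₀ * y) e₁.1.1 e₁.1.2
      rw [← coe_labS, ← c1] at l1 l2
      rw [← map_mul]
      by_cases hs : mass (heap (x₀ * y)) ≤ R ∧ mass (heap (x₀ * (y * labS Γ e₁ : BB Γ))) ≤ R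
      · have c2 : x₀ * y * labS Γ e₁ * labS Γ e₂ = x₀ * y * labS Γ e₃ := by
          rw [mul_assoc, ← Subgroup.coe_mul, he]
        have p1 := hpos (y * labS Γ e₁)
        have p3 := hpos (y * labS Γ e₃)
        rw [Subgroup.coe_mul, ← mul_assoc] at p1 p3
        rw [a1 _ _ hs.1, a1 _ _ hs.1, a1 _ _ hs.2, c1, c2,
          U_mul hρ (Cl_clq (H.valid (x₀ * y)) hA) (d_mem (H.valid _) (hpos y) A)
            (Cl_edge H hA _ m₁ m₂ (d_mem (H.valid _) p1 A))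
            (Cl_edge H hA _ m₃ m₄ (d_mem (H.valid _) p3 A)), mul_inv_cancel, nu_one]
        exact hη.le
      · have b1 := a2 e₁ y (by omega) (by omega)
        have b2 := a2 e₂ (y * labS Γ e₁) (by omega) (by omega)
        have b3 := a2 e₃ y (by omega) (by omega)
        have b4 := nu_mul_le (a e₁ (φ y) * a e₂ (φ (y * labS Γ e₁))) (a e₃ (φ y))⁻¹
        have b5 := nu_mul_le (a e₁ (φ y)) (a e₂ (φ (y * labS Γ e₁)))
        rw [nu_inv] at b4
        linarith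
    · have z1 : ∀ e, a e q = 1 := fun e =>
        dif_neg fun ⟨y, hy, e⟩ => hq ⟨y, hy.trans (Nat.le_add_right _ _), e⟩
      have z2 : a e₂ (q * φ (labS Γ e₁)) = 1 := dif_neg fun ⟨y, hy, e⟩ => hq
        ⟨y * (labS Γ e₁)⁻¹, by
          have := mass_edge H (x₀ * y) e₁.1.2 e₁.1.1
          have c1 : x₀ * (y * (labS Γ e₁)⁻¹ : BB Γ) =
              x₀ * y * ((gen Γ e₁.1.2)⁻¹ * gen Γ e₁.1.1) := by
            simp [coe_labS, mul_assoc]
          rw [c1]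
          omega, by rw [map_mul, e, map_inv, mul_inv_cancel_right]⟩
      simp [z1, z2, hη.le]
  refine ⟨Q, inferInstance, inferInstance, φ, a, fun s x => ?_, fun i x => ?_, φ 1, ?_⟩
  · simp only [a]
    split_ifs with h
    · have hn' : (0 : ℝ) < n := by exact_mod_cast hn0
      refine (hnu s _ n hn' (by exact_mod_cast hmass _)).trans ?_
      rw [div_lt_iff₀ hε] at hn
      rw [div_le_iff₀ hn']
      linarith
    · rw [nu_one]
      exact hε.le
  · obtain ⟨t, b⟩ := i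
    have hA : Clq Γ {t.1.1, t.1.2.1, t.1.2.2} := by
      have h1 := t.2.1.2
      have h2 := t.2.2.1.2
      have h3 := t.2.2.2
      rintro x (rfl | rfl | rfl) y (rfl | rfl | rfl) <;>
        first
        | exact not_blk_self _
        | exact not_blk_of_adj (by first | assumption | (symm; assumption))
    cases b
    · refine tri t.e12 t.e01 t.e02 _ hA (by simp [Tr.e12]) (by simp [Tr.e12]) (by simp [Tr.e02])
        (by simp [Tr.e02]) (Subtype.ext ?_) x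
      change (gen Γ t.1.2.1)⁻¹ * gen Γ t.1.2.2 * ((gen Γ t.1.1)⁻¹ * gen Γ t.1.2.1) =
        (gen Γ t.1.1)⁻¹ * gen Γ t.1.2.2
      have h1 := gen_comm t.2.1.2
      have h2 := gen_comm t.2.2.1.2
      have h3 := gen_comm t.2.2.2
      rw [← ((h1.inv_inv.mul_right h3.inv_left).mul_left
        ((Commute.refl _).inv_right.mul_right h2)).eq]
      group
    · refine tri t.e01 t.e12 t.e02 _ hA (by simp [Tr.e01]) (by simp [Tr.e01]) (by simp [Tr.e02])
        (by simp [Tr.e02]) (Subtype.ext ?_) x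
      change (gen Γ t.1.1)⁻¹ * gen Γ t.1.2.1 * ((gen Γ t.1.2.1)⁻¹ * gen Γ t.1.2.2) =
        (gen Γ t.1.1)⁻¹ * gen Γ t.1.2.2
      group
  · have := hol_comp a φ (labS Γ) 1 ((List.range k).map fun j => sl Γ (c j) (c (j + 1)) ^ n).prod 1
    rw [one_mul] at this
    rw [this, (hol_path H hρ x₀ _ hpos (fun e y hy => by
      rw [one_mul]
      exact a1 e y (by omega)) c rfl k hc).2, hck, nu_conj]

end Crest.Agent.R197
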