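import Crest.Agent.R197.PF0

/-! Row 197: an aspherical two-dimensional CW complex gives an aspherical presentation. -/

set_option autoImplicit false

open unitInterval Topology Filter
open scoped Classical

namespace Crest.Agent.R197

namespace TopA

/-- path functors on a graph are determined by their values on the edges -/
theorem comp_eq (hG : GenStmt) {X1 : Type} [TopologicalSpace X1] {X0 : Set X1} (A1 : Att X1 X0 1)
    (hd : ∀ γ : C(I, X1), (∀ s, γ s ∈ X0) → ∀ s, γ s = γ 0) (m1 : PF X1 (FreeGroup A1.J))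
    (hm1 : ∀ e, m1.m ((A1.Φ e).comp seg) = FreeGroup.of e) {U : Type} [Group U] (μ : PF X1 U)
    (γ : C(I, X1)) (h0 : γ 0 ∈ X0) (h1 : γ 1 ∈ X0) :
    FreeGroup.lift (fun e => μ.m ((A1.Φ e).comp seg)) (m1.m γ) = μ.m γ := by
  refine hG X1 X0 0 A1 _ (m1.prod μ)
    (fun _ _ u => FreeGroup.lift (fun e => μ.m ((A1.Φ e).comp seg)) u.1 = u.2) ?_ ?_ ?_ γ h0 h1
  · intro x y z u v hu hv
    rw [Prod.fst_mul, Prod.snd_mul, map_mul, hu, hv]
  · intro β hβ
    rw [PF.m_of_const _ β (hd β hβ)]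
    exact map_one _
  · intro j β hβ0 hβ1
    obtain ⟨c, hc⟩ := ((m1.prod μ).comap (A1.Φ j)).exists_pot
    have hs := hc seg
    have hb := hc β
    rw [PF.comap_m] at hs hb
    have hw : FreeGroup.lift (fun e => μ.m ((A1.Φ e).comp seg)) ((c (seg 0))⁻¹ * c (seg 1)).1 =
        ((c (seg 0))⁻¹ * c (seg 1)).2 := by
      rw [← hs, PF.prod_m, hm1, FreeGroup.lift_apply_of]
    rw [hb]
    rcases eq_seg hβ0 with e0 | e0 <;> rcases eq_seg hβ1 with e1 | e1 <;> rw [e0, e1]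
    · rw [inv_mul_cancel]; exact map_one _
    · exact hw
    · have : (c (seg 1))⁻¹ * c (seg 0) = ((c (seg 0))⁻¹ * c (seg 1))⁻¹ := by group
      rw [this, Prod.fst_inv, Prod.snd_inv, map_inv, hw]
    · rw [inv_mul_cancel]; exact map_one _

section
variable {X E G : Type} [TopologicalSpace X] [TopologicalSpace E] [Group G] [ContractibleSpace E]
  {p : C(E, X)} {lab : PF X G} {lam : E → G} {X1 : Set X}

/-- paths in the one-skeleton with a prescribed label -/
theorem exists_path (hG : GenStmt) (hl : IsLab p lab lam) (A2 : Att X X1 2) {lp : C(I, Sp 2)}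
    (hlp : IsLoop lp) (x y : X1) (g : G) :
    ∃ γ : Path x y, (lab.comap (incl X1)).m γ.toContinuousMap = g := by
  obtain ⟨e0, he0⟩ := hl.bij.2 (x, 1)
  obtain ⟨e1, he1⟩ := hl.bij.2 (y, g)
  obtain ⟨hp0, hl0⟩ := Prod.mk.inj he0
  obtain ⟨hp1, hl1⟩ := Prod.mk.inj he1
  let δ := PathConnectedSpace.somePath e0 e1
  have hδ := hl.path δ.toContinuousMap
  have a0 : δ.toContinuousMap 0 = e0 := δ.source
  have a1 : δ.toContinuousMap 1 = e1 := δ.target
  rw [a0, a1, hl0, hl1, one_mul] at hδ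
  have b0 : (p.comp δ.toContinuousMap) 0 = x := by rw [ContinuousMap.comp_apply, a0, hp0]
  have b1 : (p.comp δ.toContinuousMap) 1 = y := by rw [ContinuousMap.comp_apply, a1, hp1]
  obtain ⟨γ, h0, h1, h⟩ := hG X X1 1 A2 G lab
    (fun x y u => ∃ γ : C(I, X1), (γ 0 : X) = x ∧ (γ 1 : X) = y ∧ (lab.comap (incl X1)).m γ = u)
    (by
      rintro _ _ _ _ _ ⟨γ, rfl, rfl, rfl⟩ ⟨γ', h, rfl, rfl⟩
      exact ⟨((toPath γ rfl rfl).trans (toPath γ' (Subtype.ext h) rfl)).toContinuousMap,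
        congrArg Subtype.val (Path.source _), congrArg Subtype.val (Path.target _),
        PF.m_trans _ _ _⟩)
    (fun β hβ => ⟨⟨fun s => ⟨β s, hβ s⟩, by fun_prop⟩, rfl, rfl, rfl⟩)
    (by
      intro j β h0 h1
      obtain ⟨s0, hs0⟩ := hlp.surj ⟨β 0, h0⟩
      obtain ⟨s1, hs1⟩ := hlp.surj ⟨β 1, h1⟩
      refine ⟨(A2.att j).comp (lp.comp (aff s0 s1)), by simp [hs0], by simp [hs1], ?_⟩
      exact lab.m_comp_eq (A2.Φ j)
        ((⟨Subtype.val, continuous_subtype_val⟩ : C(Sp 2, Dk 2)).comp (lp.comp (aff s0 s1))) β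
        (by simp [hs0]) (by simp [hs1]))
    (p.comp δ.toContinuousMap) (b0 ▸ x.2) (b1 ▸ y.2)
  exact ⟨toPath γ (Subtype.ext (h0.trans b0)) (Subtype.ext (h1.trans b1)), h.trans hδ.symm⟩

/-- loops with trivial label are trivial -/
theorem m_eq_one (hp : IsCoveringMap p) (hl : IsLab p lab lam) {U : Type} [Group U] (m : PF X U)
    (γ : C(I, X)) (hc : γ 0 = γ 1) (h : lab.m γ = 1) : m.m γ = 1 := by
  obtain ⟨e0, he0⟩ := hl.bij.2 (γ 0, 1)
  have hp0 : γ 0 = p e0 := (Prod.mk.inj he0).1.symm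
  let δ := hp.liftPath γ e0 hp0
  have hδ : p.comp δ = γ := ContinuousMap.ext (congrFun (hp.liftPath_lifts γ e0 hp0))
  have h1 := hl.path δ
  rw [hδ, h, mul_one] at h1
  have : δ 0 = δ 1 := hl.bij.1 (Prod.ext
    ((DFunLike.congr_fun hδ 0).trans (hc.trans (DFunLike.congr_fun hδ 1).symm)) h1.symm)
  rw [← hδ]
  exact m.m_comp_loop p δ this

end

/-- the path functor of a function on the universal cover -/
def endPF {Z G K : Type} [TopologicalSpace Z] [Group G] [Group K] (lab : PF Z G)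
    (ψ : Z → G → K) : PF Z (Wr G K) where
  m γ := ⟨fun g => (ψ (γ 0) g)⁻¹ * ψ (γ 1) (g * lab.m γ), lab.m γ⟩
  const z := Wr.ext (funext fun g => by simp [lab.const]) (lab.const z)
  sq H := Wr.ext (funext fun g => by
    simp only [Wr.mul_left, mul_assoc g, lab.sq H]
    simp [sB, sR, sL, sT]) (lab.sq H)

theorem eq_zero_of_pair {α : Type} (c : α →₀ ℤ) (v : α → ℤ) (a : α) (ha : v a = 1)
    (hv : ∀ b, b ≠ a → c b = 0 ∨ v b = 0) (h : Finsupp.linearCombination ℤ v c = 0) :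
    c a = 0 := by
  rw [Finsupp.linearCombination_apply, Finsupp.sum, Finset.sum_eq_single a] at h
  · simpa [ha] using h
  · intro b _ hb
    rcases hv b hb with e | e <;> simp [e]
  · intro ha'
    simp [Finsupp.notMem_support_iff.1 ha']

end TopA

open TopA in
theorem topStmt_of (hCW : CWStmt) (hLp : LoopStmt) (hF : FreeStmt) (hG : GenStmt) (hL : LabStmt)
    (hI : InjStmt) : TopStmt := by
  rintro G _ ⟨X, _, _, _, hdim, ⟨E, _, p₀, _, hp, hps⟩, x, he⟩
  let p : C(E, X) := ⟨p₀, hp.continuous⟩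
  obtain ⟨X1, A2, X0, A1, hd⟩ := hCW X hdim
  obtain ⟨lp, hlp⟩ := hLp
  obtain ⟨lab, lam, hl⟩ := hL X E G p hp hps x he
  obtain ⟨m1, hm1, -⟩ := hF X X1 A2 X0 A1 lp hlp (FreeGroup A1.J) FreeGroup.of
  obtain ⟨x1⟩ : Nonempty X1 := by
    by_cases hx : x ∈ X1
    · exact ⟨⟨x, hx⟩⟩
    · obtain ⟨j, -, -⟩ := A2.cover x hx
      exact ⟨A2.att j (lp 0)⟩
  obtain ⟨v₀, hv₀⟩ : ∃ v, v ∈ X0 := by
    by_cases hx : x1 ∈ X0
    · exact ⟨x1, hx⟩
    · obtain ⟨j, -, -⟩ := A1.cover x1 hx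
      exact ⟨_, A1.bd j _ norm_seg_zero⟩
  set lab1 := lab.comap (incl X1) with hlab1
  have hη : ∀ y : X1, ∃ η : Path v₀ y, lab1.m η.toContinuousMap = 1 ∧
      (y = v₀ → m1.m η.toContinuousMap = 1) := fun y => by
    by_cases hy : y = v₀
    · subst hy
      exact ⟨Path.refl _, PF.m_refl _ _, fun _ => PF.m_refl _ _⟩
    · obtain ⟨η, h⟩ := exists_path hG hl A2 hlp v₀ y 1
      exact ⟨η, h, fun e => (hy e).elim⟩
  choose η hη1 hη2 using hη
  let α : ∀ f : A2.J, Path (A2.att f (lp 0)) (A2.att f (lp 0)) := fun f =>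
    toPath ((A2.att f).comp lp) rfl (congrArg (A2.att f) hlp.closed.symm)
  let Λ : A2.J ⊕ {v : X1 // v ∈ X0 ∧ v ≠ v₀} → C(I, X1) := Sum.elim
    (fun f => (((η _).trans (α f)).trans (η _).symm).toContinuousMap)
    (fun v => (η v.1).toContinuousMap)
  have hΛ0 : ∀ r, Λ r 0 = v₀ := by
    rintro (f | v) <;> exact Path.source _
  have hΛl : ∀ f, Λ (Sum.inl f) 1 = v₀ := fun f => Path.target _
  have hΛr : ∀ v, Λ (Sum.inr v) 1 = v.1 := fun v => Path.target _
  have hΛ1 : ∀ r, Λ r 1 ∈ X0 := by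
    rintro (f | v)
    · rw [hΛl]; exact hv₀
    · rw [hΛr]; exact v.2.1
  have hΛm : ∀ (U : Type) [Group U] (μ : PF X1 U) (f : A2.J), μ.m (Λ (Sum.inl f)) =
      μ.m (η (A2.att f (lp 0))).toContinuousMap * μ.m ((A2.att f).comp lp) *
        (μ.m (η (A2.att f (lp 0))).toContinuousMap)⁻¹ := fun U _ μ f => by
    change μ.m (((η _).trans (α f)).trans (η _).symm).toContinuousMap = _
    rw [μ.m_trans, μ.m_trans, μ.m_symm]
    rfl
  have hα : ∀ f, lab1.m ((A2.att f).comp lp) = 1 := fun f =>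
    lab.m_comp_loop (A2.Φ f) ((⟨Subtype.val, continuous_subtype_val⟩ : C(Sp 2, Dk 2)).comp lp)
      (congrArg Subtype.val hlp.closed)
  have hΛlab : ∀ r, lab1.m (Λ r) = 1 := by
    rintro (f | v)
    · rw [hΛm, hα, mul_one, mul_inv_cancel]
    · exact hη1 _
  let labT : A1.J → G := fun e => lab1.m ((A1.Φ e).comp seg)
  have hC := @comp_eq hG X1 _ X0 A1 hd m1 hm1
  have hw : ∀ r, FreeGroup.lift labT (m1.m (Λ r)) = 1 := fun r =>
    (hC lab1 (Λ r) (hΛ0 r ▸ hv₀) (hΛ1 r)).trans (hΛlab r)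
  refine ⟨⟨A1.J, _, labT, fun r => m1.m (Λ r), fun g => ?_, ?_, ?_⟩⟩
  · obtain ⟨γ, h⟩ := exists_path hG hl A2 hlp v₀ v₀ g
    exact ⟨_, (hC lab1 γ.toContinuousMap (γ.source.symm ▸ hv₀ :) (γ.target.symm ▸ hv₀ :)).trans h⟩
  · set N := Subgroup.normalClosure (Set.range fun r => m1.m (Λ r))
    have hN : N ≤ (FreeGroup.lift labT).ker :=
      Subgroup.normalClosure_le_normal (by rintro _ ⟨r, rfl⟩; exact hw r)
    refine le_antisymm (fun ω hω => ?_) hN
    obtain ⟨m1', hm1', hext⟩ := hF X X1 A2 X0 A1 lp hlp (FreeGroup A1.J ⧸ N)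
      fun e => QuotientGroup.mk (FreeGroup.of e)
    have hmk : ∀ γ : C(I, X1), γ 0 ∈ X0 → γ 1 ∈ X0 → m1'.m γ = QuotientGroup.mk (m1.m γ) := by
      intro γ h0 h1
      rw [← hC m1' γ h0 h1]
      simp only [hm1']
      exact (lift_comp (QuotientGroup.mk' N) FreeGroup.of _).trans
        (by rw [FreeGroup.lift_of_eq_id]; rfl)
    have hΛ' : ∀ r, m1'.m (Λ r) = 1 := fun r => by
      rw [hmk _ (hΛ0 r ▸ hv₀) (hΛ1 r), QuotientGroup.eq_one_iff]
      exact Subgroup.subset_normalClosure ⟨r, rfl⟩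
    obtain ⟨m, hm⟩ := hext fun f => by
      have := hΛ' (Sum.inl f)
      rwa [hΛm, mul_inv_eq_one, mul_eq_left] at this
    have hη' : ∀ v, v ∈ X0 → m1'.m (η v).toContinuousMap = 1 := fun v hv => by
      by_cases h : v = v₀
      · rw [hmk _ ((η v).source.symm ▸ hv₀ :) ((η v).target.symm ▸ hv :), hη2 v h]
        rfl
      · exact hΛ' (Sum.inr ⟨v, hv, h⟩)
    have hall : ∀ ω : FreeGroup A1.J, ∃ ℓ : Path v₀ v₀,
        m1'.m ℓ.toContinuousMap = QuotientGroup.mk ω := fun ω => by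
      induction ω using FreeGroup.induction_on with
      | C1 => exact ⟨Path.refl _, PF.m_refl _ _⟩
      | of e =>
        refine ⟨((η (A1.Φ e (seg 0))).trans (toPath ((A1.Φ e).comp seg) rfl rfl)).trans
          (η (A1.Φ e (seg 1))).symm, ?_⟩
        rw [m1'.m_trans, m1'.m_trans, m1'.m_symm, hη' _ (A1.bd e _ norm_seg_zero),
          hη' _ (A1.bd e _ norm_seg_one), one_mul, inv_one, mul_one]
        exact hm1' e
      | inv_of e ih =>
        obtain ⟨ℓ, h⟩ := ih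
        exact ⟨ℓ.symm, by rw [m1'.m_symm, h]; rfl⟩
      | mul u v ihu ihv =>
        obtain ⟨ℓ, h⟩ := ihu
        obtain ⟨ℓ', h'⟩ := ihv
        exact ⟨ℓ.trans ℓ', by rw [m1'.m_trans, h, h']; rfl⟩
    obtain ⟨ℓ, hℓ⟩ := hall ω
    have e0 : ℓ.toContinuousMap 0 ∈ X0 := (ℓ.source.symm ▸ hv₀ :)
    have e1 : ℓ.toContinuousMap 1 ∈ X0 := (ℓ.target.symm ▸ hv₀ :)
    have h1 := hN (QuotientGroup.eq.1 ((hmk _ e0 e1).symm.trans hℓ))
    rw [MonoidHom.mem_ker, map_mul, MonoidHom.mem_ker.1 hω, mul_one, map_inv, inv_eq_one,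
      hC lab1 _ e0 e1] at h1
    rw [← QuotientGroup.eq_one_iff, ← hℓ, ← hm]
    exact m_eq_one hp hl m _ (congrArg Subtype.val (ℓ.source.trans ℓ.target.symm)) h1
  · rw [injective_iff_map_eq_zero]
    intro c hc
    have hpair : ∀ μ : PF X1 (Wr G (Multiplicative ℤ)), (∀ γ, (μ.m γ).right = lab1.m γ) →
        Finsupp.linearCombination ℤ
          (fun q : G × _ => Multiplicative.toAdd ((μ.m (Λ q.2)).left q.1)) c = 0 := by
      intro μ hμ
      have h1 : ∀ r g, Multiplicative.toAdd ((μ.m (Λ r)).left g) =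
          Finsupp.linearCombination ℤ
            (fun q : G × A1.J => Multiplicative.toAdd ((μ.m ((A1.Φ q.2).comp seg)).left q.1))
            (chain labT (m1.m (Λ r)) g) := fun r g => by
        rw [← hC μ (Λ r) (hΛ0 r ▸ hv₀) (hΛ1 r), lift_eq_mk]
        simp only [hμ]
        exact toAdd_hol labT (fun e => (μ.m ((A1.Φ e).comp seg)).left) _ g
      simp only [h1]
      have := congrArg (Finsupp.linearCombination ℤ
        (fun q : G × A1.J => Multiplicative.toAdd ((μ.m ((A1.Φ q.2).comp seg)).left q.1))) hc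
      rwa [map_zero, bd, Finsupp.apply_linearCombination] at this
    have hr : ∀ g v, c (g, Sum.inr v) = 0 := fun g₁ v₁ => by
      refine eq_zero_of_pair c _ _ ?_ ?_ (hpair (endPF lab1 fun y g =>
        Multiplicative.ofAdd (if y = v₁.1 ∧ g = g₁ then 1 else 0)) fun _ => rfl)
      · simp [endPF, hΛ0, hΛr, hΛlab, v₁.2.2.symm]
      · rintro ⟨g, f | v⟩ hne
        · right; simp [endPF, hΛ0, hΛl, hΛlab]
        · right
          have : ¬ (v.1 = v₁.1 ∧ g = g₁) := fun h => hne (by rw [h.2, Subtype.ext h.1])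
          simp [endPF, hΛ0, hΛr, hΛlab, v₁.2.2.symm, this]
    ext ⟨g₀, f₀ | v⟩
    · obtain ⟨μ, hμ1, hμ2⟩ := hI X E G p hp lab lam hl X1 A2 lp hlp g₀ f₀
      have hv : ∀ f g, (μ.m (Λ (Sum.inl f))).left g =
          Multiplicative.ofAdd (if g = g₀ ∧ f = f₀ then 1 else 0) := fun f g => by
        have a1 : (μ.m (η (A2.att f (lp 0))).toContinuousMap).right = 1 := (hμ1 _).trans (hη1 _)
        have a2 : (μ.m ((A2.att f).comp lp)).right = 1 := (hμ1 _).trans (hα _)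
        rw [hΛm]
        simp only [Wr.mul_left, Wr.inv_left, Wr.mul_right, a1, a2, mul_one, inv_one, hμ2,
          mul_inv_cancel_comm]
      refine eq_zero_of_pair c _ _ ?_ ?_ (hpair μ hμ1)
      · simp [hv]
      · rintro ⟨g, f | v⟩ hne
        · right
          have : ¬ (g = g₀ ∧ f = f₀) := fun h => hne (by rw [h.1, h.2])
          simp [hv, this]
        · left; exact hr g v
    · exact hr g₀ v

end Crest.Agent.R197
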